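import Crest.Agent.R287.Cls

/-!
# R287: connecting segments of a block by adjacent pairs and the two end attachments

PLAN. `con_pairs`: induction on `m` generalizing `a`, `Con.two` with `tau_le` (`max = be (a+1)`, `min = al a`), `Con.trans'`;
`cI`/`sp` split by `Finset.Ico_union_Ico_eq_Ico`, `Finset.sum_Ico_consecutive`, `Finset.sum_eq_sum_Ico_succ_bot`.
`Ex_le`: induction on `m` (use `Ex_succ` or the definition) with `Blk.fw` for the pairs `(a+1,a+2), (a+3,a+4), …`.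
`good_*`: combine `con_pairs` with `Con.one` and `kapL` (`i = 0`, `P = e + pp 1`), `kapR` (`i = t`, `P = e' + pp t`).
`irr1`: `¬ Red` and `good_K1` (`m = 0`) give `2 drop 0 2 < e`, so `e > 0`, so `e ≥ pp 1`; with `P` the largest multiple of `pp 1` below `x = al 2 - al 1`: either
`P ≤ μ`, then `cl_f` gives `P ≤ drop`, `2P < e`, `2P + pp 1 ≤ e` (multiples: `Int.le_of_dvd`), `2x < e + pp 1`; or `P > μ > e`, then `cl_f` with `e` gives `e ≤ drop`, absurd.
`top1`: with `m = min μ λ`, `P` the largest multiple below `m`: `P ≤ drop` and the attachment on the corresponding side costs `≤ P + pp 1`.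
-/

set_option autoImplicit false
open Finset

namespace Crest.Agent.R287

namespace Sys

variable {S : Sys} {z : ℕ → S.E}

variable {t : ℕ}

theorem opt_sp_bot {a b : ℕ} (h : a < b) : S.sp z a b = S.pp z a + S.sp z (a + 1) b :=
  Finset.sum_eq_sum_Ico_succ_bot h _

theorem opt_sp_top {a b : ℕ} (h : a ≤ b) : S.sp z a (b + 1) = S.sp z a b + S.pp z b :=
  Finset.sum_Ico_succ_top h _

theorem opt_mem_cI {a b X : ℕ} : X ∈ S.cI z a b ↔ ∃ h, a ≤ h ∧ h < b ∧ S.cp z h = X := by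
  simp [cI, and_assoc]

theorem opt_cp_mem (i : ℕ) : S.cp z i ∈ S.A := S.comp_mem _

theorem opt_Ex_zero (a : ℕ) : S.Ex z a 0 = 0 := by simp [Ex]

theorem opt_Ex_bot (a m : ℕ) : S.Ex z a (m + 1) =
    (S.be z (a + 1) - S.al z a - S.pp z a - S.pp z (a + 1)) + S.Ex z (a + 2) m := by simp [Ex]

theorem Ex_succ (a m : ℕ) : S.Ex z a (m + 1) = S.Ex z a m +
    (S.be z (a + 2 * m + 1) - S.al z (a + 2 * m) - S.pp z (a + 2 * m) - S.pp z (a + 2 * m + 1)) := by
  induction m generalizing a with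
  | zero => simp [Ex]
  | succ m ih =>
    rw [opt_Ex_bot, ih, opt_Ex_bot a m, show a + 2 + 2 * m = a + 2 * (m + 1) by ring]
    ring

theorem con_pairs (O : Finset ℕ) (a m : ℕ)
    (h : ∀ i, a ≤ i → i + 1 < a + 2 * m → S.al z i ≤ S.al z (i + 1) ∧ S.be z i ≤ S.be z (i + 1)) :
    S.Con O (S.cI z a (a + 2 * m)) (S.Ex z a m + S.sp z a (a + 2 * m)) := by
  induction m generalizing a with
  | zero => exact R287.Con.done (by simp [cI]) (by simp [Ex, sp])
  | succ m ih =>
    have h1 := h a le_rfl (by omega)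
    have h2 := tau_le (S := S) (z := z) a
    refine (R287.Con.two (c := S.be z (a + 1) - S.al z a) (opt_cp_mem (z := z) a) (opt_cp_mem (z := z) (a + 1))
      (by omega)).trans' (ih (a + 2) fun i hi hi' => h i (by omega) (by omega)) subset_union_left ?_ ?_
    · intro X hX
      obtain ⟨k, k1, k2, rfl⟩ := opt_mem_cI.1 hX
      simp only [mem_union, mem_insert, mem_singleton, opt_mem_cI]
      rcases k1.eq_or_lt with rfl | k1
      · simp
      rcases (Nat.succ_le_of_lt k1).eq_or_lt with rfl | k1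
      · simp
      exact Or.inr (Or.inr ⟨k, by omega, by omega, rfl⟩)
    · rw [opt_Ex_bot, opt_sp_bot (show a < a + 2 * (m + 1) by omega),
        opt_sp_bot (show a + 1 < a + 2 * (m + 1) by omega), show a + 2 + 2 * m = a + 2 * (m + 1) by ring]
      simp only [add_assoc, one_add_one_eq_two]
      omega

/-- only the interior indices `a+1 … a+2m` have to be in the block -/
theorem Blk.Ex_le (hb : S.Blk z t) {a m : ℕ} (h : a + 2 * m ≤ t) :
    S.Ex z a (m + 1) ≤ S.be z (a + 2 * m + 1) - S.al z a - S.pp z a - S.pp z (a + 2 * m + 1) := by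
  induction m with
  | zero => simp [Ex]
  | succ m ih =>
    have h1 := ih (by omega)
    have h2 := hb.fw (i := a + 2 * m + 1) (j := a + 2 * (m + 1)) (by omega) (by omega) h
    rw [Ex_succ]
    omega

/-- pairs `(a,a+1),…` filling the open interval `(h', j')`, bounded with two further indices `h ≤ h'`, `j' ≤ j` -/
theorem Blk.Ex_lt (hb : S.Blk z t) {h a m j : ℕ} (h1 : 1 ≤ h) (h2 : h < a) (h3 : a + 2 * m ≤ j) (h4 : j ≤ t) :
    S.Ex z a m + (S.be z h - S.al z j) < S.pp z h + S.pp z j := by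
  rcases m with _ | m
  · have := hb.fw h1 (show h < j by omega) h4
    rw [opt_Ex_zero]
    omega
  · have e1 := hb.Ex_le (a := a) (m := m) (by omega)
    have e2 := hb.fw h1 h2 (by omega)
    have e3 := hb.fw (i := a + 2 * m + 1) (j := j) (by omega) (by omega) h4
    omega

theorem Blk.opt_pairs (hb : S.Blk z t) (O : Finset ℕ) {a m j : ℕ} (ha : 1 ≤ a) (hj : j = a + 2 * m)
    (h : j ≤ t + 1) : S.Con O (S.cI z a j) (S.Ex z a m + S.sp z a j) := by
  subst hj
  exact con_pairs O a m fun i h1 h2 =>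
    ⟨hb.alm (by omega) (Nat.le_succ i) (by omega), hb.bem (Nat.le_succ i) (by omega)⟩

theorem Blk.good_P (hb : S.Blk z t) {i m j : ℕ} (hj : j = i + 1 + 2 * m) (h : j ≤ t + 1) :
    S.Good z i j (S.Ex z (i + 1) m) := by
  exact hb.opt_pairs _ (by omega) hj h

theorem Blk.good_K1 (hb : S.Blk z t) (hA : S.al z 1 < S.al z 0) {e : ℤ} (he : S.pp z 1 ∣ e)
    (he1 : S.be z 1 - S.be z 0 ≤ e + S.pp z 1) {m j : ℕ} (hj : j = 2 + 2 * m) (h : j ≤ t + 1) :
    S.Good z 0 j (e + S.Ex z 2 m) := by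
  have h1 := kapL (i := 0) hA (hb.nr 1 le_rfl (by omega)) (P := e + S.pp z 1) (dvd_add he dvd_rfl) he1
  refine (R287.Con.one (opt_cp_mem _) (opt_cp_mem _) (by simp) h1).trans'
    (hb.opt_pairs ∅ (a := 2) (by omega) hj h) (empty_subset _) ?_ ?_
  · intro X hX
    obtain ⟨k, k1, k2, rfl⟩ := opt_mem_cI.1 hX
    simp only [mem_union, mem_singleton, opt_mem_cI]
    rcases k1.eq_or_lt with rfl | k1
    · simp
    exact Or.inr (Or.inr ⟨k, by omega, by omega, rfl⟩)
  · rw [zero_add, opt_sp_bot (show 1 < j by omega)]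
    simp only [one_add_one_eq_two]
    omega

theorem Blk.good_Kt (hb : S.Blk z t) (hD : S.be z (t + 1) < S.be z t) {e : ℤ} (he : S.pp z t ∣ e)
    (he1 : S.al z (t + 1) - S.al z t ≤ e + S.pp z t) {i m : ℕ} (h : i + 1 + 2 * m = t) :
    S.Good z i (t + 1) (S.Ex z (i + 1) m + e) := by
  have h1 := kapR (i := t) hD (hb.nr t (by omega) le_rfl) (P := e + S.pp z t) (dvd_add he dvd_rfl) he1
  refine (R287.Con.one (opt_cp_mem _) (opt_cp_mem _) (by simp) h1).trans'
    (hb.opt_pairs ∅ (a := i + 1) (by omega) h.symm (by omega)) (empty_subset _) ?_ ?_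
  · intro X hX
    obtain ⟨k, k1, k2, rfl⟩ := opt_mem_cI.1 hX
    simp only [mem_union, mem_singleton, opt_mem_cI]
    rcases (Nat.le_of_lt_succ k2).eq_or_lt with rfl | k2
    · simp
    exact Or.inr (Or.inr ⟨k, by omega, by omega, rfl⟩)
  · rw [opt_sp_top (show i + 1 ≤ t by omega)]
    omega

theorem Blk.good_KK (hb : S.Blk z t) (hA : S.al z 1 < S.al z 0) (hD : S.be z (t + 1) < S.be z t)
    {e e' : ℤ} (he : S.pp z 1 ∣ e) (he1 : S.be z 1 - S.be z 0 ≤ e + S.pp z 1) (he' : S.pp z t ∣ e')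
    (he1' : S.al z (t + 1) - S.al z t ≤ e' + S.pp z t) {m : ℕ} (h : 2 + 2 * m = t) :
    S.Good z 0 (t + 1) (e + S.Ex z 2 m + e') := by
  have h1 := kapL (i := 0) hA (hb.nr 1 le_rfl (by omega)) (P := e + S.pp z 1) (dvd_add he dvd_rfl) he1
  have h2 := kapR (i := t) hD (hb.nr t (by omega) le_rfl) (P := e' + S.pp z t) (dvd_add he' dvd_rfl) he1'
  refine (((R287.Con.one (opt_cp_mem _) (opt_cp_mem _) (by simp) h1).trans
    (R287.Con.one (opt_cp_mem _) (opt_cp_mem _) (by simp) h2))).trans'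
    (hb.opt_pairs ∅ (a := 2) (by omega) h.symm (by omega)) (empty_subset _) ?_ ?_
  · intro X hX
    obtain ⟨k, k1, k2, rfl⟩ := opt_mem_cI.1 hX
    simp only [mem_union, mem_singleton, opt_mem_cI]
    rcases k1.eq_or_lt with rfl | k1
    · simp
    rcases (Nat.le_of_lt_succ k2).eq_or_lt with rfl | k2
    · simp
    exact Or.inr (Or.inr ⟨k, by omega, by omega, rfl⟩)
  · rw [zero_add, opt_sp_top (show 1 ≤ t by omega), opt_sp_bot (show 1 < t by omega)]
    simp only [one_add_one_eq_two]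
    omega

theorem Good.mono {i j : ℕ} {x y : ℤ} (h : S.Good z i j x) (hxy : x ≤ y) : S.Good z i j y :=
  Con.mono h Subset.rfl subset_union_right (by omega)

theorem not_red {i j : ℕ} {x : ℤ} (hn : ¬ S.Red z t) (h : S.Good z i j x) (h1 : i + 1 < j)
    (h2 : j ≤ t + 1) : 2 * S.drop z i j < x := by
  by_contra hc
  exact hn ⟨i, j, h1, h2, h.mono (by omega)⟩

theorem Blk.irr1 (hb : S.Blk z t) (ht : 1 ≤ t) (hA : S.al z 1 < S.al z 0) (hn : ¬ S.Red z t) :
    ∃ e, S.pp z 1 ∣ e ∧ e < S.be z 1 - S.be z 0 ∧ S.be z 1 - S.be z 0 ≤ e + S.pp z 1 ∧ S.pp z 1 ≤ e ∧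
      2 * (S.al z 2 - S.al z 1) < e + S.pp z 1 ∧ (e ≤ S.pp z 1 ∨ 2 * S.pp z 1 ≤ e) := by
  have hp := hb.pos le_rfl ht
  obtain ⟨e, he, e1, e2⟩ := exists_mult' hp (S.be z 1 - S.be z 0)
  have g := not_red hn (hb.good_K1 hA he e2 (m := 0) (j := 2) rfl (by omega)) (by omega) (by omega)
  rw [opt_Ex_zero] at g
  have d := hb.dnn (i := 0) (j := 2) (by omega) (by omega)
  obtain ⟨P, hP, p1, p2⟩ := exists_mult hp (S.al z 2 - S.al z 1)
  have c1 := hb.cl_f (i0 := 0) (i := 1) (j0 := 2) (by omega) (by omega) (by omega) hP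
  have c2 := hb.cl_f (i0 := 0) (i := 1) (j0 := 2) (by omega) (by omega) (by omega) he
  have m1 := Int.le_of_dvd (show 0 < e by omega) he
  have m2 : 0 < e - 2 * P → S.pp z 1 ≤ e - 2 * P := fun h =>
    Int.le_of_dvd h (dvd_sub he (hP.mul_left 2))
  have m3 : 0 < e - S.pp z 1 → S.pp z 1 ≤ e - S.pp z 1 := fun h => Int.le_of_dvd h (dvd_sub he dvd_rfl)
  exact ⟨e, he, e1, e2, m1, by omega, by omega⟩

theorem Blk.irrt {s : ℕ} (hb : S.Blk z (s + 1)) (hD : S.be z (s + 2) < S.be z (s + 1))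
    (hn : ¬ S.Red z (s + 1)) :
    ∃ e, S.pp z (s + 1) ∣ e ∧ e < S.al z (s + 2) - S.al z (s + 1) ∧
      S.al z (s + 2) - S.al z (s + 1) ≤ e + S.pp z (s + 1) ∧ S.pp z (s + 1) ≤ e ∧
      2 * (S.be z (s + 1) - S.be z s) < e + S.pp z (s + 1) ∧
      (e ≤ S.pp z (s + 1) ∨ 2 * S.pp z (s + 1) ≤ e) := by
  have hp := hb.pos (i := s + 1) (by omega) le_rfl
  obtain ⟨e, he, e1, e2⟩ := exists_mult' hp (S.al z (s + 2) - S.al z (s + 1))
  have g := not_red hn (hb.good_Kt hD he e2 (m := 0) (i := s) rfl) (by omega) (by omega)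
  rw [opt_Ex_zero] at g
  have d := hb.dnn (i := s) (j := s + 2) (by omega) (by omega)
  obtain ⟨P, hP, p1, p2⟩ := exists_mult hp (S.be z (s + 1) - S.be z s)
  have c1 := hb.cl_f (i0 := s) (i := s + 1) (j0 := s + 2) (by omega) (by omega) (by omega) hP
  have c2 := hb.cl_f (i0 := s) (i := s + 1) (j0 := s + 2) (by omega) (by omega) (by omega) he
  simp only [add_assoc, one_add_one_eq_two] at g
  have m1 := Int.le_of_dvd (show 0 < e by omega) he
  have m2 : 0 < e - 2 * P → S.pp z (s + 1) ≤ e - 2 * P := fun h =>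
    Int.le_of_dvd h (dvd_sub he (hP.mul_left 2))
  have m3 : 0 < e - S.pp z (s + 1) → S.pp z (s + 1) ≤ e - S.pp z (s + 1) := fun h =>
    Int.le_of_dvd h (dvd_sub he dvd_rfl)
  exact ⟨e, he, e1, e2, m1, by omega, by omega⟩

theorem Blk.top1 (hb : S.Blk z 1) (hA : S.al z 1 < S.al z 0) (hD : S.be z 2 < S.be z 1) :
    S.Good z 0 2 (S.drop z 0 2) := by
  have hp := hb.pos (i := 1) le_rfl le_rfl
  obtain ⟨P, hP, p1, p2⟩ := exists_mult hp (min (S.be z 1 - S.be z 0) (S.al z 2 - S.al z 1))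
  have c1 := hb.cl_f (i0 := 0) (i := 1) (j0 := 2) (by omega) (by omega) (by omega) hP
  by_cases h : S.be z 1 - S.be z 0 ≤ S.al z 2 - S.al z 1
  · refine (hb.good_K1 hA hP (by omega) (m := 0) (j := 2) rfl (by omega)).mono ?_
    rw [opt_Ex_zero]
    omega
  · refine (hb.good_Kt hD hP (show S.al z 2 - S.al z 1 ≤ _ by omega) (m := 0) (i := 0) rfl).mono ?_
    rw [opt_Ex_zero]
    omega

end Sys

end Crest.Agent.R287
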