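import Crest.Agent.R287.Red
import Crest.Agent.R287.Opt

/-!
# R287: all indices are `FF`, fresh and unique

PLAN. `Blk z r` by `IsCyc.blk`; the budget is `2δ + sp 1 (r+1)` (`cI z 0 r = cI z 1 (1+r)`, all fresh and different).
`r = 2m+2`: `con_pairs O 1 (m+1)`, `Ex_le` gives `Ex ≤ be r - al 1 - pp 1 - pp r`, and Fine–Wilf (`Chain.fw`) for the indices `r < r+1`
(`al (r+1) = al 1 + δ`, `pp (r+1) = pp 1`, different components as `r ≥ 2`) gives `Ex < δ`.
`r = 2m+3`: pairs `2..r` (`con_pairs O 2 (m+1)`), `Ex_le` and Fine–Wilf for `r < r+2` give `Ex < δ`; then attach index 1 to index 2 with `κ ≤ δ`: `κ_le` for the valleys of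
`z 1`, `z 2`, `k = be 1 - al 2`, `k' = max 0 (be 2 - al (r+1))` (`Chain.agree` for `2 < r+1`, `W (r+1) y = W 1 (y - δ)`).
-/

set_option autoImplicit false
open Finset

namespace Crest.Agent.R287

namespace Sys

variable {S : Sys} {z : ℕ → S.E} {r : ℕ} {O : Finset ℕ}

theorem IsCyc.allF (h : S.IsCyc z r) (hO : S.root ∈ O) (hr : 2 ≤ r) (hff : ∀ i, 1 ≤ i → S.FF z i)
    (hfu : ∀ i, 1 ≤ i → S.FU z O i) : S.PS z O r := by
  have hch : ∀ i j, S.Chain z i j := fun i j k h1 _ => hff k (by omega)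
  have hb : S.Blk z r := h.blk hO le_rfl (hch _ _) fun k h1 _ => hfu k h1
  have hδ := h.delta_nonneg
  have hst : ∀ i, 1 ≤ i → S.al z i ≤ S.al z (i + 1) ∧ S.be z i ≤ S.be z (i + 1) :=
    fun i hi => ⟨(hff i hi).1, (hff (i + 1) (by omega)).2⟩
  have hsum : ∑ X ∈ S.cI z 1 (1 + r) \ O, (S.p X : ℤ) = S.sp z 1 (1 + r) := by
    rw [Finset.sdiff_eq_self_of_disjoint, cI, sum_image]
    · rfl
    · intro i hi j hj hij
      simp only [coe_Ico, Set.mem_Ico] at hi hj
      rcases lt_trichotomy i j with h1 | h1 | h1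
      · exact absurd hij (hb.dist i j hi.1 h1 (by omega))
      · exact h1
      · exact absurd hij.symm (hb.dist j i hj.1 h1 (by omega))
    · refine disjoint_left.2 fun X hX => ?_
      obtain ⟨i, hi, rfl⟩ := mem_image.1 hX
      exact (hfu i (mem_Ico.1 hi).1).1
  have hcp : ∀ i, S.cp z (i + r) = S.cp z i := fun i => by simp only [cp, h.per]
  have hpp : ∀ i, S.pp z (i + r) = S.pp z i := fun i => by simp only [pp, h.per]
  have hfw : ∀ i, 1 ≤ i → i < r → S.be z r - S.al z i - S.al z r < S.pp z r + S.pp z i := by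
    intro i h1 h2
    have := (hch r (i + r)).fw (by omega) (hb.nr r (by omega) le_rfl)
      (by rw [hcp]; exact hb.nr i h1 h2.le) (by rw [hcp]; exact (hb.dist i r h1 h2 le_rfl).symm)
    rw [h.al_add, hpp] at this
    omega
  unfold PS
  rw [← h.cI_eq 1, hsum]
  rcases Nat.even_or_odd' r with ⟨m, hm | hm⟩
  · obtain ⟨m, rfl⟩ : ∃ m', m = m' + 1 := ⟨m - 1, by omega⟩
    have h1 := con_pairs (S := S) (z := z) O 1 (m + 1) fun i h1 _ => hst i h1
    have h2 := hb.Ex_le (a := 1) (m := m) (by omega)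
    have h3 := hfw 1 le_rfl (by omega)
    rw [show 1 + 2 * m + 1 = r by omega] at h2
    rw [← hm] at h1
    exact h1.mono Subset.rfl subset_union_right (by omega)
  · obtain ⟨m, rfl⟩ : ∃ m', m = m' + 1 := ⟨m - 1, by omega⟩
    have h1 := con_pairs (S := S) (z := z) O 2 (m + 1) fun i h1 _ => hst i (by omega)
    have h2 := hb.Ex_le (a := 2) (m := m) (by omega)
    have h3 := hfw 2 (by omega) (by omega)
    rw [show 2 + 2 * m + 1 = r by omega] at h2
    rw [show 2 + 2 * (m + 1) = 1 + r by omega] at h1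
    have h4 : S.sp z 1 (1 + r) = S.pp z 1 + S.sp z 2 (1 + r) :=
      Finset.sum_eq_sum_Ico_succ_bot (by omega) _
    have h5 := hb.pos (i := 1) le_rfl (by omega)
    have ha1 := h.al_add 1
    have hb1 := h.be_add 1
    have hal : S.al z 2 ≤ S.al z (1 + r) := hb.alm (by omega) (by omega) (by omega)
    have hbe : S.be z 2 ≤ S.be z (1 + r) :=
      (hch 0 (r + 2)).be_mono (by omega) (by omega) (by omega)
    have hk : S.be z 1 - S.al z 2 = S.ov (z 1) (z 2) := k_eq 1
    have h12 : S.al z 1 ≤ S.al z 2 ∧ S.be z 1 ≤ S.be z 2 := hst 1 le_rfl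
    have hc1 : S.be z 1 = S.al z 1 + S.c (z 1) := rfl
    have hc2 : S.be z 2 = S.al z 2 + S.c (z 2) := rfl
    have hκ : (S.κ (S.cp z 1) (S.cp z 2) : ℤ) ≤ S.al z r := by
      have := S.κ_le (z 1) (z 2) 0 (S.c (z 1)) 0 (S.c (z 2)) (S.ov (z 1) (z 2))
        (max 0 (S.be z 2 - S.al z (1 + r)))
        (Or.inl ⟨rfl, by have := S.c_le_lt (z 1); omega, le_rfl⟩)
        (Or.inl ⟨rfl, by have := S.c_le_lt (z 2); omega, le_rfl⟩)
        ⟨by omega, by omega, by omega, fun x h1 h2 => by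
          rw [zero_add]; exact S.ov_agree _ _ x h1 h2⟩
        ⟨le_max_left _ _, by omega, by omega, fun x h1 h2 => by
          have h6 := (hch 2 (1 + r)).agree (by omega) (y := S.al z (1 + r) + x) (by omega) (by omega)
          simp only [W, h.per] at h6
          rw [zero_add]
          convert h6 using 2 <;> omega⟩
      simp only [cp]
      omega
    have hmem : S.cp z 2 ∈ S.cI z 2 (1 + r) := mem_image_of_mem _ (mem_Ico.2 ⟨le_rfl, by omega⟩)
    refine h1.trans' (Con.one (O := O ∪ S.cI z 2 (1 + r)) (S.comp_mem _) (S.comp_mem _)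
      (mem_union_right _ hmem) hκ) Subset.rfl (fun X hX => ?_) (by omega)
    obtain ⟨i, hi, rfl⟩ := mem_image.1 hX
    have hi' := mem_Ico.1 hi
    rcases Nat.eq_or_lt_of_le hi'.1 with rfl | h6
    · exact mem_union_right _ (mem_union_right _ (mem_singleton_self _))
    · exact mem_union_right _ (mem_union_left _ (mem_image_of_mem _ (mem_Ico.2 ⟨h6, hi'.2⟩)))

end Sys

end Crest.Agent.R287
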