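import Crest.Agent.Lib.PT.Code

/-!
# R287 (2-approximation of the shortest common superstring): tables, loops, graphs
-/

set_option autoImplicit false
open Crest.Agent.PTime

namespace Crest.Agent.R287

/-- association-list lookup with default -/
def look {β : Type} (T : List (ℕ × β)) (v : ℕ) (d : β) : β :=
  ((T.find? fun q => q.1 == v).map Prod.snd).getD d

/-- tabulate a function on a list of keys -/
def tab {β : Type} (V : List ℕ) (f : ℕ → β) : List (ℕ × β) := V.map fun v => (v, f v)

/-- a table read as a self-map of `ℕ` (identity off the keys) -/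
def mt (m : List (ℕ × ℕ)) (v : ℕ) : ℕ := look m v v

/-- a table of tables read as a cost function (zero off the keys) -/
def cst (C : List (ℕ × List (ℕ × ℕ))) (u v : ℕ) : ℕ := look (look C u []) v 0

/-- all ordered pairs -/
def prs {β γ : Type} (V : List β) (W : List γ) : List (β × γ) := V.flatMap fun u => W.map fun v => (u, v)

theorem look_tab {β : Type} (V : List ℕ) (f : ℕ → β) (v : ℕ) (d : β) :
    look (tab V f) v d = if v ∈ V then f v else d := by
  induction V with
  | nil => simp [look, tab]
  | cons x V ih =>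
    unfold look tab at *
    by_cases h : x = v
    · subst h; simp
    · have h' : ¬ v = x := fun e => h e.symm
      simp only [List.map_cons, List.find?_cons, List.mem_cons, h', false_or]
      have : (x == v) = false := by simpa using h
      simp only [this]
      exact ih

theorem mt_tab (V : List ℕ) (f : ℕ → ℕ) (v : ℕ) : mt (tab V f) v = if v ∈ V then f v else v :=
  look_tab V f v v

theorem mt_tab_eq (V : List ℕ) (f : ℕ → ℕ) (h : ∀ v, v ∉ V → f v = v) : mt (tab V f) = f := by
  funext v; rw [mt_tab]; split_ifs with hv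
  · rfl
  · exact (h v hv).symm

theorem mt_nil : mt [] = id := by funext v; simp [mt, look]

theorem cst_tab (V W : List ℕ) (f : ℕ → ℕ → ℕ) {u v : ℕ} (hu : u ∈ V) (hv : v ∈ W) :
    cst (tab V fun u => tab W (f u)) u v = f u v := by
  simp [cst, look_tab, hu, hv]

theorem mem_prs {β γ : Type} (V : List β) (W : List γ) (q : β × γ) :
    q ∈ prs V W ↔ q.1 ∈ V ∧ q.2 ∈ W := by
  obtain ⟨a, b⟩ := q
  simp [prs]

variable {α β γ σ : Type} [Enc α] [Enc β] [Enc γ] [Enc σ]

@[fun_prop] theorem PT.look {T : α → List (ℕ × β)} {v : α → ℕ} {d : α → β} (hT : PT T) (hv : PT v)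
    (hd : PT d) : PT (fun a => look (T a) (v a) (d a)) := by
  unfold R287.look; fun_prop

@[fun_prop] theorem PT.tab {V : α → List ℕ} {f : α → ℕ → β} (hV : PT V)
    (hf : PT (fun p : α × ℕ => f p.1 p.2)) : PT (fun a => tab (V a) (f a)) := by
  unfold R287.tab
  exact PT.map (f := fun a v => (v, f a v)) (PT.pair (by fun_prop) hf) hV

@[fun_prop] theorem PT.mt {m : α → List (ℕ × ℕ)} {v : α → ℕ} (hm : PT m) (hv : PT v) :
    PT (fun a => mt (m a) (v a)) := by
  unfold R287.mt; fun_prop

@[fun_prop] theorem PT.cst {C : α → List (ℕ × List (ℕ × ℕ))} {u v : α → ℕ} (hC : PT C) (hu : PT u)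
    (hv : PT v) : PT (fun a => cst (C a) (u a) (v a)) := by
  unfold R287.cst; fun_prop

@[fun_prop] theorem PT.prs {V : α → List β} {W : α → List γ} (hV : PT V) (hW : PT W) :
    PT (fun a => prs (V a) (W a)) := by
  unfold R287.prs; fun_prop

theorem sz_tab_le (V : List ℕ) (f : ℕ → β) (B : ℕ) (h : ∀ v ∈ V, sz (f v) ≤ B) :
    sz (tab V f) ≤ V.length * (sz V + B + 2) + 1 := by
  have := sz_list_le (l := tab V f) (B := sz V + B + 1) (by
    intro q hq
    obtain ⟨v, hv, rfl⟩ := List.mem_map.1 hq
    have h1 := sz_mem hv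
    have h2 := h v hv
    simp; omega)
  simpa [tab] using this

/-- A table of a self-map of `V` is small. -/
theorem sz_tab_self (V : List ℕ) (f : ℕ → ℕ) (h : ∀ v ∈ V, f v ∈ V) :
    sz (tab V f) ≤ sz V * (2 * sz V + 2) + 1 := by
  have h1 := sz_tab_le V f (sz V) (fun v hv => (sz_mem (h v hv)).le)
  have h2 : V.length ≤ sz V := length_le_sz V
  have h3 := Nat.mul_le_mul_right (sz V + sz V + 2) h2
  have : sz V + sz V + 2 = 2 * sz V + 2 := by ring
  rw [this] at h1 h3; omega

theorem PT.polyEval (q : Polynomial ℕ) {f : α → ℕ} (hf : PT f) : PT (fun a => q.eval (f a)) := by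
  induction q using Polynomial.recOnHorner with
  | M0 => simpa using PT.const 0
  | MC p a _ _ ih => simpa using ih.add (PT.const a)
  | MX p _ ih => simpa using ih.mul hf

/-- Generic polynomial-time loop: iterate `step` until `Done`; a potential bounds the number of steps and the
invariant bounds the size (both only on inputs satisfying `Pre`). -/
theorem exists_loop (Pre : α → Prop) (Inv Done : α → σ → Prop)
    (init : α → σ) (step : α → σ → σ) (φ : α → σ → ℕ) (N B : α → ℕ)
    (hinit : PT init) (hstep : PT (fun p : α × σ => step p.1 p.2))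
    (hDone : PT (fun p : α × σ => Done p.1 p.2)) (hN : PB N) (hB : PB B)
    (h0 : ∀ a, Pre a → Inv a (init a))
    (hs : ∀ a s, Pre a → Inv a s → ¬ Done a s →
      Inv a (step a s) ∧ (Done a (step a s) ∨ φ a s < φ a (step a s)))
    (hφ : ∀ a s, Pre a → Inv a s → φ a s ≤ N a) (hsz : ∀ a s, Pre a → Inv a s → sz s ≤ B a) :
    ∃ f : α → σ, PT f ∧ ∀ a, Pre a → Inv a (f a) ∧ Done a (f a) := by
  classical
  obtain ⟨qN, hqN⟩ := hN
  obtain ⟨qB, hqB⟩ := hB
  let B' : α → ℕ := fun a => qB.eval (sz a)
  let N' : α → ℕ := fun a => qN.eval (sz a) + 2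
  have hB1 : PT B' := PT.polyEval qB (PT.sz PT.id)
  have hB2 : PB B' := ⟨qB, fun a => le_rfl⟩
  have hN1 : PT N' := (PT.polyEval qN (PT.sz PT.id)).add (PT.const 2)
  have hN2 : PB N' := PB.add ⟨qN, fun a => le_rfl⟩ (PB.const 2)
  let st : α → σ → σ := fun a s => if Done a s then s else if sz (step a s) ≤ B' a then step a s else s
  have hst : PT (fun p : α × σ => st p.1 p.2) :=
    PT.ite hDone (by fun_prop) (PT.ite (PT.le (PT.sz hstep) (hB1.comp (g := Prod.fst) (by fun_prop))) hstep
      (by fun_prop))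
  refine ⟨fun a => (st a)^[N' a] (init a), PT.iterate hst hinit hN1 hN2
    (B := fun a => sz (init a) + B' a) ((PB.sz hinit).add hB2) ?_, ?_⟩
  · intro a i _
    induction i with
    | zero => simp
    | succ i ih =>
      rw [Function.iterate_succ_apply']
      have ih := ih (by omega)
      simp only [st]
      split_ifs <;> omega
  · intro a ha
    have key : ∀ i, Inv a ((st a)^[i] (init a)) ∧
        (Done a ((st a)^[i] (init a)) ∨ i ≤ φ a ((st a)^[i] (init a))) := by
      intro i
      induction i with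
      | zero => exact ⟨h0 a ha, Or.inr (Nat.zero_le _)⟩
      | succ i ih =>
        rw [Function.iterate_succ_apply']
        generalize (st a)^[i] (init a) = s at ih
        obtain ⟨h1, h2⟩ := ih
        by_cases hd : Done a s
        · simp only [st, if_pos hd]; exact ⟨h1, Or.inl hd⟩
        · obtain ⟨h3, h4⟩ := hs a s ha h1 hd
          have h5 : sz (step a s) ≤ B' a := (hsz a _ ha h3).trans (hqB a)
          simp only [st, if_neg hd, if_pos h5]
          refine ⟨h3, ?_⟩
          rcases h4 with h4 | h4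
          · exact Or.inl h4
          · rcases h2 with h2 | h2
            · exact absurd h2 hd
            · exact Or.inr (by omega)
    obtain ⟨h1, h2⟩ := key (N' a)
    refine ⟨h1, h2.resolve_right ?_⟩
    have h3 := hφ a _ ha h1
    have h4 := hqN a
    simp only [N'] at *
    omega

/-! ## graphs given by edge lists -/

def Adj (E : List (ℕ × ℕ)) (u v : ℕ) : Prop := u ≠ v ∧ ((u, v) ∈ E ∨ (v, u) ∈ E)

instance (E : List (ℕ × ℕ)) (u v : ℕ) : Decidable (Adj E u v) := by unfold Adj; infer_instance

theorem Adj.symm {E : List (ℕ × ℕ)} {u v : ℕ} (h : Adj E u v) : Adj E v u := ⟨h.1.symm, h.2.symm⟩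

@[fun_prop] theorem PT.adj {E : α → List (ℕ × ℕ)} {u v : α → ℕ} (hE : PT E) (hu : PT u) (hv : PT v) :
    PT (fun a => Adj (E a) (u a) (v a)) := by
  unfold R287.Adj; fun_prop

/-- connected inside `D` -/
def Conn (D : List ℕ) (E : List (ℕ × ℕ)) : ℕ → ℕ → Prop :=
  Relation.ReflTransGen fun x y => x ∈ D ∧ y ∈ D ∧ Adj E x y

theorem Conn.symm {D : List ℕ} {E : List (ℕ × ℕ)} {u v : ℕ} (h : Conn D E u v) : Conn D E v u := by
  induction h with
  | refl => exact .refl
  | tail _ h ih => exact Relation.ReflTransGen.head ⟨h.2.1, h.1, h.2.2.symm⟩ ih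

theorem Conn.trans {D : List ℕ} {E : List (ℕ × ℕ)} {u v w : ℕ} (h : Conn D E u v) (h' : Conn D E v w) :
    Conn D E u w := Relation.ReflTransGen.trans h h'

theorem Conn.mem {D : List ℕ} {E : List (ℕ × ℕ)} {u v : ℕ} (h : Conn D E u v) (hu : u ∈ D) : v ∈ D := by
  induction h with
  | refl => exact hu
  | tail _ h _ => exact h.2.1

end Crest.Agent.R287
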