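import Crest.Agent.R287.Base

/-!
# R287: breadth-first search in polynomial time

PLAN. Use `exists_loop` with input `a = ((D,E),b)`, state `L : List ℕ` (initially `[b]`), `Done` = no `x ∈ D`, `x ∉ L` is adjacent
to a member of `L` (`PT.exists_mem`), step = append the first such `x` (`D.find? …`, `Option.elim`), potential
`L.length ≤ D.length` (nodup, `L ⊆ D`: `List.Subperm.length_le` / `List.Nodup.subperm`), size by `sz_list_le` + `sz_mem`.
Invariant: nodup, `b ∈ L`, members are in `D` and `Conn D E b`-reachable, and the "earlier neighbour" property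
(`List.idxOf_append`, `idxOf_lt_length`). At the end, induction on `ReflTransGen` gives completeness.
-/

set_option autoImplicit false
open Crest.Agent.PTime

namespace Crest.Agent.R287

namespace BfsA

/-- the next vertex -/
def nx (D : List ℕ) (E : List (ℕ × ℕ)) (L : List ℕ) : Option ℕ :=
  D.find? fun x => decide (x ∉ L) && L.any fun y => decide (Adj E y x)

theorem PT_nx {α : Type} [Enc α] {D : α → List ℕ} {E : α → List (ℕ × ℕ)} {L : α → List ℕ}
    (hD : PT D) (hE : PT E) (hL : PT L) : PT (fun a => nx (D a) (E a) (L a)) := by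
  unfold nx; fun_prop

theorem nx_some {D : List ℕ} {E : List (ℕ × ℕ)} {L : List ℕ} {x : ℕ} (h : nx D E L = some x) :
    x ∈ D ∧ x ∉ L ∧ ∃ y ∈ L, Adj E y x := by
  have h1 := List.mem_of_find?_eq_some h
  have h2 := List.find?_some h
  simpa [h1] using h2

theorem nx_none {D : List ℕ} {E : List (ℕ × ℕ)} {L : List ℕ} (h : nx D E L = none) {x y : ℕ}
    (hx : x ∈ D) (hy : y ∈ L) (hxy : Adj E y x) : x ∈ L := by
  have h1 := List.find?_eq_none.1 h x hx
  by_contra hn
  exact h1 (by simpa [hn] using ⟨y, hy, hxy⟩)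

/-- loop invariant -/
def Inv (D : List ℕ) (E : List (ℕ × ℕ)) (b : ℕ) (L : List ℕ) : Prop :=
  L.Nodup ∧ b ∈ L ∧ (∀ x ∈ L, x ∈ D ∧ Conn D E b x) ∧
    ∀ x ∈ L, x ≠ b → ∃ y ∈ L, L.idxOf y < L.idxOf x ∧ Adj E y x

theorem Inv.step {D : List ℕ} {E : List (ℕ × ℕ)} {b : ℕ} {L : List ℕ} (h : Inv D E b L) {x : ℕ}
    (hx : nx D E L = some x) : Inv D E b (L ++ [x]) := by
  obtain ⟨h1, h2, h3, h4⟩ := h
  obtain ⟨k1, k2, y, hy, hxy⟩ := nx_some hx
  refine ⟨?_, List.mem_append_left _ h2, ?_, ?_⟩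
  · rw [List.nodup_append]
    refine ⟨h1, List.nodup_singleton _, ?_⟩
    intro a ha c hc
    rw [List.mem_singleton.1 hc]
    rintro rfl
    exact k2 ha
  · intro z hz
    rcases List.mem_append.1 hz with hz | hz
    · exact h3 z hz
    · rw [List.mem_singleton.1 hz]
      exact ⟨k1, Relation.ReflTransGen.tail (h3 y hy).2 ⟨(h3 y hy).1, k1, hxy⟩⟩
  · intro z hz hzb
    rcases List.mem_append.1 hz with hz | hz
    · obtain ⟨w, hw, hw1, hw2⟩ := h4 z hz hzb
      refine ⟨w, List.mem_append_left _ hw, ?_, hw2⟩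
      rwa [List.idxOf_append_of_mem hw, List.idxOf_append_of_mem hz]
    · rw [List.mem_singleton.1 hz]
      refine ⟨y, List.mem_append_left _ hy, ?_, hxy⟩
      rw [List.idxOf_append_of_mem hy, List.idxOf_append_of_notMem k2]
      have := List.idxOf_lt_length_of_mem hy
      omega

theorem Inv.length_le {D : List ℕ} {E : List (ℕ × ℕ)} {b : ℕ} {L : List ℕ} (h : Inv D E b L) :
    L.length ≤ D.length :=
  (h.1.subperm fun x hx => (h.2.2.1 x hx).1).length_le

end BfsA

open BfsA in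
theorem exists_bfs : ∃ f : (List ℕ × List (ℕ × ℕ)) × ℕ → List ℕ, PT f ∧
    ∀ (D : List ℕ) (E : List (ℕ × ℕ)) (b : ℕ), b ∈ D →
      (f ((D, E), b)).Nodup ∧ (∀ x, x ∈ f ((D, E), b) ↔ Conn D E b x) ∧
      ∀ x ∈ f ((D, E), b), x ≠ b → ∃ y ∈ f ((D, E), b),
        (f ((D, E), b)).idxOf y < (f ((D, E), b)).idxOf x ∧ Adj E y x := by
  refine (exists_loop (α := (List ℕ × List (ℕ × ℕ)) × ℕ) (σ := List ℕ)
    (fun a => a.2 ∈ a.1.1) (fun a L => Inv a.1.1 a.1.2 a.2 L)
    (fun a L => (nx a.1.1 a.1.2 L).isNone = true) (fun a => [a.2])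
    (fun a L => L ++ (nx a.1.1 a.1.2 L).toList) (fun _ L => L.length) (fun a => a.1.1.length)
    (fun a => a.1.1.length * (sz a.1.1 + 1) + 1) (by fun_prop)
    (PT.append (by fun_prop) (PT_nx (by fun_prop) (by fun_prop) (by fun_prop)).toList)
    ((PT_nx (by fun_prop) (by fun_prop) (by fun_prop)).isNone.of_decide fun _ => Iff.rfl)
    (by fun_prop) (by fun_prop) ?_ ?_ (fun a s _ h => h.length_le) ?_).imp ?_
  · intro a ha
    refine ⟨List.nodup_singleton _, List.mem_singleton_self _, fun x hx => ?_, fun x hx hb => ?_⟩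
    · rw [List.mem_singleton.1 hx]; exact ⟨ha, .refl⟩
    · exact absurd (List.mem_singleton.1 hx) hb
  · intro a L _ h hd
    obtain ⟨x, hx⟩ : ∃ x, nx a.1.1 a.1.2 L = some x := by
      cases h' : nx a.1.1 a.1.2 L with
      | none => simp [h'] at hd
      | some x => exact ⟨x, rfl⟩
    simp only [hx, Option.toList_some]
    exact ⟨h.step hx, Or.inr (by simp)⟩
  · intro a L _ h
    have h1 := sz_list_le (l := L) (B := sz a.1.1) fun x hx => (sz_mem (h.2.2.1 x hx).1).le
    exact h1.trans (Nat.add_le_add_right (Nat.mul_le_mul_right _ h.length_le) 1)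
  · rintro f ⟨hf, H⟩
    refine ⟨hf, fun D E b hb => ?_⟩
    obtain ⟨⟨h1, h2, h3, h4⟩, h5⟩ := H ((D, E), b) hb
    refine ⟨h1, fun x => ⟨fun hx => (h3 x hx).2, fun hx => ?_⟩, h4⟩
    have h6 := Option.isNone_iff_eq_none.1 h5
    induction hx with
    | refl => exact h2
    | tail _ h ih => exact nx_none h6 h.2.1 ih h.2.2

/-- the vertices reachable from `b` inside `D`, in BFS order -/
noncomputable def bfs (D : List ℕ) (E : List (ℕ × ℕ)) (b : ℕ) : List ℕ :=
  Classical.choose exists_bfs ((D, E), b)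

@[fun_prop] theorem PT.bfs {α : Type} [Enc α] {D : α → List ℕ} {E : α → List (ℕ × ℕ)} {b : α → ℕ}
    (hD : PT D) (hE : PT E) (hb : PT b) : PT (fun a => bfs (D a) (E a) (b a)) :=
  (Classical.choose_spec exists_bfs).1.comp (g := fun a => ((D a, E a), b a)) (by fun_prop)

theorem bfs_nodup {D : List ℕ} {E : List (ℕ × ℕ)} {b : ℕ} (h : b ∈ D) : (bfs D E b).Nodup :=
  ((Classical.choose_spec exists_bfs).2 D E b h).1

theorem mem_bfs {D : List ℕ} {E : List (ℕ × ℕ)} {b : ℕ} (h : b ∈ D) (x : ℕ) :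
    x ∈ bfs D E b ↔ Conn D E b x :=
  ((Classical.choose_spec exists_bfs).2 D E b h).2.1 x

theorem bfs_prev {D : List ℕ} {E : List (ℕ × ℕ)} {b : ℕ} (h : b ∈ D) {x : ℕ} (hx : x ∈ bfs D E b)
    (hb : x ≠ b) : ∃ y ∈ bfs D E b, (bfs D E b).idxOf y < (bfs D E b).idxOf x ∧ Adj E y x :=
  ((Classical.choose_spec exists_bfs).2 D E b h).2.2 x hx hb

end Crest.Agent.R287
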