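import Crest.Agent.R287.Red
import Crest.Agent.R287.Opt

/-!
# R287: a top block `0 A 1 F … F t D (t+1)` when all other indices lie in one fresh component `B`

PLAN. Everything is concluded by `PS_of_SF`.  `B = cp 0 = cp (t+1)`, `pp 0 = pp (t+1)`, `B ≠ cp i` for `1 ≤ i ≤ t` (`FU`, `ne_of_lt`).
`cfail1`: if `pp 0 ≤ be 0 - al 2` then `W 0 = W 2` everywhere (both `pp 0`-periodic, equal on `[al 2, be 0)` by `Chain.agree`), hence `W 1 = W 0` on `[al 1, be 1)`, `fw_W` gives
`be 1 - al 1 < pp 0 + pp 1`, and the pair `(cp 0, cp 1)` costs `≤ be 1 - al 1` (`tau_le 0`).  Otherwise `lemmaM` for `cut z r 0 2` with the chord (index `r - 2`) gives a valley of `B` of length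
`≤ δ + be 0 - al 2 < δ + pp 0`: attach `B` to the root (`kap_root`), then `top1` and `drop_le`.
`wrap`: `exists_q 0 (t+1)`; `be t - al (t+1) = ov < lh` (`ov > c ≥ 0` as the arc is D), `be 0 - al 1 = ov < lt`; on `[al 1 + q, be t)`, `W t y = W (t+1) y = W 0 (y-q) = W 1 (y-q)`.
`cfail`: `pp 1 ≤ δ` or `pp t ≤ δ` (`cl_f 0 1 (t+1)` with `pp 1` if `pp 1 ≤ pp t`, else `cl_f 0 t (t+1)`; `drop_le`).
`t = 2m+3`: if `pp 1 ≤ δ`: pair `(cp 0, cp 1)` (cost `be 1 - al 1`) and `con_pairs 2 (m+1)` (`Ex_le`, `fw 1 2`): total `< be t - al 1 + sp 1 t`.  If `pp t ≤ δ`: `con_pairs 1 (m+1)` and the pair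
`(cp t, cp (t+1))` (cost `be t - al t`; `fw (t-1) t`).  `t = 2m+2`: if `pp 1 ≤ δ`: pair `(cp t, cp (t+1))`, `con_pairs 2 m` (`Ex_lt 1 2 m t`), then `kapL` (cost `< μ₁ + pp 1`): total
`< sp + pp 1 + (be t - be 0)`; if `pp t ≤ δ`: pair `(cp 0, cp 1)`, `con_pairs 2 m`, `kapR`: total `< sp + pp t + (al (t+1) - al 1)`.
-/

set_option autoImplicit false
open Finset

namespace Crest.Agent.R287

namespace Sys

variable {S : Sys} {z : ℕ → S.E} {r : ℕ} {O : Finset ℕ}

theorem IsCyc.cf_B (h : S.IsCyc z r) (hO : S.root ∈ O) {t : ℕ} (hsf : S.SF z O (t + 1) r)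
    (htr : t < r) : S.cp z 0 ≠ S.root ∧ ∀ k, t + 1 ≤ k → k ≤ r → S.cp z k = S.cp z 0 := by
  obtain ⟨B, hB, hk⟩ := hsf
  have e : S.cp z r = S.cp z 0 := by
    have := h.per 0
    rw [zero_add] at this
    unfold cp; rw [this]
  have e2 := hk r (by omega) le_rfl
  refine ⟨fun h0 => hB ?_, fun k k1 k2 => by rw [hk k k1 k2, ← e, e2]⟩
  rw [← e2, e, h0]; exact hO

theorem cf_pp {i j : ℕ} (h : S.cp z i = S.cp z j) : S.pp z i = S.pp z j := by
  unfold cp at h; unfold pp; rw [h]

theorem IsCyc.cfail1 (h : S.IsCyc z r) (hO : S.root ∈ O) (hr : 2 ≤ r) (hff : S.FF z 1) (hfu : S.FU z O 1)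
    (hA : S.al z 1 < S.al z 0) (hD : S.be z 2 < S.be z 1) (hsf : S.SF z O 2 r) : S.PS z O r := by
  obtain ⟨h0, hB⟩ := h.cf_B hO (t := 1) hsf (by omega)
  have hc : S.Chain z 0 2 := fun k k1 k2 => by
    obtain rfl : k = 1 := by omega
    exact hff
  have hfu' : ∀ k, 1 ≤ k → k ≤ 1 → S.FU z O k := fun k k1 k2 => by
    obtain rfl : k = 1 := by omega
    exact hfu
  have hb : S.Blk z 1 := h.blk hO (by omega) hc hfu'
  have e2 : S.cp z 2 = S.cp z 0 := hB 2 le_rfl hr
  have hp := pp_pos h0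
  have hδ := h.delta_nonneg
  have hs : S.sp z 1 (1 + 1) = S.pp z 1 := by simp [sp]
  have h01 : S.cp z 0 ≠ S.cp z 1 := fun e => h.ne_of_lt (i := 0) (j := 1) (by omega) (by omega) (hfu.2 0 e)
  have b01 : S.be z 0 ≤ S.be z 1 := hff.2
  by_cases hcase : S.pp z 0 ≤ S.be z 0 - S.al z 2
  · have hW : ∀ y, S.W z 0 y = S.W z 2 y := by
      intro y
      obtain ⟨P, hP, p1, p2⟩ := exists_mult hp (y - S.al z 2)
      have a1 := W_dvd h0 hP (y - P)
      have a2 := W_dvd (i := 2) (P := P) (by rw [e2]; exact h0) (by rw [cf_pp e2]; exact hP) (y - P)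
      rw [sub_add_cancel] at a1 a2
      rw [a1, a2]
      exact hc.agree (by omega) (by omega) (by omega)
    have hf := fw_W h0 (hb.nr 1 le_rfl le_rfl) h01 (a := S.al z 1) (b := S.be z 1) (s := 0) (by
      intro y y1 y2
      rw [add_zero]
      by_cases hy : y < S.be z 0
      · exact agree_succ 0 y1 hy
      · rw [hW]
        exact (agree_succ 1 (show S.al z 2 ≤ y by omega) y2).symm)
    have ht := tau_le (S := S) (z := z) 0
    rw [zero_add] at ht
    refine h.PS_of_SF (t := 1) (by omega) hfu' hsf (x := S.be z 1 - S.al z 1)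
      ((R287.Con.two (c := S.be z 1 - S.al z 1) (opt_cp_mem (z := z) 0) (opt_cp_mem (z := z) 1)
        (by omega)).mono Subset.rfl ?_ le_rfl) (by omega)
    intro X hX
    simp only [mem_union, mem_insert, mem_singleton, opt_mem_cI] at hX ⊢
    rcases hX with rfl | ⟨k, k1, k2, rfl⟩
    · simp
    · obtain rfl : k = 1 := by omega
      simp
  · obtain ⟨i, hi⟩ := (h.cut (i := 0) (j := 2) (by omega) (by omega)).lemmaM (r - 2)
    rw [h.cut_al (by omega) (by omega)] at hi
    have c1 : S.cut z r 0 2 (r - 2) = z 0 := by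
      unfold Sys.cut
      rw [Nat.mod_eq_of_lt (by omega), show 2 + (r - 2) = 0 + r by omega, h.per]
    have c2 : S.cut z r 0 2 (r - 2 + 1) = z 2 := by
      unfold Sys.cut
      rw [show r - 2 + 1 = 0 + r + 1 - 2 by omega, Nat.mod_self]
    rw [c1, c2] at hi
    have hlt : i % (0 + r + 1 - 2) < 0 + r + 1 - 2 := Nat.mod_lt _ (by omega)
    have k1 := kap_root (S := S) (z := z) (2 + i % (0 + r + 1 - 2))
    rw [hB _ (by omega) (by omega)] at k1
    have hd := h.drop_le (i := 0) (j := 2) (by omega) (by omega)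
    have hi' : (S.c (z (2 + i % (0 + r + 1 - 2))) : ℤ) ≤ S.al z r + S.pp z 0 := by
      unfold Sys.cut drop at hi
      omega
    refine h.PS_of_SF (t := 1) (by omega) hfu' hsf
      ((R287.Con.one (opt_cp_mem (z := z) 0) S.root_mem_A hO (k1.trans hi')).trans' (hb.top1 hA hD) ?_ ?_
        le_rfl) (by simp only [zero_add, one_add_one_eq_two]; omega)
    · intro X hX
      simp only [mem_union, mem_insert, mem_singleton] at hX ⊢
      rcases hX with rfl | rfl | rfl
      exacts [Or.inl hO, Or.inr rfl, Or.inr e2]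
    · rw [insert_eq]
      exact subset_union_right

theorem IsCyc.wrap (h : S.IsCyc z r) {t : ℕ} (ht : 2 ≤ t) (htr : t < r) (hb : S.Blk z t)
    (hA : S.al z 1 < S.al z 0) (hD : S.be z (t + 1) < S.be z t) (h0 : S.cp z 0 ≠ S.root)
    (he : S.cp z (t + 1) = S.cp z 0) :
    ∃ q, q ≤ S.al z r + S.pp z 0 ∧ S.be z t - S.be z 0 ≤ q ∧ S.al z (t + 1) - S.al z 1 ≤ q ∧
      S.be z t - S.al z 1 - q < S.pp z t + S.pp z 1 := by
  obtain ⟨q, q1, q2, q3, q4, q5⟩ := h.exists_q (i := 0) (j := t + 1) (by omega) (by omega) h0 he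
  have e1 := k_eq (S := S) (z := z) 0
  have e2 := k_eq (S := S) (z := z) t
  have o1 := S.ov_lt (z 0) (z (0 + 1))
  have o2 := S.ov_lt (z t) (z (t + 1))
  have a1 := al_le_be (S := S) (z := z) 0
  have a2 := al_le_be (S := S) (z := z) (t + 1)
  simp only [zero_add] at e1 o1
  have hf := fw_W (hb.nr t (by omega) le_rfl) (hb.nr 1 le_rfl (by omega))
    (hb.dist 1 t le_rfl (by omega) le_rfl).symm (a := S.al z 1 + q) (b := S.be z t) (s := -q) (by
      intro y y1 y2
      rw [agree_succ t (by omega) y2, ← agree_succ 0 (show S.al z 1 ≤ _ by omega) (by omega), q3]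
      congr 1
      ring)
  exact ⟨q, q2, by omega, by omega, by omega⟩

theorem IsCyc.cfail (h : S.IsCyc z r) (hO : S.root ∈ O) {t : ℕ} (ht : 2 ≤ t) (htr : t < r)
    (hc : S.Chain z 0 (t + 1)) (hfu : ∀ k, 1 ≤ k → k ≤ t → S.FU z O k)
    (hA : S.al z 1 < S.al z 0) (hD : S.be z (t + 1) < S.be z t) (hsf : S.SF z O (t + 1) r)
    (h1 : S.pp z 1 < S.be z 1 - S.be z 0) (h2 : S.pp z t < S.al z (t + 1) - S.al z t) : S.PS z O r := by
  obtain ⟨h0, hB⟩ := h.cf_B hO hsf htr
  have hb : S.Blk z t := h.blk hO htr.le hc hfu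
  have et : S.cp z (t + 1) = S.cp z 0 := hB _ le_rfl htr
  obtain ⟨q, q1, q2, q3, q4⟩ := h.wrap ht htr hb hA hD h0 et
  have hd := h.drop_le (i := 0) (j := t + 1) (by omega) (by omega)
  have a1 := hb.alm (i := 1) (j := t) le_rfl (by omega) (by omega)
  have a2 := hb.alm (i := t) (j := t + 1) (by omega) (by omega) (by omega)
  have b1 := hb.bem (i := 1) (j := t) (by omega) le_rfl
  have b0 := hb.bem (i := 0) (j := 1) (by omega) (by omega)
  have c1 := hb.cl_f (i0 := 0) (i := 1) (j0 := t + 1) (by omega) (by omega) le_rfl dvd_rfl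
  have c2 := hb.cl_f (i0 := 0) (i := t) (j0 := t + 1) (by omega) (by omega) le_rfl dvd_rfl
  have hcase : S.pp z 1 ≤ S.al z r ∨ S.pp z t ≤ S.al z r := by omega
  have t0 := tau_le (S := S) (z := z) 0
  have t1 := tau_le (S := S) (z := z) t
  rw [zero_add] at t0
  have P0 : S.Con O {S.cp z 0, S.cp z 1} (S.be z 1 - S.al z 1) :=
    R287.Con.two (opt_cp_mem (z := z) 0) (opt_cp_mem (z := z) 1) (by omega)
  have P1 : S.Con O {S.cp z t, S.cp z 0} (S.be z t - S.al z t) := by
    rw [← et]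
    exact R287.Con.two (opt_cp_mem (z := z) t) (opt_cp_mem (z := z) (t + 1)) (by omega)
  have s1 := opt_sp_bot (S := S) (z := z) (show 1 < t + 1 by omega)
  have s2 := opt_sp_top (S := S) (z := z) (show 1 ≤ t by omega)
  have s3 := opt_sp_top (S := S) (z := z) (show 2 ≤ t by omega)
  simp only [one_add_one_eq_two] at s1
  obtain ⟨m, hm | hm⟩ : ∃ m, t = 2 * m + 2 ∨ t = 2 * m + 3 := ⟨(t - 2) / 2, by omega⟩
  · have Q := hb.opt_pairs ∅ (a := 2) (m := m) (j := t) (by omega) (by omega) (by omega)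
    have x1 := hb.Ex_lt (h := 1) (a := 2) (m := m) (j := t) le_rfl (by omega) (by omega) le_rfl
    rcases hcase with hcase | hcase
    · obtain ⟨e, he, e1, e2⟩ := exists_mult' (hb.pos (i := 1) le_rfl (by omega)) (S.be z 1 - S.be z 0)
      have k1 := kapL (i := 0) hA (hb.nr 1 le_rfl (by omega)) (P := e + S.pp z 1) (dvd_add he dvd_rfl) e2
      refine h.PS_of_SF htr hfu hsf ((P1.trans (R287.Con.one (opt_cp_mem _) (opt_cp_mem _) (by simp)
        k1)).trans' Q (empty_subset _) ?_ le_rfl) (by omega)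
      intro X hX
      simp only [mem_union, mem_insert, mem_singleton, opt_mem_cI] at hX ⊢
      rcases hX with rfl | ⟨k, k1, k2, rfl⟩
      · simp
      rcases k1.eq_or_lt with rfl | k1
      · simp
      rcases (Nat.le_of_lt_succ k2).eq_or_lt with rfl | k2
      · simp
      exact Or.inr (Or.inr ⟨k, by omega, by omega, rfl⟩)
    · obtain ⟨e, he, e1, e2⟩ := exists_mult' (hb.pos (i := t) (by omega) le_rfl)
        (S.al z (t + 1) - S.al z t)
      have k1 := kapR (i := t) hD (hb.nr t (by omega) le_rfl) (P := e + S.pp z t) (dvd_add he dvd_rfl) e2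
      rw [et] at k1
      refine h.PS_of_SF htr hfu hsf ((P0.trans (R287.Con.one (opt_cp_mem _) (opt_cp_mem _) (by simp)
        k1)).trans' Q (empty_subset _) ?_ le_rfl) (by omega)
      intro X hX
      simp only [mem_union, mem_insert, mem_singleton, opt_mem_cI] at hX ⊢
      rcases hX with rfl | ⟨k, k1, k2, rfl⟩
      · simp
      rcases k1.eq_or_lt with rfl | k1
      · simp
      rcases (Nat.le_of_lt_succ k2).eq_or_lt with rfl | k2
      · simp
      exact Or.inr (Or.inr ⟨k, by omega, by omega, rfl⟩)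
  · rcases hcase with hcase | hcase
    · have Q := hb.opt_pairs ∅ (a := 2) (m := m + 1) (j := t + 1) (by omega) (by omega) (by omega)
      have x1 := hb.Ex_le (a := 2) (m := m) (by omega)
      rw [show 2 + 2 * m + 1 = t by omega] at x1
      have f1 := hb.fw (i := 1) (j := 2) le_rfl (by omega) ht
      refine h.PS_of_SF htr hfu hsf (P0.trans' Q (empty_subset _) ?_ le_rfl) (by omega)
      intro X hX
      simp only [mem_union, mem_insert, mem_singleton, opt_mem_cI] at hX ⊢
      rcases hX with rfl | ⟨k, k1, k2, rfl⟩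
      · simp
      rcases k1.eq_or_lt with rfl | k1
      · simp
      exact Or.inr (Or.inr ⟨k, by omega, by omega, rfl⟩)
    · have Q := hb.opt_pairs ∅ (a := 1) (m := m + 1) (j := t) (by omega) (by omega) (by omega)
      have x1 := hb.Ex_le (a := 1) (m := m) (by omega)
      have f1 := hb.fw (i := 1 + 2 * m + 1) (j := t) (by omega) (by omega) le_rfl
      refine h.PS_of_SF htr hfu hsf (P1.trans' Q (empty_subset _) ?_ le_rfl) (by omega)
      intro X hX
      simp only [mem_union, mem_insert, mem_singleton, opt_mem_cI] at hX ⊢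
      rcases hX with rfl | ⟨k, k1, k2, rfl⟩
      · simp
      rcases (Nat.le_of_lt_succ k2).eq_or_lt with rfl | k2
      · simp
      exact Or.inr (Or.inr ⟨k, by omega, by omega, rfl⟩)

end Sys

end Crest.Agent.R287
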