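import Crest.Agent.R287.Seq

/-!
# R287: lower bounds for the drop of a segment of a block (period shifts), Fine–Wilf variants

PLAN. Every `cl_*` lemma: `by_contra`, push negations, and apply `Chain.drop_ge` (to `hb.ch.sub`) with the indicated shift `Δ`; the side conditions
follow from `Chain.al_mono`/`be_mono`; the window identity is a chain `W i0 y = W i y = W i (y+P) = W j (y+P) = … = W j0 (y+Δ)` of
`Chain.agree` (or `rfl` when two indices coincide) and `W_dvd`.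
* `cl_own`: `cl_f` with `P` from `exists_mult` applied to `min μ λ ≥ 0`.
* `cl_fb`: forward by `P` in `i`, backward by `Q` (multiple of `pp j`, `Q ≥ 0`) in `j`, with `Δ = P - Q ∈ (λ_i - pp j, λ_i]`; if `Δ < 0` use `drop_nonneg`.
  `cl_bf`: backward by `Q` in `j < i` first, then forward by `P` in `i`, `Δ ∈ (μ_i - pp j, μ_i]`.
* `cl_g1`: `cl_ff` with first shift `min e (largest multiple of pp 1 below min μ_i λ_1 - P)`.  `cl_gt` mirror.
* `cl_fw3`: `fw_W` on `[max (al j) (al k - pp j), min (be i) (be j - pp j))` with shift `pp j`.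
-/

set_option autoImplicit false
open Finset

namespace Crest.Agent.R287

namespace Sys

variable {S : Sys} {z : ℕ → S.E}

variable {t : ℕ}

theorem Blk.fw (hb : S.Blk z t) {i j : ℕ} (h1 : 1 ≤ i) (h2 : i < j) (h3 : j ≤ t) :
    S.be z i - S.al z j < S.pp z i + S.pp z j := by
  exact (hb.ch.sub (Nat.zero_le _) (show j ≤ t + 1 by omega)).fw h2 (hb.nr i h1 (by omega))
    (hb.nr j (by omega) h3) (hb.dist i j h1 h2 h3)

theorem Blk.pos (hb : S.Blk z t) {i : ℕ} (h1 : 1 ≤ i) (h2 : i ≤ t) : 0 < S.pp z i :=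
  pp_pos (hb.nr i h1 h2)

theorem Blk.alm (hb : S.Blk z t) {i j : ℕ} (h1 : 1 ≤ i) (h2 : i ≤ j) (h3 : j ≤ t + 1) :
    S.al z i ≤ S.al z j := hb.ch.al_mono h1 h2 h3

theorem Blk.bem (hb : S.Blk z t) {i j : ℕ} (h2 : i ≤ j) (h3 : j ≤ t) :
    S.be z i ≤ S.be z j := hb.ch.be_mono (Nat.zero_le _) h2 (by omega)

theorem Blk.dnn (hb : S.Blk z t) {i j : ℕ} (h2 : i + 1 < j) (h3 : j ≤ t + 1) : 0 ≤ S.drop z i j :=
  (hb.ch.sub (Nat.zero_le _) h3).drop_nonneg h2

theorem Blk.ag (hb : S.Blk z t) {i j : ℕ} (h2 : i ≤ j) (h3 : j ≤ t + 1) {y : ℤ} (h4 : S.al z j ≤ y)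
    (h5 : y < S.be z i) : S.W z i y = S.W z j y := by
  rcases h2.eq_or_lt with rfl | h2
  · rfl
  · exact (hb.ch.sub (Nat.zero_le _) h3).agree h2 h4 h5

theorem Blk.sh (hb : S.Blk z t) {i : ℕ} (h1 : 1 ≤ i) (h2 : i ≤ t) {P : ℤ} (hP : S.pp z i ∣ P) {y y' : ℤ}
    (h : y' = y + P) : S.W z i y = S.W z i y' := by
  rw [h, W_dvd (hb.nr i h1 h2) hP]

theorem mult_nonneg {q R : ℤ} (h : q ∣ R) (h2 : 0 < R + q) : 0 ≤ R := by
  have := Int.le_of_dvd h2 (dvd_add h dvd_rfl)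
  omega

theorem Blk.cl_f (hb : S.Blk z t) {i0 i j0 : ℕ} (h1 : i0 < i) (h2 : i < j0) (h3 : j0 ≤ t + 1) {P : ℤ}
    (hP : S.pp z i ∣ P) :
    P ≤ S.drop z i0 j0 ∨ S.be z i - S.be z i0 < P ∨ S.al z j0 - S.al z i < P := by
  by_contra hc
  push Not at hc
  obtain ⟨c1, c2, c3⟩ := hc
  have a1 := hb.alm (i := i0 + 1) (j := i) (by omega) h1 (by omega)
  have a2 := hb.bem (i := i) (j := j0 - 1) (by omega) (by omega)
  refine absurd ((hb.ch.sub (Nat.zero_le i0) h3).drop_ge (Δ := P) (by omega) (by omega) (by omega) ?_)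
    (by omega)
  intro y y1 y2
  exact (hb.ag h1.le (by omega) (by omega) y2).trans <| (hb.sh (i := i) (by omega) (by omega) hP rfl).trans <|
    hb.ag h2.le h3 (by omega) (by omega)

theorem Blk.cl_own (hb : S.Blk z t) {i0 i j0 : ℕ} (h1 : i0 < i) (h2 : i < j0) (h3 : j0 ≤ t + 1) :
    S.be z i - S.be z i0 - S.pp z i < S.drop z i0 j0 ∨ S.al z j0 - S.al z i - S.pp z i < S.drop z i0 j0 := by
  obtain ⟨P, hP, p1, p2⟩ := exists_mult (hb.pos (i := i) (by omega) (by omega))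
    (min (S.be z i - S.be z i0) (S.al z j0 - S.al z i))
  have := hb.cl_f h1 h2 h3 hP
  omega

theorem Blk.cl_ff (hb : S.Blk z t) {i0 i j j0 : ℕ} (h1 : i0 < i) (h2 : i ≤ j) (h2' : j < j0)
    (h3 : j0 ≤ t + 1) {P Q : ℤ} (hP : S.pp z i ∣ P) (hP0 : 0 ≤ P) (hQ : S.pp z j ∣ Q) (hQ0 : 0 ≤ Q) :
    P + Q ≤ S.drop z i0 j0 ∨ S.be z i - S.be z i0 < P ∨ S.al z j0 - S.al z j < Q ∨
      S.al z j0 - S.al z i < P + Q ∨ S.be z j - S.be z i0 < P + Q := by
  have _ := hP0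
  have _ := hQ0
  by_contra hc
  push Not at hc
  obtain ⟨c1, c2, c3, c4, c5⟩ := hc
  have a1 := hb.alm (i := i0 + 1) (j := i) (by omega) h1 (by omega)
  have a2 := hb.bem (i := j) (j := j0 - 1) (by omega) (by omega)
  refine absurd ((hb.ch.sub (Nat.zero_le i0) h3).drop_ge (Δ := P + Q) (by omega) (by omega) (by omega) ?_)
    (by omega)
  intro y y1 y2
  exact (hb.ag h1.le (by omega) (by omega) y2).trans <| (hb.sh (i := i) (by omega) (by omega) hP rfl).trans <|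
    (hb.ag h2 (by omega) (by omega) (by omega)).trans <|
    (hb.sh (i := j) (by omega) (by omega) hQ (y' := y + (P + Q)) (by ring)).trans <|
    hb.ag h2'.le h3 (by omega) (by omega)

theorem Blk.cl_fff (hb : S.Blk z t) {i : ℕ} (h1 : 1 ≤ i) (h2 : i ≤ t) {e e' : ℤ}
    (he : S.pp z 1 ∣ e) (he0 : 0 ≤ e) (he1 : e ≤ S.be z 1 - S.be z 0)
    (he' : S.pp z t ∣ e') (he0' : 0 ≤ e') (he1' : e' ≤ S.al z (t + 1) - S.al z t) :
    e + S.pp z i + e' ≤ S.drop z 0 (t + 1) ∨ S.be z i - S.be z 0 < e + S.pp z i ∨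
      S.al z (t + 1) - S.al z i < S.pp z i + e' ∨ S.al z (t + 1) - S.al z 1 < e + S.pp z i + e' ∨
      S.be z t - S.be z 0 < e + S.pp z i + e' := by
  have _ := he0
  have _ := he0'
  by_contra hc
  push Not at hc
  obtain ⟨c1, c2, c3, c4, c5⟩ := hc
  refine absurd (hb.ch.drop_ge (Δ := e + S.pp z i + e') (by omega) (by simpa using by omega)
    (by simpa using by omega) ?_) (by omega)
  intro y y1 y2
  exact (hb.ag (Nat.zero_le 1) (by omega) (by omega) y2).trans <|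
    (hb.sh (i := 1) le_rfl (by omega) he rfl).trans <|
    (hb.ag h1 (by omega) (by omega) (by omega)).trans <| (hb.sh h1 h2 dvd_rfl rfl).trans <|
    (hb.ag h2 (by omega) (by omega) (by omega)).trans <|
    (hb.sh (i := t) (by omega) le_rfl he' (y' := y + (e + S.pp z i + e')) (by ring)).trans <|
    hb.ag (j := t + 1) (Nat.le_succ t) le_rfl (by omega) (by omega)

theorem Blk.cl_fb (hb : S.Blk z t) {i0 i j j0 : ℕ} (h1 : i0 < i) (h2 : i < j0) (h3 : j0 ≤ t + 1)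
    (h4 : i ≤ j) (h5 : j ≤ j0) (h6 : j ≤ t) {P : ℤ} (hP : S.pp z i ∣ P) :
    S.al z j0 - S.al z i - S.pp z j < S.drop z i0 j0 ∨ S.be z i - S.be z i0 < P ∨
      P < S.al z j0 - S.al z i := by
  by_contra hc
  push Not at hc
  obtain ⟨c1, c2, c3⟩ := hc
  have hp := hb.pos (i := j) (by omega) h6
  obtain ⟨e, he, e1, e2⟩ := exists_mult' hp (P - (S.al z j0 - S.al z i))
  have a1 := hb.alm (i := i0 + 1) (j := i) (by omega) h1 (by omega)
  have a2 := hb.bem (i := i) (j := j0 - 1) (by omega) (by omega)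
  have a3 := hb.alm (i := j) (j := j0) (by omega) h5 h3
  have a4 := hb.bem h4 h6
  refine absurd ((hb.ch.sub (Nat.zero_le i0) h3).drop_ge (Δ := P - (e + S.pp z j)) (by omega) (by omega)
    (by omega) ?_) (by omega)
  intro y y1 y2
  exact (hb.ag h1.le (by omega) (by omega) y2).trans <| (hb.sh (i := i) (by omega) (by omega) hP rfl).trans <|
    (hb.ag h4 (by omega) (by omega) (by omega)).trans <|
    (hb.sh (i := j) (by omega) h6 (dvd_add he dvd_rfl).neg_right (y' := y + (P - (e + S.pp z j)))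
      (by ring)).trans <| hb.ag h5 h3 (by omega) (by omega)

theorem Blk.cl_bf (hb : S.Blk z t) {i0 i j j0 : ℕ} (h1 : i0 < i) (h2 : i < j0) (h3 : j0 ≤ t + 1)
    (h4 : j ≤ i) (h5 : i0 ≤ j) (h6 : 1 ≤ j) {P : ℤ} (hP : S.pp z i ∣ P) :
    S.be z i - S.be z i0 - S.pp z j < S.drop z i0 j0 ∨ S.al z j0 - S.al z i < P ∨
      P < S.be z i - S.be z i0 := by
  by_contra hc
  push Not at hc
  obtain ⟨c1, c2, c3⟩ := hc
  have hp := hb.pos (i := j) h6 (by omega)
  obtain ⟨e, he, e1, e2⟩ := exists_mult' hp (P - (S.be z i - S.be z i0))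
  have a1 := hb.alm (i := i0 + 1) (j := i) (by omega) h1 (by omega)
  have a2 := hb.bem (i := i) (j := j0 - 1) (by omega) (by omega)
  have a3 := hb.alm (i := j) (j := i) h6 h4 (by omega)
  have a4 := hb.bem h5 (show j ≤ t by omega)
  refine absurd ((hb.ch.sub (Nat.zero_le i0) h3).drop_ge (Δ := P - (e + S.pp z j)) (by omega) (by omega)
    (by omega) ?_) (by omega)
  intro y y1 y2
  exact (hb.ag h5 (by omega) (by omega) y2).trans <|
    (hb.sh (i := j) h6 (by omega) (dvd_add he dvd_rfl).neg_right rfl).trans <|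
    (hb.ag h4 (by omega) (by omega) (by omega)).trans <|
    (hb.sh (i := i) (by omega) (by omega) hP (y' := y + (P - (e + S.pp z j))) (by ring)).trans <|
    hb.ag h2.le h3 (by omega) (by omega)

theorem Blk.cl_g1 (hb : S.Blk z t) {i j0 : ℕ} (h1 : 1 ≤ i) (h2 : i < j0) (h3 : j0 ≤ t + 1) {P e : ℤ}
    (hP : S.pp z i ∣ P) (hP0 : 0 ≤ P) (he : S.pp z 1 ∣ e) (he0 : 0 ≤ e) (he1 : e ≤ S.be z 1 - S.be z 0) :
    P + e ≤ S.drop z 0 j0 ∨ S.be z i - S.be z 0 - S.pp z 1 < S.drop z 0 j0 ∨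
      S.al z j0 - S.al z 1 - S.pp z 1 < S.drop z 0 j0 ∨ S.al z j0 - S.al z i < P ∨
      S.be z i - S.be z 0 < P := by
  have hp := hb.pos (i := 1) le_rfl (by omega)
  have a1 := hb.alm (i := 1) (j := i) le_rfl h1 (by omega)
  have k1 := hb.cl_ff (i0 := 0) (i := 1) (j := i) (j0 := j0) (by omega) h1 h2 h3 he he0 hP hP0
  obtain ⟨R, hR, r1, r2⟩ := exists_mult hp (min (S.be z i - S.be z 0) (S.al z j0 - S.al z 1) - P)
  by_cases h0 : 0 < R + S.pp z 1
  · have k2 := hb.cl_ff (i0 := 0) (i := 1) (j := i) (j0 := j0) (by omega) h1 h2 h3 hR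
      (mult_nonneg hR h0) hP hP0
    omega
  · omega

theorem Blk.cl_gt (hb : S.Blk z t) {i0 i : ℕ} (h1 : i0 < i) (h2 : i ≤ t) {P e : ℤ}
    (hP : S.pp z i ∣ P) (hP0 : 0 ≤ P) (he : S.pp z t ∣ e) (he0 : 0 ≤ e)
    (he1 : e ≤ S.al z (t + 1) - S.al z t) :
    P + e ≤ S.drop z i0 (t + 1) ∨ S.al z (t + 1) - S.al z i - S.pp z t < S.drop z i0 (t + 1) ∨
      S.be z t - S.be z i0 - S.pp z t < S.drop z i0 (t + 1) ∨ S.al z (t + 1) - S.al z i < P ∨
      S.be z i - S.be z i0 < P := by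
  have hp := hb.pos (i := t) (by omega) le_rfl
  have a1 := hb.bem h2 le_rfl
  have k1 := hb.cl_ff (i0 := i0) (i := i) (j := t) (j0 := t + 1) h1 h2 (by omega) le_rfl hP hP0 he he0
  obtain ⟨R, hR, r1, r2⟩ := exists_mult hp (min (S.al z (t + 1) - S.al z i) (S.be z t - S.be z i0) - P)
  by_cases h0 : 0 < R + S.pp z t
  · have k2 := hb.cl_ff (i0 := i0) (i := i) (j := t) (j0 := t + 1) h1 h2 (by omega) le_rfl hP hP0 hR
      (mult_nonneg hR h0)
    omega
  · omega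

theorem Blk.cl_fw3 (hb : S.Blk z t) {i j k : ℕ} (h1 : 1 ≤ i) (h2 : i ≤ j) (h3 : j ≤ k) (h4 : i < k)
    (h5 : k ≤ t) :
    S.be z j - S.al z j - S.pp z j < S.pp z i + S.pp z k ∨ S.be z j - S.al z k < S.pp z i + S.pp z k ∨
      S.be z i - S.al z j < S.pp z i + S.pp z k ∨ S.be z i - S.al z k + S.pp z j < S.pp z i + S.pp z k := by
  have := fw_W (hb.nr i h1 (by omega)) (hb.nr k (by omega) h5) (hb.dist i k h1 h4 h5)
    (a := max (S.al z j) (S.al z k - S.pp z j)) (b := min (S.be z i) (S.be z j - S.pp z j))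
    (s := S.pp z j) (by
      intro y y1 y2
      exact (hb.ag h2 (by omega) (by omega) (by omega)).trans <|
        (hb.sh (i := j) (by omega) (by omega) dvd_rfl rfl).trans <| hb.ag h3 (by omega) (by omega) (by omega))
  omega

end Sys

end Crest.Agent.R287
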