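import Mathlib

/-!
# R287: connection plans.  `Con κ τ A O O' c`: starting from the connected set `O`, all of `O'` can be connected at cost `≤ c`
by attaching single components (cost `κ`) to connected ones and by connecting pairs (cost `τ`).
-/

set_option autoImplicit false
open Finset

namespace Crest.Agent.R287

inductive Con (κ τ : ℕ → ℕ → ℕ) (A : Finset ℕ) : Finset ℕ → Finset ℕ → ℤ → Prop
  | done {O O' : Finset ℕ} {c : ℤ} : O' ⊆ O → 0 ≤ c → Con κ τ A O O' c
  | single {O O' : Finset ℕ} {X Y : ℕ} {c c' : ℤ} : X ∈ A → Y ∈ A → Y ∈ O → Con κ τ A (insert X O) O' c →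
      (κ X Y : ℤ) + c ≤ c' → Con κ τ A O O' c'
  | pair {O O' : Finset ℕ} {X Y : ℕ} {c c' : ℤ} : X ∈ A → Y ∈ A → Con κ τ A (insert X (insert Y O)) O' c →
      (τ X Y : ℤ) + c ≤ c' → Con κ τ A O O' c'

variable {κ τ : ℕ → ℕ → ℕ} {A : Finset ℕ}

theorem Con.nonneg {O O' : Finset ℕ} {c : ℤ} (h : Con κ τ A O O' c) : 0 ≤ c := by
  induction h with
  | done _ h => exact h
  | single _ _ _ _ h ih => omega
  | pair _ _ _ h ih => omega

theorem Con.mono {O O' : Finset ℕ} {c : ℤ} (h : Con κ τ A O O' c) :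
    ∀ {O1 O1' : Finset ℕ} {c1 : ℤ}, O ⊆ O1 → O1' ⊆ O1 ∪ O' → c ≤ c1 → Con κ τ A O1 O1' c1 := by
  induction h with
  | done h h0 =>
    intro O1 O1' c1 h1 h2 h3
    exact .done (h2.trans (union_subset Subset.rfl (h.trans h1))) (h0.trans h3)
  | single hX hY hO _ hc ih =>
    intro O1 O1' c1 h1 h2 h3
    exact .single hX hY (h1 hO) (ih (insert_subset_insert _ h1)
      (h2.trans (union_subset_union (subset_insert _ _) Subset.rfl)) le_rfl) (hc.trans h3)
  | pair hX hY _ hc ih =>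
    intro O1 O1' c1 h1 h2 h3
    exact .pair hX hY (ih (insert_subset_insert _ (insert_subset_insert _ h1))
      (h2.trans (union_subset_union ((subset_insert _ _).trans (subset_insert _ _)) Subset.rfl)) le_rfl)
      (hc.trans h3)

theorem Con.trans {O O1 : Finset ℕ} {c1 : ℤ} (h : Con κ τ A O O1 c1) :
    ∀ {O2 : Finset ℕ} {c2 : ℤ}, Con κ τ A (O ∪ O1) O2 c2 → Con κ τ A O (O1 ∪ O2) (c1 + c2) := by
  induction h with
  | done h h0 =>
    intro O2 c2 h2
    exact h2.mono (union_subset Subset.rfl h) (union_subset_union h Subset.rfl) (by omega)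
  | single hX hY hO _ hc ih =>
    intro O2 c2 h2
    exact .single hX hY hO (ih (h2.mono (union_subset_union (subset_insert _ _) Subset.rfl)
      subset_union_right le_rfl)) (by omega)
  | pair hX hY _ hc ih =>
    intro O2 c2 h2
    exact .pair hX hY (ih (h2.mono (union_subset_union ((subset_insert _ _).trans (subset_insert _ _))
      Subset.rfl) subset_union_right le_rfl)) (by omega)

/-- flexible form of transitivity -/
theorem Con.trans' {O O1 O2 O3 O4 : Finset ℕ} {c1 c2 c : ℤ} (h : Con κ τ A O O1 c1)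
    (h2 : Con κ τ A O2 O3 c2) (h3 : O2 ⊆ O ∪ O1) (h4 : O4 ⊆ O ∪ (O1 ∪ O3)) (hc : c1 + c2 ≤ c) :
    Con κ τ A O O4 c :=
  (h.trans (h2.mono h3 subset_union_right le_rfl)).mono Subset.rfl h4 hc

theorem Con.one {O : Finset ℕ} {X Y : ℕ} {c : ℤ} (hX : X ∈ A) (hY : Y ∈ A) (hO : Y ∈ O)
    (hc : (κ X Y : ℤ) ≤ c) : Con κ τ A O {X} c :=
  .single hX hY hO (.done (c := 0) (by simp) le_rfl) (by omega)

theorem Con.two {O : Finset ℕ} {X Y : ℕ} {c : ℤ} (hX : X ∈ A) (hY : Y ∈ A)
    (hc : (τ X Y : ℤ) ≤ c) : Con κ τ A O {X, Y} c :=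
  .pair hX hY (.done (c := 0) (by intro x; simp; tauto) le_rfl) (by omega)

theorem Con.swap {O O' : Finset ℕ} {c : ℤ} (h : Con κ τ A O O' c) :
    Con κ (fun X Y => τ Y X) A O O' c := by
  induction h with
  | done h h0 => exact .done h h0
  | single hX hY hO _ hc ih => exact .single hX hY hO ih hc
  | pair hX hY _ hc ih => exact .pair hY hX (by rw [Finset.insert_comm]; exact ih) hc

end Crest.Agent.R287
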