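import Crest.Agent.R287.Seq

/-!
# R287: cycles of arcs — rotation, removal, nonnegativity

PLAN. `al_add`: induction on `i`.  `rot`: `al (rot z j) i = al z (i+j) - al z j` by induction.  Injectivity of `rot`/`cut`: reduce indices mod `r`
(`IsCyc.mod`).  `cut_al`: for `h ≤ i + r - j`, `al (cut) h = al z (j+h) - al z j`; the last arc goes from `z (i+r) = z i` to `z j`.
`exists_FF`: otherwise for each `i ∈ [1,r]` arc `i → i+1` is of type A or arc `i-1 → i` is of type D (and by periodicity for all `i ≥ 1`).  If some arc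
`i-1 → i` is not D then all later arcs are A (an A arc is not D, `arcA`), so `c (z ·)` increases strictly forever, contradicting periodicity; otherwise all arcs are D
and `c (z ·)` decreases strictly.  `delta_nonneg`, `lemmaM`: strong induction on `r` (generalizing `z`), `r = 1` by `greedy`; otherwise remove an `FF`
index `i` with `cut z r (i-1) (i+1)` and `Chain.drop_nonneg`.  In `lemmaM` rotate so that things are easy: if the marked arc does not touch `i` it survives in the cut cycle;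
if it is `i-1 → i` or `i → i+1`, mark the new chord: `δ' + ov(chord) = δ + be (i-1) - al (i+1) ≤ δ + ov(marked)`.
-/

set_option autoImplicit false
open Finset

namespace Crest.Agent.R287

namespace Sys

variable {S : Sys} {z : ℕ → S.E}

variable {r : ℕ}

private theorem IsCyc.per_mul (h : S.IsCyc z r) (i k : ℕ) : z (i + r * k) = z i := by
  induction k with
  | zero => simp
  | succ k ih => rw [Nat.mul_succ, ← Nat.add_assoc, h.per, ih]

theorem IsCyc.mod (h : S.IsCyc z r) (i : ℕ) : z (i % r) = z i := by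
  rw [← h.per_mul (i % r) (i / r), Nat.mod_add_div]

theorem IsCyc.eq_iff (h : S.IsCyc z r) (i j : ℕ) : z i = z j ↔ i % r = j % r := by
  constructor
  · intro e
    exact h.inj _ _ (Nat.mod_lt _ h.pos) (Nat.mod_lt _ h.pos) (by rw [h.mod, h.mod, e])
  · intro e
    rw [← h.mod i, e, h.mod]

theorem IsCyc.ne_of_lt (h : S.IsCyc z r) {i j : ℕ} (h1 : i < j) (h2 : j < i + r) : z i ≠ z j := by
  intro e
  have h3 : r ∣ j - i := (Nat.modEq_iff_dvd' h1.le).1 ((h.eq_iff i j).1 e)
  have h4 := Nat.le_of_dvd (by omega) h3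
  omega

theorem IsCyc.exists_rep (h : S.IsCyc z r) (j k : ℕ) : ∃ k', j ≤ k' ∧ k' < j + r ∧ z k' = z k := by
  induction j with
  | zero => exact ⟨k % r, Nat.zero_le _, by simpa using Nat.mod_lt _ h.pos, h.mod k⟩
  | succ j ih =>
    obtain ⟨k', h1, h2, h3⟩ := ih
    rcases h1.eq_or_lt with rfl | h4
    · exact ⟨j + r, by have := h.pos; omega, by omega, by rw [h.per, h3]⟩
    · exact ⟨k', h4, by omega, h3⟩

theorem cyc_al_succ (z : ℕ → S.E) (i : ℕ) : S.al z (i + 1) = S.al z i + S.c (z i) - S.ov (z i) (z (i + 1)) := rfl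

theorem IsCyc.al_add (h : S.IsCyc z r) (i : ℕ) : S.al z (i + r) = S.al z i + S.al z r := by
  induction i with
  | zero => simp [al]
  | succ i ih =>
    have e1 := h.per (i + 1)
    rw [show i + 1 + r = i + r + 1 by omega] at e1 ⊢
    rw [cyc_al_succ, cyc_al_succ, ih, e1, h.per]
    ring

theorem IsCyc.be_add (h : S.IsCyc z r) (i : ℕ) : S.be z (i + r) = S.be z i + S.al z r := by
  unfold be
  rw [h.al_add, h.per]
  ring

theorem IsCyc.cI_eq (h : S.IsCyc z r) (j : ℕ) : S.cI z j (j + r) = S.cI z 0 r := by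
  ext X
  simp only [cI, mem_image, mem_Ico]
  constructor
  · rintro ⟨k, -, rfl⟩
    obtain ⟨k', h1, h2, h3⟩ := h.exists_rep 0 k
    exact ⟨k', ⟨h1, by omega⟩, by unfold cp; rw [h3]⟩
  · rintro ⟨k, -, rfl⟩
    obtain ⟨k', h1, h2, h3⟩ := h.exists_rep j k
    exact ⟨k', ⟨h1, h2⟩, by unfold cp; rw [h3]⟩

theorem IsCyc.cp_mem (h : S.IsCyc z r) (j : ℕ) : S.cp z j ∈ S.cI z 0 r := by
  obtain ⟨k', h1, h2, h3⟩ := h.exists_rep 0 j
  simp only [cI, mem_image, mem_Ico]
  exact ⟨k', ⟨h1, by omega⟩, by unfold cp; rw [h3]⟩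

theorem al_rot (j i : ℕ) : S.al (S.rot z j) i = S.al z (i + j) - S.al z j := by
  induction i with
  | zero => simp [al]
  | succ i ih =>
    rw [cyc_al_succ, ih, show i + 1 + j = i + j + 1 by omega, cyc_al_succ]
    unfold rot
    rw [show i + 1 + j = i + j + 1 by omega]
    ring

theorem be_rot (j i : ℕ) : S.be (S.rot z j) i = S.be z (i + j) - S.al z j := by
  unfold be
  rw [al_rot]
  unfold rot
  ring

theorem drop_rot (j i k : ℕ) : S.drop (S.rot z j) i k = S.drop z (i + j) (k + j) := by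
  unfold drop
  rw [be_rot, al_rot]
  unfold rot
  ring

theorem FF_rot (j : ℕ) {i : ℕ} (hi : 1 ≤ i) : S.FF (S.rot z j) i ↔ S.FF z (i + j) := by
  unfold FF
  rw [al_rot, al_rot, be_rot, be_rot, show i + 1 + j = i + j + 1 by omega, show i - 1 + j = i + j - 1 by omega]
  omega

theorem cI_rot (j a b : ℕ) : S.cI (S.rot z j) a b = S.cI z (a + j) (b + j) := by
  ext X
  simp only [cI, mem_image, mem_Ico]
  constructor
  · rintro ⟨k, hk, rfl⟩
    exact ⟨k + j, by omega, rfl⟩
  · rintro ⟨k, hk, rfl⟩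
    refine ⟨k - j, by omega, ?_⟩
    unfold cp rot
    rw [Nat.sub_add_cancel (by omega)]

theorem IsCyc.rot (h : S.IsCyc z r) (j : ℕ) : S.IsCyc (S.rot z j) r := by
  refine ⟨h.pos, fun i => ?_, fun a b ha hb e => ?_⟩
  · unfold Sys.rot
    rw [show i + r + j = i + j + r by omega, h.per]
  · by_contra hn
    rcases Nat.lt_or_gt_of_ne hn with h1 | h1
    · exact h.ne_of_lt (i := a + j) (j := b + j) (by omega) (by omega) e
    · exact h.ne_of_lt (i := b + j) (j := a + j) (by omega) (by omega) e.symm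

theorem IsCyc.PS_rot (h : S.IsCyc z r) (j : ℕ) (O : Finset ℕ) : S.PS (S.rot z j) O r ↔ S.PS z O r := by
  unfold PS
  rw [cI_rot, al_rot, zero_add, add_comm r j, h.cI_eq, h.al_add, add_sub_cancel_left]

theorem IsCyc.SF_rot (h : S.IsCyc z r) (j : ℕ) (O : Finset ℕ) :
    S.SF (S.rot z j) O 0 r ↔ S.SF z O 0 r := by
  constructor
  · rintro ⟨B, hB, h1⟩
    refine ⟨B, hB, fun k _ _ => ?_⟩
    obtain ⟨k', h2, h3, h4⟩ := h.exists_rep j k
    have h5 := h1 (k' - j) (Nat.zero_le _) (by omega)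
    unfold cp Sys.rot at h5
    rw [Nat.sub_add_cancel h2, h4] at h5
    exact h5
  · rintro ⟨B, hB, h1⟩
    refine ⟨B, hB, fun k _ _ => ?_⟩
    obtain ⟨k', h2, h3, h4⟩ := h.exists_rep 0 (k + j)
    have h5 := h1 k' h2 (by omega)
    unfold cp at h5
    rw [h4] at h5
    exact h5

theorem IsCyc.FU_rot (h : S.IsCyc z r) (j : ℕ) (O : Finset ℕ) (i : ℕ) :
    S.FU (S.rot z j) O i ↔ S.FU z O (i + j) := by
  refine and_congr Iff.rfl ⟨fun h1 k hk => ?_, fun h1 k hk => h1 (k + j) hk⟩
  obtain ⟨k', h2, h3, h4⟩ := h.exists_rep j k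
  have h5 := h1 (k' - j)
  unfold cp Sys.rot at h5
  rw [Nat.sub_add_cancel h2, h4] at h5
  exact h5 hk

theorem cut_lt {r i j k : ℕ} (hk : k < i + r + 1 - j) : S.cut z r i j k = z (j + k) := by
  unfold cut
  rw [Nat.mod_eq_of_lt hk]

theorem cut_last {r i j : ℕ} : S.cut z r i j (i + r + 1 - j) = z j := by
  unfold cut
  rw [Nat.mod_self, Nat.add_zero]

theorem cut_al_lt {r i j k : ℕ} (hk : k < i + r + 1 - j) : S.al (S.cut z r i j) k = S.al z (j + k) - S.al z j := by
  induction k with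
  | zero => simp [al]
  | succ k ih =>
    rw [cyc_al_succ, ih (by omega), cut_lt hk, cut_lt (by omega : k < _), ← Nat.add_assoc, cyc_al_succ]
    ring

theorem IsCyc.cut (h : S.IsCyc z r) {i j : ℕ} (h1 : i < j) (h2 : j ≤ i + r) :
    S.IsCyc (S.cut z r i j) (i + r + 1 - j) := by
  refine ⟨by omega, fun k => ?_, fun a b ha hb e => ?_⟩
  · unfold Sys.cut
    rw [Nat.add_mod_right]
  · rw [cut_lt ha, cut_lt hb] at e
    by_contra hn
    rcases Nat.lt_or_gt_of_ne hn with h3 | h3
    · exact h.ne_of_lt (i := j + a) (j := j + b) (by omega) (by omega) e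
    · exact h.ne_of_lt (i := j + b) (j := j + a) (by omega) (by omega) e.symm

theorem IsCyc.cut_al (h : S.IsCyc z r) {i j : ℕ} (h1 : i < j) (h2 : j ≤ i + r) :
    S.al (S.cut z r i j) (i + r + 1 - j) = S.al z r - S.drop z i j := by
  have e1 : i + r + 1 - j = (i + r - j) + 1 := by omega
  have e2 : S.cut z r i j (i + r - j + 1) = z j := by rw [← e1, cut_last]
  have e3 : j + (i + r - j) = i + r := by omega
  conv_lhs => rw [e1]
  rw [cyc_al_succ, e2, cut_al_lt (by omega), cut_lt (by omega), e3, h.per, h.al_add]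
  unfold drop be
  ring

theorem IsCyc.cut_cI (h : S.IsCyc z r) {i j : ℕ} (h1 : i < j) (h2 : j ≤ i + r) :
    S.cI (S.cut z r i j) 0 (i + r + 1 - j) = S.cI z j (i + r + 1) := by
  ext X
  simp only [cI, mem_image, mem_Ico]
  constructor
  · rintro ⟨k, hk, rfl⟩
    exact ⟨j + k, by omega, by unfold cp; rw [cut_lt hk.2]⟩
  · rintro ⟨k, hk, rfl⟩
    refine ⟨k - j, by omega, ?_⟩
    unfold cp
    rw [cut_lt (by omega), Nat.add_sub_cancel' hk.1]

theorem IsCyc.cut_SF (h : S.IsCyc z r) {i j : ℕ} (h1 : i < j) (h2 : j ≤ i + r) (O : Finset ℕ) :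
    S.SF (S.cut z r i j) O 0 (i + r + 1 - j) ↔ S.SF z O j (i + r) := by
  constructor
  · rintro ⟨B, hB, h3⟩
    refine ⟨B, hB, fun k hk1 hk2 => ?_⟩
    have h5 := h3 (k - j) (Nat.zero_le _) (by omega)
    unfold cp at h5
    rw [cut_lt (by omega), Nat.add_sub_cancel' hk1] at h5
    exact h5
  · rintro ⟨B, hB, h3⟩
    refine ⟨B, hB, fun k _ _ => ?_⟩
    have h4 : k % (i + r + 1 - j) < i + r + 1 - j := Nat.mod_lt _ (by omega)
    exact h3 (j + k % (i + r + 1 - j)) (by omega) (by omega)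

end Sys

end Crest.Agent.R287
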