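import Crest.Agent.R287.Cyc

/-!
# R287: cycles of arcs — existence of `FF` indices, nonnegativity of `δ`, short valleys, aligned shifts

PLAN. `exists_FF`: otherwise for each `i ∈ [1,r]` arc `i → i+1` is of type A (`al (i+1) < al i`) or arc `i-1 → i` is of type D (by periodicity, for all `i ≥ 1`).
If some arc `i-1 → i` is not D then all later arcs are A (an A arc is not D, `arcA`), so `c (z ·)` increases strictly forever, contradicting periodicity;
otherwise all arcs are D and `c (z ·)` decreases strictly.  `delta_nonneg`, `lemmaM`: strong induction on `r` (generalizing `z`); `r = 1` by `greedy`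
(resp. equality); otherwise remove an `FF` index `i` with `cut z r (i-1) (i+1)` and `Chain.drop_nonneg`.  In `lemmaM` reduce the marked arc to `j ∈ [i-1, i-1+r)`:
if `j ≥ i+1` it survives in the cut cycle (index `j-(i+1)`); if `j ∈ {i-1, i}` mark the new chord (index `r-2`):
`δ' + ov(chord) = δ + be (i-1) - al (i+1) ≤ δ + ov(marked)`.
`exists_q`: `align` gives one shift, adjust it by a multiple of the period into `(δ, δ+p]`; apply `ord` to `e = z j`, `f = z i`, `σ = al i + q - al j`.
First case: `j = i + r` and `q = δ`, absurd.  Second case: `k = σ + c f` is a proper overlap (`ov_max`, or `k < 0`), so `drop i j ≥ q > δ`, absurd by `drop_le`.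
-/

set_option autoImplicit false
open Finset

namespace Crest.Agent.R287

namespace Sys

variable {S : Sys} {z : ℕ → S.E}

variable {r : ℕ}

theorem IsCyc.exists_FF (h : S.IsCyc z r) : ∃ i, 1 ≤ i ∧ i ≤ r ∧ S.FF z i := by
  by_contra hn
  push Not at hn
  have hall : ∀ i, 1 ≤ i → ¬ S.FF z i := by
    intro i
    induction i using Nat.strong_induction_on with
    | _ i ih =>
      intro hi
      by_cases hir : i ≤ r
      · exact hn i hi hir
      · obtain ⟨k, rfl⟩ : ∃ k, i = k + r := ⟨i - r, by omega⟩
        have hr := h.pos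
        have h1 := ih k (by omega) (by omega)
        unfold FF at h1 ⊢
        rw [show k + r + 1 = k + 1 + r by omega, show k + r - 1 = k - 1 + r by omega, h.al_add, h.al_add,
          h.be_add, h.be_add]
        omega
  have hAD : ∀ k, S.al z (k + 1 + 1) < S.al z (k + 1) ∨ S.be z (k + 1) < S.be z k := by
    intro k
    have h1 := hall (k + 1) (by omega)
    unfold FF at h1
    rw [Nat.add_sub_cancel] at h1
    omega
  have hr := h.pos
  by_cases hD : ∀ k, S.be z (k + 1) < S.be z k
  · have h1 : ∀ n, S.c (z n) + n ≤ S.c (z 0) := by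
      intro n
      induction n with
      | zero => simp
      | succ n ih => have := (arcD (hD n)).2; omega
    have h2 := h1 r
    have h3 := h.per 0
    rw [zero_add] at h3
    rw [h3] at h2
    omega
  · push Not at hD
    obtain ⟨k, hk⟩ := hD
    have h0 : ∀ n, S.al z (k + 1 + n + 1) < S.al z (k + 1 + n) := by
      intro n
      induction n with
      | zero => have := hAD k; simp only [Nat.add_zero]; omega
      | succ n ih =>
        have h1 := (arcA ih).1
        have h2 := hAD (k + 1 + n)
        rw [← Nat.add_assoc]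
        omega
    have h1 : ∀ n, S.c (z (k + 1)) + n ≤ S.c (z (k + 1 + n)) := by
      intro n
      induction n with
      | zero => simp
      | succ n ih => have := (arcA (h0 n)).2; rw [← Nat.add_assoc (k + 1) n 1]; omega
    have h2 := h1 r
    rw [h.per] at h2
    omega

private theorem chain_one {i : ℕ} (hi : 1 ≤ i) (hF : S.FF z i) : S.Chain z (i - 1) (i + 1) := by
  intro k h1 h2
  obtain rfl : k = i := by omega
  exact hF

theorem IsCyc.delta_nonneg (h : S.IsCyc z r) : 0 ≤ S.al z r := by
  induction r using Nat.strong_induction_on generalizing z with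
  | _ r ih =>
    have hr := h.pos
    by_cases h1 : r = 1
    · subst h1
      have h2 := S.greedy (z 0) (z 0)
      have h3 := h.per 0
      rw [cyc_al_succ z 0, h3]
      simp only [al, max_self] at h2 ⊢
      omega
    · obtain ⟨i, hi1, -, hF⟩ := h.exists_FF
      have a1 : i - 1 < i + 1 := by omega
      have a2 : i + 1 ≤ i - 1 + r := by omega
      have h2 := ih _ (by omega) (h.cut a1 a2)
      rw [h.cut_al a1 a2] at h2
      have h3 := (chain_one hi1 hF).drop_nonneg (by omega)
      omega

theorem IsCyc.drop_le (h : S.IsCyc z r) {i j : ℕ} (h1 : i < j) (h2 : j ≤ i + r) :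
    S.drop z i j ≤ S.al z r := by
  have := (h.cut h1 h2).delta_nonneg
  rw [h.cut_al h1 h2] at this; omega

theorem IsCyc.lemmaM (h : S.IsCyc z r) (j : ℕ) :
    ∃ i, (S.c (z i) : ℤ) ≤ S.al z r + S.ov (z j) (z (j + 1)) := by
  induction r using Nat.strong_induction_on generalizing z j with
  | _ r ih =>
    have hr := h.pos
    by_cases h1 : r = 1
    · subst h1
      refine ⟨0, ?_⟩
      have e1 : z j = z 0 := (h.eq_iff _ _).2 (by omega)
      have e2 : z (j + 1) = z 0 := (h.eq_iff _ _).2 (by omega)
      have h3 := h.per 0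
      rw [cyc_al_succ z 0, h3, e1, e2]
      simp [al]
    · obtain ⟨i, hi1, -, hF⟩ := h.exists_FF
      have a1 : i - 1 < i + 1 := by omega
      have a2 : i + 1 ≤ i - 1 + r := by omega
      have h3 := (chain_one hi1 hF).drop_nonneg (by omega)
      obtain ⟨j', b1, b2, b3⟩ := h.exists_rep (i - 1) j
      have b4 : z (j' + 1) = z (j + 1) :=
        (h.eq_iff _ _).2 (Nat.ModEq.add_right 1 ((h.eq_iff _ _).1 b3))
      rw [← b3, ← b4]
      by_cases hj : i + 1 ≤ j'
      · obtain ⟨i', h2⟩ := ih _ (by omega) (h.cut a1 a2) (j' - (i + 1))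
        rw [h.cut_al a1 a2, cut_lt (k := j' - (i + 1)) (by omega), cut_lt (k := j' - (i + 1) + 1) (by omega),
          ← Nat.add_assoc, Nat.add_sub_cancel' hj] at h2
        exact ⟨_, h2.trans (by omega)⟩
      · obtain ⟨i', h2⟩ := ih _ (by omega) (h.cut a1 a2) (r - 2)
        have e1 : r - 2 + 1 = i - 1 + r + 1 - (i + 1) := by omega
        rw [h.cut_al a1 a2, e1, cut_last, cut_lt (k := r - 2) (by omega),
          show i + 1 + (r - 2) = i - 1 + r by omega, h.per] at h2
        refine ⟨_, h2.trans ?_⟩
        obtain ⟨f1, f2⟩ := hF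
        have k1 := k_eq (S := S) (z := z) j'
        unfold drop
        rcases (by omega : j' = i ∨ j' = i - 1) with e | e
        · subst e
          omega
        · have e' : j' + 1 = i := by omega
          rw [e'] at k1 ⊢
          rw [← e] at f2 ⊢
          omega

theorem IsCyc.exists_q (h : S.IsCyc z r) {i j : ℕ} (h1 : i < j) (h2 : j ≤ i + r)
    (hr : S.cp z i ≠ S.root) (he : S.cp z j = S.cp z i) :
    ∃ q, S.al z r < q ∧ q ≤ S.al z r + S.pp z i ∧ (∀ y, S.W z i y = S.W z j (y + q)) ∧
      S.al z j ≤ S.be z i - S.lt (z i) + q ∧ S.al z j + S.lh (z j) ≤ S.be z i + q := by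
  obtain ⟨σ0, hσ0⟩ := S.align (z i) (z j) hr he.symm
  obtain ⟨P, hP, hP1, hP2⟩ := exists_mult (pp_pos hr) (S.al z r - (S.al z j - S.al z i - σ0) + S.pp z i)
  set q := S.al z j - S.al z i - σ0 + P with hq
  have hW : ∀ y, S.W z i y = S.W z j (y + q) := by
    intro y
    rw [← W_dvd hr hP y]
    unfold W
    rw [hσ0]
    congr 1
    omega
  have hr' : S.comp (z j) ≠ S.root := fun e => hr (he.symm.trans e)
  have hσ : ∀ x, S.w (z i) x = S.w (z j) (x + (S.al z i + q - S.al z j)) := by
    intro x
    have := hW (x + S.al z i)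
    unfold W at this
    rw [add_sub_cancel_right] at this
    rw [this]
    congr 1
    omega
  have hd := h.drop_le h1 h2
  refine ⟨q, by omega, by omega, hW, ?_⟩
  rcases S.ord (z j) (z i) _ hr' hr hσ with ⟨e1, e2⟩ | ⟨e1, e2⟩ | ⟨e1, e2⟩
  · exfalso
    rcases h2.eq_or_lt with e | e
    · rw [e, h.al_add] at e2
      omega
    · exact h.ne_of_lt h1 e e1.symm
  · exfalso
    have c1 := S.c_lt (z i) hr
    have c2 := S.c_lt (z j) hr'
    have hk : S.al z i + q - S.al z j + S.c (z i) ≤ S.ov (z i) (z j) := by
      by_cases h0 : S.al z i + q - S.al z j + S.c (z i) ≤ 0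
      · omega
      · obtain ⟨k, hk⟩ := Int.eq_ofNat_of_zero_le (a := S.al z i + q - S.al z j + S.c (z i)) (by omega)
        have := S.ov_max (z i) (z j) k (by omega) (by omega) fun x _ _ => by
          rw [hσ]
          congr 1
          omega
        omega
    unfold drop be at hd
    omega
  · unfold be
    omega

end Sys

end Crest.Agent.R287
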