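import Crest.Agent.R287.FDef

/-!
# R287: plans, matchings and assignments

PLAN. `con_to_pm`: induction on `Con`.  done: `S = ∅`, `μ = id`, `pot_eq_zero`.  single: `pot_insert_le`.  pair: if `X ≠ Y` are both new, add the edge (`link μ X Y`, `X, Y ∉ S`); otherwise use `pot_insert_le` with `ρ` and `FPre.kt`.
`exists_asg`: for `u ∈ U` let `h u` be the least `t` such that not (`Ld t u` and no `s ∈ S` is `Cn t`-connected to `u`) (`Nat.find`, exists by `not_Ld_top`; the property is antitone in `t`).  If `¬ Ld (h u) u` put `a u = u` (`dth u = h u`).  Otherwise choose `s ∈ S`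
connected to `u` at level `h u` and let `a u = s` if `h u = 0`, else the leader of `s` at level `h u - 1` (`exists_Ld`); `a u ≠ u`, so `¬ Ld (h u) (a u)` (`Ld.unique`) and `dth (a u) = h u`.  Injective: two of the second kind with the same image have the same `h` and lead the same
cluster; if `a u = u'` with `u'` of the first kind then `h u' = h u` and the cluster of `u'` at level `h u - 1` meets `S` (or `u' = s ∈ S`), absurd.  `∑ h u = ∑_u #{t < L | …} ≤ ∑_t cnt t S` (`Finset.sum_comm`, `Finset.card_eq_sum_ones`).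
`asg_ge`: `∑_u dth (a u) = ∑_{t<L} #{u | t < dth (a u)}`; for a leader `v` counted in `cnt t S` its cluster `Kl ⊆ U` contains a `u` with `t < dth (a u)` (else `a` injects `Kl` into `Kl.erase v`); different leaders give different `u`.
-/

set_option autoImplicit false
open Crest.Agent.PTime

namespace Crest.Agent.R287

variable {Al : List ℕ} {K T : List (ℕ × List (ℕ × ℕ))} {ρ L : ℕ}

theorem PM.link_insert {S : Finset ℕ} {μ : ℕ → ℕ} (hμ : PM S μ) {u v : ℕ} (hu : u ∉ S) (hv : v ∉ S)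
    (huv : u ≠ v) : PM (insert u (insert v S)) (link μ u v) := by
  have hu' : μ u = u := by
    by_contra e
    exact hu ((hμ.iff u).1 e)
  have hv' : μ v = v := by
    by_contra e
    exact hv ((hμ.iff v).1 e)
  have hinj : ∀ x y, μ x = y → x = μ y := fun x y e => by rw [← e, hμ.inv]
  refine ⟨fun x => ?_, fun x => ?_⟩
  · by_cases h1 : x = u
    · subst h1; simp [link, huv.symm]
    · by_cases h2 : x = v
      · subst h2; simp [link, h1]
      · have h3 : μ x ≠ u := fun e => h1 (by rw [hinj _ _ e, hu'])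
        have h4 : μ x ≠ v := fun e => h2 (by rw [hinj _ _ e, hv'])
        simp [link, h1, h2, h3, h4, hμ.inv]
  · by_cases h1 : x = u
    · subst h1; simp [link, huv.symm]
    · by_cases h2 : x = v
      · subst h2; simp [link, h1, huv]
      · simp only [link, h1, h2, if_false]
        rw [hμ.iff]
        simp [h1, h2]

theorem cost_link_insert (c : ℕ → ℕ → ℕ) {S : Finset ℕ} (μ : ℕ → ℕ) {u v : ℕ} (hu : u ∉ S)
    (hv : v ∉ S) (huv : u ≠ v) :
    cost c (insert u (insert v S)) (link μ u v) = c u v + c v u + cost c S μ := by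
  unfold cost
  rw [Finset.sum_insert (by simp [hu, huv]), Finset.sum_insert hv, add_assoc]
  congr 1
  · simp [link]
  congr 1
  · simp [link, huv.symm]
  refine Finset.sum_congr rfl fun x hx => ?_
  have h1 : x ≠ u := fun e => hu (e ▸ hx)
  have h2 : x ≠ v := fun e => hv (e ▸ hx)
  simp [link, h1, h2]

theorem con_to_pm (h : FPre Al ρ K T L) {O O' : Finset ℕ} {c : ℤ}
    (hc : Con (cst K) (cst T) Al.toFinset O O' c) (hO' : Al.toFinset ⊆ O') (hρ : ρ ∈ O) :
    ∃ (S : Finset ℕ) (μ : ℕ → ℕ), S ⊆ Al.toFinset \ O ∧ PM S μ ∧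
      ((cost (tm T) S μ : ℤ) + 2 * pot Al K ρ L (O ∪ S)) ≤ 2 * c := by
  induction hc with
  | done h1 h2 =>
    refine ⟨∅, id, Finset.empty_subset _, ⟨fun _ => rfl, fun v => by simp⟩, ?_⟩
    rw [Finset.union_empty, pot_eq_zero (hO'.trans h1), cost, Finset.sum_empty]
    omega
  | @single O O' X Y c c' hX hY hYO _ hcc ih =>
    obtain ⟨S, μ, h1, h2, h3⟩ := ih hO' (Finset.mem_insert_of_mem hρ)
    refine ⟨S, μ, h1.trans (Finset.sdiff_subset_sdiff Finset.Subset.rfl (Finset.subset_insert _ _)),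
      h2, ?_⟩
    have h4 := pot_insert_le h (List.mem_toFinset.1 hX) (List.mem_toFinset.1 hY)
      (Finset.mem_union_left S hYO)
    rw [Finset.insert_union] at h3
    omega
  | @pair O O' X Y c c' hX hY _ hcc ih =>
    obtain ⟨S, μ, h1, h2, h3⟩ := ih hO' (Finset.mem_insert_of_mem (Finset.mem_insert_of_mem hρ))
    have hX' := List.mem_toFinset.1 hX
    have hY' := List.mem_toFinset.1 hY
    have hSO : S ⊆ Al.toFinset \ O := h1.trans (Finset.sdiff_subset_sdiff Finset.Subset.rfl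
      ((Finset.subset_insert _ _).trans (Finset.subset_insert _ _)))
    by_cases hn : X ≠ Y ∧ X ∉ O ∧ Y ∉ O
    · have hXS : X ∉ S := fun e => (Finset.mem_sdiff.1 (h1 e)).2 (by simp)
      have hYS : Y ∉ S := fun e => (Finset.mem_sdiff.1 (h1 e)).2 (by simp)
      refine ⟨insert X (insert Y S), link μ X Y, Finset.insert_subset (Finset.mem_sdiff.2 ⟨hX, hn.2.1⟩)
        (Finset.insert_subset (Finset.mem_sdiff.2 ⟨hY, hn.2.2⟩) hSO), h2.link_insert hXS hYS hn.1, ?_⟩
      rw [cost_link_insert _ _ hXS hYS hn.1, Finset.union_insert, Finset.union_insert]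
      rw [Finset.insert_union, Finset.insert_union] at h3
      have a1 : tm T X Y ≤ cst T X Y := min_le_left _ _
      have a2 : tm T Y X ≤ cst T X Y := min_le_right _ _
      omega
    · refine ⟨S, μ, hSO, h2, ?_⟩
      obtain ⟨k1, k2⟩ := h.kt X hX' Y hY'
      have hρ' : ρ ∈ O ∪ S := Finset.mem_union_left S hρ
      have p1 := pot_insert_le h hX' h.root hρ'
      have p2 := pot_insert_le h hY' h.root hρ'
      by_cases a1 : X = Y
      · subst a1
        rw [Finset.insert_idem, Finset.insert_union] at h3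
        omega
      by_cases a2 : X ∈ O
      · rw [Finset.insert_eq_of_mem (Finset.mem_insert_of_mem a2), Finset.insert_union] at h3
        omega
      · have a3 : Y ∈ O := by
          by_contra a3
          exact hn ⟨a1, a2, a3⟩
        rw [Finset.insert_eq_of_mem a3, Finset.insert_union] at h3
        omega

/-- the specification of the assignment -/
def AsgQ (Al : List ℕ) (K : List (ℕ × List (ℕ × ℕ))) (ρ L : ℕ) (S : Finset ℕ) (u v : ℕ) : Prop :=
  v ∈ Al.toFinset.erase ρ ∧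
    (∀ t < dth Al K ρ L v, Ld Al K ρ t u ∧ ∀ s ∈ S, ¬ Cn Al K t u s) ∧
    Cn Al K (dth Al K ρ L v) u v ∧
    (v = u ∨ (Ld Al K ρ (dth Al K ρ L v) u ∧
      (v ∈ S ∨ ∃ t < dth Al K ρ L v, ∃ s ∈ S, Cn Al K t v s)))

theorem exists_AsgQ (h : FPre Al ρ K T L) (S : Finset ℕ) (hS : S ⊆ Al.toFinset.erase ρ) {u : ℕ}
    (hu : u ∈ Al.toFinset.erase ρ \ S) : ∃ v, AsgQ Al K ρ L S u v := by
  classical
  obtain ⟨huN, huS⟩ := Finset.mem_sdiff.1 hu
  have hNA : ∀ x ∈ Al.toFinset.erase ρ, x ∈ Al := fun x hx =>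
    List.mem_toFinset.1 (Finset.mem_of_mem_erase hx)
  have hex : ∃ t, ¬ (Ld Al K ρ t u ∧ ∀ s ∈ S, ¬ Cn Al K t u s) :=
    ⟨L, fun e => not_Ld_top h (hNA u huN) e.1⟩
  obtain ⟨k, h1, h2⟩ : ∃ k, ¬ (Ld Al K ρ k u ∧ ∀ s ∈ S, ¬ Cn Al K k u s) ∧
      ∀ t < k, Ld Al K ρ t u ∧ ∀ s ∈ S, ¬ Cn Al K t u s :=
    ⟨Nat.find hex, Nat.find_spec hex, fun t ht => not_not.1 (Nat.find_min hex ht)⟩
  by_cases hL : Ld Al K ρ k u
  · obtain ⟨s, hs, hus⟩ : ∃ s ∈ S, Cn Al K k u s := by
      by_contra hn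
      exact h1 ⟨hL, fun s hs e => hn ⟨s, hs, e⟩⟩
    rcases k with _ | k
    · have e : dth Al K ρ L s = 0 := by
        by_contra hn
        have := (lt_dth_iff h (hNA s (hS hs))).1 (Nat.pos_of_ne_zero hn)
        exact huS (hL.unique this hus ▸ hs)
      refine ⟨s, hS hs, ?_⟩
      rw [e]
      exact ⟨h2, hus, Or.inr ⟨hL, Or.inl hs⟩⟩
    · obtain ⟨v, hv, hsv, hLv⟩ := exists_Ld (K := K) (ρ := ρ) (t := k) (hNA s (hS hs)) fun e =>
        (hL ρ (Conn.trans hus (e.mono (Nat.le_succ k)))).1 rfl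
      have huv : Cn Al K (k + 1) u v := Conn.trans hus (hsv.mono (Nat.le_succ k))
      have hne : u ≠ v := fun e => (h2 k (Nat.lt_succ_self k)).2 s hs (e ▸ Conn.symm hsv)
      have e : dth Al K ρ L v = k + 1 := by
        have a1 := (lt_dth_iff h hv).2 hLv
        have a2 : ¬ k + 1 < dth Al K ρ L v := fun e =>
          hne (hL.unique ((lt_dth_iff h hv).1 e) huv)
        omega
      refine ⟨v, Finset.mem_erase.2 ⟨(hLv v Relation.ReflTransGen.refl).1, List.mem_toFinset.2 hv⟩, ?_⟩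
      rw [e]
      exact ⟨h2, huv, Or.inr ⟨hL, Or.inr ⟨k, Nat.lt_succ_self k, s, hs, Conn.symm hsv⟩⟩⟩
  · have e : dth Al K ρ L u = k := by
      have a1 : ¬ k < dth Al K ρ L u := fun e => hL ((lt_dth_iff h (hNA u huN)).1 e)
      have a2 : ¬ dth Al K ρ L u < k := fun e =>
        lt_irrefl _ ((lt_dth_iff h (hNA u huN)).2 (h2 _ e).1)
      omega
    refine ⟨u, huN, ?_⟩
    rw [e]
    exact ⟨h2, Relation.ReflTransGen.refl, Or.inl rfl⟩

theorem AsgQ.inj {S : Finset ℕ} {u u' v : ℕ} (hu : u ∉ S) (hu' : u' ∉ S) (h : AsgQ Al K ρ L S u v)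
    (h' : AsgQ Al K ρ L S u' v) : u = u' := by
  obtain ⟨-, a2, a3, a4⟩ := h
  obtain ⟨-, b2, b3, b4⟩ := h'
  rcases a4 with a4 | ⟨a4, a5⟩ <;> rcases b4 with b4 | ⟨b4, b5⟩
  · rw [← a4, b4]
  · subst a4
    rcases b5 with b5 | ⟨t, ht, s, hs, b5⟩
    · exact absurd b5 hu
    · exact absurd b5 ((a2 t ht).2 s hs)
  · subst b4
    rcases a5 with a5 | ⟨t, ht, s, hs, a5⟩
    · exact absurd a5 hu'
    · exact absurd a5 ((b2 t ht).2 s hs)
  · exact a4.unique b4 (Conn.trans a3 (Conn.symm b3))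

theorem sum_eq_sum_card (U : Finset ℕ) (d : ℕ → ℕ) (L : ℕ) (hd : ∀ u ∈ U, d u ≤ L) :
    ∑ u ∈ U, d u = ∑ t ∈ Finset.range L, (U.filter fun u => t < d u).card := by
  simp only [Finset.card_filter]
  rw [Finset.sum_comm]
  refine Finset.sum_congr rfl fun u hu => ?_
  rw [← Finset.card_filter]
  have : ((Finset.range L).filter fun t => t < d u) = Finset.range (d u) := by
    ext t
    have := hd u hu
    simp only [Finset.mem_filter, Finset.mem_range]
    omega
  rw [this, Finset.card_range]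

theorem exists_asg (h : FPre Al ρ K T L) (S : Finset ℕ) (hS : S ⊆ Al.toFinset.erase ρ) :
    ∃ a : ℕ → ℕ, Set.InjOn a (Al.toFinset.erase ρ \ S : Finset ℕ) ∧
      (∀ u ∈ Al.toFinset.erase ρ \ S, a u ∈ Al.toFinset.erase ρ ∧ Cn Al K (dth Al K ρ L (a u)) u (a u)) ∧
      ∑ u ∈ Al.toFinset.erase ρ \ S, dth Al K ρ L (a u) ≤ pot Al K ρ L S := by
  classical
  choose! a ha using fun u hu => exists_AsgQ h S hS (u := u) hu
  refine ⟨a, fun u hu u' hu' e => ?_, fun u hu => ⟨(ha u hu).1, (ha u hu).2.2.1⟩, ?_⟩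
  · exact (ha u hu).inj (Finset.mem_sdiff.1 hu).2 (Finset.mem_sdiff.1 hu').2 (e ▸ ha u' hu')
  · rw [sum_eq_sum_card _ _ L fun u _ => dth_le _, pot]
    refine Finset.sum_le_sum fun t _ => ?_
    unfold cnt
    refine Finset.card_le_card fun u hu => ?_
    obtain ⟨h1, h2⟩ := Finset.mem_filter.1 hu
    exact Finset.mem_filter.2 ⟨Finset.mem_of_mem_erase (Finset.mem_sdiff.1 h1).1, (ha u h1).2.1 t h2⟩

theorem asg_ge (h : FPre Al ρ K T L) (S : Finset ℕ) (a : ℕ → ℕ)
    (hi : Set.InjOn a (Al.toFinset.erase ρ \ S : Finset ℕ))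
    (ha : ∀ u ∈ Al.toFinset.erase ρ \ S, a u ∈ Al ∧ Cn Al K (dth Al K ρ L (a u)) u (a u)) :
    pot Al K ρ L S ≤ ∑ u ∈ Al.toFinset.erase ρ \ S, dth Al K ρ L (a u) := by
  classical
  rw [sum_eq_sum_card _ _ L fun u _ => dth_le _, pot]
  refine Finset.sum_le_sum fun t _ => ?_
  unfold cnt
  refine Finset.card_le_card_of_forall_subsingleton (fun v u => Cn Al K t v u) (fun v hv => ?_)
    fun u _ v hv v' hv' => ?_
  · obtain ⟨hvA, hL, hvS⟩ := Finset.mem_filter.1 hv
    by_contra hn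
    set Kl := Al.toFinset.filter fun u => Cn Al K t v u with hKl
    have hU : ∀ u ∈ Kl, u ∈ Al.toFinset.erase ρ \ S := fun u hu => by
      obtain ⟨h1, h2⟩ := Finset.mem_filter.1 hu
      exact Finset.mem_sdiff.2 ⟨Finset.mem_erase.2 ⟨(hL u h2).1, h1⟩, fun e => hvS u e h2⟩
    have hvK : v ∈ Kl := Finset.mem_filter.2 ⟨hvA, Relation.ReflTransGen.refl⟩
    have hmap : ∀ u ∈ Kl, a u ∈ Kl.erase v := fun u hu => by
      have h2 := (Finset.mem_filter.1 hu).2
      have h3 : dth Al K ρ L (a u) ≤ t := by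
        by_contra h3
        exact hn ⟨u, Finset.mem_filter.2 ⟨hU u hu, not_le.1 h3⟩, h2⟩
      refine Finset.mem_erase.2 ⟨fun e => ?_, Finset.mem_filter.2
        ⟨List.mem_toFinset.2 (ha u (hU u hu)).1, Conn.trans h2 ((ha u (hU u hu)).2.mono h3)⟩⟩
      have := (lt_dth_iff h (List.mem_toFinset.1 hvA)).2 hL
      rw [e] at h3
      omega
    have h4 := Finset.card_le_card_of_injOn a hmap fun u hu u' hu' e => hi (hU u hu) (hU u' hu') e
    have h5 := Finset.card_erase_add_one hvK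
    omega
  · exact (Finset.mem_filter.1 hv.1).2.1.unique (Finset.mem_filter.1 hv'.1).2.1
      (Conn.trans hv.2 (Conn.symm hv'.2))

end Crest.Agent.R287
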