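import Crest.Agent.R287.MDef
import Crest.Agent.R287.Bfs
import Crest.Agent.R287.Cnn

/-!
# R287: optimal connection plans — clusters of the threshold graphs of `κ`

`Al` lists all components, `ρ ∈ Al` is the root, `K` is the table of `κ ≤ L`.  At level `t` the components joined by edges of cost `≤ t` form clusters; `v` leads its cluster if the cluster avoids `ρ` and `v` is its minimum.
`pot S` counts, over the levels `t < L`, the clusters that avoid `ρ` and `S`: it is the cost of a cheapest forest joining everything to `S ∪ {ρ}`.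

PLAN. `Cn.mono`: `Relation.ReflTransGen.mono`.  `exists_Ld`: minimum of the finite set `{u ∈ Al | Cn t v u}`.  `lt_dth_iff`: `List.findIdx` on `List.range L` (`List.lt_findIdx_iff`/`findIdx_le_length`, `List.findIdx_getElem`) and `Ld.anti`.
`pot_insert_le`: for `t ≥ κ X Y` the counts agree (`X = Y` or adjacent at level `t`); for `t < κ X Y` at most one leader is connected to `X` (`Ld.unique`); sum over `t` (`Finset.sum_le_sum`, `Finset.sum_boole`/`card_filter`).
`pot_prim`: for `t < κ X Y` the cluster of `X` avoids `S` (a path from `X ∉ S` to `S` has a crossing edge of cost `≤ t`; use symmetry), so its leader is counted for `S` and not for `insert X S`.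
-/

set_option autoImplicit false
open Crest.Agent.PTime

namespace Crest.Agent.R287

def EL (Al : List ℕ) (K : List (ℕ × List (ℕ × ℕ))) (t : ℕ) : List (ℕ × ℕ) :=
  (prs Al Al).filter fun q => decide (cst K q.1 q.2 ≤ t)

def Cn (Al : List ℕ) (K : List (ℕ × List (ℕ × ℕ))) (t : ℕ) : ℕ → ℕ → Prop := Conn Al (EL Al K t)

def Ld (Al : List ℕ) (K : List (ℕ × List (ℕ × ℕ))) (ρ t v : ℕ) : Prop :=
  ∀ u, Cn Al K t v u → u ≠ ρ ∧ v ≤ u

open Classical in
noncomputable def cnt (Al : List ℕ) (K : List (ℕ × List (ℕ × ℕ))) (ρ t : ℕ) (S : Finset ℕ) : ℕ :=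
  (Al.toFinset.filter fun v => Ld Al K ρ t v ∧ ∀ s ∈ S, ¬ Cn Al K t v s).card

noncomputable def pot (Al : List ℕ) (K : List (ℕ × List (ℕ × ℕ))) (ρ L : ℕ) (S : Finset ℕ) : ℕ :=
  ∑ t ∈ Finset.range L, cnt Al K ρ t S

/-- first level at which `v` does not lead its cluster -/
noncomputable def dth (Al : List ℕ) (K : List (ℕ × List (ℕ × ℕ))) (ρ L v : ℕ) : ℕ :=
  (List.range L).findIdx fun t => (bfs Al (EL Al K t) v).any fun u => decide (u = ρ ∨ u < v)

def tm (T : List (ℕ × List (ℕ × ℕ))) (u v : ℕ) : ℕ := min (cst T u v) (cst T v u)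

structure FPre (Al : List ℕ) (ρ : ℕ) (K T : List (ℕ × List (ℕ × ℕ))) (L : ℕ) : Prop where
  nodup : Al.Nodup
  root : ρ ∈ Al
  symm : ∀ u ∈ Al, ∀ v ∈ Al, cst K u v = cst K v u
  kle : ∀ u ∈ Al, ∀ v ∈ Al, cst K u v ≤ L
  tle : ∀ u ∈ Al, ∀ v ∈ Al, cst T u v ≤ L
  kt : ∀ u ∈ Al, ∀ v ∈ Al, cst K u ρ ≤ cst T u v ∧ cst K v ρ ≤ cst T u v

/-- a plan: `(true, X, Y)` connects the new pair `X, Y`; `(false, X, Y)` attaches the new `X` to the connected `Y` -/
abbrev Plan := List (Bool × ℕ × ℕ)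

def Strict (A : Finset ℕ) : Finset ℕ → Plan → Prop
  | O, [] => A ⊆ O
  | O, (true, X, Y) :: l => X ∈ A ∧ Y ∈ A ∧ X ∉ O ∧ Y ∉ O ∧ X ≠ Y ∧ Strict A (insert X (insert Y O)) l
  | O, (false, X, Y) :: l => X ∈ A ∧ X ∉ O ∧ Y ∈ O ∧ Strict A (insert X O) l

def pcost (κ τ : ℕ → ℕ → ℕ) (l : Plan) : ℕ :=
  (l.map fun q => cond q.1 (τ q.2.1 q.2.2) (κ q.2.1 q.2.2)).sum

variable {Al : List ℕ} {K T : List (ℕ × List (ℕ × ℕ))} {ρ L t : ℕ}

theorem FDef.mem_EL {u v : ℕ} : (u, v) ∈ EL Al K t ↔ u ∈ Al ∧ v ∈ Al ∧ cst K u v ≤ t := by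
  simp [EL, mem_prs, and_assoc]

theorem adj_EL (h : FPre Al ρ K T L) {u v : ℕ} (hu : u ∈ Al) (hv : v ∈ Al) :
    Adj (EL Al K t) u v ↔ u ≠ v ∧ cst K u v ≤ t := by
  unfold Adj
  rw [FDef.mem_EL, FDef.mem_EL, h.symm v hv u hu]
  simp [hu, hv]

theorem Cn.mono {t' u v : ℕ} (h : Cn Al K t u v) (ht : t ≤ t') : Cn Al K t' u v := by
  induction h with
  | refl => exact Relation.ReflTransGen.refl
  | tail _ hxy ih =>
    refine Relation.ReflTransGen.tail ih ⟨hxy.1, hxy.2.1, hxy.2.2.1, ?_⟩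
    have := hxy.2.2.2
    rw [FDef.mem_EL, FDef.mem_EL] at this ⊢
    exact this.imp (fun a => ⟨a.1, a.2.1, a.2.2.trans ht⟩) fun a => ⟨a.1, a.2.1, a.2.2.trans ht⟩

theorem Ld.anti {t' v : ℕ} (h : Ld Al K ρ t' v) (ht : t ≤ t') : Ld Al K ρ t v := by
  exact fun u hu => h u (hu.mono ht)

theorem Ld.unique {u v : ℕ} (hu : Ld Al K ρ t u) (hv : Ld Al K ρ t v) (h : Cn Al K t u v) : u = v := by
  exact le_antisymm (hu v h).2 (hv u (Conn.symm h)).2

theorem exists_Ld {v : ℕ} (hv : v ∈ Al) (h : ¬ Cn Al K t v ρ) : ∃ u ∈ Al, Cn Al K t v u ∧ Ld Al K ρ t u := by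
  classical
  have he : ∃ u, Cn Al K t v u := ⟨v, Relation.ReflTransGen.refl⟩
  have h1 := Nat.find_spec he
  refine ⟨Nat.find he, Conn.mem h1 hv, h1, fun u hu => ?_⟩
  have h2 : Cn Al K t v u := Conn.trans h1 hu
  exact ⟨fun e => h (e ▸ h2), Nat.find_min' he h2⟩

theorem FDef.cn_of_le (h : FPre Al ρ K T L) {u v : ℕ} (hu : u ∈ Al) (hv : v ∈ Al) (hc : cst K u v ≤ t) :
    Cn Al K t u v := by
  by_cases e : u = v
  · subst e; exact Relation.ReflTransGen.refl
  · exact Relation.ReflTransGen.single ⟨hu, hv, (adj_EL h hu hv).2 ⟨e, hc⟩⟩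

theorem not_Ld_top (h : FPre Al ρ K T L) {v : ℕ} (hv : v ∈ Al) : ¬ Ld Al K ρ L v := by
  exact fun hl => (hl ρ (FDef.cn_of_le h hv h.root (h.kle v hv ρ h.root))).1 rfl

theorem dth_le (v : ℕ) : dth Al K ρ L v ≤ L := by
  exact List.findIdx_le_length.trans List.length_range.le

theorem lt_dth_iff (h : FPre Al ρ K T L) {v : ℕ} (hv : v ∈ Al) : t < dth Al K ρ L v ↔ Ld Al K ρ t v := by
  have key : ∀ s, ((bfs Al (EL Al K s) v).any fun u => decide (u = ρ ∨ u < v)) = false ↔ Ld Al K ρ s v := by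
    intro s
    simp only [List.any_eq_false, mem_bfs hv, decide_eq_true_eq, not_or, not_lt]
    rfl
  unfold dth
  constructor
  · intro h1
    have := List.not_of_lt_findIdx h1
    rw [List.getElem_range] at this
    exact (key t).1 this
  · intro h1
    by_contra h2
    have h3 : t < L := by
      by_contra h4
      exact not_Ld_top h hv (h1.anti (not_lt.1 h4))
    have h4 := List.findIdx_getElem (xs := List.range L)
      (p := fun t => (bfs Al (EL Al K t) v).any fun u => decide (u = ρ ∨ u < v))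
      (w := by rw [List.length_range]; omega)
    rw [List.getElem_range, (key _).2 (h1.anti (not_lt.1 h2))] at h4
    exact Bool.false_ne_true h4

theorem pot_eq_zero {S : Finset ℕ} (h : Al.toFinset ⊆ S) : pot Al K ρ L S = 0 := by
  classical
  refine Finset.sum_eq_zero fun t _ => ?_
  unfold cnt
  rw [Finset.card_eq_zero, Finset.filter_eq_empty_iff]
  exact fun v hv h1 => h1.2 v (h hv) Relation.ReflTransGen.refl

theorem pot_insert_root (S : Finset ℕ) : pot Al K ρ L (insert ρ S) = pot Al K ρ L S := by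
  classical
  refine Finset.sum_congr rfl fun t _ => ?_
  unfold cnt
  refine congrArg Finset.card ?_
  refine Finset.filter_congr fun v _ => and_congr_right fun h1 => ?_
  rw [Finset.forall_mem_insert]
  exact and_iff_right fun h2 => (h1 ρ h2).1 rfl

theorem FDef.sum_ite (L k : ℕ) : ∑ t ∈ Finset.range L, (if t < k then 1 else 0) = min L k := by
  induction L with
  | zero => simp
  | succ L ih => rw [Finset.sum_range_succ, ih]; split_ifs <;> omega

theorem pot_insert_le (h : FPre Al ρ K T L) {S : Finset ℕ} {X Y : ℕ} (hX : X ∈ Al) (hY : Y ∈ Al)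
    (hS : Y ∈ S) : pot Al K ρ L S ≤ pot Al K ρ L (insert X S) + cst K X Y := by
  classical
  have key : ∀ t, cnt Al K ρ t S ≤ cnt Al K ρ t (insert X S) + if t < cst K X Y then 1 else 0 := by
    intro t
    unfold cnt
    split_ifs with ht
    · have h1 : (Al.toFinset.filter fun v => Ld Al K ρ t v ∧ Cn Al K t v X).card ≤ 1 := by
        rw [Finset.card_le_one]
        intro a ha b hb
        rw [Finset.mem_filter] at ha hb
        exact ha.2.1.unique hb.2.1 (Conn.trans ha.2.2 (Conn.symm hb.2.2))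
      refine le_trans (Finset.card_le_card ?_) ((Finset.card_union_le _ _).trans (Nat.add_le_add_left h1 _))
      intro v hv
      simp only [Finset.mem_filter, Finset.mem_union, Finset.forall_mem_insert] at hv ⊢
      tauto
    · rw [add_zero]
      refine Finset.card_le_card fun v hv => ?_
      simp only [Finset.mem_filter, Finset.forall_mem_insert] at hv ⊢
      exact ⟨hv.1, hv.2.1, fun h1 => hv.2.2 Y hS (Conn.trans h1 (FDef.cn_of_le h hX hY (not_lt.1 ht))),
        hv.2.2⟩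
  refine (Finset.sum_le_sum fun t _ => key t).trans ?_
  rw [Finset.sum_add_distrib, FDef.sum_ite]
  exact Nat.add_le_add_left (min_le_right _ _) _

theorem pot_prim (h : FPre Al ρ K T L) {S : Finset ℕ} {X Y : ℕ} (hX : X ∈ Al) (hY : Y ∈ Al) (hρ : ρ ∈ S)
    (hXS : X ∉ S) (hmin : ∀ x ∈ Al, ∀ y ∈ Al, x ∉ S → y ∈ S → cst K X Y ≤ cst K x y) :
    pot Al K ρ L (insert X S) + cst K X Y ≤ pot Al K ρ L S := by
  classical
  have key : ∀ t, cnt Al K ρ t (insert X S) + (if t < cst K X Y then 1 else 0) ≤ cnt Al K ρ t S := by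
    intro t
    have hsub : (Al.toFinset.filter fun v => Ld Al K ρ t v ∧ ∀ s ∈ insert X S, ¬ Cn Al K t v s) ⊆
        (Al.toFinset.filter fun v => Ld Al K ρ t v ∧ ∀ s ∈ S, ¬ Cn Al K t v s) := by
      intro v hv
      simp only [Finset.mem_filter, Finset.forall_mem_insert] at hv ⊢
      tauto
    unfold cnt
    split_ifs with ht
    · have h1 : ∀ s, Cn Al K t X s → s ∉ S := by
        intro s hs
        induction hs with
        | refl => exact hXS
        | tail _ h2 ih =>
          intro h3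
          have h4 := ((adj_EL h h2.1 h2.2.1).1 h2.2.2).2
          have h5 := hmin _ h2.1 _ h2.2.1 ih h3
          omega
      obtain ⟨u, hu, h2, h3⟩ := exists_Ld hX fun h2 => h1 ρ h2 hρ
      refine Finset.card_lt_card ⟨hsub, fun h4 => ?_⟩
      have h5 := h4 (Finset.mem_filter.2 ⟨List.mem_toFinset.2 hu, h3, fun s hs h5 =>
        h1 s (Conn.trans h2 h5) hs⟩)
      exact (Finset.mem_filter.1 h5).2.2 X (Finset.mem_insert_self _ _) (Conn.symm h2)
    · exact Finset.card_le_card hsub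
  refine le_trans ?_ (Finset.sum_le_sum fun t _ => key t)
  rw [Finset.sum_add_distrib, FDef.sum_ite, min_eq_right (h.kle X hX Y hY)]
  exact le_rfl

@[fun_prop] theorem PT.EL {α : Type} [Enc α] {Al : α → List ℕ} {K : α → List (ℕ × List (ℕ × ℕ))} {t : α → ℕ}
    (h1 : PT Al) (h2 : PT K) (h3 : PT t) : PT (fun a => EL (Al a) (K a) (t a)) := by
  unfold R287.EL; fun_prop

@[fun_prop] theorem PT.dth {α : Type} [Enc α] {Al : α → List ℕ} {K : α → List (ℕ × List (ℕ × ℕ))}
    {ρ L v : α → ℕ} (h1 : PT Al) (h2 : PT K) (h3 : PT ρ) (h4 : PT L) (h4' : PB L) (h5 : PT v) :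
    PT (fun a => dth (Al a) (K a) (ρ a) (L a) (v a)) := by
  unfold R287.dth; fun_prop

@[fun_prop] theorem PT.tm {α : Type} [Enc α] {T : α → List (ℕ × List (ℕ × ℕ))} {u v : α → ℕ}
    (h1 : PT T) (h2 : PT u) (h3 : PT v) : PT (fun a => tm (T a) (u a) (v a)) := by
  unfold R287.tm; fun_prop

end Crest.Agent.R287
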