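import Crest.Agent.R287.FAsg

/-!
# R287: the matching gadget.  Node `2u` is the component `u ≠ ρ`, node `2v+1` the absorber of `v ≠ ρ`.

PLAN. `gad_upper`: from `con_to_pm` (with `O = {ρ}`, `pot_insert_root`) and `exists_asg` build `ν`: `2u ↦ 2 μ u` on `S`, `2u ↔ 2 a u + 1` on `U`, and a perfect matching (`exists_PM`) of the unused absorbers (their number is `|S|`, even by `PM.even`).
It may be easiest to prove a gluing lemma first: `PM U₁ μ₁ → PM U₂ μ₂ → Disjoint U₁ U₂ → PM (U₁ ∪ U₂) (μ₁ ∘ μ₂)` with additive cost.  `gad_triv`: `2u ↔ 2u+1` (`x ↦ x ^^^ 1` or by parity), `dth_le`.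
`gad_lower`: no edge of `ν` has cost `big`; `S = {u | ν (2u) even}`, `a u = ν (2u) / 2`; split the sum over even and odd nodes, keep from the odd nodes only the partners of `U`, and use `asg_ge`.
-/

set_option autoImplicit false
open Crest.Agent.PTime

namespace Crest.Agent.R287

def nr (Al : List ℕ) (ρ : ℕ) : List ℕ := Al.filter fun v => v != ρ
def gV (Al : List ℕ) (ρ : ℕ) : List ℕ := (nr Al ρ).map (fun u => 2 * u) ++ (nr Al ρ).map fun u => 2 * u + 1
def big (Al : List ℕ) (L : ℕ) : ℕ := 2 * Al.length * L + L + 1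

noncomputable def gA (Al : List ℕ) (K : List (ℕ × List (ℕ × ℕ))) (ρ L u v : ℕ) : ℕ :=
  if v ∈ bfs Al (EL Al K (dth Al K ρ L v)) u then dth Al K ρ L v else big Al L

noncomputable def gc (Al : List ℕ) (K T : List (ℕ × List (ℕ × ℕ))) (ρ L x y : ℕ) : ℕ :=
  if x % 2 = 0 then (if y % 2 = 0 then tm T (x / 2) (y / 2) else gA Al K ρ L (x / 2) (y / 2))
  else (if y % 2 = 0 then gA Al K ρ L (y / 2) (x / 2) else 0)

/-- the components matched in pairs -/
def gS (Al : List ℕ) (ρ : ℕ) (ν : ℕ → ℕ) : List ℕ := (nr Al ρ).filter fun u => ν (2 * u) % 2 == 0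

variable {Al : List ℕ} {K T : List (ℕ × List (ℕ × ℕ))} {ρ L : ℕ}

theorem mem_nr {u : ℕ} : u ∈ nr Al ρ ↔ u ∈ Al ∧ u ≠ ρ := by simp [nr]

theorem mem_nr' {u : ℕ} : u ∈ nr Al ρ ↔ u ∈ Al.toFinset.erase ρ := by simp [nr, and_comm]

theorem mem_gV {x : ℕ} : x ∈ gV Al ρ ↔ x / 2 ∈ Al.toFinset.erase ρ := by
  rw [← mem_nr', gV, List.mem_append, List.mem_map, List.mem_map]
  constructor
  · rintro (⟨u, hu, rfl⟩ | ⟨u, hu, rfl⟩)
    · rwa [show 2 * u / 2 = u by omega]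
    · rwa [show (2 * u + 1) / 2 = u by omega]
  · intro h
    rcases Nat.mod_two_eq_zero_or_one x with e | e
    · exact Or.inl ⟨_, h, by omega⟩
    · exact Or.inr ⟨_, h, by omega⟩

theorem mem_gV_even {u : ℕ} : 2 * u ∈ (gV Al ρ).toFinset ↔ u ∈ Al.toFinset.erase ρ := by
  rw [List.mem_toFinset, mem_gV, show 2 * u / 2 = u by omega]

theorem mem_gV_odd {u : ℕ} : 2 * u + 1 ∈ (gV Al ρ).toFinset ↔ u ∈ Al.toFinset.erase ρ := by
  rw [List.mem_toFinset, mem_gV, show (2 * u + 1) / 2 = u by omega]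

theorem sum_gV (F : ℕ → ℕ) : ∑ x ∈ (gV Al ρ).toFinset, F x =
    ∑ u ∈ Al.toFinset.erase ρ, F (2 * u) + ∑ u ∈ Al.toFinset.erase ρ, F (2 * u + 1) := by
  have e : (gV Al ρ).toFinset = (Al.toFinset.erase ρ).image (fun u => 2 * u) ∪
      (Al.toFinset.erase ρ).image (fun u => 2 * u + 1) := by
    ext x
    rw [List.mem_toFinset, gV, List.mem_append, List.mem_map, List.mem_map, Finset.mem_union,
      Finset.mem_image, Finset.mem_image]
    simp only [mem_nr']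
  rw [e, Finset.sum_union, Finset.sum_image, Finset.sum_image]
  · intro x _ y _ h; dsimp only at h; omega
  · intro x _ y _ h; dsimp only at h; omega
  · rw [Finset.disjoint_left]
    intro x h1 h2
    obtain ⟨u, -, rfl⟩ := Finset.mem_image.1 h1
    obtain ⟨v, -, h⟩ := Finset.mem_image.1 h2
    omega

theorem gc_ee (u v : ℕ) : gc Al K T ρ L (2 * u) (2 * v) = tm T u v := by
  rw [gc, if_pos (by omega), if_pos (by omega), show 2 * u / 2 = u by omega,
    show 2 * v / 2 = v by omega]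

theorem gc_eo (u v : ℕ) : gc Al K T ρ L (2 * u) (2 * v + 1) = gA Al K ρ L u v := by
  rw [gc, if_pos (by omega), if_neg (by omega), show 2 * u / 2 = u by omega,
    show (2 * v + 1) / 2 = v by omega]

theorem gc_oe (u v : ℕ) : gc Al K T ρ L (2 * v + 1) (2 * u) = gA Al K ρ L u v := by
  rw [gc, if_neg (by omega), if_pos (by omega), show 2 * u / 2 = u by omega,
    show (2 * v + 1) / 2 = v by omega]

theorem gc_oo (u v : ℕ) : gc Al K T ρ L (2 * u + 1) (2 * v + 1) = 0 := by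
  rw [gc, if_neg (by omega), if_neg (by omega)]

theorem gA_of_Cn {u v : ℕ} (hu : u ∈ Al) (h : Cn Al K (dth Al K ρ L v) u v) :
    gA Al K ρ L u v = dth Al K ρ L v := if_pos ((mem_bfs hu v).2 h)

theorem Cn_of_gA {u v : ℕ} (hu : u ∈ Al) (h : gA Al K ρ L u v < big Al L) :
    Cn Al K (dth Al K ρ L v) u v := by
  refine (mem_bfs hu v).1 ?_
  by_contra hn
  rw [gA, if_neg hn] at h
  exact lt_irrefl _ h

theorem gV_nodup (h : Al.Nodup) : (gV Al ρ).Nodup := by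
  have h1 : (nr Al ρ).Nodup := h.filter _
  refine List.nodup_append.2 ⟨h1.map fun x y e => by omega,
    h1.map fun x y e => by omega, fun a ha b hb => ?_⟩
  obtain ⟨u, -, rfl⟩ := List.mem_map.1 ha
  obtain ⟨v, -, rfl⟩ := List.mem_map.1 hb
  omega

theorem gV_even : Even (gV Al ρ).length := by
  rw [gV, List.length_append, List.length_map, List.length_map]
  exact ⟨_, rfl⟩

theorem gc_symm (x y : ℕ) : gc Al K T ρ L x y = gc Al K T ρ L y x := by
  unfold gc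
  split_ifs
  · rw [tm, tm, min_comm]
  all_goals rfl

theorem gc_le (h : FPre Al ρ K T L) {x y : ℕ} (hx : x ∈ gV Al ρ) (hy : y ∈ gV Al ρ) :
    gc Al K T ρ L x y ≤ big Al L := by
  have h1 : L ≤ big Al L := by unfold big; omega
  have h2 : ∀ u v, gA Al K ρ L u v ≤ big Al L := fun u v => by
    unfold gA
    split_ifs
    · exact (dth_le v).trans h1
    · exact le_rfl
  unfold gc
  split_ifs
  · exact (min_le_left _ _).trans ((h.tle _ (mem_nr.1 (mem_nr'.2 (mem_gV.1 hx))).1 _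
      (mem_nr.1 (mem_nr'.2 (mem_gV.1 hy))).1).trans h1)
  · exact h2 _ _
  · exact h2 _ _
  · exact Nat.zero_le _

theorem gad_build {S : Finset ℕ} {μ a : ℕ → ℕ} (hS : S ⊆ Al.toFinset.erase ρ) (hμ : PM S μ)
    (hi : Set.InjOn a (Al.toFinset.erase ρ \ S : Finset ℕ))
    (ha : ∀ u ∈ Al.toFinset.erase ρ \ S,
      a u ∈ Al.toFinset.erase ρ ∧ Cn Al K (dth Al K ρ L (a u)) u (a u)) :
    ∃ ν, PM (gV Al ρ).toFinset ν ∧ cost (gc Al K T ρ L) (gV Al ρ).toFinset ν =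
      cost (tm T) S μ + 2 * ∑ u ∈ Al.toFinset.erase ρ \ S, dth Al K ρ L (a u) := by
  classical
  set N := Al.toFinset.erase ρ with hN
  set U := N \ S with hU
  have hI : U.image a ⊆ N := fun v hv => by
    obtain ⟨u, hu, rfl⟩ := Finset.mem_image.1 hv
    exact (ha u hu).1
  set B := N \ U.image a with hB
  have hBc : B.card = S.card := by
    have h1 := Finset.card_sdiff_add_card_eq_card hI
    have h2 := Finset.card_sdiff_add_card_eq_card hS
    have h3 := Finset.card_image_of_injOn hi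
    rw [← hB] at h1
    rw [← hU] at h2
    omega
  obtain ⟨β, hβ⟩ := exists_PM (U := B) (hBc ▸ hμ.even)
  let ν : ℕ → ℕ := fun x =>
    if x % 2 = 0 then
      (if x / 2 ∈ S then 2 * μ (x / 2) else if x / 2 ∈ U then 2 * a (x / 2) + 1 else x)
    else (if x / 2 ∈ B then 2 * β (x / 2) + 1 else
      if x / 2 ∈ U.image a then 2 * Function.invFunOn a U (x / 2) else x)
  have d1 : ∀ u, 2 * u / 2 = u := fun u => by omega
  have d2 : ∀ u, (2 * u + 1) / 2 = u := fun u => by omega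
  have d3 : ∀ u, 2 * u % 2 = 0 := fun u => by omega
  have d4 : ∀ u, ¬ (2 * u + 1) % 2 = 0 := fun u => by omega
  have e1 : ∀ u ∈ S, ν (2 * u) = 2 * μ u := fun u hu => by
    simp only [ν, d1, d3, if_true, if_pos hu]
  have e2 : ∀ u ∈ U, ν (2 * u) = 2 * a u + 1 := fun u hu => by
    simp only [ν, d1, d3, if_true, if_pos hu, if_neg (Finset.mem_sdiff.1 hu).2]
  have e3 : ∀ u ∉ N, ν (2 * u) = 2 * u := fun u hu => by
    simp only [ν, d1, d3, if_true, if_neg fun h => hu (hS h),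
      if_neg fun h : u ∈ U => hu (Finset.mem_sdiff.1 h).1]
  have o1 : ∀ v ∈ B, ν (2 * v + 1) = 2 * β v + 1 := fun v hv => by
    simp only [ν, d2, if_neg (d4 v), if_pos hv]
  have o2 : ∀ u ∈ U, ν (2 * a u + 1) = 2 * u := fun u hu => by
    have k1 : a u ∈ U.image a := Finset.mem_image_of_mem a hu
    have k2 : a u ∉ B := fun h => (Finset.mem_sdiff.1 h).2 k1
    simp only [ν, d2, if_neg (d4 (a u)), if_neg k2, if_pos k1]
    rw [hi.leftInvOn_invFunOn hu]
  have o3 : ∀ v ∉ N, ν (2 * v + 1) = 2 * v + 1 := fun v hv => by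
    simp only [ν, d2, if_neg (d4 v), if_neg fun h : v ∈ B => hv (Finset.mem_sdiff.1 h).1,
      if_neg fun h => hv (hI h)]
  have key : ∀ x, ν (ν x) = x ∧ (ν x ≠ x ↔ x ∈ (gV Al ρ).toFinset) := by
    intro x
    obtain ⟨u, rfl | rfl⟩ := Nat.even_or_odd' x
    · rw [mem_gV_even, ← hN]
      by_cases h1 : u ∈ N
      · by_cases h2 : u ∈ S
        · have := (hμ.iff u).2 h2
          rw [e1 u h2, e1 _ (hμ.mem h2), hμ.inv]
          exact ⟨rfl, iff_of_true (by omega) h1⟩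
        · have h3 : u ∈ U := Finset.mem_sdiff.2 ⟨h1, h2⟩
          rw [e2 u h3, o2 u h3]
          exact ⟨rfl, iff_of_true (by omega) h1⟩
      · rw [e3 u h1, e3 u h1]
        exact ⟨rfl, iff_of_false (fun h => h rfl) h1⟩
    · rw [mem_gV_odd, ← hN]
      by_cases h1 : u ∈ N
      · by_cases h2 : u ∈ U.image a
        · obtain ⟨w, hw, rfl⟩ := Finset.mem_image.1 h2
          rw [o2 w hw, e2 w hw]
          exact ⟨rfl, iff_of_true (by omega) h1⟩
        · have h3 : u ∈ B := Finset.mem_sdiff.2 ⟨h1, h2⟩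
          have := (hβ.iff u).2 h3
          rw [o1 u h3, o1 _ (hβ.mem h3), hβ.inv]
          exact ⟨rfl, iff_of_true (by omega) h1⟩
      · rw [o3 u h1, o3 u h1]
        exact ⟨rfl, iff_of_false (fun h => h rfl) h1⟩
  refine ⟨ν, ⟨fun x => (key x).1, fun x => (key x).2⟩, ?_⟩
  have hUA : ∀ u ∈ U, u ∈ Al := fun u hu =>
    List.mem_toFinset.1 (Finset.mem_of_mem_erase (Finset.mem_sdiff.1 hu).1)
  rw [cost, sum_gV, ← hN, ← Finset.sum_sdiff hS, ← Finset.sum_sdiff hI, ← hU, ← hB,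
    Finset.sum_image hi, cost]
  have s1 : ∑ u ∈ U, gc Al K T ρ L (2 * u) (ν (2 * u)) = ∑ u ∈ U, dth Al K ρ L (a u) :=
    Finset.sum_congr rfl fun u hu => by rw [e2 u hu, gc_eo, gA_of_Cn (hUA u hu) (ha u hu).2]
  have s2 : ∑ u ∈ S, gc Al K T ρ L (2 * u) (ν (2 * u)) = ∑ u ∈ S, tm T u (μ u) :=
    Finset.sum_congr rfl fun u hu => by rw [e1 u hu, gc_ee]
  have s3 : ∑ v ∈ B, gc Al K T ρ L (2 * v + 1) (ν (2 * v + 1)) = 0 :=
    Finset.sum_eq_zero fun v hv => by rw [o1 v hv, gc_oo]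
  have s4 : ∑ u ∈ U, gc Al K T ρ L (2 * a u + 1) (ν (2 * a u + 1)) = ∑ u ∈ U, dth Al K ρ L (a u) :=
    Finset.sum_congr rfl fun u hu => by rw [o2 u hu, gc_oe, gA_of_Cn (hUA u hu) (ha u hu).2]
  rw [s1, s2, s3, s4]
  ring

theorem gad_upper (h : FPre Al ρ K T L) {c : ℤ} (hc : Con (cst K) (cst T) Al.toFinset {ρ} Al.toFinset c) :
    ∃ ν, PM (gV Al ρ).toFinset ν ∧ (cost (gc Al K T ρ L) (gV Al ρ).toFinset ν : ℤ) ≤ 2 * c := by
  obtain ⟨S, μ, hS, hμ, h1⟩ := con_to_pm h hc Finset.Subset.rfl (Finset.mem_singleton_self ρ)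
  rw [Finset.sdiff_singleton_eq_erase] at hS
  rw [← Finset.insert_eq, pot_insert_root] at h1
  obtain ⟨a, hi, ha, h2⟩ := exists_asg h S hS
  obtain ⟨ν, hν, h3⟩ := gad_build (T := T) hS hμ hi ha
  exact ⟨ν, hν, by omega⟩

theorem gad_triv (h : FPre Al ρ K T L) :
    ∃ ν, PM (gV Al ρ).toFinset ν ∧ cost (gc Al K T ρ L) (gV Al ρ).toFinset ν < big Al L := by
  obtain ⟨ν, hν, h3⟩ := gad_build (Al := Al) (K := K) (T := T) (ρ := ρ) (L := L) (S := ∅) (μ := id)
    (a := id) (Finset.empty_subset _) ⟨fun _ => rfl, fun v => by simp⟩ (Set.injOn_id _)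
    fun u hu => ⟨(Finset.mem_sdiff.1 hu).1, Relation.ReflTransGen.refl⟩
  refine ⟨ν, hν, ?_⟩
  have h1 := Finset.sum_le_card_nsmul (Al.toFinset.erase ρ \ ∅) (fun u => dth Al K ρ L (id u)) L
    fun u _ => dth_le _
  have h2 : (Al.toFinset.erase ρ \ ∅).card ≤ Al.length :=
    (Finset.card_le_card (Finset.sdiff_subset.trans (Finset.erase_subset _ _))).trans
      (List.toFinset_card_le Al)
  have h4 := Nat.mul_le_mul_right L h2
  rw [smul_eq_mul] at h1
  rw [h3, cost, Finset.sum_empty, big, mul_assoc]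
  omega

theorem gad_lower (h : FPre Al ρ K T L) {ν : ℕ → ℕ} (hν : PM (gV Al ρ).toFinset ν)
    (hb : cost (gc Al K T ρ L) (gV Al ρ).toFinset ν < big Al L) :
    PM (gS Al ρ ν).toFinset (fun u => if u ∈ gS Al ρ ν then ν (2 * u) / 2 else u) ∧
      ∑ u ∈ (gS Al ρ ν).toFinset, tm T u (ν (2 * u) / 2) + 2 * pot Al K ρ L (gS Al ρ ν).toFinset ≤
        cost (gc Al K T ρ L) (gV Al ρ).toFinset ν := by
  set N := Al.toFinset.erase ρ with hN
  have hmem : ∀ u, u ∈ gS Al ρ ν ↔ u ∈ N ∧ ν (2 * u) % 2 = 0 := fun u => by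
    rw [gS, List.mem_filter, mem_nr', beq_iff_eq]
  set S := (gS Al ρ ν).toFinset with hSdef
  have hS : S ⊆ N := fun u hu => ((hmem u).1 (List.mem_toFinset.1 hu)).1
  have hN' : ∀ u ∈ N, ν (2 * u) / 2 ∈ N := fun u hu =>
    mem_gV.1 (List.mem_toFinset.1 (hν.mem (mem_gV_even.2 hu)))
  have e1 : ∀ u ∈ gS Al ρ ν, ν (2 * u) = 2 * (ν (2 * u) / 2) := fun u hu => by
    have := ((hmem u).1 hu).2
    omega
  have e1' : ∀ u ∈ gS Al ρ ν, ν (2 * (ν (2 * u) / 2)) = 2 * u := fun u hu => by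
    rw [← e1 u hu, hν.inv]
  have e1'' : ∀ u ∈ gS Al ρ ν, ν (2 * u) / 2 ∈ gS Al ρ ν := fun u hu =>
    (hmem _).2 ⟨hN' u ((hmem u).1 hu).1, by rw [e1' u hu]; omega⟩
  refine ⟨⟨fun u => ?_, fun u => ?_⟩, ?_⟩
  · by_cases hu : u ∈ gS Al ρ ν
    · rw [if_pos hu, if_pos (e1'' u hu), e1' u hu]; omega
    · rw [if_neg hu, if_neg hu]
  · rw [hSdef, List.mem_toFinset]
    by_cases hu : u ∈ gS Al ρ ν
    · have h1 := (hν.iff (2 * u)).2 (mem_gV_even.2 ((hmem u).1 hu).1)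
      have h2 := e1 u hu
      rw [if_pos hu]
      exact iff_of_true (by omega) hu
    · rw [if_neg hu]
      exact iff_of_false (fun h => h rfl) hu
  set U := N \ S with hU
  have e2 : ∀ u ∈ U, ν (2 * u) = 2 * (ν (2 * u) / 2) + 1 := fun u hu => by
    obtain ⟨h1, h2⟩ := Finset.mem_sdiff.1 hu
    have : ¬ ν (2 * u) % 2 = 0 := fun h3 => h2 (List.mem_toFinset.2 ((hmem u).2 ⟨h1, h3⟩))
    omega
  have o2 : ∀ u ∈ U, ν (2 * (ν (2 * u) / 2) + 1) = 2 * u := fun u hu => by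
    rw [← e2 u hu, hν.inv]
  have hi : Set.InjOn (fun u => ν (2 * u) / 2) U := fun u hu v hv e => by
    have h1 := o2 u hu
    have h2 := o2 v hv
    dsimp only at e
    rw [e] at h1
    omega
  have hNA : ∀ u ∈ N, u ∈ Al := fun u hu => List.mem_toFinset.1 (Finset.mem_of_mem_erase hu)
  have hCn : ∀ u ∈ U, Cn Al K (dth Al K ρ L (ν (2 * u) / 2)) u (ν (2 * u) / 2) := fun u hu => by
    have h1 := (Finset.mem_sdiff.1 hu).1
    refine Cn_of_gA (hNA u h1) (lt_of_le_of_lt ?_ hb)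
    rw [← gc_eo (T := T), ← e2 u hu]
    exact Finset.single_le_sum (f := fun x => gc Al K T ρ L x (ν x)) (fun _ _ => Nat.zero_le _)
      (mem_gV_even.2 h1)
  have h1 := asg_ge h S (fun u => ν (2 * u) / 2) hi fun u hu =>
    ⟨hNA _ (hN' u (Finset.mem_sdiff.1 hu).1), hCn u hu⟩
  have hI : U.image (fun u => ν (2 * u) / 2) ⊆ N := fun v hv => by
    obtain ⟨u, hu, rfl⟩ := Finset.mem_image.1 hv
    exact hN' u (Finset.mem_sdiff.1 hu).1
  rw [cost, sum_gV, ← hN, ← Finset.sum_sdiff hS, ← Finset.sum_sdiff hI, ← hU, Finset.sum_image hi]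
  have s1 : ∑ u ∈ U, gc Al K T ρ L (2 * u) (ν (2 * u)) = ∑ u ∈ U, dth Al K ρ L (ν (2 * u) / 2) :=
    Finset.sum_congr rfl fun u hu => by
      conv_lhs => rw [e2 u hu]
      rw [gc_eo, gA_of_Cn (hNA u (Finset.mem_sdiff.1 hu).1) (hCn u hu)]
  have s2 : ∑ u ∈ S, gc Al K T ρ L (2 * u) (ν (2 * u)) = ∑ u ∈ S, tm T u (ν (2 * u) / 2) :=
    Finset.sum_congr rfl fun u hu => by
      conv_lhs => rw [e1 u (List.mem_toFinset.1 hu)]
      rw [gc_ee]
  have s4 : ∑ u ∈ U, gc Al K T ρ L (2 * (ν (2 * u) / 2) + 1) (ν (2 * (ν (2 * u) / 2) + 1))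
      = ∑ u ∈ U, dth Al K ρ L (ν (2 * u) / 2) :=
    Finset.sum_congr rfl fun u hu => by
      rw [o2 u hu, gc_oe, gA_of_Cn (hNA u (Finset.mem_sdiff.1 hu).1) (hCn u hu)]
  rw [s1, s2, s4]
  rw [← hN, ← hU] at h1
  omega

end Crest.Agent.R287
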