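import Crest.Agent.R287.FDef

/-!
# R287: Prim's algorithm

PLAN. `exists_loop` with state `(O, l)` (`O` = list of connected components, `l` = plan so far), `Done` = `∀ x ∈ Al, x ∈ O`.  Step: among `(prs Al Al).filter (x ∉ O ∧ y ∈ O)` take (`find?`) a pair whose cost is `≤` all others; `O := x :: O`, `l := l ++ [(false,x,y)]`.
Invariant: `∀ l', Strict A O l' → Strict A O₀ (l ++ l')`, `pcost l + pot O ≤ pot O₀` (`pot_prim`), `ρ ∈ O`, sizes (`l.length ≤ Al.length`, entries from `Al`; potential = number of members of `Al` in `O`).  The parameters `ρ, T, L` are not inputs: put them existentially/universally into `Pre`/`Inv`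
(e.g. `Inv` quantifies `∀ ρ T L, FPre Al ρ K T L → ρ ∈ O₀ → …` and `Pre` says `∃ ρ ∈ Al, ρ ∈ O₀`).
-/

set_option autoImplicit false
open Crest.Agent.PTime

namespace Crest.Agent.R287

namespace FPrimA

def cur (O : List ℕ) (l : Plan) : List ℕ := O ++ l.map fun q => q.2.1

def cand (Al O : List ℕ) : List (ℕ × ℕ) := (prs Al Al).filter fun q => decide (¬ q.1 ∈ O ∧ q.2 ∈ O)

def best (Al : List ℕ) (K : List (ℕ × List (ℕ × ℕ))) (O : List ℕ) : Option (ℕ × ℕ) :=
  (cand Al O).find? fun q => (cand Al O).all fun q' => decide (cst K q.1 q.2 ≤ cst K q'.1 q'.2)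

@[fun_prop] theorem pt_cur {α : Type} [Enc α] {O : α → List ℕ} {l : α → Plan} (h1 : PT O) (h2 : PT l) :
    PT (fun a => cur (O a) (l a)) := by
  unfold cur; fun_prop

@[fun_prop] theorem pt_cand {α : Type} [Enc α] {Al O : α → List ℕ} (h1 : PT Al) (h2 : PT O) :
    PT (fun a => cand (Al a) (O a)) := by
  unfold cand; fun_prop

@[fun_prop] theorem pt_best {α : Type} [Enc α] {Al O : α → List ℕ} {K : α → List (ℕ × List (ℕ × ℕ))}
    (h1 : PT Al) (h2 : PT K) (h3 : PT O) : PT (fun a => best (Al a) (K a) (O a)) := by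
  unfold best; fun_prop

theorem mem_cand {Al O : List ℕ} {q : ℕ × ℕ} :
    q ∈ cand Al O ↔ (q.1 ∈ Al ∧ q.2 ∈ Al) ∧ q.1 ∉ O ∧ q.2 ∈ O := by
  simp [cand, mem_prs]

theorem best_none {Al O : List ℕ} {K : List (ℕ × List (ℕ × ℕ))} (h : best Al K O = none) :
    cand Al O = [] := by
  by_contra hne
  obtain ⟨q, hq, hm⟩ := Finset.exists_min_image (cand Al O).toFinset (fun q => cst K q.1 q.2)
    (by simpa using hne)
  refine List.find?_eq_none.1 h q (List.mem_toFinset.1 hq) ?_
  simp only [List.all_eq_true, decide_eq_true_eq]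
  exact fun q' hq' => hm q' (List.mem_toFinset.2 hq')

structure Inv (Al : List ℕ) (K : List (ℕ × List (ℕ × ℕ))) (O : List ℕ) (l : Plan) : Prop where
  nd : (l.map fun q => q.2.1).Nodup
  mem : ∀ q ∈ l, q.2.1 ∈ Al ∧ q.2.2 ∈ Al
  st : ∀ l', Strict Al.toFinset (cur O l).toFinset l' → Strict Al.toFinset O.toFinset (l ++ l')
  co : ∀ ρ T L, FPre Al ρ K T L → ρ ∈ O →
    pcost (cst K) (cst T) l + pot Al K ρ L (cur O l).toFinset ≤ pot Al K ρ L O.toFinset

theorem Inv.len {Al O : List ℕ} {K : List (ℕ × List (ℕ × ℕ))} {l : Plan} (h : Inv Al K O l) :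
    l.length ≤ Al.length := by
  have := (h.nd.subperm (l₂ := Al) fun x hx => by
    obtain ⟨q, hq, rfl⟩ := List.mem_map.1 hx
    exact (h.mem q hq).1).length_le
  rwa [List.length_map] at this

theorem Inv.step {Al O : List ℕ} {K : List (ℕ × List (ℕ × ℕ))} {l : Plan} (h : Inv Al K O l) {q : ℕ × ℕ}
    (hq : best Al K (cur O l) = some q) : Inv Al K O (l ++ [(false, q)]) := by
  obtain ⟨x, y⟩ := q
  obtain ⟨⟨h1, h2⟩, h3, h4⟩ := mem_cand.1 (List.mem_of_find?_eq_some hq)
  have h5 := List.find?_some hq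
  simp only [List.all_eq_true, decide_eq_true_eq] at h5
  have e : (cur O (l ++ [(false, x, y)])).toFinset = insert x (cur O l).toFinset := by
    ext v
    simp only [cur, List.map_append, List.mem_toFinset, List.mem_append, Finset.mem_insert, List.map_cons,
      List.map_nil, List.mem_singleton]
    tauto
  refine ⟨?_, fun q hq => ?_, fun l' hl' => ?_, fun ρ T L hp hρ => ?_⟩
  · rw [List.map_append, List.nodup_append]
    refine ⟨h.nd, List.nodup_singleton _, fun a ha b hb e => h3 ?_⟩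
    rw [List.map_singleton, List.mem_singleton] at hb
    exact List.mem_append_right _ (hb ▸ e ▸ ha)
  · rcases List.mem_append.1 hq with hq | hq
    · exact h.mem q hq
    · rw [List.mem_singleton.1 hq]
      exact ⟨h1, h2⟩
  · rw [List.append_assoc]
    refine h.st _ ⟨List.mem_toFinset.2 h1, fun h6 => h3 (List.mem_toFinset.1 h6), List.mem_toFinset.2 h4, ?_⟩
    rwa [e] at hl'
  · have h6 := pot_prim hp (S := (cur O l).toFinset) h1 h2
      (List.mem_toFinset.2 (List.mem_append_left _ hρ)) (fun h6 => h3 (List.mem_toFinset.1 h6))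
      fun a ha b hb h7 h8 => h5 (a, b) (mem_cand.2 ⟨⟨ha, hb⟩, fun h9 => h7 (List.mem_toFinset.2 h9),
        List.mem_toFinset.1 h8⟩)
    have h7 := h.co ρ T L hp hρ
    have h8 : pcost (cst K) (cst T) (l ++ [(false, x, y)]) = pcost (cst K) (cst T) l + cst K x y := by
      simp [pcost]
    rw [e, h8]
    simp only at h6
    omega

end FPrimA

open FPrimA in
theorem exists_prim : ∃ f : List ℕ × List (ℕ × List (ℕ × ℕ)) × List ℕ → Plan, PT f ∧
    ∀ (Al : List ℕ) (ρ : ℕ) (K T : List (ℕ × List (ℕ × ℕ))) (L : ℕ) (O : List ℕ), FPre Al ρ K T L → ρ ∈ O →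
      Strict Al.toFinset O.toFinset (f (Al, K, O)) ∧
        pcost (cst K) (cst T) (f (Al, K, O)) ≤ pot Al K ρ L O.toFinset := by
  refine (exists_loop (α := List ℕ × List (ℕ × List (ℕ × ℕ)) × List ℕ) (σ := Plan)
    (fun _ => True) (fun a l => Inv a.1 a.2.1 a.2.2 l)
    (fun a l => (best a.1 a.2.1 (cur a.2.2 l)).isNone = true) (fun _ => [])
    (fun a l => l ++ ((best a.1 a.2.1 (cur a.2.2 l)).map fun q => (false, q)).toList)
    (fun _ l => l.length) (fun a => a.1.length)
    (fun a => a.1.length * (2 * sz a.1 + 5 + 1) + 1) (by fun_prop) (by fun_prop) (by fun_prop)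
    (by fun_prop) (by fun_prop) ?_ ?_ (fun a s _ h => h.len) ?_).imp ?_
  · intro a _
    exact ⟨by simp, by simp, by simp [cur], by simp [cur, pcost]⟩
  · intro a l _ h hd
    obtain ⟨x, hx⟩ : ∃ x, best a.1 a.2.1 (cur a.2.2 l) = some x := by
      cases h' : best a.1 a.2.1 (cur a.2.2 l) with
      | none => simp [h'] at hd
      | some x => exact ⟨x, rfl⟩
    simp only [hx, Option.map_some, Option.toList_some]
    exact ⟨h.step hx, Or.inr (by simp)⟩
  · intro a l _ h
    have h1 := sz_list_le (l := l) (B := 2 * sz a.1 + 5) fun q hq => by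
      have h2 := sz_mem (h.mem q hq).1
      have h3 := sz_mem (h.mem q hq).2
      have h4 := sz_bool q.1
      rw [sz_prod, sz_prod]
      omega
    exact h1.trans (Nat.add_le_add_right (Nat.mul_le_mul_right _ h.len) 1)
  · rintro f ⟨hf, H⟩
    refine ⟨hf, fun Al ρ K T L O hp hρ => ?_⟩
    obtain ⟨h1, h2⟩ := H (Al, K, O) trivial
    have h3 := best_none (Option.isNone_iff_eq_none.1 h2)
    refine ⟨?_, le_trans (Nat.le_add_right _ _) (h1.co ρ T L hp hρ)⟩
    have h4 := h1.st [] fun x hx => by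
      by_contra h5
      have h6 : (x, ρ) ∈ cand Al (cur O (f (Al, K, O))) := mem_cand.2 ⟨⟨List.mem_toFinset.1 hx, hp.root⟩,
        fun h6 => h5 (List.mem_toFinset.2 h6), List.mem_append_left _ hρ⟩
      rw [h3] at h6
      exact List.not_mem_nil h6
    rwa [List.append_nil] at h4

end Crest.Agent.R287
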