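import Crest.Agent.R287.WUpd

/-!
# R287: minimum-cost perfect matching in polynomial time (costs bounded in unary by `U.length`)

PLAN. First `PT` lemmas (`@[fun_prop]`, `unfold …; fun_prop`) for `top, lab, Yc, elig, VH, EH, pick, port, base, expand, uni, AH, lead, newE, rem, upd` (for `rem`: `PT.foldl_bdd` or `PT.foldl` with `sz_sublist`;
`l.eraseP p = l.eraseIdx (l.findIdx p)`, `List.eraseP_eq_eraseIdx`-like, or prove it by induction).
Let `n = V.length`, `W = U.length`, `R = n*(n+1)*W + 1`, `C' = tab V fun u => tab V fun v => (n+1) * cst C u v + 2*R` (`cst_tab`).  `exists_loop` with state `Ω`, initially `V.flatMap fun v => List.replicate R ([v], [])`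
(`load = 2R`, empty matchings `mt [] = id`), invariant `WInv V C' R Ω`, `Done` = `(ge (VH V Ω) (EH V C' Ω)).1 = []`, step `upd`, potential `Ω.length`.  By `weak_dual` with some perfect matching (`exists_PM`)
`2 |Ω| ≤ n ((n+1) W + 2R)`, which bounds the potential and the size, and with `WInv.sing` gives `Cov` (`sing Ω v ≥ 1`, `List.countP_pos_iff`).
At the end `M0` is a perfect matching of the supernodes; output `tab V (expand V C' Ω M0 (VH V Ω) v0)` with `v0 = V.sum + 1 ∉ V`; `uni V Ω (VH V Ω)` has the same members as `V`; `inn ≤ |Ω|`.  So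
`cost C' μ ≤ 2|Ω| + n ≤ cost C' ν + n`, i.e. `(n+1) cost C μ ≤ (n+1) cost C ν + n`.
-/

set_option autoImplicit false
open Crest.Agent.PTime

namespace Crest.Agent.R287

namespace WMA

theorem eraseP_eq {β : Type} (p : β → Bool) (l : List β) : l.eraseP p = l.eraseIdx (l.findIdx p) := by
  induction l with
  | nil => rfl
  | cons a l ih =>
    rw [List.findIdx_cons, List.eraseP_cons]
    cases h : p a <;> simp [ih]

section PTs
variable {α : Type} [Enc α] {V D A Ss : α → List ℕ} {C : α → Ct} {Ω : α → List Ent} {u v S S' v0 : α → ℕ}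
  {m : α → Mt} {T : α → List (ℕ × Mt)}

@[fun_prop] theorem pt_top (hΩ : PT Ω) (hv : PT v) : PT (fun a => top (Ω a) (v a)) := by
  unfold top; fun_prop

@[fun_prop] theorem pt_lab (hΩ : PT Ω) (hv : PT v) : PT (fun a => lab (Ω a) (v a)) := by
  unfold lab; fun_prop

@[fun_prop] theorem pt_Yc (hΩ : PT Ω) (hv : PT v) : PT (fun a => Yc (Ω a) (v a)) := by
  unfold Yc; fun_prop

@[fun_prop] theorem pt_elig (hC : PT C) (hΩ : PT Ω) (hu : PT u) (hv : PT v) :
    PT (fun a => elig (C a) (Ω a) (u a) (v a)) := by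
  unfold elig; fun_prop

@[fun_prop] theorem pt_VH (hV : PT V) (hΩ : PT Ω) : PT (fun a => VH (V a) (Ω a)) := by
  unfold VH; fun_prop

@[fun_prop] theorem pt_EH (hV : PT V) (hC : PT C) (hΩ : PT Ω) : PT (fun a => EH (V a) (C a) (Ω a)) := by
  unfold EH; fun_prop

@[fun_prop] theorem pt_pick (hV : PT V) (hC : PT C) (hΩ : PT Ω) (hS : PT S) (hS' : PT S') :
    PT (fun a => pick (V a) (C a) (Ω a) (S a) (S' a)) := by
  unfold pick; fun_prop

@[fun_prop] theorem pt_port (hV : PT V) (hC : PT C) (hΩ : PT Ω) (hS : PT S) (hS' : PT S') :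
    PT (fun a => port (V a) (C a) (Ω a) (S a) (S' a)) := by
  unfold port; fun_prop

@[fun_prop] theorem pt_base (hV : PT V) (hC : PT C) (hΩ : PT Ω) (hm : PT m) (hv : PT v0) (hS : PT S) :
    PT (fun a => base (V a) (C a) (Ω a) (m a) (v0 a) (S a)) := by
  unfold base; fun_prop

@[fun_prop] theorem pt_expand (hV : PT V) (hC : PT C) (hΩ : PT Ω) (hm : PT m) (hS : PT Ss) (hv0 : PT v0)
    (hv : PT v) : PT (fun a => expand (V a) (C a) (Ω a) (m a) (Ss a) (v0 a) (v a)) := by
  unfold expand; fun_prop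

@[fun_prop] theorem pt_uni (hV : PT V) (hΩ : PT Ω) (hS : PT Ss) : PT (fun a => uni (V a) (Ω a) (Ss a)) := by
  unfold uni; fun_prop

@[fun_prop] theorem pt_AH (hV : PT V) (hC : PT C) (hΩ : PT Ω) (hD : PT D) :
    PT (fun a => AH (V a) (C a) (Ω a) (D a)) := by
  unfold AH; fun_prop

@[fun_prop] theorem pt_lead (hV : PT V) (hC : PT C) (hΩ : PT Ω) (hD : PT D) :
    PT (fun a => lead (V a) (C a) (Ω a) (D a)) := by
  unfold lead; fun_prop

@[fun_prop] theorem pt_newE (hV : PT V) (hC : PT C) (hΩ : PT Ω) (hD : PT D) (hT : PT T) (hv : PT v) :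
    PT (fun a => newE (V a) (C a) (Ω a) (D a) (T a) (v a)) := by
  unfold newE; fun_prop

@[fun_prop] theorem pt_rem (hΩ : PT Ω) (hA : PT A) : PT (fun a => rem (Ω a) (A a)) := by
  unfold rem
  refine PT.foldl_add (f := fun _ (s : List Ent) (b : ℕ) => s.eraseP fun W => decide (b ∈ W.1)) ?_ hΩ hA
    (PB.const 0) fun a s b _ => sz_sublist List.eraseP_sublist
  simp only [eraseP_eq]
  fun_prop

@[fun_prop] theorem pt_upd (hV : PT V) (hC : PT C) (hΩ : PT Ω) (hD : PT D) (hT : PT T) :
    PT (fun a => upd (V a) (C a) (Ω a) (D a) (T a)) := by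
  unfold upd; fun_prop

end PTs

/-- the radius -/
def RR (V : List ℕ) (U : List Unit) : ℕ := V.length * (V.length + 1) * U.length + 1

/-- the modified costs -/
def CC (V : List ℕ) (C : Ct) (U : List Unit) : Ct :=
  tab V fun u => tab V fun v => (V.length + 1) * cst C u v + 2 * RR V U

/-- the initial dual solution -/
def Om0 (V : List ℕ) (R : ℕ) : List Ent := V.flatMap fun v => List.replicate R ([v], [])

theorem cst_CC {V : List ℕ} {C : Ct} {U : List Unit} {u v : ℕ} (hu : u ∈ V) (hv : v ∈ V) :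
    cst (CC V C U) u v = (V.length + 1) * cst C u v + 2 * RR V U :=
  cst_tab V V (fun u v => (V.length + 1) * cst C u v + 2 * RR V U) hu hv

theorem sym_CC {V : List ℕ} {C : Ct} {U : List Unit} (h : Sym V C) : Sym V (CC V C U) := by
  intro u hu v hv
  rw [cst_CC hu hv, cst_CC hv hu, h u hu v hv]

theorem cost_CC {V : List ℕ} {C : Ct} {U : List Unit} (hV : V.Nodup) {ν : ℕ → ℕ} (hν : PM V.toFinset ν) :
    cost (cst (CC V C U)) V.toFinset ν
      = (V.length + 1) * cost (cst C) V.toFinset ν + V.length * (2 * RR V U) := by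
  unfold cost
  rw [Finset.sum_congr rfl fun v hv =>
    cst_CC (List.mem_toFinset.1 hv) (List.mem_toFinset.1 (hν.mem hv)), Finset.sum_add_distrib,
    Finset.mul_sum, Finset.sum_const, List.toFinset_card_of_nodup hV, smul_eq_mul]

theorem countP_Om0 (V : List ℕ) (R : ℕ) (p : Ent → Bool) :
    (Om0 V R).countP p = R * V.countP fun w => p ([w], []) := by
  unfold Om0
  induction V with
  | nil => simp
  | cons w V ih =>
    rw [List.flatMap_cons, List.countP_append, ih, List.countP_cons, List.countP_replicate]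
    split_ifs <;> ring

theorem length_Om0 (V : List ℕ) (R : ℕ) : (Om0 V R).length = V.length * R := by
  have := countP_Om0 V R fun _ => true
  simpa [mul_comm] using this

theorem mem_Om0 {V : List ℕ} {R : ℕ} {W : Ent} (h : W ∈ Om0 V R) : ∃ v ∈ V, W = ([v], []) := by
  obtain ⟨v, hv, h⟩ := List.mem_flatMap.1 h
  exact ⟨v, hv, List.eq_of_mem_replicate h⟩

theorem countP_two (V : List ℕ) (u v : ℕ) :
    (V.countP fun w => decide (u ∈ [w]) != decide (v ∈ [w])) ≤ V.count u + V.count v := by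
  induction V with
  | nil => simp
  | cons w V ih =>
    rw [List.countP_cons, List.count_cons, List.count_cons]
    have key : (if (decide (u ∈ [w]) != decide (v ∈ [w])) = true then 1 else 0) ≤
        (if (w == u) = true then 1 else 0) + (if (w == v) = true then 1 else 0) := by
      by_cases h1 : w = u
      · rw [if_pos (beq_iff_eq.2 h1)]; split_ifs <;> omega
      · by_cases h2 : w = v
        · rw [if_pos (beq_iff_eq.2 h2)]; split_ifs <;> omega
        · rw [if_neg]
          · exact Nat.zero_le _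
          · simp [Ne.symm h1, Ne.symm h2]
    omega

theorem inv_init {V : List ℕ} {C : Ct} {U : List Unit} (hV : V.Nodup) :
    WInv V (CC V C U) (RR V U) (Om0 V (RR V U)) := by
  refine ⟨fun W hW => ?_, fun W hW => ?_, ?_, fun u hu v hv _ => ?_, fun W hW => ?_, fun W hW => ?_,
    fun v hv => ?_, fun W hW => ?_⟩
  · obtain ⟨v, -, rfl⟩ := mem_Om0 hW
    simp
  · obtain ⟨v, hv, rfl⟩ := mem_Om0 hW
    simpa using hv
  · refine List.pairwise_of_forall_mem_list fun W hW W' hW' => ?_
    obtain ⟨v, -, rfl⟩ := mem_Om0 hW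
    obtain ⟨v', -, rfl⟩ := mem_Om0 hW'
    simpa using em _
  · rw [cst_CC hu hv, load, countP_Om0]
    have h1 := countP_two V u v
    have h2 := List.nodup_iff_count_le_one.1 hV u
    have h3 := List.nodup_iff_count_le_one.1 hV v
    have h4 := Nat.mul_le_mul_left (RR V U) (h1.trans (Nat.add_le_add h2 h3))
    exact h4.trans (by omega)
  · obtain ⟨v, -, rfl⟩ := mem_Om0 hW
    intro x hx
    rw [List.mem_singleton.1 hx]
    have : look ([] : List (ℕ × Mt)) v [] = [] := rfl
    simp only [this, mt_nil]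
    exact ⟨fun _ => rfl, fun y => by simp⟩
  · obtain ⟨v, -, rfl⟩ := mem_Om0 hW
    intro x hx
    rw [List.mem_singleton.1 hx]
    simp [cost]
  · rw [sing, countP_Om0, length_Om0]
    have h1 : 0 < V.countP fun w => decide ((([w], []) : Ent).1.toFinset = {v}) :=
      List.countP_pos_iff.2 ⟨v, hv, by simp⟩
    have h2 := Nat.mul_le_mul_left (RR V U) (Nat.succ_le_of_lt h1)
    omega
  · obtain ⟨v, hv, rfl⟩ := mem_Om0 hW
    have h1 := sz_mem hv
    have h2 : sz V + 1 ≤ (sz V + 1) ^ 3 := Nat.le_self_pow (by norm_num) _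
    simp only [sz_pair, sz_cons, sz_nil]
    omega

/-- the precondition -/
def Pre (V : List ℕ) (C : Ct) (U : List Unit) : Prop :=
  V.Nodup ∧ Even V.length ∧ Sym V C ∧ ∀ u ∈ V, ∀ v ∈ V, cst C u v ≤ U.length

theorem len_bound {V : List ℕ} {C : Ct} {U : List Unit} {Ω : List Ent} (hp : Pre V C U)
    (h : WInv V (CC V C U) (RR V U) Ω) :
    2 * Ω.length ≤ V.length * (V.length + 1) * U.length + V.length * (2 * RR V U) := by
  obtain ⟨hV, he, -, hb⟩ := hp
  obtain ⟨ν, hν⟩ := exists_PM (U := V.toFinset) (by rwa [List.toFinset_card_of_nodup hV])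
  refine (weak_dual h hν).trans ?_
  rw [cost_CC hV hν]
  have h1 : cost (cst C) V.toFinset ν ≤ V.length * U.length := by
    unfold cost
    refine (Finset.sum_le_card_nsmul _ _ U.length fun v hv =>
      hb _ (List.mem_toFinset.1 hv) _ (List.mem_toFinset.1 (hν.mem hv))).trans ?_
    rw [List.toFinset_card_of_nodup hV, smul_eq_mul]
  have h2 := Nat.mul_le_mul_left (V.length + 1) h1
  refine Nat.add_le_add_right (h2.trans (le_of_eq ?_)) _
  ring

theorem cov_of {V : List ℕ} {C : Ct} {U : List Unit} {Ω : List Ent} (hp : Pre V C U)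
    (h : WInv V (CC V C U) (RR V U) Ω) : Cov V Ω := by
  intro v hv
  have h1 := len_bound hp h
  have h2 := h.sing v hv
  have h3 : RR V U = V.length * (V.length + 1) * U.length + 1 := rfl
  have h4 : V.length * (2 * RR V U) = 2 * (V.length * RR V U) := by ring
  have h5 : 0 < sing Ω v := by omega
  obtain ⟨W, hW, h6⟩ := List.countP_pos_iff.1 h5
  exact ⟨W, hW, by simpa using h6⟩

theorem VH_nodup {V : List ℕ} (hV : V.Nodup) (Ω : List Ent) : (VH V Ω).Nodup := hV.filter _

theorem exists_dual : ∃ g : List ℕ × Ct × List Unit → List Ent, PT g ∧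
    ∀ a, Pre a.1 a.2.1 a.2.2 → WInv a.1 (CC a.1 a.2.1 a.2.2) (RR a.1 a.2.2) (g a) ∧
      (ge (VH a.1 (g a)) (EH a.1 (CC a.1 a.2.1 a.2.2) (g a))).1 = [] := by
  have hC : PT (fun a : List ℕ × Ct × List Unit => CC a.1 a.2.1 a.2.2) := by
    unfold CC RR; fun_prop
  have hC' : PT (fun p : (List ℕ × Ct × List Unit) × List Ent => CC p.1.1 p.1.2.1 p.1.2.2) :=
    hC.comp (g := Prod.fst) (by fun_prop)
  refine exists_loop (α := List ℕ × Ct × List Unit) (σ := List Ent) (fun a => Pre a.1 a.2.1 a.2.2)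
    (fun a s => WInv a.1 (CC a.1 a.2.1 a.2.2) (RR a.1 a.2.2) s)
    (fun a s => (ge (VH a.1 s) (EH a.1 (CC a.1 a.2.1 a.2.2) s)).1 = [])
    (fun a => Om0 a.1 (RR a.1 a.2.2))
    (fun a s => upd a.1 (CC a.1 a.2.1 a.2.2) s (ge (VH a.1 s) (EH a.1 (CC a.1 a.2.1 a.2.2) s)).1
      (ge (VH a.1 s) (EH a.1 (CC a.1 a.2.1 a.2.2) s)).2.1)
    (fun _ s => s.length)
    (fun a => a.1.length * (a.1.length + 1) * a.2.2.length + a.1.length * (2 * RR a.1 a.2.2))
    (fun a => (a.1.length * (a.1.length + 1) * a.2.2.length + a.1.length * (2 * RR a.1 a.2.2)) *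
      (10 * (sz a.1 + 1) ^ 3 + 1) + 1)
    (by unfold Om0 RR; fun_prop) ?_ ?_ (by unfold RR; fun_prop) (by unfold RR; fun_prop)
    (fun a ha => inv_init ha.1) ?_ ?_ ?_
  · have h1 := PT.ge (pt_VH (V := fun p : (List ℕ × Ct × List Unit) × List Ent => p.1.1)
      (Ω := fun p => p.2) (by fun_prop) (by fun_prop))
      (pt_EH (V := fun p => p.1.1) (Ω := fun p => p.2) (by fun_prop) hC' (by fun_prop))
    exact pt_upd (by fun_prop) hC' (by fun_prop) h1.fst h1.snd.fst
  · have h1 := PT.ge (pt_VH (V := fun p : (List ℕ × Ct × List Unit) × List Ent => p.1.1)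
      (Ω := fun p => p.2) (by fun_prop) (by fun_prop))
      (pt_EH (V := fun p => p.1.1) (Ω := fun p => p.2) (by fun_prop) hC' (by fun_prop))
    exact PT.eq h1.fst (PT.const _)
  · intro a s ha h hd
    obtain ⟨h1, h2⟩ := upd_inv ha.1 h (cov_of ha h) (sym_CC ha.2.2.1) (ge_spec _ (VH_nodup ha.1 s)) hd
    exact ⟨h1, Or.inr h2⟩
  · intro a s ha h
    have := len_bound ha h
    omega
  · intro a s ha h
    have h1 := len_bound ha h
    refine (sz_list_le h.small).trans (Nat.add_le_add_right (Nat.mul_le_mul_right _ ?_) 1)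
    omega

end WMA
open WMA

theorem exists_wm : ∃ f : List ℕ × Ct × List Unit → Mt, PT f ∧
    ∀ (V : List ℕ) (C : Ct) (U : List Unit), V.Nodup → Even V.length → Sym V C →
      (∀ u ∈ V, ∀ v ∈ V, cst C u v ≤ U.length) →
      PM V.toFinset (mt (f (V, C, U))) ∧ ∀ ν, PM V.toFinset ν →
        cost (cst C) V.toFinset (mt (f (V, C, U))) ≤ cost (cst C) V.toFinset ν := by
  obtain ⟨g, hg, hs⟩ := exists_dual
  have hC : PT (fun a : List ℕ × Ct × List Unit => CC a.1 a.2.1 a.2.2) := by
    unfold CC RR; fun_prop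
  refine ⟨fun a => tab a.1 (expand a.1 (CC a.1 a.2.1 a.2.2) (g a)
    (ge (VH a.1 (g a)) (EH a.1 (CC a.1 a.2.1 a.2.2) (g a))).2.2 (VH a.1 (g a)) (a.1.sum + 1)), ?_, ?_⟩
  · have h0 : PT (fun a : List ℕ × Ct × List Unit => VH a.1 (g a)) := pt_VH (by fun_prop) hg
    have h1 := (PT.ge h0 (pt_EH (V := fun a => a.1) (by fun_prop) hC hg)).snd.snd
    have hf : PT (Prod.fst : (List ℕ × Ct × List Unit) × ℕ → List ℕ × Ct × List Unit) := by fun_prop
    exact PT.tab (by fun_prop) (pt_expand (by fun_prop) (hC.comp hf) (hg.comp hf) (h1.comp hf)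
      (h0.comp hf) (by fun_prop) (by fun_prop))
  · intro V C U hV he hsym hb
    have hp : Pre V C U := ⟨hV, he, hsym, hb⟩
    obtain ⟨h, hD⟩ := hs (V, C, U) hp
    dsimp only at h hD ⊢
    set Ω := g (V, C, U)
    have hc := cov_of hp h
    have hge := ge_spec (EH V (CC V C U) Ω) (VH_nodup hV Ω)
    rw [hD] at hge
    set M0 := (ge (VH V Ω) (EH V (CC V C U) Ω)).2.2
    have hv0 : V.sum + 1 ∉ V := fun hm => by
      have := List.single_le_sum (l := V) (fun _ _ => Nat.zero_le _) _ hm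
      omega
    have hU : (uni V Ω (VH V Ω)).toFinset = V.toFinset := by
      ext x
      rw [List.mem_toFinset, List.mem_toFinset, mem_uni]
      exact ⟨fun hx => hx.1, fun hx => ⟨hx, lab_mem_VH h hc hx⟩⟩
    obtain ⟨h1, h2⟩ := expand_spec h hc (sym_CC hsym) M0 (VH V Ω) (V.sum + 1) (fun _ h => h)
      hge.m0.inv fun S hS _ => ⟨hge.m0.mem hS, fun hh => hv0 hh.1,
        (hge.m0.adj S fun e => by simpa using hge.m0fix S hS e).2⟩
    rw [hU, Finset.erase_eq_of_notMem (by simpa using hv0)] at h1 h2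
    rw [mt_tab_eq _ _ fun v hv => by
      by_contra hne
      exact hv (List.mem_toFinset.1 ((h1.iff v).1 hne))]
    refine ⟨h1, fun ν hν => ?_⟩
    have h3 := weak_dual h hν
    have h4 : inn Ω V.toFinset (V.sum + 1) ≤ Ω.length := List.countP_le_length
    rw [cost_CC hV hν] at h3
    rw [cost_CC hV h1, List.toFinset_card_of_nodup hV] at h2
    refine Nat.le_of_lt_succ (Nat.lt_of_mul_lt_mul_left (a := V.length + 1) ?_)
    rw [Nat.mul_succ]
    omega

end Crest.Agent.R287
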