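import Crest.Agent.R287.FGad
import Crest.Agent.R287.FPrim
import Crest.Agent.R287.WMain

/-!
# R287: an optimal connection plan in polynomial time

PLAN. `L = U.length`; `C = tab V fun x => tab V (gc Al K T ρ L x)` on `V = gV Al ρ` (`cst_tab`), `ν = mt (wm (V, C, List.replicate (big Al L) ()))` (`exists_wm`), `S = gS Al ρ ν`, `μ u = ν (2u) / 2`.
Pairs: `(S.filter (u < μ u)).map fun u => if cst T u (μ u) ≤ cst T (μ u) u then (true, u, μ u) else (true, μ u, u)`; then `prim (Al, K, ρ :: S)`.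
`strict_pairs`: for a nodup list `l` of representatives of different edges of a `PM`, the pair operations are strict and end in `O ∪ l ∪ μ l` (induction on `l` generalizing `O`).
`2 * pcost pairs = ∑_{u ∈ S} tm T u (μ u)` (split `S` into `u < μ u` and its image under `μ`; `tm` is symmetric).  Conclude with `gad_triv`, `gad_lower`, `gad_upper`, `pot_insert_root`.
-/

set_option autoImplicit false
open Crest.Agent.PTime

namespace Crest.Agent.R287

namespace FMA

/-- the pair operation for the edge `u, μ u` -/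
def op (T : Ct) (μ : ℕ → ℕ) (u : ℕ) : Bool × ℕ × ℕ :=
  if cst T u (μ u) ≤ cst T (μ u) u then (true, u, μ u) else (true, μ u, u)

theorem strict_pairs (A : Finset ℕ) (T : Ct) {μ : ℕ → ℕ} (hμ : ∀ u, μ (μ u) = u) (rest : Plan)
    (l : List ℕ) : ∀ O : Finset ℕ, l.Nodup →
      (∀ u ∈ l, u ∈ A ∧ μ u ∈ A ∧ u ∉ O ∧ μ u ∉ O ∧ u < μ u) →
      Strict A (O ∪ l.toFinset ∪ l.toFinset.image μ) rest → Strict A O (l.map (op T μ) ++ rest) := by
  induction l with
  | nil => intro O _ _ h; simpa using h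
  | cons u l ih =>
    intro O hn hl h
    obtain ⟨h1, h2, h3, h4, h5⟩ := hl u List.mem_cons_self
    obtain ⟨hu, hn'⟩ := List.nodup_cons.1 hn
    have key : Strict A (insert u (insert (μ u) O)) (l.map (op T μ) ++ rest) := by
      refine ih _ hn' (fun v hv => ?_) ?_
      · obtain ⟨k1, k2, k3, k4, k5⟩ := hl v (List.mem_cons_of_mem _ hv)
        have a1 : v ≠ u := fun e => hu (e ▸ hv)
        have a2 : v ≠ μ u := fun e => by
          rw [e, hμ] at k5; omega
        have a3 : μ v ≠ u := fun e => a2 (by rw [← e, hμ])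
        have a4 : μ v ≠ μ u := fun e => a1 (by rw [← hμ v, e, hμ])
        refine ⟨k1, k2, ?_, ?_, k5⟩ <;> simp [*]
      · convert h using 1
        ext x
        simp only [Finset.mem_union, Finset.mem_insert, List.toFinset_cons, Finset.image_insert]
        tauto
    rw [List.map_cons, List.cons_append, op]
    split_ifs
    · exact ⟨h1, h2, h3, h4, h5.ne, key⟩
    · exact ⟨h2, h1, h4, h3, h5.ne', by rwa [Finset.insert_comm]⟩

theorem pcost_append (κ τ : ℕ → ℕ → ℕ) (l l' : Plan) :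
    pcost κ τ (l ++ l') = pcost κ τ l + pcost κ τ l' := by
  simp [pcost]

theorem pcost_pairs (K T : Ct) (μ : ℕ → ℕ) (l : List ℕ) :
    pcost (cst K) (cst T) (l.map (op T μ)) = (l.map fun u => tm T u (μ u)).sum := by
  unfold pcost
  rw [List.map_map]
  congr 1
  refine List.map_congr_left fun u _ => ?_
  simp only [Function.comp_apply, op, tm]
  split_ifs with h
  · simp [h]
  · simp only [cond_true]; omega

theorem two_mul_sum {S : Finset ℕ} {μ : ℕ → ℕ} (h : PM S μ) (T : Ct) :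
    2 * ∑ u ∈ S.filter (fun u => u < μ u), tm T u (μ u) = ∑ u ∈ S, tm T u (μ u) := by
  rw [← Finset.sum_filter_add_sum_filter_not S (fun u => u < μ u), two_mul]
  congr 1
  refine Finset.sum_nbij' μ μ (fun u hu => ?_) (fun u hu => ?_) (fun u _ => h.inv u)
    (fun u _ => h.inv u) fun u _ => ?_
  · rw [Finset.mem_filter] at hu ⊢
    refine ⟨h.mem hu.1, ?_⟩
    rw [h.inv]; omega
  · rw [Finset.mem_filter] at hu ⊢
    refine ⟨h.mem hu.1, ?_⟩
    have := (h.iff u).2 hu.1
    rw [h.inv]; omega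
  · rw [h.inv, tm, tm, min_comm]

/-- the partner map -/
def pm (S : List ℕ) (m : Mt) (u : ℕ) : ℕ := if u ∈ S then mt m (2 * u) / 2 else u

/-- the pair operations -/
def prsP (T : Ct) (S : List ℕ) (m : Mt) : Plan :=
  (S.filter fun u => decide (u < pm S m u)).map (op T (pm S m))

/-- the cost table of the gadget -/
noncomputable def gC (Al : List ℕ) (K T : Ct) (ρ L : ℕ) : Ct :=
  tab (gV Al ρ) fun x => tab (gV Al ρ) (gc Al K T ρ L x)

theorem cost_gC {Al : List ℕ} {K T : Ct} {ρ L : ℕ} {ν : ℕ → ℕ} (h : PM (gV Al ρ).toFinset ν) :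
    cost (cst (gC Al K T ρ L)) (gV Al ρ).toFinset ν = cost (gc Al K T ρ L) (gV Al ρ).toFinset ν :=
  Finset.sum_congr rfl fun _ hv =>
    cst_tab _ _ _ (List.mem_toFinset.1 hv) (List.mem_toFinset.1 (h.mem hv))

section PTs
variable {α : Type} [Enc α] {Al S : α → List ℕ} {K T : α → Ct} {ρ L u v : α → ℕ} {m : α → Mt}

@[fun_prop] theorem pt_gV (h1 : PT Al) (h2 : PT ρ) : PT (fun a => gV (Al a) (ρ a)) := by
  unfold gV nr; fun_prop

@[fun_prop] theorem pt_big (h1 : PT Al) (h2 : PT L) : PT (fun a => big (Al a) (L a)) := by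
  unfold big; fun_prop

@[fun_prop] theorem pt_gA (h1 : PT Al) (h2 : PT K) (h3 : PT ρ) (h4 : PT L) (h4' : PB L) (h5 : PT u)
    (h6 : PT v) : PT (fun a => gA (Al a) (K a) (ρ a) (L a) (u a) (v a)) := by
  unfold gA; fun_prop

@[fun_prop] theorem pt_gc (h1 : PT Al) (h2 : PT K) (h2' : PT T) (h3 : PT ρ) (h4 : PT L) (h4' : PB L)
    (h5 : PT u) (h6 : PT v) : PT (fun a => gc (Al a) (K a) (T a) (ρ a) (L a) (u a) (v a)) := by
  unfold gc; fun_prop

theorem pt_gC (h1 : PT Al) (h2 : PT K) (h2' : PT T) (h3 : PT ρ) (h4 : PT L) (h4' : PB L) :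
    PT (fun a => gC (Al a) (K a) (T a) (ρ a) (L a)) := by
  unfold gC; fun_prop

theorem pt_gS (h1 : PT Al) (h3 : PT ρ) (hm : PT m) : PT (fun a => gS (Al a) (ρ a) (mt (m a))) := by
  unfold gS nr; fun_prop

@[fun_prop] theorem pt_pm (h1 : PT S) (hm : PT m) (hu : PT u) : PT (fun a => pm (S a) (m a) (u a)) := by
  unfold pm; fun_prop

theorem pt_prsP (hT : PT T) (h1 : PT S) (hm : PT m) : PT (fun a => prsP (T a) (S a) (m a)) := by
  unfold prsP op; fun_prop

end PTs

end FMA
open FMA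

theorem exists_fm : ∃ f : List ℕ × ℕ × Ct × Ct × List Unit → Plan, PT f ∧
    ∀ (Al : List ℕ) (ρ : ℕ) (K T : Ct) (U : List Unit), FPre Al ρ K T U.length →
      Strict Al.toFinset {ρ} (f (Al, ρ, K, T, U)) ∧
      ∀ c : ℤ, Con (cst K) (cst T) Al.toFinset {ρ} Al.toFinset c →
        (pcost (cst K) (cst T) (f (Al, ρ, K, T, U)) : ℤ) ≤ c := by
  obtain ⟨wm, hwm, Hwm⟩ := exists_wm
  obtain ⟨prim, hprim, Hprim⟩ := exists_prim
  let M : List ℕ × ℕ × Ct × Ct × List Unit → Mt := fun a =>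
    wm (gV a.1 a.2.1, gC a.1 a.2.2.1 a.2.2.2.1 a.2.1 a.2.2.2.2.length,
      List.replicate (big a.1 a.2.2.2.2.length) ())
  have hM : PT M := by
    refine hwm.comp (PT.pair (by fun_prop) (PT.pair (pt_gC (by fun_prop) (by fun_prop) (by fun_prop)
      (by fun_prop) (by fun_prop) (by fun_prop)) ?_))
    unfold big; fun_prop
  have hS : PT (fun a : List ℕ × ℕ × Ct × Ct × List Unit => gS a.1 a.2.1 (mt (M a))) :=
    pt_gS (by fun_prop) (by fun_prop) hM
  refine ⟨fun a => prsP a.2.2.2.1 (gS a.1 a.2.1 (mt (M a))) (M a) ++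
    prim (a.1, a.2.2.1, a.2.1 :: gS a.1 a.2.1 (mt (M a))), ?_, ?_⟩
  · exact PT.append (pt_prsP (by fun_prop) hS hM)
      (hprim.comp (PT.pair (by fun_prop) (PT.pair (by fun_prop) (PT.cons (by fun_prop) hS))))
  intro Al ρ K T U h
  obtain ⟨h1, h2⟩ := Hwm (gV Al ρ) (gC Al K T ρ U.length) (List.replicate (big Al U.length) ())
    (gV_nodup h.nodup) gV_even
    (fun u hu v hv => by rw [gC, cst_tab _ _ _ hu hv, cst_tab _ _ _ hv hu, gc_symm])
    (fun u hu v hv => by rw [gC, cst_tab _ _ _ hu hv, List.length_replicate]; exact gc_le h hu hv)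
  dsimp only
  change PM _ (mt (M (Al, ρ, K, T, U))) at h1
  change ∀ ν, _ → cost _ _ (mt (M (Al, ρ, K, T, U))) ≤ _ at h2
  set m := M (Al, ρ, K, T, U)
  have h3 : ∀ ν, PM (gV Al ρ).toFinset ν → cost (gc Al K T ρ U.length) (gV Al ρ).toFinset (mt m) ≤
      cost (gc Al K T ρ U.length) (gV Al ρ).toFinset ν := fun ν hν => by
    rw [← cost_gC h1, ← cost_gC hν]; exact h2 ν hν
  obtain ⟨ν0, hν0, hb⟩ := gad_triv h
  obtain ⟨h4, h5⟩ := gad_lower h h1 ((h3 ν0 hν0).trans_lt hb)
  set S := gS Al ρ (mt m) with hSdef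
  change PM S.toFinset (pm S m) at h4
  have hSn : S.Nodup := (h.nodup.filter _).filter _
  have hSA : ∀ u ∈ S, u ∈ Al ∧ u ≠ ρ := fun u hu => by
    simpa [nr] using List.mem_of_mem_filter hu
  obtain ⟨h6, h7⟩ := Hprim Al ρ K T U.length (ρ :: S) h List.mem_cons_self
  have hfil : (S.filter fun u => decide (u < pm S m u)).toFinset
      = S.toFinset.filter fun u => u < pm S m u := by
    ext x; simp
  refine ⟨strict_pairs _ T h4.inv _ _ _ (hSn.filter _) (fun u hu => ?_) ?_, fun c hc => ?_⟩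
  · obtain ⟨k1, k2⟩ := List.mem_filter.1 hu
    have k3 := List.mem_toFinset.1 (h4.mem (List.mem_toFinset.2 k1))
    exact ⟨List.mem_toFinset.2 (hSA u k1).1, List.mem_toFinset.2 (hSA _ k3).1,
      by simpa using (hSA u k1).2, by simpa using (hSA _ k3).2, by simpa using k2⟩
  · convert h6 using 1
    rw [hfil]
    ext x
    simp only [Finset.mem_union, Finset.mem_singleton, Finset.mem_filter, Finset.mem_image,
      List.toFinset_cons, Finset.mem_insert]
    constructor
    · rintro ((e | e) | ⟨y, hy, rfl⟩)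
      · exact Or.inl e
      · exact Or.inr e.1
      · exact Or.inr (h4.mem hy.1)
    · rintro (e | e)
      · exact Or.inl (Or.inl e)
      · by_cases hx : x < pm S m x
        · exact Or.inl (Or.inr ⟨e, hx⟩)
        · refine Or.inr ⟨pm S m x, ⟨h4.mem e, ?_⟩, h4.inv x⟩
          have := (h4.iff x).2 e
          rw [h4.inv]; omega
  · obtain ⟨ν, hν, h8⟩ := gad_upper h hc
    have h9 := h3 ν hν
    rw [List.toFinset_cons, pot_insert_root] at h7
    have h10 := two_mul_sum h4 T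
    have h11 : ∑ u ∈ S.toFinset, tm T u (pm S m u) = ∑ u ∈ S.toFinset, tm T u (mt m (2 * u) / 2) :=
      Finset.sum_congr rfl fun u hu => by rw [pm, if_pos (List.mem_toFinset.1 hu)]
    rw [pcost_append, prsP, pcost_pairs, ← List.sum_toFinset _ (hSn.filter _), hfil]
    omega

end Crest.Agent.R287
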