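import Crest.Agent.R287.Main

/-!
# R287: all alternating cycles together

PLAN. Strong induction on the number of arcs outside a set `U` of used arcs: for `U` with `e ∈ U ↔ ρ e ∈ U`, `O ∋ root` containing the components of `U`, prove
`Con O A (2 ∑_{e ∉ U} (c e - ov e (ρ e)) + ∑_{X ∈ A \ O} p X)`.  If `U = univ`: `Con.done`.  Otherwise there is `e ∉ U` with `comp e ∈ O` (else `U` is nonempty, closed under `ρ` and under equality of components, so everything).
Take `z i = (ρ ^ i) e`, `r = Function.minimalPeriod ρ e` (`IsCyc`: `Function.iterate_minimalPeriod`, `Function.iterate_injOn_Iio_minimalPeriod`; positive since `ρ` is injective on a finite type), `al z r = ∑_{i<r} … = ∑` over the orbit;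
not `SF` as `cp 0 ∈ O`; `main`, then the induction hypothesis for `U ∪ orbit`, `O ∪ cI z 0 r`, and `Con.trans'`.
-/

set_option autoImplicit false
open Finset

namespace Crest.Agent.R287

namespace Sys

variable {S : Sys} {z : ℕ → S.E} {r : ℕ} {O : Finset ℕ}

theorem al_eq_sum (S : Sys) (z : ℕ → S.E) (n : ℕ) :
    S.al z n = ∑ i ∈ range n, ((S.c (z i) : ℤ) - S.ov (z i) (z (i + 1))) := by
  induction n with
  | zero => simp [al]
  | succ n ih => rw [sum_range_succ, ← ih, al]; ring

theorem global_aux (S : Sys) (ρ : Equiv.Perm S.E)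
    (hconn : ∀ U : Finset S.E, U.Nonempty → (∀ e ∈ U, ρ e ∈ U) →
      (∀ e ∈ U, ∀ f, S.comp f = S.comp e → f ∈ U) → U = univ) (n : ℕ) :
    ∀ (U : Finset S.E) (O : Finset ℕ), #Uᶜ = n → (∀ e, e ∈ U ↔ ρ e ∈ U) → S.root ∈ O →
      (∀ e ∈ U, S.comp e ∈ O) →
      S.Con O S.A (2 * ∑ e ∈ Uᶜ, ((S.c e : ℤ) - S.ov e (ρ e)) + ∑ X ∈ S.A \ O, (S.p X : ℤ)) := by
  induction n using Nat.strong_induction_on with
  | _ n ih =>
  intro U O hn hU hO hc
  by_cases hUu : U = univ
  · subst hUu
    have hA : S.A ⊆ O := by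
      intro X hX
      obtain ⟨e, -, rfl⟩ := mem_image.1 hX
      exact hc e (mem_univ _)
    refine .done hA ?_
    rw [compl_univ, sum_empty, sdiff_eq_empty_iff_subset.2 hA, sum_empty]
    simp
  obtain ⟨e, heU, heO⟩ : ∃ e, e ∉ U ∧ S.comp e ∈ O := by
    by_contra hcon
    push Not at hcon
    have hin : ∀ e, S.comp e ∈ O → e ∈ U := fun e he => by
      by_contra h; exact hcon e h he
    refine hUu (hconn U ?_ (fun e he => (hU e).1 he) fun e he f hf => hin f (hf ▸ hc e he))
    obtain ⟨e, he⟩ := S.root_mem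
    exact ⟨e, hin e (he ▸ hO)⟩
  set z : ℕ → S.E := fun i => ρ^[i] e with hz
  set r := Function.minimalPeriod ρ e with hr
  have hrpos : 0 < r :=
    Function.minimalPeriod_pos_of_mem_periodicPts (ρ.injective.mem_periodicPts e)
  have hzs : ∀ i, z (i + 1) = ρ (z i) := fun i => Function.iterate_succ_apply' _ _ _
  have hcyc : S.IsCyc z r := by
    refine ⟨hrpos, fun i => ?_, fun i j hi hj h => ?_⟩
    · simp only [hz, hr]
      rw [Function.iterate_add_apply, Function.iterate_minimalPeriod]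
    · exact Function.iterate_injOn_Iio_minimalPeriod hi hj h
  have hzU : ∀ i, z i ∉ U := by
    intro i
    induction i with
    | zero => exact heU
    | succ i ih => rw [hzs, ← hU]; exact ih
  have hSF : ¬ S.SF z O 0 r := by
    rintro ⟨B, hB, h⟩
    exact hB (h 0 le_rfl (Nat.zero_le _) ▸ heO)
  have hPS := main r S z O hO hcyc hSF
  set Z : Finset S.E := (range r).image z with hZ
  have hZmem : ∀ i, z i ∈ Z := by
    intro i
    rw [← hcyc.mod i]
    exact mem_image_of_mem _ (mem_range.2 (Nat.mod_lt _ hrpos))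
  have hZρ : ∀ f, f ∈ Z ↔ ρ f ∈ Z := by
    intro f
    constructor
    · intro hf
      obtain ⟨i, -, rfl⟩ := mem_image.1 hf
      rw [← hzs]; exact hZmem _
    · intro hf
      obtain ⟨i, -, hi⟩ := mem_image.1 hf
      have h1 : ρ (z (i + r - 1)) = ρ f := by
        rw [← hzs, ← hi, ← hcyc.per i]
        congr 1; omega
      rw [← ρ.injective h1]; exact hZmem _
  have hZs : Z ⊆ Uᶜ := by
    intro f hf
    obtain ⟨i, -, rfl⟩ := mem_image.1 hf
    exact mem_compl.2 (hzU i)
  have hcompl : (U ∪ Z)ᶜ = Uᶜ \ Z := by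
    ext f; simp
  have hlt : #(U ∪ Z)ᶜ < n := by
    rw [hcompl, ← hn]
    refine card_lt_card ⟨sdiff_subset, fun h => ?_⟩
    exact (mem_sdiff.1 (h (hZs (hZmem 0)))).2 (hZmem 0)
  have h2 := ih _ hlt (U ∪ Z) (O ∪ S.cI z 0 r) rfl
    (fun f => by rw [mem_union, mem_union, hU f, hZρ f]) (mem_union_left _ hO) (by
      intro f hf
      rcases mem_union.1 hf with hf | hf
      · exact mem_union_left _ (hc f hf)
      · obtain ⟨i, -, rfl⟩ := mem_image.1 hf
        exact mem_union_right _ (hcyc.cp_mem i))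
  refine Con.trans' hPS h2 Subset.rfl (subset_union_right.trans subset_union_right) (le_of_eq ?_)
  have e1 : S.al z r = ∑ f ∈ Z, ((S.c f : ℤ) - S.ov f (ρ f)) := by
    rw [al_eq_sum, hZ, sum_image fun i hi j hj h =>
      hcyc.inj i j (mem_range.1 hi) (mem_range.1 hj) h]
    exact sum_congr rfl fun i _ => by rw [hzs]
  have hcA : S.cI z 0 r ⊆ S.A := by
    intro X hX
    obtain ⟨i, -, rfl⟩ := mem_image.1 hX
    exact S.comp_mem _
  have e2 : ∑ X ∈ S.A \ O, (S.p X : ℤ)
      = ∑ X ∈ S.cI z 0 r \ O, (S.p X : ℤ) + ∑ X ∈ S.A \ (O ∪ S.cI z 0 r), (S.p X : ℤ) := by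
    rw [← sum_union]
    · congr 1
      ext X
      have := @hcA X
      simp only [mem_sdiff, mem_union]
      tauto
    · rw [disjoint_left]
      intro X h1 h2
      simp only [mem_sdiff, mem_union] at h1 h2
      tauto
  rw [e1, e2, hcompl, ← sum_sdiff hZs]
  ring

theorem global (S : Sys) (ρ : Equiv.Perm S.E)
    (hconn : ∀ U : Finset S.E, U.Nonempty → (∀ e ∈ U, ρ e ∈ U) →
      (∀ e ∈ U, ∀ f, S.comp f = S.comp e → f ∈ U) → U = univ) :
    S.Con {S.root} S.A (2 * ∑ e, ((S.c e : ℤ) - S.ov e (ρ e)) + ∑ X ∈ S.A.erase S.root, (S.p X : ℤ)) := by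
  have := global_aux S ρ hconn _ ∅ {S.root} rfl (by simp) (mem_singleton_self _) (by simp)
  rwa [compl_empty, sdiff_singleton_eq_erase] at this

end Sys

end Crest.Agent.R287
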