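import Crest.Agent.R287.SDef

/-!
# R287: the greedy cycle cover

PLAN. `exists_loop`, input `str`, `n = str.length`, state: a list `l` of chosen arcs `(a,b)` (`a,b < n`, first components nodup, second components nodup), `Done` = `n ≤ l.length`.  Step: among the pairs of `prs (range n) (range n)` with `a` not yet a tail and `b` not yet a head
(nonempty by counting) take one with maximal `ovp (sg a) (sg b)` (`find?`).  Invariant: for every chosen `(a,b)` and all `a', b' < n`: if `a'` is a free tail and `b'` a free head, `ovp a' b' ≤ ovp a b`; if `a'` is free, `ovp a' b ≤ ovp a b`; if `b'` is free, `ovp a b' ≤ ovp a b`;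
and for chosen `(a,b), (a',b')`: `ovp a b' ≤ max (ovp a b) (ovp a' b')`.  At the end `mt l a = b` for `(a,b) ∈ l` and every `a < n` is a tail.
-/

set_option autoImplicit false
open Crest.Agent.PTime

namespace Crest.Agent.R287

namespace SGreA

def cand (n : ℕ) (l : Mt) : List (ℕ × ℕ) :=
  (prs (List.range n) (List.range n)).filter fun q =>
    decide (¬ q.1 ∈ l.map Prod.fst ∧ ¬ q.2 ∈ l.map Prod.snd)

def best (str : List Str) (l : Mt) : Option (ℕ × ℕ) :=
  (cand str.length l).find? fun q => (cand str.length l).all fun q' =>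
    decide (ovp (sg str q'.1) (sg str q'.2) ≤ ovp (sg str q.1) (sg str q.2))

@[fun_prop] theorem pt_cand {α : Type} [Enc α] {n : α → ℕ} {l : α → Mt} (h1 : PT n) (h1' : PB n) (h2 : PT l) :
    PT (fun a => cand (n a) (l a)) := by
  unfold cand; fun_prop

@[fun_prop] theorem pt_best {α : Type} [Enc α] {s : α → List Str} {l : α → Mt}
    (h1 : PT s) (h2 : PT l) : PT (fun a => best (s a) (l a)) := by
  unfold best; fun_prop

theorem mem_cand {n : ℕ} {l : Mt} {q : ℕ × ℕ} :
    q ∈ cand n l ↔ (q.1 < n ∧ q.2 < n) ∧ q.1 ∉ l.map Prod.fst ∧ q.2 ∉ l.map Prod.snd := by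
  simp only [cand, List.mem_filter, mem_prs, List.mem_range, decide_eq_true_eq]

theorem exists_free {n : ℕ} {L : List ℕ} (h : L.length < n) : ∃ a < n, a ∉ L := by
  by_contra hc
  push Not at hc
  have := ((List.nodup_range (n := n)).subperm (l₂ := L) fun x hx => hc x (List.mem_range.1 hx)).length_le
  rw [List.length_range] at this
  omega

theorem best_some {str : List Str} {l : Mt} (h : l.length < str.length) : ∃ q, best str l = some q := by
  obtain ⟨a, ha, ha'⟩ := exists_free (L := l.map Prod.fst) (by simpa using h)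
  obtain ⟨b, hb, hb'⟩ := exists_free (L := l.map Prod.snd) (by simpa using h)
  obtain ⟨q, hq, hm⟩ := Finset.exists_max_image (cand str.length l).toFinset
    (fun q => ovp (sg str q.1) (sg str q.2)) ⟨(a, b), List.mem_toFinset.2 (mem_cand.2 ⟨⟨ha, hb⟩, ha', hb'⟩)⟩
  cases h' : best str l with
  | some q => exact ⟨q, rfl⟩
  | none =>
    refine absurd ?_ (List.find?_eq_none.1 h' q (List.mem_toFinset.1 hq))
    simp only [List.all_eq_true, decide_eq_true_eq]
    exact fun q' hq' => hm q' (List.mem_toFinset.2 hq')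

structure Inv (str : List Str) (l : Mt) : Prop where
  n1 : (l.map Prod.fst).Nodup
  n2 : (l.map Prod.snd).Nodup
  lt : ∀ q ∈ l, q.1 < str.length ∧ q.2 < str.length
  gr : ∀ a < str.length, ∀ b < str.length, (a ∉ l.map Prod.fst ∧ b ∉ l.map Prod.snd) ∨
    ∃ q ∈ l, (q.1 = a ∨ q.2 = b) ∧ ovp (sg str a) (sg str b) ≤ ovp (sg str q.1) (sg str q.2)

theorem Inv.sub {str : List Str} {l : Mt} (h : Inv str l) :
    (l.map Prod.fst).Subperm (List.range str.length) :=
  h.n1.subperm fun x hx => by
    obtain ⟨q, hq, rfl⟩ := List.mem_map.1 hx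
    exact List.mem_range.2 (h.lt q hq).1

theorem Inv.len {str : List Str} {l : Mt} (h : Inv str l) : l.length ≤ str.length := by
  simpa using h.sub.length_le

theorem Inv.step {str : List Str} {l : Mt} (h : Inv str l) {q : ℕ × ℕ} (hq : best str l = some q) :
    Inv str (q :: l) := by
  obtain ⟨h1, h2, h3⟩ := mem_cand.1 (List.mem_of_find?_eq_some hq)
  have h5 := List.find?_some hq
  simp only [List.all_eq_true, decide_eq_true_eq] at h5
  refine ⟨List.nodup_cons.2 ⟨h2, h.n1⟩, List.nodup_cons.2 ⟨h3, h.n2⟩, fun q' hq' => ?_, fun a ha b hb => ?_⟩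
  · rcases List.mem_cons.1 hq' with rfl | hq'
    exacts [h1, h.lt q' hq']
  · rcases h.gr a ha b hb with h6 | ⟨q', h6, h7⟩
    · by_cases h7 : q.1 = a ∨ q.2 = b
      · exact Or.inr ⟨q, List.mem_cons_self, h7, h5 (a, b) (mem_cand.2 ⟨⟨ha, hb⟩, h6⟩)⟩
      · push Not at h7
        simp only [List.map_cons, List.mem_cons, not_or]
        exact Or.inl ⟨⟨h7.1.symm, h6.1⟩, h7.2.symm, h6.2⟩
    · exact Or.inr ⟨q', List.mem_cons_of_mem _ h6, h7⟩

theorem mt_of_mem {l : Mt} (h : (l.map Prod.fst).Nodup) {q : ℕ × ℕ} (hq : q ∈ l) : mt l q.1 = q.2 := by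
  unfold mt look
  cases h' : l.find? fun p => p.1 == q.1 with
  | none => exact absurd (by simp) (List.find?_eq_none.1 h' q hq)
  | some p =>
    have h1 := List.find?_some h'
    rw [List.inj_on_of_nodup_map h (List.mem_of_find?_eq_some h') hq (by simpa using h1)]
    rfl

end SGreA

open SGreA in
theorem exists_greedy : ∃ f : List Str → Mt, PT f ∧
    ∀ str, IsPerm str.length (mt (f str)) ∧ Greedy str (f str) := by
  refine (exists_loop (α := List Str) (σ := Mt) (fun _ => True) (fun a l => Inv a l)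
    (fun a l => a.length ≤ l.length) (fun _ => []) (fun a l => (best a l).toList ++ l)
    (fun _ l => l.length) (fun a => a.length)
    (fun a => a.length * (8 * a.length + 3 + 1) + 1) (by fun_prop) (by fun_prop) (by fun_prop)
    (by fun_prop) (by fun_prop) ?_ ?_ (fun a s _ h => h.len) ?_).imp ?_
  · intro a _
    exact ⟨by simp, by simp, by simp, by simp⟩
  · intro a l _ h hd
    obtain ⟨x, hx⟩ := best_some (not_le.1 hd)
    simp only [hx, Option.toList_some, List.singleton_append]
    exact ⟨h.step hx, Or.inr (by simp)⟩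
  · intro a l _ h
    have h1 := sz_list_le (l := l) (B := 8 * a.length + 3) fun q hq => by
      have h2 := h.lt q hq
      have h3 := sz_le_self q.1
      have h4 := sz_le_self q.2
      rw [sz_prod]
      omega
    exact h1.trans (Nat.add_le_add_right (Nat.mul_le_mul_right _ h.len) 1)
  · rintro f ⟨hf, H⟩
    refine ⟨hf, fun str => ?_⟩
    obtain ⟨h1, h2⟩ := H str trivial
    have h3 := h1.sub.perm_of_length_le (by simpa using h2)
    have h4 : ∀ i < str.length, i ∈ (f str).map Prod.fst := fun i hi => h3.mem_iff.2 (List.mem_range.2 hi)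
    have h5 : ∀ i < str.length, (i, mt (f str) i) ∈ f str := fun i hi => by
      obtain ⟨q, hq, rfl⟩ := List.mem_map.1 (h4 i hi)
      rw [mt_of_mem h1.n1 hq]
      exact hq
    refine ⟨⟨fun i hi => (h1.lt _ (h5 i hi)).2, fun i hi j hj e => ?_⟩, fun e he g hg => ?_⟩
    · exact congrArg Prod.fst (List.inj_on_of_nodup_map h1.n2 (h5 i hi) (h5 j hj) e)
    · rcases h1.gr e he _ (h1.lt _ (h5 g hg)).2 with h6 | ⟨q, hq, h6 | h6, h7⟩
      · exact absurd (h4 e he) h6.1
      · rw [List.inj_on_of_nodup_map h1.n1 hq (h5 e he) h6] at h7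
        exact h7.trans (le_max_left _ _)
      · rw [List.inj_on_of_nodup_map h1.n2 hq (h5 g hg) h6] at h7
        exact h7.trans (le_max_right _ _)

end Crest.Agent.R287
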