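import Crest.Agent.R287.SDef

/-!
# R287: a superstring gives a Hamiltonian cycle through the root of no larger cost; preprocessing of the input

PLAN. `exists_sigma`: choose for each `e` a position `pos e` with `sg e` a prefix of `T.drop (pos e)`, `pos e + |sg e| ≤ |T|`.  On nonzero indices `pos` is injective and `pos e < pos f → pos e + |e| < pos f + |f|` (`SPre.free`).  Avoid sorting: let `key e = 0` for `e = 0`, `pos e + 1` otherwise (injective);
`σ e` = the index with least key above `key e`, or `0` if none (it is injective, hence a permutation: `Equiv.ofBijective`, `Finite.injective_iff_bijective`); alternatively sort `List.finRange n` by key and use `List.formPerm`.  Closedness: a nonempty `σ`-closed set contains `0` (go up; the maximum key maps to `0`) and then everything (induction on the key).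
Cost: with `P e = pos e` (`P 0 = 0`): `|e| - ovp e (σ e) ≤ P (σ e) - P e` if `σ e ≠ 0` (`le_ovk` when the occurrences overlap), and `≤ |T| - P e` if `σ e = 0`; sum over `e` (`Equiv.sum_comp σ P`; exactly one `e` has `σ e = 0`).
`exists_pre`: `[] :: (S.filter (s ≠ [] ∧ ∀ t ∈ S, s <:+: t → s = t)).dedup`; for `PT`: `s <:+: t ↔ ∃ i < |t| + 1, (t.drop i).take |s| = s` (`PT.exists_lt`), and dedup as a fold or as a filter on indices (keep `S[i]` if no `j < i` has `S[j] = S[i]`).  Every `s ∈ S` is inside a member of `S` of maximal length among those containing it.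
-/

set_option autoImplicit false
open Crest.Agent.PTime

namespace Crest.Agent.R287

theorem SOpt.window (T : Str) {p q a b : ℕ} (h1 : q ≤ p) (h2 : p + a ≤ q + b) :
    (((T.drop q).take b).drop (p - q)).take a = (T.drop p).take a := by
  rw [List.drop_take, List.drop_drop, List.take_take, Nat.add_sub_cancel' h1, min_eq_left (by omega)]

theorem SOpt.exists_succ {ι : Type} [Fintype ι] [DecidableEq ι] (key : ι → ℕ) (hinj : Function.Injective key) (z : ι)
    (hz : key z = 0) : ∃ σ : Equiv.Perm ι, (∀ U : Finset ι, U.Nonempty → (∀ e ∈ U, σ e ∈ U) → U = Finset.univ) ∧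
      ∀ e, σ e = z ∨ key e < key (σ e) := by
  have h1 : ∀ e, ∃ g, (g = z ∧ ∀ f, key f ≤ key e) ∨ (key e < key g ∧ ∀ f, key e < key f → key g ≤ key f) := by
    intro e
    by_cases h : (Finset.univ.filter fun f => key e < key f).Nonempty
    · obtain ⟨g, hg, hmin⟩ := Finset.exists_min_image _ key h
      exact ⟨g, Or.inr ⟨(Finset.mem_filter.1 hg).2, fun f hf => hmin f (by simpa using hf)⟩⟩
    · exact ⟨z, Or.inl ⟨rfl, fun f => not_lt.1 fun hf => h ⟨f, by simpa using hf⟩⟩⟩
  choose s hs using h1
  have h2 : Function.Injective s := by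
    intro e e' hee
    apply hinj
    rcases hs e with ⟨h3, h4⟩ | ⟨h3, h4⟩ <;> rcases hs e' with ⟨h5, h6⟩ | ⟨h5, h6⟩
    · exact le_antisymm (h6 e) (h4 e')
    · rw [← hee, h3, hz] at h5
      omega
    · rw [hee, h5, hz] at h3
      omega
    · have h7 := h4 e'
      have h8 := h6 e
      rw [hee] at h3 h7
      omega
  refine ⟨Equiv.ofBijective s (Finite.injective_iff_bijective.1 h2), fun U hU hc => ?_, fun e => ?_⟩
  · simp only [Equiv.ofBijective_apply] at hc
    have h3 : z ∈ U := by
      obtain ⟨m, hm, hmax⟩ := Finset.exists_max_image U key hU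
      rcases hs m with ⟨h4, -⟩ | ⟨h4, -⟩
      · exact h4 ▸ hc m hm
      · exact absurd (hmax _ (hc m hm)) (not_le.2 h4)
    refine Finset.eq_univ_of_forall fun f => ?_
    by_contra hf
    have h4 : key z < key f := by
      have : key z ≠ key f := fun h => hf (hinj h ▸ h3)
      omega
    obtain ⟨m, hm, hmax⟩ := Finset.exists_max_image (U.filter fun g => key g < key f) key
      ⟨z, Finset.mem_filter.2 ⟨h3, h4⟩⟩
    obtain ⟨hm1, hm2⟩ := Finset.mem_filter.1 hm
    rcases hs m with ⟨-, h5⟩ | ⟨h5, h6⟩
    · exact absurd (h5 f) (not_le.2 hm2)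
    · have h7 := h6 f hm2
      have h8 : key (s m) ≠ key f := fun h => hf (hinj h ▸ hc m hm1)
      have h9 := hmax (s m) (Finset.mem_filter.2 ⟨hc m hm1, by omega⟩)
      omega
  · exact (hs e).imp (fun h => h.1) fun h => h.1

theorem exists_sigma {str : List Str} (hs : SPre str) (T : Str) (hT : ∀ s ∈ str, s <:+: T) :
    ∃ σ : Equiv.Perm (Fin str.length),
      (∀ U : Finset (Fin str.length), U.Nonempty → (∀ e ∈ U, σ e ∈ U) → U = Finset.univ) ∧
      ∑ e : Fin str.length, (((sg str e).length : ℤ) - ovp (sg str e) (sg str (σ e))) ≤ T.length := by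
  have h1 : ∀ e : Fin str.length, ∃ p, sg str e = (T.drop p).take (sg str e).length ∧
      p + (sg str e).length ≤ T.length := by
    intro e
    have he : sg str e ∈ str := by
      unfold sg
      rw [List.getD_eq_getElem _ _ e.2]
      exact List.getElem_mem _
    obtain ⟨A, B, hAB⟩ := hT _ he
    refine ⟨A.length, ?_, ?_⟩
    · rw [← hAB]
      simp
    · rw [← hAB]
      simp
  choose pos hp1 hp2 using h1
  let z : Fin str.length := ⟨0, hs.pos⟩
  have hz0 : (sg str z).length = 0 := by
    change (sg str 0).length = 0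
    rw [hs.zero]
    rfl
  have hsub : ∀ e f : Fin str.length, e ≠ z → pos f ≤ pos e →
      pos e + (sg str e).length ≤ pos f + (sg str f).length → e = f := by
    intro e f he h1 h2
    refine Fin.ext (hs.free e e.2 f f.2 (fun h => he (Fin.ext h)) ?_)
    have h3 := SOpt.window T h1 h2
    rw [← hp1 e, ← hp1 f] at h3
    rw [← h3]
    exact (List.take_prefix _ _).isInfix.trans (List.drop_suffix _ _).isInfix
  obtain ⟨σ, hσ1, hσ2⟩ := SOpt.exists_succ (fun e => if e = z then 0 else pos e + 1) (fun e f hef => by
    by_cases he : e = z <;> by_cases hf : f = z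
    · rw [he, hf]
    · simp [he, hf] at hef
    · simp [he, hf] at hef
    · simp only [he, hf, if_false, add_left_inj] at hef
      rcases le_total (sg str e).length (sg str f).length with h | h
      · exact hsub e f he (by omega) (by omega)
      · exact (hsub f e hf (by omega) (by omega)).symm) z (by simp)
  refine ⟨σ, hσ1, ?_⟩
  let P : Fin str.length → ℤ := fun e => if e = z then 0 else pos e
  have h2 : ∀ e : Fin str.length, ((sg str e).length : ℤ) - ovp (sg str e) (sg str (σ e)) ≤
      P (σ e) - P e + if σ e = z then (T.length : ℤ) else 0 := by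
    intro e
    have h3 := hp2 e
    by_cases hf : σ e = z
    · by_cases he : e = z
      · have h4 : (sg str e).length = 0 := by rw [he]; exact hz0
        simp only [P, if_pos hf, if_pos he]
        omega
      · simp only [P, if_pos hf, if_neg he]
        omega
    · by_cases he : e = z
      · have h4 : (sg str e).length = 0 := by rw [he]; exact hz0
        simp only [P, if_neg hf, if_pos he]
        omega
      · have h4 := (hσ2 e).resolve_left hf
        simp only [if_neg hf, if_neg he] at h4
        simp only [P, if_neg hf, if_neg he]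
        by_cases h5 : pos e + (sg str e).length ≤ pos (σ e)
        · omega
        · have h6 : pos e + (sg str e).length < pos (σ e) + (sg str (σ e)).length := by
            by_contra h7
            have h8 := hsub (σ e) e hf (by omega) (by omega)
            rw [h8] at h4
            omega
          have h7 : pos e + (sg str e).length - pos (σ e) ≤ ovp (sg str e) (sg str (σ e)) := by
            refine le_ovk (by omega) ?_
            have h8 := SOpt.window T (p := pos (σ e)) (q := pos e) (a := pos e + (sg str e).length - pos (σ e))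
              (b := (sg str e).length) (by omega) (by omega)
            have h9 := SOpt.window T (p := pos (σ e)) (q := pos (σ e)) (a := pos e + (sg str e).length - pos (σ e))
              (b := (sg str (σ e)).length) le_rfl (by omega)
            rw [← hp1] at h8 h9
            rw [Nat.sub_self, List.drop_zero] at h9
            rw [List.take_of_length_le (by rw [List.length_drop]; omega)] at h8
            rw [h9, ← h8]
            congr 1
            omega
          omega
  refine (Finset.sum_le_sum fun e _ => h2 e).trans (le_of_eq ?_)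
  rw [Finset.sum_add_distrib, Finset.sum_sub_distrib, Equiv.sum_comp σ P,
    Equiv.sum_comp σ fun f => if f = z then (T.length : ℤ) else 0]
  simp

def SOpt.inf (s t : Str) : Bool := (List.range (t.length + 1)).any fun i => (t.drop i).take s.length == s

theorem SOpt.inf_iff {s t : Str} : SOpt.inf s t = true ↔ s <:+: t := by
  unfold SOpt.inf
  simp only [List.any_eq_true, List.mem_range, beq_iff_eq]
  constructor
  · rintro ⟨i, -, h⟩
    rw [← h]
    exact (List.take_prefix _ _).isInfix.trans (List.drop_suffix _ _).isInfix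
  · rintro ⟨A, B, rfl⟩
    exact ⟨A.length, by simp, by simp⟩

def SOpt.keep (S : List Str) (i : ℕ) : Bool :=
  (!(sg S i == []) && S.all fun t => !SOpt.inf (sg S i) t || sg S i == t) && S.findIdx (· == sg S i) == i

def SOpt.core (S : List Str) : List Str := ((List.range S.length).filter (SOpt.keep S)).map (sg S)

theorem SOpt.keep_iff {S : List Str} {i : ℕ} : SOpt.keep S i = true ↔
    (sg S i ≠ [] ∧ ∀ t ∈ S, sg S i <:+: t → sg S i = t) ∧ S.findIdx (· == sg S i) = i := by
  unfold SOpt.keep
  simp only [Bool.and_eq_true, Bool.not_eq_true', beq_eq_false_iff_ne, List.all_eq_true, Bool.or_eq_true, beq_iff_eq,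
    ← SOpt.inf_iff]
  refine and_congr (and_congr Iff.rfl (forall₂_congr fun t _ => ?_)) Iff.rfl
  cases SOpt.inf (sg S i) t <;> simp

theorem SOpt.core_nodup (S : List Str) : (SOpt.core S).Nodup := by
  refine List.Nodup.map_on (fun a ha b hb hab => ?_) (List.nodup_range.filter _)
  have h1 := (SOpt.keep_iff.1 (List.mem_filter.1 ha).2).2
  have h2 := (SOpt.keep_iff.1 (List.mem_filter.1 hb).2).2
  rw [← h1, ← h2, hab]

theorem SOpt.mem_core {S : List Str} {s : Str} :
    s ∈ SOpt.core S ↔ s ∈ S ∧ s ≠ [] ∧ ∀ t ∈ S, s <:+: t → s = t := by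
  unfold SOpt.core
  simp only [List.mem_map, List.mem_filter, List.mem_range, SOpt.keep_iff]
  constructor
  · rintro ⟨i, ⟨hi, h1, -⟩, rfl⟩
    refine ⟨?_, h1⟩
    unfold sg
    rw [List.getD_eq_getElem _ _ hi]
    exact List.getElem_mem _
  · rintro ⟨h1, h2⟩
    have h3 : S.findIdx (· == s) < S.length := List.findIdx_lt_length_of_exists ⟨s, h1, by simp⟩
    have h4 : sg S (S.findIdx (· == s)) = s := by
      unfold sg
      rw [List.getD_eq_getElem _ _ h3]
      simpa using List.findIdx_getElem (w := h3)
    exact ⟨_, ⟨h3, by rw [h4]; exact ⟨h2, rfl⟩⟩, h4⟩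

@[fun_prop] theorem SOpt.pt_inf {α : Type} [Enc α] {s t : α → Str} (hs : PT s) (ht : PT t) :
    PT (fun a => SOpt.inf (s a) (t a)) := by
  unfold SOpt.inf
  fun_prop

@[fun_prop] theorem SOpt.pt_keep {α : Type} [Enc α] {S : α → List Str} {i : α → ℕ} (hS : PT S) (hi : PT i) :
    PT (fun a => SOpt.keep (S a) (i a)) := by
  unfold SOpt.keep
  fun_prop

theorem exists_pre : ∃ f : List Str → List Str, PT f ∧ ∀ S, SPre (f S) ∧ (∀ s ∈ f S, s = [] ∨ s ∈ S) ∧
    ∀ s ∈ S, ∃ t ∈ f S, s <:+: t := by
  refine ⟨fun S => [] :: SOpt.core S, ?_, fun S => ⟨⟨by simp, rfl, fun i hi j hj hi0 hij => ?_⟩, fun s hs => ?_,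
    fun s hs => ?_⟩⟩
  · unfold SOpt.core
    fun_prop
  · obtain ⟨i, rfl⟩ := Nat.exists_eq_succ_of_ne_zero hi0
    have hi' : i < (SOpt.core S).length := by simpa using hi
    have h1 : sg ([] :: SOpt.core S) i.succ = (SOpt.core S)[i] := by
      simp [sg, hi']
    obtain ⟨-, h2, h3⟩ := SOpt.mem_core.1 (List.getElem_mem hi')
    rw [h1] at hij
    rcases j with _ | j
    · exact absurd (List.infix_nil.1 hij) h2
    · have hj' : j < (SOpt.core S).length := by simpa using hj
      have h4 : sg ([] :: SOpt.core S) (j + 1) = (SOpt.core S)[j] := by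
        simp [sg, hj']
      rw [h4] at hij
      have h5 := h3 _ (SOpt.mem_core.1 (List.getElem_mem hj')).1 hij
      exact congrArg Nat.succ ((SOpt.core_nodup S).getElem_inj_iff.1 h5)
  · rcases List.mem_cons.1 hs with h | h
    · exact Or.inl h
    · exact Or.inr (SOpt.mem_core.1 h).1
  · by_cases h0 : s = []
    · exact ⟨[], List.mem_cons_self, by rw [h0]⟩
    · obtain ⟨t, ht, hmax⟩ := Finset.exists_max_image (S.toFinset.filter fun t => s <:+: t) List.length
        ⟨s, by simp [hs]⟩
      simp only [Finset.mem_filter, List.mem_toFinset] at ht hmax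
      refine ⟨t, List.mem_cons_of_mem _ (SOpt.mem_core.2 ⟨ht.1, fun h => h0 ?_, fun t' ht' h => ?_⟩), ht.2⟩
      · exact List.infix_nil.1 (h ▸ ht.2)
      · exact h.eq_of_length_le (hmax t' ⟨ht', ht.2.trans h⟩)

end Crest.Agent.R287
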