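import Crest.Agent.R287.SDef

/-!
# R287: tours, splicing, and the assembly of the superstring from a plan

PLAN. `lcost_cons`, `lcost_append` (`lcost (A ++ u :: B) = lcost (A ++ [u]) + lcost (u :: B)`, induction on `A`).  `merge_spec`: induction on `L` from the left, for `merge (u :: L)`: `merge (u :: v :: L) = u.take (|u| - k) ++ merge (v :: L)` with `k = ovf u v`
(`ovk_eq`, `ovf_le`), and `u` is a prefix of `merge (u :: L)`.  `ccost_rot`: `ccost (A ++ B) = ccost (B ++ A)`.  `splice_spec`: write `L = A ++ u :: B`, `C = C₁ ++ u :: C₂` at the first occurrences (`List.take_append_drop`, `List.drop_eq_getElem_cons`, `findIdx`).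
`exists_asm`: `merge (plan.foldl (asm CY) (splice [[]] (look CY ρ []) []))`; `PT.foldl_add` (`sz (splice L C u) ≤ sz L + sz C`; `sz` of looked-up lists and their members is `≤ sz CY`).  Invariant by induction on the plan generalizing `O`, `L`:
head `[]`, all `cy X` (`X ∈ O`) are contained in `L`, `O ⊆ A`, `lcost L ≤ ∑_{X ∈ O} ccost (cy X) + cost so far`.
-/

set_option autoImplicit false
open Crest.Agent.PTime

namespace Crest.Agent.R287

def rotTo (C : List Str) (u : Str) : List Str := C.drop (C.findIdx (· == u)) ++ C.take (C.findIdx (· == u))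
def splice (L C : List Str) (u : Str) : List Str :=
  L.take (L.findIdx (· == u)) ++ rotTo C u ++ L.drop (L.findIdx (· == u))

def asm (CY : List (ℕ × List Str)) (L : List Str) (q : Bool × ℕ × ℕ) : List Str :=
  cond q.1
    (splice (splice (splice L [[], (tp (look CY q.2.1 []) (look CY q.2.2 [])).1,
      (tp (look CY q.2.1 []) (look CY q.2.2 [])).2] []) (look CY q.2.1 [])
      (tp (look CY q.2.1 []) (look CY q.2.2 [])).1) (look CY q.2.2 [])
      (tp (look CY q.2.1 []) (look CY q.2.2 [])).2)
    (splice (splice L [(kp (look CY q.2.1 []) (look CY q.2.2 [])).2, (kp (look CY q.2.1 []) (look CY q.2.2 [])).1]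
      (kp (look CY q.2.1 []) (look CY q.2.2 [])).2) (look CY q.2.1 [])
      (kp (look CY q.2.1 []) (look CY q.2.2 [])).1)

theorem lcost_single (u : Str) : lcost [u] = 0 := rfl

theorem lcost_cons (u v : Str) (L : List Str) : lcost (u :: v :: L) = dist u v + lcost (v :: L) := by
  simp [lcost]

theorem lcost_append (A : List Str) (u : Str) (B : List Str) :
    lcost (A ++ u :: B) = lcost (A ++ [u]) + lcost (u :: B) := by
  induction A with
  | nil => simp [lcost_single]
  | cons a A ih =>
    cases A with
    | nil => simp [lcost_cons, lcost_single]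
    | cons a' A =>
      simp only [List.cons_append] at ih ⊢
      rw [lcost_cons, lcost_cons, ih, add_assoc]

theorem merge_cons (u v : Str) (L : List Str) :
    merge (u :: v :: L) = u.take (u.length - ovf u v) ++ merge (v :: L) := by
  have h : u.drop (u.length - ovf u v) = v.take (ovf u v) := ovk_eq u v _
  simp only [merge, List.headD_cons, List.tail_cons, List.zip_cons_cons, List.flatMap_cons]
  have h2 : u ++ v.drop (ovf u v) = u.take (u.length - ovf u v) ++ v := by
    calc u ++ v.drop (ovf u v)
        = (u.take (u.length - ovf u v) ++ u.drop (u.length - ovf u v)) ++ v.drop (ovf u v) := by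
          rw [List.take_append_drop]
      _ = _ := by rw [h, List.append_assoc, List.take_append_drop]
  rw [← List.append_assoc, h2, List.append_assoc]

theorem split_first {L : List Str} {u : Str} (h : u ∈ L) :
    ∃ B, L.drop (L.findIdx (· == u)) = u :: B := by
  have h1 : L.findIdx (· == u) < L.length := List.findIdx_lt_length_of_exists ⟨u, h, by simp⟩
  refine ⟨L.drop (L.findIdx (· == u) + 1), ?_⟩
  rw [List.drop_eq_getElem_cons h1]
  congr 1
  simpa using List.findIdx_getElem (w := h1)

theorem ccost_rot (C₁ C₂ : List Str) (u : Str) : ccost (C₁ ++ u :: C₂) = lcost (u :: C₂ ++ C₁ ++ [u]) := by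
  cases C₁ with
  | nil => simp [ccost]
  | cons c C₁ =>
    have h1 := lcost_append (c :: C₁) u (C₂ ++ [c])
    have h2 := lcost_append (u :: C₂) c (C₁ ++ [u])
    simp only [ccost, List.cons_append, List.append_assoc, List.headD_cons] at h1 h2 ⊢
    omega

theorem merge_spec (L : List Str) :
    (merge L).length = (L.headD []).length + lcost L ∧ ∀ u ∈ L, u <:+: merge L := by
  refine ⟨?_, ?_⟩
  · simp only [merge, lcost, List.length_append, List.length_flatMap, List.length_drop]
    rfl
  · induction L with
    | nil => simp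
    | cons u L ih =>
      intro x hx
      rcases List.mem_cons.1 hx with rfl | hx
      · exact (List.prefix_append _ _).isInfix
      · cases L with
        | nil => simp at hx
        | cons v L =>
          rw [merge_cons]
          exact (ih x hx).trans (List.suffix_append _ _).isInfix

theorem splice_spec {L C : List Str} {u : Str} (hL : u ∈ L) (hC : u ∈ C) :
    (splice L C u).headD [] = L.headD [] ∧ (∀ x, x ∈ splice L C u ↔ x ∈ L ∨ x ∈ C) ∧
      lcost (splice L C u) = lcost L + ccost C := by
  obtain ⟨B, hB⟩ := split_first hL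
  obtain ⟨C₂, hC₂⟩ := split_first hC
  have e1 := List.take_append_drop (L.findIdx (· == u)) L
  have e2 := List.take_append_drop (C.findIdx (· == u)) C
  unfold splice rotTo
  rw [hB] at e1 ⊢
  rw [hC₂] at e2 ⊢
  generalize L.take (L.findIdx (· == u)) = A at e1 ⊢
  generalize C.take (C.findIdx (· == u)) = C₁ at e2 ⊢
  subst e1 e2
  refine ⟨by cases A <;> simp, fun x => ?_, ?_⟩
  · simp only [List.mem_append, List.mem_cons]
    tauto
  · have h1 := lcost_append A u B
    have h2 := lcost_append A u (C₂ ++ C₁ ++ u :: B)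
    have h3 := lcost_append (u :: C₂ ++ C₁) u B
    have h4 := ccost_rot C₁ C₂ u
    simp only [List.cons_append, List.append_assoc] at h1 h2 h3 h4 ⊢
    omega

theorem sz_splice (L C : List Str) (u : Str) : sz (splice L C u) ≤ sz L + sz C := by
  unfold splice rotTo
  have h1 := sz_append (L.take (L.findIdx (· == u))) (L.drop (L.findIdx (· == u)))
  have h2 := sz_append (C.take (C.findIdx (· == u))) (C.drop (C.findIdx (· == u)))
  have h3 := sz_append (C.drop (C.findIdx (· == u))) (C.take (C.findIdx (· == u)))
  have h4 := sz_append (L.take (L.findIdx (· == u)))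
    (C.drop (C.findIdx (· == u)) ++ C.take (C.findIdx (· == u)))
  have h5 := sz_append (L.take (L.findIdx (· == u)) ++
    (C.drop (C.findIdx (· == u)) ++ C.take (C.findIdx (· == u)))) (L.drop (L.findIdx (· == u)))
  rw [List.take_append_drop] at h1 h2
  omega

@[fun_prop] theorem PT.splice {α : Type} [Enc α] {L C : α → List Str} {u : α → Str} (hL : PT L) (hC : PT C)
    (hu : PT u) : PT (fun a => splice (L a) (C a) (u a)) := by
  unfold R287.splice R287.rotTo; fun_prop

theorem asm_inv (CY : List (ℕ × List Str)) (A : Finset ℕ) (κ τ : ℕ → ℕ → ℕ)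
    (hne : ∀ X ∈ A, look CY X [] ≠ [])
    (hc : ∀ X ∈ A, ∀ Y ∈ A, kap (look CY X []) (look CY Y []) ≤ κ X Y ∧
      tau (look CY X []) (look CY Y []) ≤ τ X Y) (l : Plan) :
    ∀ (O : Finset ℕ) (L : List Str), Strict A O l → O ⊆ A → L.headD [] = [] → [] ∈ L →
      (∀ X ∈ O, ∀ u ∈ look CY X [], u ∈ L) →
      (l.foldl (asm CY) L).headD [] = [] ∧ (∀ X ∈ A, ∀ u ∈ look CY X [], u ∈ l.foldl (asm CY) L) ∧
        lcost (l.foldl (asm CY) L) + ∑ X ∈ O, ccost (look CY X []) ≤
          lcost L + ∑ X ∈ A, ccost (look CY X []) + pcost κ τ l := by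
  induction l with
  | nil =>
    intro O L h hO h0 _ hm
    have : O = A := Finset.Subset.antisymm hO h
    subst this
    exact ⟨h0, hm, by simp⟩
  | cons q l ih =>
    intro O L h hO h0 h1 hm
    obtain ⟨b, X, Y⟩ := q
    rw [List.foldl_cons]
    cases b with
    | true =>
      obtain ⟨hX, hY, hXO, hYO, hXY, h⟩ := h
      have ht := tp_mem (hne X hX) (hne Y hY)
      have hτ := (hc X hX Y hY).2
      unfold tau at hτ
      have e : asm CY L (true, X, Y) = splice (splice (splice L [[], (tp (look CY X []) (look CY Y [])).1,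
        (tp (look CY X []) (look CY Y [])).2] []) (look CY X []) (tp (look CY X []) (look CY Y [])).1)
        (look CY Y []) (tp (look CY X []) (look CY Y [])).2 := rfl
      rw [e]
      generalize tp (look CY X []) (look CY Y []) = t at ht hτ ⊢
      have s1 := splice_spec (C := [[], t.1, t.2]) h1 (by simp)
      have s2 := splice_spec (L := splice L [[], t.1, t.2] []) ((s1.2.1 _).2 (by simp)) ht.1
      have s3 := splice_spec (L := splice (splice L [[], t.1, t.2] []) (look CY X []) t.1)
        ((s2.2.1 _).2 (Or.inl ((s1.2.1 _).2 (by simp)))) ht.2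
      have := ih (insert X (insert Y O)) _ h (by
        intro Z hZ
        simp only [Finset.mem_insert] at hZ
        rcases hZ with rfl | rfl | hZ
        exacts [hX, hY, hO hZ]) (by rw [s3.1, s2.1, s1.1, h0]) (by simp [s3.2.1, s2.2.1, s1.2.1]) (by
        intro Z hZ u hu
        simp only [Finset.mem_insert] at hZ
        rw [s3.2.1, s2.2.1, s1.2.1]
        rcases hZ with rfl | rfl | hZ
        · exact Or.inl (Or.inr hu)
        · exact Or.inr hu
        · exact Or.inl (Or.inl (Or.inl (hm Z hZ u hu))))
      refine ⟨this.1, this.2.1, ?_⟩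
      have h3 := this.2.2
      have h4 : ccost [[], t.1, t.2] = t.1.length + dist t.1 t.2 := by
        simp [ccost, lcost_cons, lcost_single, dist_nil_left, dist_nil_right]
      rw [Finset.sum_insert (by simp [hXO, hXY]), Finset.sum_insert hYO, s3.2.2, s2.2.2, s1.2.2, h4] at h3
      have h5 : pcost κ τ ((true, X, Y) :: l) = τ X Y + pcost κ τ l := by simp [pcost]
      omega
    | false =>
      obtain ⟨hX, hXO, hYO, h⟩ := h
      have hY := hO hYO
      have ht := kp_mem (hne X hX) (hne Y hY)
      have hκ := (hc X hX Y hY).1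
      unfold kap at hκ
      have e : asm CY L (false, X, Y) = splice (splice L [(kp (look CY X []) (look CY Y [])).2,
        (kp (look CY X []) (look CY Y [])).1] (kp (look CY X []) (look CY Y [])).2) (look CY X [])
        (kp (look CY X []) (look CY Y [])).1 := rfl
      rw [e]
      generalize kp (look CY X []) (look CY Y []) = t at ht hκ ⊢
      have s1 := splice_spec (C := [t.2, t.1]) (hm Y hYO _ ht.2) (by simp)
      have s2 := splice_spec (L := splice L [t.2, t.1] t.2) ((s1.2.1 _).2 (by simp)) ht.1
      have := ih (insert X O) _ h (Finset.insert_subset hX hO) (by rw [s2.1, s1.1, h0])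
        (by simp [s2.2.1, s1.2.1, h1]) (by
        intro Z hZ u hu
        simp only [Finset.mem_insert] at hZ
        rw [s2.2.1, s1.2.1]
        rcases hZ with rfl | hZ
        · exact Or.inr hu
        · exact Or.inl (Or.inl (hm Z hZ u hu)))
      refine ⟨this.1, this.2.1, ?_⟩
      have h3 := this.2.2
      have h4 : ccost [t.2, t.1] = dist t.2 t.1 + dist t.1 t.2 := by
        simp [ccost, lcost_cons, lcost_single]
      rw [Finset.sum_insert hXO, s2.2.2, s1.2.2, h4] at h3
      have h5 : pcost κ τ ((false, X, Y) :: l) = κ X Y + pcost κ τ l := by simp [pcost]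
      omega

theorem exists_asm : ∃ f : List (ℕ × List Str) × ℕ × Plan → Str, PT f ∧
    ∀ (CY : List (ℕ × List Str)) (ρ : ℕ) (l : Plan) (A : Finset ℕ) (κ τ : ℕ → ℕ → ℕ),
      Strict A {ρ} l → ρ ∈ A → [] ∈ look CY ρ [] → (∀ X ∈ A, look CY X [] ≠ []) →
      (∀ X ∈ A, ∀ Y ∈ A, kap (look CY X []) (look CY Y []) ≤ κ X Y ∧ tau (look CY X []) (look CY Y []) ≤ τ X Y) →
      (∀ X ∈ A, ∀ u ∈ look CY X [], u <:+: f (CY, ρ, l)) ∧
        (f (CY, ρ, l)).length ≤ ∑ X ∈ A, ccost (look CY X []) + pcost κ τ l := by
  refine ⟨fun a => merge (a.2.2.foldl (asm a.1) (splice [[]] (look a.1 a.2.1 []) [])), ?_, ?_⟩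
  · refine PT.merge (PT.foldl_add (f := fun a : List (ℕ × List Str) × ℕ × Plan => asm a.1)
      (g := fun p => sz [[], (tp (look p.1.1 p.2.2.1 []) (look p.1.1 p.2.2.2 [])).1,
        (tp (look p.1.1 p.2.2.1 []) (look p.1.1 p.2.2.2 [])).2] +
        sz [(kp (look p.1.1 p.2.2.1 []) (look p.1.1 p.2.2.2 [])).2,
          (kp (look p.1.1 p.2.2.1 []) (look p.1.1 p.2.2.2 [])).1] +
        sz (look p.1.1 p.2.2.1 []) + sz (look p.1.1 p.2.2.2 [])) ?_ (by fun_prop) (by fun_prop)
      (by fun_prop) ?_)
    · unfold asm
      fun_prop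
    · intro a s q _
      unfold asm
      cases q.1
      · simp only [cond_false]
        refine (sz_splice _ _ _).trans ?_
        have := sz_splice s [(kp (look a.1 q.2.1 []) (look a.1 q.2.2 [])).2,
          (kp (look a.1 q.2.1 []) (look a.1 q.2.2 [])).1] (kp (look a.1 q.2.1 []) (look a.1 q.2.2 [])).2
        omega
      · simp only [cond_true]
        refine (sz_splice _ _ _).trans ?_
        have h1 := sz_splice s [[], (tp (look a.1 q.2.1 []) (look a.1 q.2.2 [])).1,
          (tp (look a.1 q.2.1 []) (look a.1 q.2.2 [])).2] []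
        have h2 := sz_splice (splice s [[], (tp (look a.1 q.2.1 []) (look a.1 q.2.2 [])).1,
          (tp (look a.1 q.2.1 []) (look a.1 q.2.2 [])).2] []) (look a.1 q.2.1 [])
          (tp (look a.1 q.2.1 []) (look a.1 q.2.2 [])).1
        omega
  · intro CY ρ l A κ τ h hρ h0 hne hc
    have s0 := splice_spec (L := [[]]) (by simp) h0
    have := asm_inv CY A κ τ hne hc l {ρ} _ h (by simpa using hρ) s0.1 (by simp [s0.2.1]) (by
      intro X hX u hu
      rw [Finset.mem_singleton.1 hX] at hu
      exact (s0.2.1 u).2 (Or.inr hu))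
    have hm := merge_spec (l.foldl (asm CY) (splice [[]] (look CY ρ []) []))
    refine ⟨fun X hX u hu => hm.2 u (this.2.1 X hX u hu), ?_⟩
    have h3 := this.2.2
    rw [Finset.sum_singleton, s0.2.2, lcost_single] at h3
    simp only
    rw [hm.1, this.1, List.length_nil]
    omega

end Crest.Agent.R287
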