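import Crest.Agent.R287.SSys
import Crest.Agent.R287.SOpt
import Crest.Agent.R287.SGre
import Crest.Agent.R287.STour
import Crest.Agent.R287.FMain
import Crest.Agent.R287.Glob

/-!
# R287: the algorithm and its analysis

PLAN. `con_bound`: `πF : Perm (Fin n)` from `IsPerm`; `σ` from `exists_sigma`; `ρ = πF⁻¹ * σ`, so `π (ρ e) = σ e`.  `Sys.global (mkSys …) ρ` (a set closed under `ρ` and equality of labels is closed under `σ = π ∘ ρ` by `lb_succ`); rewrite with `mkSys_A`.
With `w₀ = ∑_e sh e = ∑_{X ∈ labs} wt X` (`sum_labs`), `δ = ∑ (cc e - ovp e (σ e))`: the cost is `≤ 2δ + w₀` and `w₀ + δ ≤ |T'|`.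
`exists_scs`: `str = pre S`, `pi = greedy str`, `plan = fm (labs, 0, Kt, Tt, replicate (2 * |str.flatten|) ())` (`fpre`), `T = asm (CYt, 0, plan)`; `look_tab`, `cst_tab`, `ccost_cy`, `sg_mem_cy`.
-/

set_option autoImplicit false
open Crest.Agent.PTime

namespace Crest.Agent.R287

theorem con_bound {str : List Str} {pi : Mt} (hs : SPre str) (h : IsPerm str.length (mt pi))
    (hg : Greedy str pi) (T : Str) (hT : ∀ s ∈ str, s <:+: T) :
    ∃ c : ℤ, Con (cst (Kt str pi)) (cst (Tt str pi)) (labs str.length pi).toFinset {0}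
      (labs str.length pi).toFinset c ∧
      c + ∑ X ∈ (labs str.length pi).toFinset, (wt str pi X : ℤ) ≤ 2 * T.length := by
  obtain ⟨σ, hσ, hc⟩ := exists_sigma hs T hT
  let π0 : Fin str.length → Fin str.length := fun e => ⟨mt pi e, h.lt e e.2⟩
  have hinj : Function.Injective π0 := fun e f hef => Fin.ext (h.inj e e.2 f f.2 (congrArg Fin.val hef))
  let πF : Equiv.Perm (Fin str.length) := Equiv.ofBijective π0 (Finite.injective_iff_bijective.1 hinj)
  let ρ : Equiv.Perm (Fin str.length) := σ.trans πF.symm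
  have hρ : ∀ e, mt pi (ρ e) = σ e := fun e => congrArg Fin.val (πF.apply_symm_apply (σ e))
  have hG := Sys.global (mkSys str pi hs h hg) ρ fun U hU h1 h2 => hσ U hU fun e he =>
    h2 (ρ e) (h1 e he) (σ e) (by
      show lb str.length pi (σ e) = lb str.length pi (ρ e)
      rw [← hρ, lb_succ h (ρ e).2])
  unfold Sys.Con at hG
  rw [mkSys_A] at hG
  refine ⟨_, hG, ?_⟩
  show 2 * ∑ e : Fin str.length, ((cc str pi e : ℤ) - ovp (sg str e) (sg str (mt pi (ρ e))))
    + ∑ X ∈ (labs str.length pi).toFinset.erase 0, (wt str pi X : ℤ) + _ ≤ _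
  have h1 : ∑ X ∈ (labs str.length pi).toFinset.erase 0, (wt str pi X : ℤ)
      ≤ ∑ X ∈ (labs str.length pi).toFinset, (wt str pi X : ℤ) :=
    Finset.sum_le_sum_of_subset_of_nonneg (Finset.erase_subset _ _) fun _ _ _ => Nat.cast_nonneg _
  have h2 : ∑ X ∈ (labs str.length pi).toFinset, (wt str pi X : ℤ)
      = ∑ e : Fin str.length, (sh str pi e : ℤ) := by
    have := sum_labs h (sh str pi)
    rw [Finset.sum_range] at this
    exact_mod_cast this
  have h3 : ∑ e : Fin str.length, (((sg str e).length : ℤ) - ovp (sg str e) (sg str (σ e)))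
      = ∑ e : Fin str.length, ((cc str pi e : ℤ) - ovp (sg str e) (sg str (mt pi (ρ e))))
        + ∑ e : Fin str.length, (sh str pi e : ℤ) := by
    rw [← Finset.sum_add_distrib]
    refine Finset.sum_congr rfl fun e _ => ?_
    have := ssys_sh (str := str) (pi := pi) e
    rw [hρ]
    omega
  omega

theorem exists_scs : ∃ f : List Str → Str, PT f ∧ ∀ S, (∀ s ∈ S, s <:+: f S) ∧
    ∀ T : Str, (∀ s ∈ S, s <:+: T) → (f S).length ≤ 2 * T.length := by
  obtain ⟨pre, hpre, Hpre⟩ := exists_pre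
  obtain ⟨gr, hgr, Hgr⟩ := exists_greedy
  obtain ⟨fm, hfm, Hfm⟩ := exists_fm
  obtain ⟨as, has, Has⟩ := exists_asm
  have hg2 : PT fun S : List Str => gr (pre S) := hgr.comp hpre
  refine ⟨fun S => as (CYt (pre S) (gr (pre S)), 0, fm (labs (pre S).length (gr (pre S)), 0,
    Kt (pre S) (gr (pre S)), Tt (pre S) (gr (pre S)), List.replicate (2 * (pre S).flatten.length) ())),
    has.comp (PT.pair (PT.CYt hpre hg2) (PT.pair (by fun_prop) (hfm.comp
      (PT.pair (PT.labs (PT.length hpre) (PB.length hpre) hg2) (PT.pair (by fun_prop)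
        (PT.pair (PT.Kt hpre hg2) (PT.pair (PT.Tt hpre hg2) (by fun_prop)))))))), fun S => ?_⟩
  obtain ⟨hs, hsub, hcov⟩ := Hpre S
  obtain ⟨h, hg⟩ := Hgr (pre S)
  dsimp only
  generalize pre S = str at *
  generalize gr str = pi at *
  obtain ⟨h1, h2⟩ := Hfm (labs str.length pi) 0 (Kt str pi) (Tt str pi)
    (List.replicate (2 * str.flatten.length) ()) (by rw [List.length_replicate]; exact fpre hs h)
  have hlook : ∀ X ∈ (labs str.length pi).toFinset, look (CYt str pi) X [] = cy str pi X := fun X hX => by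
    rw [CYt, look_tab, if_pos (List.mem_toFinset.1 hX)]
  have h0 : 0 ∈ (labs str.length pi).toFinset :=
    List.mem_toFinset.2 ((mem_labs h _).2 ⟨0, hs.pos, lb_zero h hs.pos⟩)
  obtain ⟨h3, h4⟩ := Has (CYt str pi) 0 _ _ (cst (Kt str pi)) (cst (Tt str pi)) h1 h0
    (by rw [hlook 0 h0]; exact nil_mem_cy hs h) (fun X hX => by rw [hlook X hX]; exact cy_ne_nil X)
    fun X hX Y hY => by
      rw [hlook X hX, hlook Y hY, ssys_K (List.mem_toFinset.1 hX) (List.mem_toFinset.1 hY),
        ssys_T (List.mem_toFinset.1 hX) (List.mem_toFinset.1 hY)]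
      exact ⟨le_rfl, le_rfl⟩
  refine ⟨fun s hsS => ?_, fun T hT => ?_⟩
  · obtain ⟨t, ht, hst⟩ := hcov s hsS
    obtain ⟨e, he, rfl⟩ := List.getElem_of_mem ht
    have hm := List.mem_toFinset.2 (ssys_labs h he)
    refine hst.trans (h3 _ hm _ ?_)
    have := sg_mem_cy h he
    rwa [sg, List.getD_eq_getElem _ _ he, ← hlook _ hm] at this
  · obtain ⟨c, hc, hle⟩ := con_bound hs h hg T fun s hs' => by
      rcases hsub s hs' with rfl | hs''
      · exact List.nil_infix
      · exact hT s hs''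
    have h5 := h2 c hc
    have h6 : ∑ X ∈ (labs str.length pi).toFinset, ccost (look (CYt str pi) X [])
        ≤ ∑ X ∈ (labs str.length pi).toFinset, wt str pi X := Finset.sum_le_sum fun X hX => by
      rw [hlook X hX]
      obtain ⟨e, he, rfl⟩ := (mem_labs h X).1 (List.mem_toFinset.1 hX)
      exact ccost_cy h (lb_lt h he)
    rw [← Nat.cast_sum] at hle
    omega

end Crest.Agent.R287
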