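import Crest.Agent.R287.Walk

/-!
# R287: Lovász–Plummer, moving the missed vertex `a` to a neighbour `c` (Gallai's argument)

PLAN. `y = K b`.  If `c = b`: `link (unlink K b) a b` wins (if `y = b` two fewer fixed points, else it misses `y ∉ D`; `y ≠ a`).
Else `P = unlink K b` and `Q = N` if `y = b`, `Q = unlink N y` otherwise (`N y ≠ y` since `y ∉ D`); `|Fx P| = |Fx Q| = g ∈ {f, f+2}`;
if `y ≠ b` both fix `y`; `Q c = c` (`N y ≠ c` as `N c = c`).  `R = walk V E Q P c`.  If the count drops: `R` wins.  Otherwise `R c = c`,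
`Fx R ⊆ Fx P ∪ {c}`, `|Fx R| = |Fx P|`, so `a` or `b` (both in `Fx P`) is fixed by `R`.  If `a`: link `a,c` wins.  If `b`: return `R`
(if `y = b`) or `link R b y`; fixed points are in `Fx K ∪ {c} ⊆ D`.
-/

set_option autoImplicit false
open Crest.Agent.PTime

namespace Crest.Agent.R287

noncomputable def w2bQ (V : List ℕ) (K N : Mt) (b : ℕ) : Mt :=
  if mt K b = b then N else unlinkT V N (mt K b)

noncomputable def w2bR (V : List ℕ) (E : List (ℕ × ℕ)) (K N : Mt) (b c : ℕ) : Mt :=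
  walk V E (w2bQ V K N b) (unlinkT V K b) c

noncomputable def win2b (V : List ℕ) (E : List (ℕ × ℕ)) (K N : Mt) (a b c : ℕ) : Bool × Mt :=
  if c = b then (true, linkT V (unlinkT V K b) a b)
  else if nfx V (w2bR V E K N b c) + 2 ≤ nfx V (w2bQ V K N b) then (true, w2bR V E K N b c)
  else if mt (w2bR V E K N b c) a = a then (true, linkT V (w2bR V E K N b c) a c)
  else if mt K b = b then (false, w2bR V E K N b c)
  else (false, linkT V (w2bR V E K N b c) b (mt K b))

@[fun_prop] theorem PT.win2b {α : Type} [Enc α] {V : α → List ℕ} {E : α → List (ℕ × ℕ)} {M N : α → Mt}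
    {x y z : α → ℕ} (hV : PT V) (hE : PT E) (hM : PT M) (hN : PT N) (hx : PT x) (hy : PT y) (hz : PT z) :
    PT (fun a => win2b (V a) (E a) (M a) (N a) (x a) (y a) (z a)) := by
  unfold R287.win2b R287.w2bR R287.w2bQ; fun_prop

theorem W2b_fix {V : List ℕ} {μ : ℕ → ℕ} {S : Finset ℕ} {v : ℕ} (h : Fx V μ = S) (hv : v ∈ S) :
    μ v = v := (mem_Fx.mp (h ▸ hv)).2

theorem win2b_spec {V : List ℕ} {E : List (ℕ × ℕ)} {f : ℕ} {D : List ℕ} {K N : Mt} {a b c : ℕ}
    (hV : V.Nodup) (hK : InR V E f D (mt K)) (hN : InR V E f D (mt N))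
    (ha : a ∈ D) (haV : a ∈ V) (hb : b ∈ D) (hbV : b ∈ V) (hc : c ∈ D) (hcV : c ∈ V) (hab : a ≠ b)
    (hKa : mt K a = a) (hob : Out D (mt K) b) (hNc : mt N c = c) (hac : Adj E a c) :
    ((win2b V E K N a b c).1 = true → Win V E f D (mt (win2b V E K N a b c).2)) ∧
    ((win2b V E K N a b c).1 = false → c ≠ b ∧ InR V E f D (mt (win2b V E K N a b c).2) ∧
      mt (win2b V E K N a b c).2 c = c ∧ Out D (mt (win2b V E K N a b c).2) b) := by
  obtain ⟨hK1, hK2, hK3⟩ := hK
  obtain ⟨hN1, hN2, hN3⟩ := hN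
  have hD : ∀ {u v : ℕ}, u ∈ D → v ∉ D → u ≠ v := fun hu hv e => hv (e ▸ hu)
  have haF : a ∈ Fx V (mt K) := mem_Fx.mpr ⟨haV, hKa⟩
  have hcF : c ∈ Fx V (mt N) := mem_Fx.mpr ⟨hcV, hNc⟩
  have hyV := hK1.mem hbV
  unfold win2b w2bR w2bQ
  by_cases hy : mt K b = b
  · have e : mt (unlinkT V K b) = mt K := by rw [mt_unlinkT hK1, unlink_of_fix hy]
    have p1 : IsMat V E (mt (unlinkT V K b)) := e ▸ hK1
    by_cases c1 : c = b
    · rw [if_pos c1]
      refine ⟨fun _ => ?_, by simp⟩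
      obtain ⟨l1, l2, l3⟩ := hK1.link haV hbV hKa hy (c1 ▸ hac)
      rw [mt_linkT p1 haV hbV, e]
      exact ⟨l1, Or.inl (by omega)⟩
    simp only [if_neg c1, if_pos hy]
    obtain ⟨r1, -, r3, r4⟩ := walk_spec c hN1 p1
    set R := walk V E N (unlinkT V K b) c with hR
    rw [e] at r3
    rw [← card_Fx_eq hV, ← card_Fx_eq hV, hN2]
    by_cases c2 : (Fx V (mt R)).card + 2 ≤ f
    · rw [if_pos c2]
      exact ⟨fun _ => ⟨r1, Or.inl (by show (Fx V (mt R)).card < f; omega)⟩, by simp⟩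
    rw [if_neg c2]
    obtain ⟨r5, r6⟩ := r4.resolve_left (by omega)
    have hRc := r6 hNc
    by_cases c3 : mt R a = a
    · rw [if_pos c3]
      refine ⟨fun _ => ?_, by simp⟩
      obtain ⟨l1, l2, l3⟩ := r1.link haV hcV c3 hRc hac
      rw [mt_linkT r1 haV hcV]
      exact ⟨l1, Or.inl (by omega)⟩
    rw [if_neg c3]
    refine ⟨by simp, fun _ => ⟨c1, ⟨r1, r5.trans hN2, fun v hv => ?_⟩, hRc, Or.inl ?_⟩⟩
    · obtain ⟨hvV, hv'⟩ := mem_Fx.mp hv
      rcases r3 v hvV hv' with h | h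
      · exact hK3 v (mem_Fx.mpr ⟨hvV, h⟩)
      · exact h ▸ hc
    · by_contra c4
      have h1 : Fx V (mt R) ⊆ insert c (((Fx V (mt K)).erase a).erase b) := by
        intro v hv
        obtain ⟨hvV, hv'⟩ := mem_Fx.mp hv
        simp only [Finset.mem_insert, Finset.mem_erase]
        rcases r3 v hvV hv' with h | h
        · exact Or.inr ⟨fun e => c4 (e ▸ hv'), fun e => c3 (e ▸ hv'), mem_Fx.mpr ⟨hvV, h⟩⟩
        · exact Or.inl h
      have h2 := (Finset.card_le_card h1).trans (Finset.card_insert_le _ _)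
      have h3 := Finset.card_erase_add_one haF
      have h4 := Finset.card_erase_add_one
        (Finset.mem_erase.mpr ⟨hab.symm, mem_Fx.mpr ⟨hbV, hy⟩⟩ : b ∈ (Fx V (mt K)).erase a)
      omega
  · have hyD : mt K b ∉ D := hob.resolve_left hy
    obtain ⟨p1, p2, p3⟩ := hK1.unlink hy
    rw [← mt_unlinkT hK1] at p1 p2 p3
    by_cases c1 : c = b
    · rw [if_pos c1]
      refine ⟨fun _ => ?_, by simp⟩
      obtain ⟨l1, l2, l3⟩ := p1.link haV hbV (W2b_fix p2 (by simp [haF])) (W2b_fix p2 (by simp))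
        (c1 ▸ hac)
      rw [mt_linkT p1 haV hbV]
      refine ⟨l1, Or.inr ⟨by omega, mt K b, ?_, hyD⟩⟩
      rw [l2, p2]
      simp [hy, (hD ha hyD).symm]
    simp only [if_neg c1, if_neg hy]
    have hNy : mt N (mt K b) ≠ mt K b := fun e => hyD (hN3 _ (mem_Fx.mpr ⟨hyV, e⟩))
    obtain ⟨q1, q2, q3⟩ := hN1.unlink hNy
    rw [← mt_unlinkT hN1] at q1 q2 q3
    obtain ⟨r1, r2, r3, r4⟩ := walk_spec c q1 p1
    set R := walk V E (unlinkT V N (mt K b)) (unlinkT V K b) c with hR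
    have hRy : mt R (mt K b) = mt K b := r2 _ (W2b_fix q2 (by simp)) (W2b_fix p2 (by simp))
    have hsub : ∀ v ∈ Fx V (mt R), v = c ∨ v = b ∨ v = mt K b ∨ v ∈ Fx V (mt K) := by
      intro v hv
      obtain ⟨hvV, hv'⟩ := mem_Fx.mp hv
      rcases r3 v hvV hv' with h | h
      · have h3 := mem_Fx.mpr ⟨hvV, h⟩
        rw [p2] at h3
        simp only [Finset.mem_insert] at h3
        exact Or.inr h3
      · exact Or.inl h
    rw [← card_Fx_eq hV, ← card_Fx_eq hV, q3, hN2]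
    by_cases c2 : (Fx V (mt R)).card + 2 ≤ f + 2
    · rw [if_pos c2]
      refine ⟨fun _ => ⟨r1, ?_⟩, by simp⟩
      rcases lt_or_eq_of_le c2 with h | h
      · exact Or.inl (by show (Fx V (mt R)).card < f; omega)
      · exact Or.inr ⟨by show (Fx V (mt R)).card = f; omega, mt K b, mem_Fx.mpr ⟨hyV, hRy⟩, hyD⟩
    rw [if_neg c2]
    obtain ⟨r5, r6⟩ := r4.resolve_left (by omega)
    have hRc := r6 (W2b_fix q2 (by simp [hcF]))
    by_cases c3 : mt R a = a
    · rw [if_pos c3]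
      refine ⟨fun _ => ?_, by simp⟩
      obtain ⟨l1, l2, l3⟩ := r1.link haV hcV c3 hRc hac
      rw [mt_linkT r1 haV hcV]
      refine ⟨l1, Or.inr ⟨by omega, mt K b, ?_, hyD⟩⟩
      rw [l2]
      simp [mem_Fx, hyV, hRy, (hD ha hyD).symm, (hD hc hyD).symm]
    rw [if_neg c3]
    have c4 : mt R b = b := by
      by_contra c4
      have h1 : Fx V (mt R) ⊆ insert c (insert (mt K b) ((Fx V (mt K)).erase a)) := by
        intro v hv
        obtain ⟨hvV, hv'⟩ := mem_Fx.mp hv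
        simp only [Finset.mem_insert, Finset.mem_erase]
        rcases hsub v hv with h | h | h | h
        · exact Or.inl h
        · exact absurd (h ▸ hv') c4
        · exact Or.inr (Or.inl h)
        · exact Or.inr (Or.inr ⟨fun e => c3 (e ▸ hv'), h⟩)
      have h2 := (Finset.card_le_card h1).trans ((Finset.card_insert_le _ _).trans
        (Nat.succ_le_succ (Finset.card_insert_le _ _)))
      have h3 := Finset.card_erase_add_one haF
      omega
    obtain ⟨l1, l2, l3⟩ := r1.link hbV hyV c4 hRy (hK1.adj b hy).2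
    rw [mt_linkT r1 hbV hyV]
    refine ⟨by simp, fun _ => ⟨c1, ⟨l1, by omega, fun v hv => ?_⟩, W2b_fix l2 ?_, Or.inr ?_⟩⟩
    · rw [l2] at hv
      simp only [Finset.mem_erase] at hv
      obtain ⟨v1, v2, v3⟩ := hv
      rcases hsub v v3 with h | h | h | h
      · exact h ▸ hc
      · exact absurd h v2
      · exact absurd h v1
      · exact hK3 v h
    · simp [mem_Fx, hcV, hRc, c1, hD hc hyD]
    · simpa [link] using hyD

end Crest.Agent.R287
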