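import Crest.Agent.R287.Win2a
import Crest.Agent.R287.Win2b
import Crest.Agent.R287.Bfs

/-!
# R287: Lovász–Plummer, two vertices of one component of `D` not matched inside `D` give progress

PLAN. First `win2a V E D M (look T a []) a b = (fl,K)`.  If `fl`, done.  Otherwise, swapping `a,b` if necessary (test `mt K a = a` and
`Out D (mt K) b`), `K` misses `a'` and `b'` is `Out`, `Conn D E b' a'`.  Then `exists_loop` (a separate `∃ f, PT f ∧ …` lemma with input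
`(G,D,T,K,a',b')`): state `(fl, K, a)`, `Done` = `fl = true`; step: `L = bfs D E b'`, `c` = first `y ∈ L` with `L.idxOf y < L.idxOf a` and `Adj E y a`
(`bfs_prev`; use `findIdx (· == y)` if `idxOf` has no `PT` lemma), apply `win2b V E K (look T c []) a b' c`, store `tab V (mt K')` (size: `IsMat.sz_tab`)
and `c`.  Potential `L.length - L.idxOf a`.  The parameter `f` is not an input: put `f := (Fx V (mt K)).card` of the input `K` in `Pre`/`Inv`.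
-/

set_option autoImplicit false
open Crest.Agent.PTime

namespace Crest.Agent.R287

/-- an earlier neighbour in BFS order -/
noncomputable def w2nxt (D : List ℕ) (E : List (ℕ × ℕ)) (b a : ℕ) : ℕ :=
  ((bfs D E b).find? fun y => decide ((bfs D E b).findIdx (· == y) < (bfs D E b).findIdx (· == a) ∧
    Adj E y a)).getD 0

@[fun_prop] theorem PT.w2nxt {α : Type} [Enc α] {D : α → List ℕ} {E : α → List (ℕ × ℕ)} {b a : α → ℕ}
    (hD : PT D) (hE : PT E) (hb : PT b) (ha : PT a) : PT (fun x => w2nxt (D x) (E x) (b x) (a x)) := by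
  unfold R287.w2nxt; fun_prop

theorem w2nxt_spec {D : List ℕ} {E : List (ℕ × ℕ)} {b a : ℕ} (hb : b ∈ D) (h : Conn D E b a)
    (hab : a ≠ b) : w2nxt D E b a ∈ bfs D E b ∧
      (bfs D E b).idxOf (w2nxt D E b a) < (bfs D E b).idxOf a ∧ Adj E (w2nxt D E b a) a := by
  obtain ⟨y, hy, h1, h2⟩ := bfs_prev hb ((mem_bfs hb a).mpr h) hab
  unfold w2nxt
  cases e : (bfs D E b).find? fun y => decide ((bfs D E b).findIdx (· == y) <
      (bfs D E b).findIdx (· == a) ∧ Adj E y a) with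
  | none => exact absurd (decide_eq_true ⟨h1, h2⟩) (List.find?_eq_none.mp e y hy)
  | some c =>
    have h3 := List.find?_some e
    exact ⟨List.mem_of_find?_eq_some e, of_decide_eq_true h3⟩

theorem exists_w2loop : ∃ g : Gr × List ℕ × List (ℕ × Mt) × Mt × ℕ × ℕ → Bool × Mt × ℕ, PT g ∧
    ∀ (V : List ℕ) (E : List (ℕ × ℕ)) (f : ℕ) (D : List ℕ) (T : List (ℕ × Mt)) (K : Mt) (a b : ℕ),
      V.Nodup → Fam V E f D T → InR V E f D (mt K) → a ∈ D → b ∈ D → a ≠ b → Conn D E b a →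
      mt K a = a → Out D (mt K) b → Win V E f D (mt (g ((V, E), D, T, K, a, b)).2.1) := by
  obtain ⟨g, hg, hs⟩ := exists_loop (α := Gr × List ℕ × List (ℕ × Mt) × Mt × ℕ × ℕ) (σ := Bool × Mt × ℕ)
    (fun x => x.1.1.Nodup ∧ Fam x.1.1 x.1.2 (Fx x.1.1 (mt x.2.2.2.1)).card x.2.1 x.2.2.1 ∧
      InR x.1.1 x.1.2 (Fx x.1.1 (mt x.2.2.2.1)).card x.2.1 (mt x.2.2.2.1) ∧ x.2.2.2.2.1 ∈ x.2.1 ∧
      x.2.2.2.2.2 ∈ x.2.1 ∧ x.2.2.2.2.1 ≠ x.2.2.2.2.2 ∧ Conn x.2.1 x.1.2 x.2.2.2.2.2 x.2.2.2.2.1 ∧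
      mt x.2.2.2.1 x.2.2.2.2.1 = x.2.2.2.2.1 ∧ Out x.2.1 (mt x.2.2.2.1) x.2.2.2.2.2)
    (fun x s => sz s.2.1 ≤ sz x.1.1 * (2 * sz x.1.1 + 2) + 1 ∧ s.2.2 ∈ x.2.1 ∧
      (s.1 = true → Win x.1.1 x.1.2 (Fx x.1.1 (mt x.2.2.2.1)).card x.2.1 (mt s.2.1)) ∧
      (s.1 = false → InR x.1.1 x.1.2 (Fx x.1.1 (mt x.2.2.2.1)).card x.2.1 (mt s.2.1) ∧
        s.2.2 ≠ x.2.2.2.2.2 ∧ Conn x.2.1 x.1.2 x.2.2.2.2.2 s.2.2 ∧ mt s.2.1 s.2.2 = s.2.2 ∧
        Out x.2.1 (mt s.2.1) x.2.2.2.2.2))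
    (fun _ s => s.1 = true)
    (fun x => (false, tab x.1.1 (mt x.2.2.2.1), x.2.2.2.2.1))
    (fun x s => ((win2b x.1.1 x.1.2 s.2.1 (look x.2.2.1 (w2nxt x.2.1 x.1.2 x.2.2.2.2.2 s.2.2) []) s.2.2
        x.2.2.2.2.2 (w2nxt x.2.1 x.1.2 x.2.2.2.2.2 s.2.2)).1,
      tab x.1.1 (mt (win2b x.1.1 x.1.2 s.2.1 (look x.2.2.1 (w2nxt x.2.1 x.1.2 x.2.2.2.2.2 s.2.2) []) s.2.2
        x.2.2.2.2.2 (w2nxt x.2.1 x.1.2 x.2.2.2.2.2 s.2.2)).2), w2nxt x.2.1 x.1.2 x.2.2.2.2.2 s.2.2))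
    (fun x s => (bfs x.2.1 x.1.2 x.2.2.2.2.2).length - (bfs x.2.1 x.1.2 x.2.2.2.2.2).idxOf s.2.2)
    (fun x => (bfs x.2.1 x.1.2 x.2.2.2.2.2).length)
    (fun x => sz x.1.1 * (2 * sz x.1.1 + 2) + sz x.2.1 + (sz true + sz false + 3))
    (by fun_prop) (by fun_prop) (by fun_prop) (by fun_prop) (by fun_prop)
    (by
      rintro ⟨⟨V, E⟩, D, T, K, a, b⟩ ⟨-, -, h3, h4, -, h6, h7, h8, h9⟩
      dsimp only at *
      rw [h3.1.mt_tab]
      exact ⟨h3.1.sz_tab, h4, by simp, fun _ => ⟨h3, h6, h7, h8, h9⟩⟩)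
    (by
      rintro ⟨⟨V, E⟩, D, T, K₀, a₀, b⟩ ⟨fl, K, a⟩ ⟨h1, h2, -, -, h5, -⟩ ⟨-, i2, -, i4⟩ hd
      dsimp only at *
      obtain ⟨j1, j2, j3, j4, j5⟩ := i4 (by simpa using hd)
      obtain ⟨n1, n2, n3⟩ := w2nxt_spec h5 j3 j2
      set c := w2nxt D E b a with hc
      have hcb : Conn D E b c := (mem_bfs h5 c).mp n1
      have hcD : c ∈ D := hcb.mem h5
      obtain ⟨w1, w2⟩ := win2b_spec h1 j1 (h2 c hcD).2.1 i2 (h2 a i2).1 h5 (h2 b h5).1 hcD (h2 c hcD).1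
        j2 j4 j5 (h2 c hcD).2.2 n3.symm
      have hm : IsMat V E (mt (win2b V E K (look T c []) a b c).2) := by
        cases e : (win2b V E K (look T c []) a b c).1
        · exact (w2 e).2.1.1
        · exact (w1 e).1
      rw [hm.mt_tab]
      refine ⟨⟨hm.sz_tab, hcD, w1, fun e => ⟨(w2 e).2.1, (w2 e).1, hcb, (w2 e).2.2⟩⟩, Or.inr ?_⟩
      have := List.idxOf_le_length (l := bfs D E b) (a := a)
      omega)
    (fun _ _ _ _ => Nat.sub_le _ _)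
    (by
      rintro ⟨⟨V, E⟩, D, T, K₀, a₀, b⟩ ⟨fl, K, a⟩ - ⟨i1, i2, -⟩
      dsimp only at *
      have := sz_mem i2
      cases fl <;> simp only [sz_pair] <;> omega)
  refine ⟨g, hg, fun V E f D T K a b h1 h2 h3 h4 h5 h6 h7 h8 h9 => ?_⟩
  obtain rfl : (Fx V (mt K)).card = f := h3.2.1
  obtain ⟨⟨-, -, h, -⟩, hd⟩ := hs ((V, E), D, T, K, a, b) ⟨h1, h2, h3, h4, h5, h6, h7, h8, h9⟩
  exact h hd

theorem exists_win2 : ∃ g : Gr × List ℕ × List (ℕ × Mt) × Mt × ℕ × ℕ → Mt, PT g ∧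
    ∀ (V : List ℕ) (E : List (ℕ × ℕ)) (f : ℕ) (D : List ℕ) (T : List (ℕ × Mt)) (M : Mt) (a b : ℕ),
      V.Nodup → Fam V E f D T → (∀ d ∈ D, G1 V E D (mt (look T d []))) → InR V E f D (mt M) →
      a ∈ D → b ∈ D → a ≠ b → Conn D E a b → Out D (mt M) a → Out D (mt M) b →
      Win V E f D (mt (g ((V, E), D, T, M, a, b))) := by
  obtain ⟨g, hg, hs⟩ := exists_w2loop
  let w : Gr × List ℕ × List (ℕ × Mt) × Mt × ℕ × ℕ → Bool × Mt := fun x =>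
    win2a x.1.1 x.1.2 x.2.1 x.2.2.2.1 (look x.2.2.1 x.2.2.2.2.1 []) x.2.2.2.2.1 x.2.2.2.2.2
  have hw : PT w := by unfold w; fun_prop
  refine ⟨fun x => if (w x).1 = true then (w x).2 else
    if mt (w x).2 x.2.2.2.2.1 = x.2.2.2.2.1 ∧
        (mt (w x).2 x.2.2.2.2.2 = x.2.2.2.2.2 ∨ mt (w x).2 x.2.2.2.2.2 ∉ x.2.1) then
      (g (x.1, x.2.1, x.2.2.1, (w x).2, x.2.2.2.2.1, x.2.2.2.2.2)).2.1
    else (g (x.1, x.2.1, x.2.2.1, (w x).2, x.2.2.2.2.2, x.2.2.2.2.1)).2.1, by fun_prop, ?_⟩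
  intro V E f D T M a b hV hF hG hM ha hb hab hc hoa hob
  obtain ⟨w1, w2⟩ := win2a_spec hV hM (hF a ha).2.1 (hG a ha) ha (hF a ha).1 hb (hF b hb).1 hab
    (hF a ha).2.2 hoa hob
  dsimp only [w]
  split_ifs with h1 h2
  · exact w1 h1
  · exact hs V E f D T _ a b hV hF (w2 (by simpa using h1)).1 ha hb hab hc.symm h2.1 h2.2
  · obtain ⟨h3, h4⟩ := w2 (by simpa using h1)
    obtain ⟨h5, h6⟩ := h4.resolve_left h2
    exact hs V E f D T _ b a hV hF h3 hb ha hab.symm hc h5 h6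

end Crest.Agent.R287
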