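import Crest.Agent.R287.Win1
import Crest.Agent.R287.Win2

/-!
# R287: the Lovász–Plummer procedure

PLAN. `exists_loop`, input `(V,E)`, `Pre` = `V.Nodup`, state `(D,T,M0)`, initially `(V, tab V (fun _ => []), [])` (`mt_nil`, `isMat_id`).
Invariant: with `f = (Fx V (mt M0)).card`: `InR V E f D (mt M0)`, `Fam V E f D T`, `D` a sublist of `V` (always write `D` as a `V.filter _`),
`T = tab D (fun d => tab V _)`, `M0 = tab V _` or `[]` (sizes: `sz_tab_le`, `IsMat.sz_tab`, `sz_sublist`).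
`Done` = every `d ∈ D` satisfies `G1` and `G2`, written with bounded quantifiers (`Conn D E a b ↔ b ∈ bfs D E a`, `mem_bfs`; `PT.forall_mem`, `PT.exists_mem`).
Step: if some `(d,x,z)` violates `G1` (search `prs D (prs V D)` with `find?`), `W = win1 V E (look T d []) (look T z []) x z`; else some `(d,a,b)` violates
`G2`, `W` from `exists_win2`.  If `nfx V W < nfx V M0`: new state `(V.filter (mt W · = ·), tab _ (fun _ => tab V (mt W)), tab V (mt W))`; else
`D' = V.filter (fun v => v ∈ D ∨ mt W v = v)`, `T' = tab D' (fun v => if v ∈ D then tab V (mt (look T v [])) else tab V (mt W))`, same `M0`.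
Potential `(|V| - f) * (|V| + 1) + |D|`.
-/

set_option autoImplicit false
open Crest.Agent.PTime

namespace Crest.Agent.R287

namespace GEA

abbrev GSt := List ℕ × List (ℕ × Mt) × Mt

/-- a violation of `G1` -/
def bad1 (V : List ℕ) (E : List (ℕ × ℕ)) (D : List ℕ) (T : List (ℕ × Mt)) : Option (ℕ × ℕ × ℕ) :=
  (prs D (prs V D)).find? fun q =>
    decide (¬ q.2.1 ∈ D ∧ Adj E q.2.1 q.2.2 ∧ ¬ mt (look T q.1 []) q.2.1 ∈ D)

/-- a violation of `G2` -/
noncomputable def bad2 (E : List (ℕ × ℕ)) (D : List ℕ) (T : List (ℕ × Mt)) : Option (ℕ × ℕ × ℕ) :=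
  (prs D (prs D D)).find? fun q =>
    decide (q.2.1 ≠ q.2.2 ∧ q.2.2 ∈ bfs D E q.2.1 ∧
      (mt (look T q.1 []) q.2.1 = q.2.1 ∨ ¬ mt (look T q.1 []) q.2.1 ∈ D) ∧
      (mt (look T q.1 []) q.2.2 = q.2.2 ∨ ¬ mt (look T q.1 []) q.2.2 ∈ D))

noncomputable def win2 (V : List ℕ) (E : List (ℕ × ℕ)) (D : List ℕ) (T : List (ℕ × Mt)) (M : Mt)
    (a b : ℕ) : Mt := Classical.choose exists_win2 ((V, E), D, T, M, a, b)

/-- the winning matching -/
noncomputable def win (V : List ℕ) (E : List (ℕ × ℕ)) (D : List ℕ) (T : List (ℕ × Mt)) : Mt :=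
  (bad1 V E D T).elim
    ((bad2 E D T).elim [] fun q => win2 V E D T (look T q.1 []) q.2.1 q.2.2)
    fun q => win1 V E (look T q.1 []) (look T q.2.2 []) q.2.1 q.2.2

/-- the new state -/
def upd (V : List ℕ) (D : List ℕ) (T : List (ℕ × Mt)) (M0 W : Mt) : GSt :=
  if nfx V W < nfx V M0 then
    (V.filter fun v => decide (mt W v = v),
      tab (V.filter fun v => decide (mt W v = v)) (fun _ => tab V (mt W)), tab V (mt W))
  else
    (V.filter fun v => decide (v ∈ D ∨ mt W v = v),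
      tab (V.filter fun v => decide (v ∈ D ∨ mt W v = v))
        (fun v => if v ∈ D then look T v [] else tab V (mt W)), M0)

section pt
variable {α : Type} [Enc α] {V : α → List ℕ} {E : α → List (ℕ × ℕ)} {D : α → List ℕ}
  {T : α → List (ℕ × Mt)}

@[fun_prop] theorem pt_bad1 (hV : PT V) (hE : PT E) (hD : PT D) (hT : PT T) :
    PT (fun a => bad1 (V a) (E a) (D a) (T a)) := by
  unfold bad1; fun_prop

@[fun_prop] theorem pt_bad2 (hE : PT E) (hD : PT D) (hT : PT T) :
    PT (fun a => bad2 (E a) (D a) (T a)) := by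
  unfold bad2; fun_prop

@[fun_prop] theorem pt_win2 {M : α → Mt} {x y : α → ℕ} (hV : PT V) (hE : PT E) (hD : PT D)
    (hT : PT T) (hM : PT M) (hx : PT x) (hy : PT y) :
    PT (fun a => win2 (V a) (E a) (D a) (T a) (M a) (x a) (y a)) :=
  (Classical.choose_spec exists_win2).1.comp
    (g := fun a => ((V a, E a), D a, T a, M a, x a, y a)) (by fun_prop)

@[fun_prop] theorem pt_win (hV : PT V) (hE : PT E) (hD : PT D) (hT : PT T) :
    PT (fun a => win (V a) (E a) (D a) (T a)) := by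
  unfold win; fun_prop

@[fun_prop] theorem pt_upd {M W : α → Mt} (hV : PT V) (hD : PT D) (hT : PT T) (hM : PT M)
    (hW : PT W) : PT (fun a => upd (V a) (D a) (T a) (M a) (W a)) := by
  unfold upd; fun_prop

end pt

variable {V : List ℕ} {E : List (ℕ × ℕ)} {D : List ℕ} {T : List (ℕ × Mt)} {M0 W : Mt} {f : ℕ}

theorem g1_of (h : bad1 V E D T = none) : ∀ d ∈ D, G1 V E D (mt (look T d [])) := by
  rintro d hd a ha haD ⟨z, hz, haz⟩
  by_contra hc
  exact List.find?_eq_none.1 h (d, a, z) ((mem_prs _ _ _).2 ⟨hd, (mem_prs _ _ _).2 ⟨ha, hz⟩⟩)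
    (decide_eq_true ⟨haD, haz, hc⟩)

theorem g2_of (h : bad2 E D T = none) : ∀ d ∈ D, G2 E D (mt (look T d [])) := by
  intro d hd a ha b hb hab h1 h2
  by_contra hc
  exact List.find?_eq_none.1 h (d, a, b) ((mem_prs _ _ _).2 ⟨hd, (mem_prs _ _ _).2 ⟨ha, hb⟩⟩)
    (decide_eq_true ⟨hc, (mem_bfs ha b).2 hab, h1, h2⟩)

theorem win_spec (hV : V.Nodup) (hF : Fam V E f D T)
    (h : ¬ (bad1 V E D T = none ∧ bad2 E D T = none)) : Win V E f D (mt (win V E D T)) := by
  unfold win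
  cases h1 : bad1 V E D T with
  | some q =>
    have h2 := List.mem_of_find?_eq_some h1
    have h3 := List.find?_some h1
    replace h3 := of_decide_eq_true h3
    rw [mem_prs, mem_prs] at h2
    exact win1_spec hV (hF _ h2.1).2.1 (hF _ h2.2.2).2.1 h2.2.2 (hF _ h2.2.2).1 (hF _ h2.2.2).2.2
      h2.2.1 h3.1 h3.2.1 h3.2.2
  | none =>
    cases h4 : bad2 E D T with
    | none => exact absurd ⟨h1, h4⟩ h
    | some q =>
      have h2 := List.mem_of_find?_eq_some h4
      have h3 := List.find?_some h4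
      replace h3 := of_decide_eq_true h3
      rw [mem_prs, mem_prs] at h2
      exact (Classical.choose_spec exists_win2).2 V E f D T _ _ _ hV hF (g1_of h1) (hF _ h2.1).2.1
        h2.2.1 h2.2.2 h3.1 ((mem_bfs h2.2.1 _).1 h3.2.1) h3.2.2.1 h3.2.2.2

/-- size bound of one matching -/
def B0 (V : List ℕ) : ℕ := sz V * (2 * sz V + 2) + 1

structure Inv (V : List ℕ) (E : List (ℕ × ℕ)) (D : List ℕ) (T : List (ℕ × Mt)) (M0 : Mt) : Prop where
  inr : InR V E (nfx V M0) D (mt M0)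
  fam : Fam V E (nfx V M0) D T
  sub : D.Sublist V
  s0 : sz M0 ≤ B0 V
  s1 : ∀ d ∈ D, sz (look T d []) ≤ B0 V
  s2 : sz T ≤ sz V * (sz V + B0 V + 2) + 1

theorem sz_tab' {D' : List ℕ} (h : D'.Sublist V) (g : ℕ → Mt) (hg : ∀ d ∈ D', sz (g d) ≤ B0 V) :
    sz (tab D' g) ≤ sz V * (sz V + B0 V + 2) + 1 := by
  refine (sz_tab_le D' g _ hg).trans (Nat.succ_le_succ (Nat.mul_le_mul ?_ ?_))
  · exact h.length_le.trans (length_le_sz V)
  · have := sz_sublist h
    omega

/-- potential -/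
def pot (V D : List ℕ) (M0 : Mt) : ℕ := (V.length - nfx V M0) * (V.length + 1) + D.length

theorem upd_spec (hV : V.Nodup) (h : Inv V E D T M0) (hW : Win V E (nfx V M0) D (mt W)) :
    Inv V E (upd V D T M0 W).1 (upd V D T M0 W).2.1 (upd V D T M0 W).2.2 ∧
      pot V D M0 < pot V (upd V D T M0 W).1 (upd V D T M0 W).2.2 := by
  have hm : mt (tab V (mt W)) = mt W := hW.1.mt_tab
  have hs : sz (tab V (mt W)) ≤ B0 V := hW.1.sz_tab
  have hc := card_Fx_eq hV W
  unfold upd
  split_ifs with hlt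
  · have hn : nfx V (tab V (mt W)) = nfx V W := by rw [← card_Fx_eq hV, hm, hc]
    have hr : InR V E (nfx V W) (V.filter fun v => decide (mt W v = v)) (mt W) :=
      ⟨hW.1, hc, fun v hv => List.mem_filter.2 ⟨(mem_Fx.1 hv).1, decide_eq_true (mem_Fx.1 hv).2⟩⟩
    refine ⟨⟨?_, fun d hd => ?_, List.filter_sublist, hs, fun d hd => ?_,
      sz_tab' List.filter_sublist _ fun _ _ => hs⟩, ?_⟩
    · simp only [hn, hm]
      exact hr
    · simp only [hn, look_tab, if_pos hd, hm]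
      exact ⟨(List.mem_filter.1 hd).1, hr, of_decide_eq_true (List.mem_filter.1 hd).2⟩
    · simp only [look_tab, if_pos hd]
      exact hs
    · simp only [pot, hn]
      have h1 : nfx V M0 ≤ V.length := List.countP_le_length
      have h2 := h.sub.length_le
      have h3 : V.length - nfx V M0 + 1 ≤ V.length - nfx V W := by omega
      have h4 := Nat.mul_le_mul_right (V.length + 1) h3
      rw [add_mul] at h4
      omega
  · obtain ⟨he, v, hv, hvD⟩ := hW.2.resolve_left (hc ▸ hlt)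
    have hDD : ∀ d ∈ D, d ∈ V.filter fun v => decide (v ∈ D ∨ mt W v = v) := fun d hd =>
      List.mem_filter.2 ⟨h.sub.subset hd, decide_eq_true (Or.inl hd)⟩
    have hFD : ∀ d ∈ Fx V (mt W), d ∈ V.filter fun v => decide (v ∈ D ∨ mt W v = v) := fun d hd =>
      List.mem_filter.2 ⟨(mem_Fx.1 hd).1, decide_eq_true (Or.inr (mem_Fx.1 hd).2)⟩
    have hsz : ∀ d : ℕ, sz (if d ∈ D then look T d [] else tab V (mt W)) ≤ B0 V := fun d => by
      split_ifs with hd
      exacts [h.s1 d hd, hs]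
    refine ⟨⟨⟨h.inr.1, h.inr.2.1, fun x hx => hDD x (h.inr.2.2 x hx)⟩, fun d hd => ?_,
      List.filter_sublist, h.s0, fun d hd => ?_, sz_tab' List.filter_sublist _ fun d _ => hsz d⟩, ?_⟩
    · simp only [look_tab, if_pos hd]
      refine ⟨(List.mem_filter.1 hd).1, ?_⟩
      split_ifs with hdD
      · obtain ⟨-, h1, h2⟩ := h.fam d hdD
        exact ⟨⟨h1.1, h1.2.1, fun x hx => hDD x (h1.2.2 x hx)⟩, h2⟩
      · rw [hm]
        exact ⟨⟨hW.1, he, hFD⟩, (of_decide_eq_true (List.mem_filter.1 hd).2).resolve_left hdD⟩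
    · simp only [look_tab, if_pos hd]
      exact hsz d
    · simp only [pot, Nat.add_lt_add_iff_left]
      rw [← List.toFinset_card_of_nodup (h.sub.nodup hV),
        ← List.toFinset_card_of_nodup (List.filter_sublist.nodup hV)]
      refine Finset.card_lt_card ⟨fun d hd => ?_, fun hh => hvD ?_⟩
      · exact List.mem_toFinset.2 (hDD d (List.mem_toFinset.1 hd))
      · exact List.mem_toFinset.1 (hh (List.mem_toFinset.2 (hFD v hv)))

theorem inv_init (hV : V.Nodup) : Inv V E V (tab V fun _ => []) [] := by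
  have hr : InR V E (nfx V []) V (mt []) :=
    ⟨mt_nil ▸ isMat_id, card_Fx_eq hV [], fun v hv => (mem_Fx.1 hv).1⟩
  have hs : sz ([] : Mt) ≤ B0 V := by simp [B0]
  refine ⟨hr, fun d hd => ?_, List.Sublist.refl V, hs, fun d hd => ?_,
    sz_tab' (List.Sublist.refl V) _ fun _ _ => hs⟩
  · simp only [look_tab, if_pos hd]
    exact ⟨hd, hr, by rw [mt_nil]; rfl⟩
  · simp only [look_tab, if_pos hd]
    exact hs

end GEA
open GEA

theorem exists_GE : ∃ g : Gr → List ℕ × List (ℕ × Mt) × Mt, PT g ∧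
    ∀ (V : List ℕ) (E : List (ℕ × ℕ)), V.Nodup → GEspec V E (g (V, E)).1 (g (V, E)).2.1 (g (V, E)).2.2 := by
  obtain ⟨g, hg, hs⟩ := exists_loop (α := Gr) (σ := GSt) (fun a => a.1.Nodup)
    (fun a s => Inv a.1 a.2 s.1 s.2.1 s.2.2)
    (fun a s => bad1 a.1 a.2 s.1 s.2.1 = none ∧ bad2 a.2 s.1 s.2.1 = none)
    (fun a => (a.1, tab a.1 fun _ => [], []))
    (fun a s => upd a.1 s.1 s.2.1 s.2.2 (win a.1 a.2 s.1 s.2.1))
    (fun a s => pot a.1 s.1 s.2.2) (fun a => a.1.length * (a.1.length + 1) + a.1.length)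
    (fun a => sz a.1 + (sz a.1 * (sz a.1 + (sz a.1 * (2 * sz a.1 + 2) + 1) + 2) + 1) +
      (sz a.1 * (2 * sz a.1 + 2) + 1) + 2)
    (by fun_prop) (by fun_prop) (by fun_prop) (by fun_prop) (by fun_prop)
    (fun a ha => inv_init ha)
    (fun a s ha h hd => by
      obtain ⟨h1, h2⟩ := upd_spec ha h (win_spec ha h.fam hd)
      exact ⟨h1, Or.inr h2⟩)
    (fun a s _ h => Nat.add_le_add (Nat.mul_le_mul_right _ (Nat.sub_le _ _)) h.sub.length_le)
    (fun a s _ h => by
      obtain ⟨D, T, M0⟩ := s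
      have h1 := sz_sublist h.sub
      have h2 := h.s0
      have h3 := h.s2
      simp only [B0] at h1 h2 h3
      simp only [sz_prod]
      omega)
  refine ⟨g, hg, fun V E hV => ?_⟩
  obtain ⟨h, h1, h2⟩ := hs (V, E) hV
  exact ⟨h.sub.nodup hV, fun d hd => h.sub.subset hd, h.inr.1,
    fun v hv h0 => h.inr.2.2 v (mem_Fx.2 ⟨hv, h0⟩), fun d hd => (h.fam d hd).2.1.1,
    fun d hd => (h.fam d hd).2.2, fun d hd v hv h0 => (h.fam d hd).2.1.2.2 v (mem_Fx.2 ⟨hv, h0⟩),
    g1_of h1, g2_of h2⟩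

noncomputable def ge (V : List ℕ) (E : List (ℕ × ℕ)) : List ℕ × List (ℕ × Mt) × Mt :=
  Classical.choose exists_GE (V, E)

@[fun_prop] theorem PT.ge {α : Type} [Enc α] {V : α → List ℕ} {E : α → List (ℕ × ℕ)}
    (hV : PT V) (hE : PT E) : PT (fun a => ge (V a) (E a)) :=
  (Classical.choose_spec exists_GE).1.comp (g := fun a => (V a, E a)) (by fun_prop)

theorem ge_spec {V : List ℕ} (E : List (ℕ × ℕ)) (hV : V.Nodup) :
    GEspec V E (ge V E).1 (ge V E).2.1 (ge V E).2.2 :=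
  (Classical.choose_spec exists_GE).2 V E hV

end Crest.Agent.R287
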