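import Crest.Agent.R287.Base

/-!
# R287: matchings as involutions (definitions and elementary lemmas)

PLAN. All lemmas are elementary (`funext`/`by_cases`/`simp [link]`, `Finset.ext`, `Finset.card_erase_of_mem`,
`Finset.card_insert_of_notMem`).  `card_Fx_eq`: `List.toFinset_card_of_nodup` applied to a filter.
-/

set_option autoImplicit false
open Crest.Agent.PTime

namespace Crest.Agent.R287

abbrev Mt := List (ℕ × ℕ)
abbrev Gr := List ℕ × List (ℕ × ℕ)

structure IsMat (V : List ℕ) (E : List (ℕ × ℕ)) (μ : ℕ → ℕ) : Prop where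
  inv : ∀ v, μ (μ v) = v
  adj : ∀ v, μ v ≠ v → v ∈ V ∧ Adj E v (μ v)

/-- the vertices missed by the matching -/
def Fx (V : List ℕ) (μ : ℕ → ℕ) : Finset ℕ := V.toFinset.filter fun v => μ v = v

/-- number of missed vertices, as a program -/
def nfx (V : List ℕ) (m : Mt) : ℕ := V.countP fun v => mt m v == v

def link (μ : ℕ → ℕ) (u v : ℕ) : ℕ → ℕ := fun x => if x = u then v else if x = v then u else μ x
def unlink (μ : ℕ → ℕ) (u : ℕ) : ℕ → ℕ := fun x => if x = u ∨ x = μ u then x else μ x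

/-- the same operations on tables -/
def linkT (V : List ℕ) (m : Mt) (u v : ℕ) : Mt := tab V (link (mt m) u v)
def unlinkT (V : List ℕ) (m : Mt) (u : ℕ) : Mt := tab V (unlink (mt m) u)

def InR (V : List ℕ) (E : List (ℕ × ℕ)) (f : ℕ) (D : List ℕ) (μ : ℕ → ℕ) : Prop :=
  IsMat V E μ ∧ (Fx V μ).card = f ∧ ∀ v ∈ Fx V μ, v ∈ D

def Win (V : List ℕ) (E : List (ℕ × ℕ)) (f : ℕ) (D : List ℕ) (μ : ℕ → ℕ) : Prop :=
  IsMat V E μ ∧ ((Fx V μ).card < f ∨ ((Fx V μ).card = f ∧ ∃ v ∈ Fx V μ, v ∉ D))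

/-- `a` is not matched inside `D` -/
def Out (D : List ℕ) (μ : ℕ → ℕ) (a : ℕ) : Prop := μ a = a ∨ μ a ∉ D

/-- every outside neighbour of `D` is matched into `D` -/
def G1 (V : List ℕ) (E : List (ℕ × ℕ)) (D : List ℕ) (μ : ℕ → ℕ) : Prop :=
  ∀ a ∈ V, a ∉ D → (∃ d ∈ D, Adj E a d) → μ a ∈ D

/-- every component of `D` has at most one vertex not matched inside `D` -/
def G2 (E : List (ℕ × ℕ)) (D : List ℕ) (μ : ℕ → ℕ) : Prop :=
  ∀ a ∈ D, ∀ b ∈ D, Conn D E a b → Out D μ a → Out D μ b → a = b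

def Fam (V : List ℕ) (E : List (ℕ × ℕ)) (f : ℕ) (D : List ℕ) (T : List (ℕ × Mt)) : Prop :=
  ∀ d ∈ D, d ∈ V ∧ InR V E f D (mt (look T d [])) ∧ mt (look T d []) d = d

/-- output of the Lovász–Plummer procedure (a Gallai–Edmonds type certificate) -/
structure GEspec (V : List ℕ) (E : List (ℕ × ℕ)) (D : List ℕ) (T : List (ℕ × Mt)) (M0 : Mt) : Prop where
  nodup : D.Nodup
  sub : ∀ d ∈ D, d ∈ V
  m0 : IsMat V E (mt M0)
  m0fix : ∀ v ∈ V, mt M0 v = v → v ∈ D
  mat : ∀ d ∈ D, IsMat V E (mt (look T d []))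
  self : ∀ d ∈ D, mt (look T d []) d = d
  fix : ∀ d ∈ D, ∀ v ∈ V, mt (look T d []) v = v → v ∈ D
  g1 : ∀ d ∈ D, G1 V E D (mt (look T d []))
  g2 : ∀ d ∈ D, G2 E D (mt (look T d []))

/-- a perfect matching of the finite set `U` (complete graph) -/
structure PM (U : Finset ℕ) (μ : ℕ → ℕ) : Prop where
  inv : ∀ v, μ (μ v) = v
  iff : ∀ v, μ v ≠ v ↔ v ∈ U

/-- twice the cost of a perfect matching -/
def cost (c : ℕ → ℕ → ℕ) (U : Finset ℕ) (μ : ℕ → ℕ) : ℕ := ∑ v ∈ U, c v (μ v)

variable {V : List ℕ} {E : List (ℕ × ℕ)} {μ : ℕ → ℕ}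

theorem mem_Fx {v : ℕ} : v ∈ Fx V μ ↔ v ∈ V ∧ μ v = v := by simp [Fx]

theorem IsMat.fix_of_not_mem (h : IsMat V E μ) {v : ℕ} (hv : v ∉ V) : μ v = v := by
  by_contra hn
  exact hv (h.adj v hn).1

theorem IsMat.mem (h : IsMat V E μ) {v : ℕ} (hv : v ∈ V) : μ v ∈ V := by
  by_cases hn : μ v = v
  · rwa [hn]
  · refine (h.adj (μ v) ?_).1
    rw [h.inv]
    exact fun e => hn e.symm

theorem IsMat.mt_tab (h : IsMat V E μ) : mt (tab V μ) = μ := by
  exact mt_tab_eq V μ fun _ hv => h.fix_of_not_mem hv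

theorem IsMat.sz_tab (h : IsMat V E μ) : sz (tab V μ) ≤ sz V * (2 * sz V + 2) + 1 := by
  exact sz_tab_self V μ fun _ hv => h.mem hv

theorem isMat_id : IsMat V E id := by
  exact ⟨fun _ => rfl, fun _ hv => absurd rfl hv⟩

theorem IsMat.link (h : IsMat V E μ) {u v : ℕ} (hu : u ∈ V) (hv : v ∈ V) (hu' : μ u = u) (hv' : μ v = v)
    (huv : Adj E u v) : IsMat V E (link μ u v) ∧ Fx V (link μ u v) = ((Fx V μ).erase u).erase v ∧
      (Fx V (link μ u v)).card + 2 = (Fx V μ).card := by
  have hne : u ≠ v := huv.1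
  have hinj : ∀ x y, μ x = y → x = μ y := fun x y e => by rw [← e, h.inv]
  have hF : Fx V (R287.link μ u v) = ((Fx V μ).erase u).erase v := by
    ext x
    simp only [mem_Fx, Finset.mem_erase, R287.link]
    by_cases h1 : x = u
    · subst h1; simp [hne.symm]
    · by_cases h2 : x = v
      · subst h2; simp [h1, hne]
      · simp [h1, h2]
  refine ⟨⟨fun x => ?_, fun x hx => ?_⟩, hF, ?_⟩
  · by_cases h1 : x = u
    · subst h1; simp [R287.link, hne.symm]
    · by_cases h2 : x = v
      · subst h2; simp [R287.link, h1]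
      · have h3 : μ x ≠ u := fun e => h1 (by rw [hinj _ _ e, hu'])
        have h4 : μ x ≠ v := fun e => h2 (by rw [hinj _ _ e, hv'])
        simp [R287.link, h1, h2, h3, h4, h.inv]
  · by_cases h1 : x = u
    · subst h1; simpa [R287.link, hu] using huv
    · by_cases h2 : x = v
      · subst h2; simpa [R287.link, h1, hv] using huv.symm
      · simp only [R287.link, h1, h2, if_false] at hx ⊢
        exact h.adj x hx
  · rw [hF]
    have m1 : u ∈ Fx V μ := mem_Fx.2 ⟨hu, hu'⟩
    have m2 : v ∈ (Fx V μ).erase u := Finset.mem_erase.2 ⟨hne.symm, mem_Fx.2 ⟨hv, hv'⟩⟩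
    have c1 := Finset.card_erase_add_one m1
    have c2 := Finset.card_erase_add_one m2
    omega

theorem IsMat.unlink (h : IsMat V E μ) {u : ℕ} (hu : μ u ≠ u) :
    IsMat V E (unlink μ u) ∧ Fx V (unlink μ u) = insert u (insert (μ u) (Fx V μ)) ∧
      (Fx V (unlink μ u)).card = (Fx V μ).card + 2 := by
  have hinj : ∀ x y, μ x = y → x = μ y := fun x y e => by rw [← e, h.inv]
  have huV : u ∈ V := (h.adj u hu).1
  have hF : Fx V (R287.unlink μ u) = insert u (insert (μ u) (Fx V μ)) := by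
    ext x
    simp only [mem_Fx, Finset.mem_insert, R287.unlink]
    by_cases h1 : x = u
    · subst h1; simp [huV]
    · by_cases h2 : x = μ u
      · subst h2; simp [h.mem huV]
      · simp [h1, h2]
  refine ⟨⟨fun x => ?_, fun x hx => ?_⟩, hF, ?_⟩
  · by_cases h1 : x = u ∨ x = μ u
    · simp [R287.unlink, h1]
    · have h3 : ¬ (μ x = u ∨ μ x = μ u) := by
        rintro (e | e)
        · exact h1 (Or.inr (hinj _ _ e))
        · exact h1 (Or.inl (by rw [hinj _ _ e, h.inv]))
      simp only [R287.unlink, h1, h3, if_false, h.inv]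
  · by_cases h1 : x = u ∨ x = μ u
    · simp [R287.unlink, h1] at hx
    · simp only [R287.unlink, h1, if_false] at hx ⊢
      exact h.adj x hx
  · rw [hF]
    have m1 : μ u ∉ Fx V μ := fun e => hu ((mem_Fx.1 e).2.symm.trans (h.inv u))
    have m2 : u ∉ insert (μ u) (Fx V μ) := by
      rw [Finset.mem_insert]
      rintro (e | e)
      · exact hu e.symm
      · exact hu (mem_Fx.1 e).2
    rw [Finset.card_insert_of_notMem m2, Finset.card_insert_of_notMem m1]

theorem unlink_of_fix {u : ℕ} (hu : μ u = u) : unlink μ u = μ := by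
  funext x
  unfold unlink
  split_ifs with h
  · rcases h with h | h
    · rw [h, hu]
    · rw [h, hu, hu]
  · rfl

theorem mt_linkT {m : Mt} (h : IsMat V E (mt m)) {u v : ℕ} (hu : u ∈ V) (hv : v ∈ V) :
    mt (linkT V m u v) = link (mt m) u v := by
  refine mt_tab_eq V _ fun x hx => ?_
  have h1 : x ≠ u := fun e => hx (e ▸ hu)
  have h2 : x ≠ v := fun e => hx (e ▸ hv)
  simp only [link, h1, h2, if_false]
  exact h.fix_of_not_mem hx

theorem mt_unlinkT {m : Mt} (h : IsMat V E (mt m)) (u : ℕ) : mt (unlinkT V m u) = unlink (mt m) u := by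
  refine mt_tab_eq V _ fun x hx => ?_
  unfold unlink
  split_ifs
  · rfl
  · exact h.fix_of_not_mem hx

theorem card_Fx_eq (hV : V.Nodup) (m : Mt) : (Fx V (mt m)).card = nfx V m := by
  rw [nfx, List.countP_eq_length_filter, ← List.toFinset_card_of_nodup (hV.filter _)]
  congr 1
  ext x
  simp [Fx]

theorem PM.mem {U : Finset ℕ} (h : PM U μ) {v : ℕ} (hv : v ∈ U) : μ v ∈ U := by
  refine (h.iff _).1 ?_
  rw [h.inv]
  exact ((h.iff v).2 hv).symm

theorem PM.even {U : Finset ℕ} (h : PM U μ) : Even U.card := by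
  have := Finset.sum_involution (s := U) (f := fun _ => (1 : ZMod 2)) (fun v _ => μ v)
    (fun _ _ => rfl) (fun v hv _ => (h.iff v).2 hv) (fun v hv => h.mem hv) (fun v _ => h.inv v)
  rw [Finset.sum_const, nsmul_eq_mul, mul_one] at this
  exact ZMod.natCast_eq_zero_iff_even.1 this

/-- a set of even size has a perfect matching -/
theorem exists_PM {U : Finset ℕ} (h : Even U.card) : ∃ ν, PM U ν := by
  obtain ⟨k, hk⟩ := h
  induction k generalizing U with
  | zero =>
    have : U = ∅ := Finset.card_eq_zero.1 (by omega)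
    subst this
    exact ⟨id, fun _ => rfl, fun v => by simp⟩
  | succ k ih =>
    obtain ⟨u, hu, v, hv, huv⟩ := Finset.one_lt_card.1 (show 1 < U.card by omega)
    have m2 : v ∈ U.erase u := Finset.mem_erase.2 ⟨huv.symm, hv⟩
    have c1 := Finset.card_erase_add_one hu
    have c2 := Finset.card_erase_add_one m2
    obtain ⟨ν, hν⟩ := ih (U := (U.erase u).erase v) (by omega)
    have hu' : ν u = u := by
      by_contra e
      simpa using (hν.iff u).1 e
    have hv' : ν v = v := by
      by_contra e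
      simpa using (hν.iff v).1 e
    have hinj : ∀ x y, ν x = y → x = ν y := fun x y e => by rw [← e, hν.inv]
    refine ⟨link ν u v, fun x => ?_, fun x => ?_⟩
    · by_cases h1 : x = u
      · subst h1; simp [link, huv.symm]
      · by_cases h2 : x = v
        · subst h2; simp [link, h1]
        · have h3 : ν x ≠ u := fun e => h1 (by rw [hinj _ _ e, hu'])
          have h4 : ν x ≠ v := fun e => h2 (by rw [hinj _ _ e, hv'])
          simp [link, h1, h2, h3, h4, hν.inv]
    · by_cases h1 : x = u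
      · subst h1; simp [link, huv.symm, hu]
      · by_cases h2 : x = v
        · subst h2; simp [link, h1, huv, hv]
        · simp only [link, h1, h2, if_false]
          rw [hν.iff]
          simp [h1, h2]

variable {α : Type} [Enc α]

@[fun_prop] theorem PT.nfx {V : α → List ℕ} {m : α → Mt} (hV : PT V) (hm : PT m) :
    PT (fun a => nfx (V a) (m a)) := by
  unfold R287.nfx; fun_prop

@[fun_prop] theorem PT.linkT {V : α → List ℕ} {m : α → Mt} {u v : α → ℕ} (hV : PT V) (hm : PT m)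
    (hu : PT u) (hv : PT v) : PT (fun a => linkT (V a) (m a) (u a) (v a)) := by
  unfold R287.linkT R287.link; fun_prop

@[fun_prop] theorem PT.unlinkT {V : α → List ℕ} {m : α → Mt} {u : α → ℕ} (hV : PT V) (hm : PT m)
    (hu : PT u) : PT (fun a => unlinkT (V a) (m a) (u a)) := by
  unfold R287.unlinkT R287.unlink; fun_prop

end Crest.Agent.R287
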