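import Crest.Agent.R287.Cyc2

/-!
# R287: the two reduction steps and the case of one old index next to a single fresh component

PLAN. `reduce_fresh`/`reduce_old`: apply `IH` to `cut z r i j` (`cut`, `cut_al`, `cut_cI`, `cut_SF`), then `Con.trans'`.  With `C' = cI z j (i+r+1)` (contains
`cp i = cp (i+r)` and `cp j`), `cI z 0 r = cI z (i+1) (i+1+r) = cI z (i+1) j ∪ C'`.  In `reduce_fresh` the removed components are fresh, pairwise different and not in `C'`
(`FU` + `ne_of_lt`), so the sum of periods splits (`Finset.sum_image`, `sum_union`).  In `reduce_old` the fresh components are the same, and `drop ≥ 0`.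
`oldQ`: `exists_q` with `i = 0`, `j = 2`; `κ_le` for `u` = valley of `z 1` and `v = [al 2, max (be 2) (be 1))` (vertex of `z 2`; `be 1 - al 2 = ov`, `ov_lt`), `k = be 1 - al 2`,
`k' = max 0 (max (be 2) (be 1) - al 1 - q)`: on `[al 1 + q, max ..)`, `W 2 y = W 0 (y - q) = W 1 (y - q)`; note `be 0 - lt (z 0) ≤ al 1`.  So `κ ≤ q ≤ δ + p B`.
-/

set_option autoImplicit false
open Finset

namespace Crest.Agent.R287

namespace Sys

variable {S : Sys} {z : ℕ → S.E}

variable {r : ℕ} {O : Finset ℕ}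

private theorem mem_cI {i j k : ℕ} (h1 : i ≤ k) (h2 : k < j) : S.cp z k ∈ S.cI z i j :=
  mem_image_of_mem _ (mem_Ico.2 ⟨h1, h2⟩)

private theorem of_mem_cI {i j X : ℕ} (h : X ∈ S.cI z i j) : ∃ k, i ≤ k ∧ k < j ∧ S.cp z k = X := by
  obtain ⟨k, hk, e⟩ := mem_image.1 h
  exact ⟨k, (mem_Ico.1 hk).1, (mem_Ico.1 hk).2, e⟩

private theorem cp_congr {i j : ℕ} (h : z i = z j) : S.cp z i = S.cp z j := by
  unfold cp; rw [h]

private theorem IsCyc.sum_fresh (h : S.IsCyc z r) {i j : ℕ} (h2 : j ≤ i + r)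
    (hfu : ∀ k, i < k → k < j → S.FU z O k) : ∑ X ∈ S.cI z (i + 1) j, (S.p X : ℤ) = S.sp z (i + 1) j := by
  unfold cI sp
  rw [sum_image]
  · rfl
  · intro a ha b hb e
    simp only [coe_Ico, Set.mem_Ico] at ha hb
    have h3 := (hfu a (by omega) ha.2).2 b e.symm
    by_contra hn
    rcases Nat.lt_or_gt_of_ne hn with h4 | h4
    · exact h.ne_of_lt h4 (by omega) h3.symm
    · exact h.ne_of_lt h4 (by omega) h3

private theorem sum_p_mono {A B : Finset ℕ} (h : A ⊆ B) : ∑ X ∈ A, (S.p X : ℤ) ≤ ∑ X ∈ B, (S.p X : ℤ) :=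
  sum_le_sum_of_subset_of_nonneg h fun _ _ _ => Int.natCast_nonneg _

theorem IsCyc.reduce_fresh (h : S.IsCyc z r) (ih : S.IH O r) (hO : S.root ∈ O) {i j : ℕ}
    (h1 : i + 1 < j) (h2 : j ≤ i + r) (hfu : ∀ k, i < k → k < j → S.FU z O k)
    (hsf : ¬ S.SF z O j (i + r)) (hg : S.Good z i j (2 * S.drop z i j)) : S.PS z O r := by
  have a1 : i < j := by omega
  have h3 := ih _ _ (by omega) (h.cut a1 h2) (by rwa [h.cut_SF a1 h2])
  unfold PS at h3 ⊢
  rw [h.cut_cI a1 h2, h.cut_al a1 h2] at h3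
  refine Con.trans' h3 hg ?_ ?_ ?_
  · intro X hX
    simp only [mem_insert, mem_singleton] at hX
    rcases hX with rfl | rfl | rfl
    · exact mem_union_left _ hO
    · rw [← cp_congr (h.per i)]
      exact mem_union_right _ (mem_cI h2 (by omega))
    · exact mem_union_right _ (mem_cI le_rfl (by omega))
  · intro X hX
    obtain ⟨k, -, -, rfl⟩ := of_mem_cI hX
    obtain ⟨k', b1, b2, b3⟩ := h.exists_rep (i + 1) k
    rw [← cp_congr b3]
    refine mem_union_right _ ?_
    by_cases hk : k' < j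
    · exact mem_union_right _ (mem_cI b1 hk)
    · exact mem_union_left _ (mem_cI (by omega) (by omega))
  · have hd : Disjoint (S.cI z j (i + r + 1) \ O) (S.cI z (i + 1) j) := by
      rw [disjoint_left]
      intro X hX hX'
      obtain ⟨k, c1, c2, rfl⟩ := of_mem_cI (mem_sdiff.1 hX).1
      obtain ⟨k', c3, c4, e⟩ := of_mem_cI hX'
      exact h.ne_of_lt (i := k') (j := k) (by omega) (by omega) ((hfu k' (by omega) c4).2 k e.symm).symm
    have hs : (S.cI z j (i + r + 1) \ O) ∪ S.cI z (i + 1) j ⊆ S.cI z 0 r \ O := by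
      intro X hX
      rcases mem_union.1 hX with hX | hX
      · obtain ⟨k, -, -, rfl⟩ := of_mem_cI (mem_sdiff.1 hX).1
        exact mem_sdiff.2 ⟨h.cp_mem k, (mem_sdiff.1 hX).2⟩
      · obtain ⟨k, c1, c2, rfl⟩ := of_mem_cI hX
        exact mem_sdiff.2 ⟨h.cp_mem k, (hfu k (by omega) c2).1⟩
    have h4 := sum_p_mono (S := S) hs
    rw [sum_union hd, h.sum_fresh h2 hfu] at h4
    omega

theorem IsCyc.reduce_old (h : S.IsCyc z r) (ih : S.IH O r) (hr : 2 ≤ r) (hff : S.FF z 1)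
    (hold : S.cp z 1 ∈ O ∨ ∃ j, S.cp z j = S.cp z 1 ∧ z j ≠ z 1) (hsf : ¬ S.SF z O 2 r) :
    S.PS z O r := by
  have a1 : 0 < 2 := by omega
  have a2 : 2 ≤ 0 + r := by omega
  have h3 := ih _ _ (by omega) (h.cut a1 a2) (by rw [h.cut_SF a1 a2, zero_add]; exact hsf)
  unfold PS at h3 ⊢
  rw [h.cut_cI a1 a2, h.cut_al a1 a2] at h3
  have hc : S.Chain z 0 2 := fun k h1 h2 => by
    obtain rfl : k = 1 := by omega
    exact hff
  have hd := hc.drop_nonneg (by omega)
  refine Con.mono h3 Subset.rfl ?_ ?_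
  · intro X hX
    obtain ⟨k, -, -, rfl⟩ := of_mem_cI hX
    obtain ⟨k', b1, b2, b3⟩ := h.exists_rep 1 k
    rw [← cp_congr b3]
    rcases b1.eq_or_lt with rfl | hk
    · rcases hold with h4 | ⟨j, h4, h5⟩
      · exact mem_union_left _ h4
      · obtain ⟨j', c1, c2, c3⟩ := h.exists_rep 1 j
        have c4 : j' ≠ 1 := fun e => h5 (by rw [← c3, e])
        rw [← h4, ← cp_congr c3]
        exact mem_union_right _ (mem_cI (by omega) (by omega))
    · exact mem_union_right _ (mem_cI hk (by omega))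
  · have hs : S.cI z 2 (0 + r + 1) \ O ⊆ S.cI z 0 r \ O := by
      intro X hX
      obtain ⟨k, -, -, rfl⟩ := of_mem_cI (mem_sdiff.1 hX).1
      exact mem_sdiff.2 ⟨h.cp_mem k, (mem_sdiff.1 hX).2⟩
    have h4 := sum_p_mono (S := S) hs
    omega

theorem IsCyc.oldQ (h : S.IsCyc z r) (hO : S.root ∈ O) (hr : 2 ≤ r) (hff : S.FF z 1)
    (hold : S.cp z 1 ∈ O) (hsf : S.SF z O 2 r) : S.PS z O r := by
  obtain ⟨B, hB, hall⟩ := hsf
  have e0 : S.cp z 0 = B := by
    have := h.per 0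
    rw [zero_add] at this
    rw [← cp_congr this]
    exact hall r hr le_rfl
  have e2 : S.cp z 2 = B := hall 2 le_rfl hr
  have hroot : S.cp z 0 ≠ S.root := fun e => hB (by rw [← e0, e]; exact hO)
  obtain ⟨q, q1, q2, hW, q3, q4⟩ := h.exists_q (i := 0) (j := 2) (by omega) (by omega) hroot (e2.trans e0.symm)
  have hδ := h.delta_nonneg
  obtain ⟨f1, f2⟩ := hff
  simp only [Nat.sub_self, Nat.reduceAdd] at f1 f2
  have k0 := k_eq (S := S) (z := z) 0
  have k1 := k_eq (S := S) (z := z) 1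
  simp only [Nat.reduceAdd, zero_add] at k0 k1
  have o0 := S.ov_lt (z 0) (z 1)
  have o1 := S.ov_lt (z 1) (z 2)
  have l1 := S.c_le_lt (z 1)
  have l2 := S.c_le_lh (z 2)
  have b1 : S.be z 1 = S.al z 1 + S.c (z 1) := rfl
  have b2 : S.be z 2 = S.al z 2 + S.c (z 2) := rfl
  have hch : S.Chain z 0 1 := fun k h1 h2 => by omega
  have hκ := S.κ_le (z 1) (z 2) 0 (S.c (z 1)) 0 (max (S.be z 2) (S.be z 1) - S.al z 2) (S.ov (z 1) (z 2))
    (max 0 (max (S.be z 2) (S.be z 1) - S.al z 1 - q))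
    (Or.inl ⟨rfl, by omega, le_rfl⟩) (Or.inr ⟨rfl, by omega, by omega⟩)
    ⟨by omega, by omega, by omega, fun x x0 x1 => by rw [zero_add]; exact S.ov_agree _ _ x x0 x1⟩
    ⟨by omega, by omega, by omega, fun x x0 x1 => by
      have a1 := hW (S.al z 1 + x)
      have a2 := hch.agree (y := S.al z 1 + x) (by omega) (by omega) (by omega)
      rw [a2] at a1
      unfold W at a1
      rw [add_sub_cancel_left] at a1
      rw [zero_add, a1]
      congr 1
      omega⟩
  rw [S.κ_symm] at hκ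
  have hone : S.Con O {S.cp z 2} q := Con.one (S.comp_mem _) (S.comp_mem (z 1)) hold (hκ.trans (by omega))
  unfold PS
  refine Con.mono hone Subset.rfl ?_ ?_
  · intro X hX
    obtain ⟨k, -, -, rfl⟩ := of_mem_cI hX
    obtain ⟨k', c1, c2, c3⟩ := h.exists_rep 1 k
    rw [← cp_congr c3]
    rcases c1.eq_or_lt with rfl | hk
    · exact mem_union_left _ hold
    · rw [hall k' hk (by omega), e2]
      exact mem_union_right _ (mem_singleton_self _)
  · have hs : {S.cp z 0} ⊆ S.cI z 0 r \ O := by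
      rw [singleton_subset_iff]
      exact mem_sdiff.2 ⟨h.cp_mem 0, by rwa [e0]⟩
    have h4 := sum_p_mono (S := S) hs
    rw [sum_singleton] at h4
    have h5 : S.pp z 0 = S.p (S.cp z 0) := rfl
    omega

/-- indices that are fresh and unique form a block -/
theorem IsCyc.blk (h : S.IsCyc z r) (hO : S.root ∈ O) {t : ℕ} (ht : t ≤ r) (hc : S.Chain z 0 (t + 1))
    (hfu : ∀ k, 1 ≤ k → k ≤ t → S.FU z O k) : S.Blk z t := by
  refine ⟨hc, fun i h1 h2 e => (hfu i h1 h2).1 (e ▸ hO), fun i j h1 h2 h3 e => ?_⟩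
  exact h.ne_of_lt h2 (by omega) ((hfu i h1 (by omega)).2 j e.symm).symm

/-- budget when the indices `1..t` are fresh and unique and all others lie in one fresh component -/
theorem IsCyc.PS_of_SF (h : S.IsCyc z r) {t : ℕ} (ht : t < r) (hfu : ∀ k, 1 ≤ k → k ≤ t → S.FU z O k)
    (hsf : S.SF z O (t + 1) r) {x : ℤ} (hc : S.Con O (insert (S.cp z 0) (S.cI z 1 (t + 1))) x)
    (hx : x ≤ 2 * S.al z r + S.pp z 0 + S.sp z 1 (t + 1)) : S.PS z O r := by
  obtain ⟨B, hB, hall⟩ := hsf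
  have e0 : S.cp z 0 = B := by
    have := h.per 0
    rw [zero_add] at this
    rw [← cp_congr this]
    exact hall r ht le_rfl
  unfold PS
  refine Con.mono hc Subset.rfl ?_ (hx.trans ?_)
  · intro X hX
    obtain ⟨k, -, -, rfl⟩ := of_mem_cI hX
    obtain ⟨k', c1, c2, c3⟩ := h.exists_rep 1 k
    rw [← cp_congr c3]
    refine mem_union_right _ ?_
    by_cases hk : k' < t + 1
    · exact mem_insert_of_mem (mem_cI c1 hk)
    · rw [hall k' (by omega) (by omega), e0]
      exact mem_insert_self _ _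
  · have hn : S.cp z 0 ∉ S.cI z 1 (t + 1) := by
      intro hX
      obtain ⟨k, c1, c2, e⟩ := of_mem_cI hX
      exact h.ne_of_lt (i := 0) (j := k) c1 (by omega) ((hfu k c1 (by omega)).2 0 e.symm)
    have hs : insert (S.cp z 0) (S.cI z 1 (t + 1)) ⊆ S.cI z 0 r \ O := by
      intro X hX
      rcases mem_insert.1 hX with rfl | hX
      · exact mem_sdiff.2 ⟨h.cp_mem 0, by rwa [e0]⟩
      · obtain ⟨k, c1, c2, rfl⟩ := of_mem_cI hX
        exact mem_sdiff.2 ⟨h.cp_mem k, (hfu k c1 (by omega)).1⟩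
    have h4 := sum_p_mono (S := S) hs
    have h6 := h.sum_fresh (O := O) (i := 0) (j := t + 1) (by omega) fun k c1 c2 => hfu k c1 (by omega)
    rw [zero_add] at h6
    rw [sum_insert hn, h6] at h4
    have h5 : S.pp z 0 = S.p (S.cp z 0) := rfl
    omega

end Sys

end Crest.Agent.R287
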