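import Crest.Agent.R287.Run
import Crest.Agent.R287.Red

/-!
# R287: cycles without D arcs (but with an A arc)

PLAN. `head_red`: `r ≥ 2` (for `r = 1` the A arc gives `δ < 0`).  If the indices `2..r` lie in one fresh component, `PS_of_SF` (`t = 1`) with the pair `(cp 0, cp 1)`:
`τ ≤ be 1 - al 1 = (be 0 - al 1) + y < pp 0 + pp 1 + δ` (`Chain.fw 0 1`; `y ≤ be r - be 0 = δ` since `be` is monotone).  Otherwise `reduce_fresh` with `(0,2)`: `good_K1` (`m=0`) with `e`
from `exists_mult'`: if `y ≤ pp 1` then `e ≤ 0`; if `y ≤ x` then `cl_f` gives `e ≤ drop`.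
`scan`: strong induction on `r - j` (generalizing `j`, `K`).  For `j < r` let `j'` be the least index `> j` whose outgoing arc is A (`j' ≤ r` since arc `r → r+1` is A).  The indices in `(j,j')` are
`FF`, hence `FU`.  If `j' = j+1`: attach `cp j'` to `cp j` by `single_K` for `rot z j` (nothing to do if `cp j' ∈ K`).  Else `run_all` for `rot z j`, `t = j' - j - 1`.  Then the induction hypothesis with
`K ∪ cI (j+1) (j'+1)`; the sum splits: `(C₁ ∪ C₂) \ K = (C₁ \ K) ⊔ (C₂ \ (K ∪ C₁))`.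
`noD_core`: first run `1..j'` (`j' ≥ 2` as index 1 is `FF`) by `run_all` with `K = O`.  First alternative: `scan` with `O ∪ cI 1 (j'+1)`.  Second alternative: `scan` with `O ∪ cI 2 (j'+1)`
(`cp 1` is unique so it is not in `cI (j'+1) (r+1)`), then attach `cp 1` to `cp 0 = cp r`.
`noD`: if some `FF` index entered by an A arc is reducible, rotate and use `head_red`.  Otherwise find an `FF` index entered by an A arc (take an `FF` index `i` far to the right and the last A arc `a → a+1`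
with `a < i`; then `a+1` is `FF`), rotate by `a` and use `noD_core`.
-/

set_option autoImplicit false
open Finset

namespace Crest.Agent.R287

namespace Sys

variable {S : Sys} {z : ℕ → S.E} {r : ℕ} {O : Finset ℕ}

theorem be_le_of_nd (hnd : ∀ i, S.be z i ≤ S.be z (i + 1)) {i j : ℕ} (hij : i ≤ j) :
    S.be z i ≤ S.be z j :=
  monotone_nat_of_le_succ hnd hij

theorem mem_cI {a b X : ℕ} : X ∈ S.cI z a b ↔ ∃ k, a ≤ k ∧ k < b ∧ S.cp z k = X := by
  simp [cI, and_assoc]

theorem cI_split {a b c : ℕ} (h1 : a ≤ b) (h2 : b ≤ c) : S.cI z a c = S.cI z a b ∪ S.cI z b c := by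
  unfold cI
  rw [← image_union, Ico_union_Ico_eq_Ico h1 h2]

theorem cI_one (a : ℕ) : S.cI z a (a + 1) = {S.cp z a} := by
  simp [cI]

theorem sum_split (f : ℕ → ℤ) (K C₁ C₂ : Finset ℕ) :
    ∑ X ∈ (C₁ ∪ C₂) \ K, f X = ∑ X ∈ C₁ \ K, f X + ∑ X ∈ C₂ \ (K ∪ C₁), f X := by
  rw [← sum_union]
  · congr 1
    ext x; simp only [mem_sdiff, mem_union]; tauto
  · rw [disjoint_left]
    intro x hx hx'
    simp only [mem_sdiff, mem_union] at hx hx'
    tauto

theorem sum_p_nonneg (C : Finset ℕ) : (0 : ℤ) ≤ ∑ X ∈ C, (S.p X : ℤ) :=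
  sum_nonneg fun _ _ => Int.natCast_nonneg _

theorem IsCyc.cp_r (h : S.IsCyc z r) : S.cp z r = S.cp z 0 := by
  have := h.per 0
  rw [Nat.zero_add] at this
  simp [cp, this]

theorem IsCyc.be_r (h : S.IsCyc z r) : S.be z r = S.be z 0 + S.al z r := by
  have := h.be_add 0
  rwa [Nat.zero_add] at this

theorem IsCyc.A_r (h : S.IsCyc z r) (hA : S.al z 1 < S.al z 0) : S.al z (r + 1) < S.al z r := by
  have h1 := h.al_add 1
  have h0 : S.al z 0 = 0 := rfl
  rw [Nat.add_comm 1 r] at h1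
  omega

theorem IsCyc.head_red (h : S.IsCyc z r) (ih : S.IH O r) (hO : S.root ∈ O)
    (hnd : ∀ i, S.be z i ≤ S.be z (i + 1)) (hA : S.al z 1 < S.al z 0) (hff : S.FF z 1) (hfu : S.FU z O 1)
    (hred : S.be z 1 - S.be z 0 ≤ S.pp z 1 ∨ S.be z 1 - S.be z 0 ≤ S.al z 2 - S.al z 1) : S.PS z O r := by
  have hδ := h.delta_nonneg
  have h0 : S.al z 0 = 0 := rfl
  have hr : 2 ≤ r := by
    have := h.pos
    by_contra hc
    have : r = 1 := by omega
    subst this
    omega
  have hfu' : ∀ k, 1 ≤ k → k ≤ 1 → S.FU z O k := by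
    intro k h1 h2
    have : k = 1 := by omega
    subst this; exact hfu
  have h1r : S.cp z 1 ≠ S.root := fun e => hfu.1 (e ▸ hO)
  by_cases hsf : S.SF z O 2 r
  · obtain ⟨B, hB, hB'⟩ := id hsf
    have hB0 : S.cp z 0 = B := by rw [← h.cp_r]; exact hB' r hr le_rfl
    have h0r : S.cp z 0 ≠ S.root := fun e => hB (hB0 ▸ e ▸ hO)
    have h01 : S.cp z 0 ≠ S.cp z 1 := fun e =>
      h.ne_of_lt (i := 0) (j := 1) (by omega) (by omega) (hfu.2 0 e)
    have hch : S.Chain z 0 1 := fun k a b => by omega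
    have hfw := hch.fw (by omega) h0r h1r h01
    have ht := tau_le (S := S) (z := z) 0
    have hy : S.be z 1 ≤ S.be z r := be_le_of_nd hnd (by omega)
    have hbr := h.be_r
    have hn0 := hnd 0
    refine h.PS_of_SF (t := 1) (by omega) hfu' hsf
      (x := 2 * S.al z r + S.pp z 0 + S.sp z 1 (1 + 1)) ?_ le_rfl
    rw [cI_one]
    refine Con.two (S.comp_mem _) (S.comp_mem _) ?_
    have hsp : S.sp z 1 (1 + 1) = S.pp z 1 := by simp [sp]
    rw [hsp]
    rw [max_eq_right hn0, min_eq_right hA.le] at ht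
    change (S.τ (S.cp z 0) (S.cp z (0 + 1)) : ℤ) ≤ _
    simp only [Nat.zero_add] at ht hn0 ⊢
    omega
  · have hch : S.Chain z 0 (1 + 1) := fun k a b => by
      have : k = 1 := by omega
      subst this; exact hff
    have hb : S.Blk z 1 := h.blk hO (by omega) hch hfu'
    have hd : 0 ≤ S.drop z 0 2 := hb.dnn (by omega) (by omega)
    refine h.reduce_fresh ih hO (i := 0) (j := 2) (by omega) (by omega)
      (fun k a b => hfu' k (by omega) (by omega)) (by rwa [Nat.zero_add]) ?_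
    have hE : S.Ex z 2 0 = 0 := rfl
    rcases hred with hy | hx
    · refine (hb.good_K1 hA (e := 0) (dvd_zero _) (by omega) (m := 0) (j := 2) rfl le_rfl).mono ?_
      omega
    · obtain ⟨e, he, he1, he2⟩ := exists_mult' (pp_pos h1r) (S.be z 1 - S.be z 0)
      refine (hb.good_K1 hA he he2 (m := 0) (j := 2) rfl le_rfl).mono ?_
      have := hb.cl_f (i0 := 0) (i := 1) (j0 := 2) (by omega) (by omega) le_rfl he
      omega

/-- all heads of runs are irreducible -/
def Irr (S : Sys) (z : ℕ → S.E) : Prop :=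
  ∀ i, S.al z (i + 1) < S.al z i → S.FF z (i + 1) →
    S.pp z (i + 1) < S.be z (i + 1) - S.be z i ∧ S.al z (i + 2) - S.al z (i + 1) < S.be z (i + 1) - S.be z i

theorem cp_rot (j i : ℕ) : S.cp (S.rot z j) i = S.cp z (i + j) := rfl
theorem pp_rot (j i : ℕ) : S.pp (S.rot z j) i = S.pp z (i + j) := rfl

theorem A_rot {j : ℕ} (hjA : S.al z (j + 1) < S.al z j) : S.al (S.rot z j) 1 < S.al (S.rot z j) 0 := by
  rw [al_rot, al_rot, Nat.zero_add, Nat.add_comm 1 j]; omega

theorem nd_rot (hnd : ∀ i, S.be z i ≤ S.be z (i + 1)) (j i : ℕ) :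
    S.be (S.rot z j) i ≤ S.be (S.rot z j) (i + 1) := by
  rw [be_rot, be_rot, show i + 1 + j = i + j + 1 by omega]
  have := hnd (i + j)
  omega

theorem Irr.rot (hirr : S.Irr z) (j : ℕ) : S.Irr (S.rot z j) := by
  intro i h1 h2
  rw [FF_rot j (by omega), show i + 1 + j = i + j + 1 by omega] at h2
  rw [al_rot, al_rot, show i + 1 + j = i + j + 1 by omega] at h1
  have := hirr (i + j) (by omega) h2
  rw [pp_rot, be_rot, be_rot, al_rot, al_rot, show i + 1 + j = i + j + 1 by omega,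
    show i + 2 + j = i + j + 2 by omega]
  omega

/-- `run_all` at an arbitrary position -/
theorem IsCyc.run_at (h : S.IsCyc z r) (hO : S.root ∈ O) (hnd : ∀ i, S.be z i ≤ S.be z (i + 1))
    (hfu : ∀ i, 1 ≤ i → S.FF z i → S.FU z O i) (hirr : S.Irr z) {j j' : ℕ} (h1 : j + 2 ≤ j')
    (h2 : j' ≤ j + r) (hjA : S.al z (j + 1) < S.al z j) (hch : S.Chain z j j') (K : Finset ℕ)
    (hK : S.root ∈ K) (hfr : ∀ i, j < i → i < j' → S.cp z i ∉ K) :
    S.Con K (S.cI z (j + 1) (j' + 1))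
      (2 * (S.be z j' - S.be z j) + ∑ X ∈ S.cI z (j + 1) (j' + 1) \ K, (S.p X : ℤ)) ∨
    ∃ c₁ c₂ : ℤ, (S.κ (S.cp z (j + 1)) (S.cp z j) : ℤ) ≤ c₁ ∧ S.Con K (S.cI z (j + 2) (j' + 1)) c₂ ∧
      c₁ + c₂ ≤ 2 * (S.be z j' - S.be z j) + ∑ X ∈ S.cI z (j + 1) (j' + 1) \ K, (S.p X : ℤ) := by
  obtain ⟨t, rfl⟩ : ∃ t, j' = t + 1 + j := ⟨j' - j - 1, by omega⟩
  have hch' : S.Chain (S.rot z j) 0 (t + 1) := fun k a b => by
    rw [FF_rot j (by omega)]
    exact hch _ (by omega) (by omega)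
  have hfu' : ∀ k, 1 ≤ k → k ≤ t → S.FU z O (k + j) := fun k a b =>
    hfu _ (by omega) (hch _ (by omega) (by omega))
  have hb : S.Blk (S.rot z j) t := (h.rot j).blk hO (by omega) hch'
    (fun k a b => (h.FU_rot j O k).2 (hfu' k a b))
  have hi := hirr.rot j 0 (A_rot hjA) (hch' 1 (by omega) (by omega))
  have := run_all (z := S.rot z j) K hK (t := t) (by omega) hb (A_rot hjA) (nd_rot hnd j t)
    (fun i a b e => h.ne_of_lt (i := i + j) (j := t + 1 + j) (by omega) (by omega)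
      ((hfu' i a b).2 _ e.symm).symm)
    (fun i a b => hfr (i + j) (by omega) (by omega)) hi.1 hi.2
  rw [cI_rot, cI_rot, be_rot, be_rot, cp_rot, cp_rot, Nat.zero_add, Nat.add_comm 1 j, Nat.add_comm 2 j,
    show t + 2 + j = t + 1 + j + 1 by omega,
    show S.be z (t + 1 + j) - S.al z j - (S.be z j - S.al z j) = S.be z (t + 1 + j) - S.be z j by ring]
    at this
  exact this

/-- the next A arc -/
theorem IsCyc.next_A (h : S.IsCyc z r) (hnd : ∀ i, S.be z i ≤ S.be z (i + 1))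
    (hA : S.al z 1 < S.al z 0) {j : ℕ} (hj : j < r) :
    ∃ j', j < j' ∧ j' ≤ r ∧ S.al z (j' + 1) < S.al z j' ∧ S.Chain z j j' := by
  classical
  have hex : ∃ k, j < k ∧ S.al z (k + 1) < S.al z k := ⟨r, hj, h.A_r hA⟩
  refine ⟨Nat.find hex, (Nat.find_spec hex).1, Nat.find_min' hex ⟨hj, h.A_r hA⟩,
    (Nat.find_spec hex).2, fun k a b => ⟨?_, ?_⟩⟩
  · have := Nat.find_min hex b
    push Not at this
    exact this a
  · exact be_le_of_nd hnd (by omega)

theorem IsCyc.scan (h : S.IsCyc z r) (hO : S.root ∈ O) (hnd : ∀ i, S.be z i ≤ S.be z (i + 1))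
    (hA : S.al z 1 < S.al z 0) (hfu : ∀ i, 1 ≤ i → S.FF z i → S.FU z O i) (hirr : S.Irr z)
    (j : ℕ) (hj : j ≤ r) (hjA : S.al z (j + 1) < S.al z j) (K : Finset ℕ) (hK : O ⊆ K) (hjK : S.cp z j ∈ K)
    (hfr : ∀ i, j < i → i ≤ r → S.FF z i → S.cp z i ∉ K) :
    S.Con K (S.cI z (j + 1) (r + 1))
      (2 * (S.be z r - S.be z j) + ∑ X ∈ S.cI z (j + 1) (r + 1) \ K, (S.p X : ℤ)) := by
  induction hn : r - j using Nat.strong_induction_on generalizing j K with
  | _ n ih =>
  rcases hj.eq_or_lt with rfl | hj'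
  · refine Con.done (by simp [cI]) ?_
    have := S.sum_p_nonneg (S.cI z (j + 1) (j + 1) \ K)
    omega
  obtain ⟨j', h1, h2, h3, hch⟩ := h.next_A hnd hA hj'
  have step : S.Con K (S.cI z (j + 1) (j' + 1))
      (2 * (S.be z j' - S.be z j) + ∑ X ∈ S.cI z (j + 1) (j' + 1) \ K, (S.p X : ℤ)) := by
    rcases Nat.lt_or_ge (j + 1) j' with hlt | hge
    · rcases h.run_at hO hnd hfu hirr (j := j) (j' := j') (by omega) (by omega) hjA hch K (hK hO)
        (fun i a b => hfr i a (by omega) (hch i a b)) with hc | ⟨c₁, c₂, hc1, hc2, hc3⟩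
      · exact hc
      · refine Con.trans' (Con.one (S.comp_mem _) (S.comp_mem _) hjK hc1) hc2 subset_union_left ?_ hc3
        rw [cI_split (a := j + 1) (b := j + 1 + 1) (c := j' + 1) (by omega) (by omega), cI_one]
        exact subset_union_right
    · have : j' = j + 1 := by omega
      subst this
      rw [cI_one]
      have hn := hnd j
      by_cases hm : S.cp z (j + 1) ∈ K
      · refine Con.done (by simpa using hm) ?_
        have := S.sum_p_nonneg ({S.cp z (j + 1)} \ K)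
        omega
      · have hs := single_K (z := S.rot z j) (A_rot hjA) (by
          rw [cp_rot, Nat.add_comm 1 j]; exact fun e => hm (e ▸ hK hO))
        rw [cp_rot, cp_rot, be_rot, be_rot, pp_rot, Nat.zero_add, Nat.add_comm 1 j] at hs
        refine Con.one (S.comp_mem _) (S.comp_mem _) hjK ?_
        rw [show ({S.cp z (j + 1)} : Finset ℕ) \ K = {S.cp z (j + 1)} from
          sdiff_eq_self_of_disjoint (disjoint_singleton_left.2 hm), sum_singleton]
        have e : S.pp z (j + 1) = (S.p (S.cp z (j + 1)) : ℤ) := rfl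
        change (S.κ (S.cp z (j + 1)) (S.cp z j) : ℤ) ≤ _
        omega
  have rest := ih (r - j') (by omega) j' h2 h3 (K ∪ S.cI z (j + 1) (j' + 1))
    (hK.trans subset_union_left)
    (mem_union_right _ (mem_cI.2 ⟨j', by omega, by omega, rfl⟩))
    (fun i a b c => by
      rw [mem_union, not_or]
      refine ⟨hfr i (by omega) b c, fun hm => ?_⟩
      obtain ⟨k, k1, k2, k3⟩ := mem_cI.1 hm
      exact h.ne_of_lt (i := k) (j := i) (by omega) (by omega) ((hfu i (by omega) c).2 k k3)) rfl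
  rw [cI_split (a := j + 1) (b := j' + 1) (c := r + 1) (by omega) (by omega), sum_split]
  refine Con.trans' step rest Subset.rfl subset_union_right ?_
  omega

theorem IsCyc.noD_core (h : S.IsCyc z r) (hO : S.root ∈ O) (hnd : ∀ i, S.be z i ≤ S.be z (i + 1))
    (hA : S.al z 1 < S.al z 0) (hff : S.FF z 1) (hfu : ∀ i, 1 ≤ i → S.FF z i → S.FU z O i)
    (hirr : S.Irr z) : S.PS z O r := by
  obtain ⟨j', h1, h2, h3, hch⟩ := h.next_A hnd hA h.pos
  have h4 : 2 ≤ j' := by
    by_contra hc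
    have : j' = 1 := by omega
    subst this
    have := hff.1
    omega
  have hfr : ∀ a, 1 ≤ a → ∀ i, j' < i → i ≤ r → S.FF z i → S.cp z i ∉ O ∪ S.cI z a (j' + 1) := by
    intro a ha i b c d
    rw [mem_union, not_or]
    refine ⟨(hfu i (by omega) d).1, fun hm => ?_⟩
    obtain ⟨k, k1, k2, k3⟩ := mem_cI.1 hm
    exact h.ne_of_lt (i := k) (j := i) (by omega) (by omega) ((hfu i (by omega) d).2 k k3)
  have hbr := h.be_r
  unfold PS
  rw [← h.cI_eq 1, Nat.add_comm 1 r, cI_split (a := 1) (b := j' + 1) (c := r + 1) (by omega) (by omega),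
    sum_split]
  rcases h.run_at hO hnd hfu hirr (j := 0) (j' := j') (by omega) (by omega) hA hch O hO
    (fun i a b => (hfu i a (hch i a b)).1) with hc | ⟨c₁, c₂, hc1, hc2, hc3⟩
  · have rest := h.scan hO hnd hA hfu hirr j' h2 h3 (O ∪ S.cI z 1 (j' + 1)) subset_union_left
      (mem_union_right _ (mem_cI.2 ⟨j', by omega, by omega, rfl⟩)) (hfr 1 le_rfl)
    refine Con.trans' hc rest Subset.rfl subset_union_right ?_
    simp only [Nat.zero_add]
    omega
  · have rest := h.scan hO hnd hA hfu hirr j' h2 h3 (O ∪ S.cI z 2 (j' + 1)) subset_union_left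
      (mem_union_right _ (mem_cI.2 ⟨j', by omega, by omega, rfl⟩)) (hfr 2 (by omega))
    simp only [Nat.zero_add] at hc1 hc2 hc3
    have e1 : S.cI z 1 (j' + 1) = {S.cp z 1} ∪ S.cI z 2 (j' + 1) := by
      rw [cI_split (a := 1) (b := 1 + 1) (c := j' + 1) (by omega) (by omega), cI_one]
    have e2 : S.cI z (j' + 1) (r + 1) \ (O ∪ S.cI z 2 (j' + 1)) =
        S.cI z (j' + 1) (r + 1) \ (O ∪ S.cI z 1 (j' + 1)) := by
      rw [e1]
      ext X
      simp only [mem_sdiff, mem_union, mem_singleton]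
      refine and_congr_right fun hX => ?_
      obtain ⟨k, k1, k2, k3⟩ := mem_cI.1 hX
      have : X ≠ S.cp z 1 := fun e =>
        h.ne_of_lt (i := 1) (j := k) (by omega) (by omega) ((hfu 1 le_rfl hff).2 k (k3.trans e)).symm
      tauto
    rw [e2] at rest
    have h0 : S.cp z 0 ∈ O ∪ (S.cI z 2 (j' + 1) ∪ S.cI z (j' + 1) (r + 1)) := by
      rw [← cI_split (by omega) (by omega), ← h.cp_r]
      exact mem_union_right _ (mem_cI.2 ⟨r, by omega, by omega, rfl⟩)
    refine Con.trans' (hc2.trans rest) (Con.one (S.comp_mem _) (S.comp_mem _) h0 hc1) Subset.rfl ?_ ?_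
    · rw [e1]
      intro X
      simp only [mem_union]
      tauto
    · omega

theorem IsCyc.noD (h : S.IsCyc z r) (ih : S.IH O r) (hO : S.root ∈ O)
    (hnd : ∀ i, S.be z i ≤ S.be z (i + 1)) (hA : ∃ i, S.al z (i + 1) < S.al z i)
    (hfu : ∀ i, 1 ≤ i → S.FF z i → S.FU z O i) : S.PS z O r := by
  have hfu' : ∀ a i, 1 ≤ i → S.FF (S.rot z a) i → S.FU (S.rot z a) O i := fun a i h1 h2 =>
    (h.FU_rot a O i).2 (hfu _ (by omega) ((FF_rot a h1).1 h2))
  have hff' : ∀ a, S.FF z (a + 1) → S.FF (S.rot z a) 1 := fun a h1 => by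
    rw [FF_rot a le_rfl, Nat.add_comm 1 a]; exact h1
  by_cases hirr : S.Irr z
  · obtain ⟨a0, ha0⟩ := hA
    have : ∃ a, S.al z (a + 1) < S.al z a ∧ S.al z (a + 1) ≤ S.al z (a + 2) := by
      by_contra hc
      push Not at hc
      have h1 : ∀ k, S.al z (a0 + k + 1) < S.al z (a0 + k) := by
        intro k
        induction k with
        | zero => exact ha0
        | succ k ihk => exact hc _ ihk
      have h2 : ∀ k, S.al z (a0 + k + 1) < S.al z a0 := by
        intro k
        induction k with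
        | zero => exact ha0
        | succ k ihk => exact (h1 (k + 1)).trans ihk
      have h3 := h2 (r - 1)
      have h4 := h.pos
      rw [show a0 + (r - 1) + 1 = a0 + r by omega, h.al_add] at h3
      have := h.delta_nonneg
      omega
    obtain ⟨a, ha, ha'⟩ := this
    have hff : S.FF z (a + 1) := ⟨ha', hnd a⟩
    exact (h.PS_rot a O).1 ((h.rot a).noD_core hO (nd_rot hnd a) (A_rot ha) (hff' a hff) (hfu' a)
      (hirr.rot a))
  · unfold Irr at hirr
    push Not at hirr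
    obtain ⟨a, ha, hff, hred⟩ := hirr
    refine (h.PS_rot a O).1 ((h.rot a).head_red ih hO (nd_rot hnd a) (A_rot ha) (hff' a hff)
      (hfu' a 1 le_rfl (hff' a hff)) ?_)
    rw [be_rot, be_rot, al_rot, al_rot, pp_rot, Nat.zero_add, Nat.add_comm 1 a, Nat.add_comm 2 a]
    omega

end Sys

end Crest.Agent.R287
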