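import Crest.Agent.R287.Cyc

/-!
# R287: reflection of a system

PLAN. The reflected word is `x ↦ w e (c e - 1 - x)`; a vertex `[a,b)` of the reflected arc is the vertex `[c-b, c-a)` of the original arc; an overlap witness `Ovl` of reflected words is one
of the original words with the roles exchanged (substitute `x ↦ k - 1 - x`).  In `ord` use `σ' = c e - c f - σ`.  For the reversed sequence `rv z r i = z (r - i % r)`:
`al_rv`: for `i ≤ r`, `al' i = be z r - be z (r - i) - c (z 0) + c(z 0) …`; prove by induction `S.rev.al (rv z r) i = S.be z r - S.be z (r - i)` for `i ≤ r`, then extend by periodicity.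
-/

set_option autoImplicit false
open Finset

namespace Crest.Agent.R287

namespace Sys

theorem Rev.vtx {c lt lh : ℕ} {a b : ℤ} (h : Vtx c lh lt a b) : Vtx c lt lh (c - b) (c - a) := by
  unfold Vtx at *
  omega

theorem Rev.ovl {u v : ℤ → ℕ} {cu cv a b a' b' k : ℤ}
    (h : Ovl (fun x => u (cu - 1 - x)) (fun x => v (cv - 1 - x)) a b a' b' k) :
    Ovl v u (cv - b') (cv - a') (cu - b) (cu - a) k := by
  obtain ⟨h1, h2, h3, h4⟩ := h
  refine ⟨h1, by omega, by omega, fun x hx1 hx2 => ?_⟩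
  have := (h4 (k - 1 - x) (by omega) (by omega)).symm
  simp only at this
  convert this using 2 <;> omega

/-- the mirror image of a system -/
def rev (S : Sys) : Sys where
  E := S.E
  comp := S.comp
  root := S.root
  p := S.p
  c := S.c
  lt := S.lh
  lh := S.lt
  ov := fun e f => S.ov f e
  w := fun e x => S.w e (S.c e - 1 - x)
  κ := S.κ
  τ := fun X Y => S.τ Y X
  root_mem := S.root_mem
  c_le_lt := S.c_le_lh
  c_le_lh := S.c_le_lt
  c_lt := fun e h => (S.c_lt e h).symm
  p_pos := S.p_pos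
  per := fun e h x => by
    have := (S.per e h (S.c e - 1 - (x + S.p (S.comp e)))).symm
    convert this using 2
    omega
  ov_lt := fun e f => (S.ov_lt f e).imp_right And.symm
  ov_agree := fun e f x h1 h2 => by
    have := (S.ov_agree f e (S.ov f e - 1 - x) (by omega) (by omega)).symm
    convert this using 2 <;> omega
  ov_max := fun e f k h1 h2 h3 => S.ov_max f e k h2 h1 fun x hx1 hx2 => by
    have := (h3 (k - 1 - x) (by omega) (by omega)).symm
    convert this using 2 <;> omega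
  greedy := fun e f => (S.greedy f e).trans (max_comm _ _).le
  fw := fun e f h1 h2 h3 a b L h4 =>
    S.fw e f h1 h2 h3 (S.c e - a - L) (S.c f - b - L) L fun x hx1 hx2 => by
      have := h4 (L - 1 - x) (by omega) (by omega)
      convert this using 2 <;> omega
  align := fun e f h1 h2 => by
    obtain ⟨σ, hσ⟩ := S.align e f h1 h2
    refine ⟨S.c e - S.c f - σ, fun x => ?_⟩
    rw [hσ]
    congr 1
    omega
  ord := fun e f σ h1 h2 h3 => by
    have := S.ord e f (S.c e - S.c f - σ) h1 h2 fun y => by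
      have := h3 (S.c f - 1 - y)
      convert this using 2 <;> omega
    rcases this with ⟨rfl, h4⟩ | h4 | h4
    · exact Or.inl ⟨rfl, by omega⟩
    · exact Or.inr (Or.inr (by omega))
    · exact Or.inr (Or.inl (by omega))
  κ_symm := S.κ_symm
  κ_le := fun e f a b a' b' k k' h1 h2 h3 h4 => by
    have := S.κ_le e f _ _ _ _ k' k (Rev.vtx h1) (Rev.vtx h2) (Rev.ovl h4) (Rev.ovl h3)
    omega
  τ_le := fun e f a b a' b' k h1 h2 h3 => by
    have := S.τ_le f e _ _ _ _ k (Rev.vtx h2) (Rev.vtx h1) (Rev.ovl h3)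
    omega
  κ_root := fun e a b h1 => by
    have := S.κ_root e _ _ (Rev.vtx h1)
    omega

variable {S : Sys} {z : ℕ → S.E} {r : ℕ} {O : Finset ℕ}

/-- the reversed cycle -/
def rv (z : ℕ → S.E) (r : ℕ) : ℕ → S.rev.E := fun i => z (r - i % r)

theorem IsCyc.rv_eq (h : S.IsCyc z r) {n i : ℕ} (hi : i ≤ n * r) : Sys.rv z r i = z (n * r - i) := by
  refine (h.eq_iff _ _).2 (Nat.ModEq.add_right_cancel' i ?_)
  have h1 := Nat.mod_lt i h.pos
  have h2 := Nat.mod_add_div i r
  rw [show r - i % r + i = r * (i / r + 1) by rw [Nat.mul_add]; omega, Nat.sub_add_cancel hi]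
  unfold Nat.ModEq
  simp

theorem IsCyc.al_rv (h : S.IsCyc z r) {n i : ℕ} (hi : i ≤ n * r) :
    S.rev.al (Sys.rv z r) i = S.be z (n * r) - S.be z (n * r - i) := by
  induction i with
  | zero => simp [al]
  | succ i ih =>
    have h1 : S.rev.al (Sys.rv z r) (i + 1) = S.rev.al (Sys.rv z r) i + S.c (Sys.rv z r i) -
      S.ov (Sys.rv z r (i + 1)) (Sys.rv z r i) := rfl
    have h2 := k_eq (S := S) (z := z) (n * r - (i + 1))
    rw [show n * r - (i + 1) + 1 = n * r - i by omega] at h2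
    have h3 : S.be z (n * r - i) = S.al z (n * r - i) + S.c (z (n * r - i)) := rfl
    rw [h1, ih (by omega), h.rv_eq hi, h.rv_eq (n := n) (by omega : i ≤ n * r)]
    omega

theorem IsCyc.be_rv (h : S.IsCyc z r) {n i : ℕ} (hi : i ≤ n * r) :
    S.rev.be (Sys.rv z r) i = S.be z (n * r) - S.al z (n * r - i) := by
  have h1 : S.rev.be (Sys.rv z r) i = S.rev.al (Sys.rv z r) i + S.c (Sys.rv z r i) := rfl
  have h3 : S.be z (n * r - i) = S.al z (n * r - i) + S.c (z (n * r - i)) := rfl
  rw [h1, h.al_rv hi, h.rv_eq hi]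
  omega

theorem IsCyc.cp_rv (h : S.IsCyc z r) {i : ℕ} (hi : i ≤ r) :
    S.rev.cp (Sys.rv z r) i = S.cp z (r - i) := by
  have := h.rv_eq (n := 1) (i := i) (by omega)
  rw [Nat.one_mul] at this
  exact congrArg S.comp this

theorem IsCyc.rv (h : S.IsCyc z r) : S.rev.IsCyc (rv z r) r := by
  refine ⟨h.pos, fun i => by simp only [Sys.rv, Nat.add_mod_right], fun i j hi hj hij => ?_⟩
  simp only [Sys.rv, Nat.mod_eq_of_lt hi, Nat.mod_eq_of_lt hj] at hij
  rcases lt_trichotomy i j with h1 | h1 | h1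
  · exact absurd hij.symm (h.ne_of_lt (by omega) (by omega))
  · exact h1
  · exact absurd hij (h.ne_of_lt (by omega) (by omega))

theorem IsCyc.PS_rv (h : S.IsCyc z r) (hp : S.rev.PS (Sys.rv z r) O r) : S.PS z O r := by
  have h1 : S.rev.cI (Sys.rv z r) 0 r = S.cI z 0 r := by
    rw [← h.cI_eq 1]
    ext X
    simp only [cI, mem_image, mem_Ico]
    constructor
    · rintro ⟨i, hi, rfl⟩
      exact ⟨r - i, by omega, (h.cp_rv hi.2.le).symm⟩
    · rintro ⟨i, hi, rfl⟩
      refine ⟨r - i, by omega, ?_⟩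
      rw [h.cp_rv (by omega), show r - (r - i) = i by omega]
  have h2 : S.rev.al (Sys.rv z r) r = S.al z r := by
    have h3 := h.al_rv (n := 1) (i := r) (by omega)
    have h4 := h.be_add 0
    rw [Nat.one_mul, Nat.sub_self] at h3
    rw [Nat.zero_add] at h4
    omega
  unfold PS at hp ⊢
  rw [h1, h2] at hp
  exact R287.Con.swap hp

theorem IsCyc.SF_rv (h : S.IsCyc z r) : S.rev.SF (Sys.rv z r) O 0 r ↔ S.SF z O 0 r := by
  refine exists_congr fun B => and_congr_right fun _ => ⟨fun hB k _ hk => ?_, fun hB k _ hk => ?_⟩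
  · have := hB (r - k) (by omega) (by omega)
    rwa [h.cp_rv (by omega), show r - (r - k) = k by omega] at this
  · rw [h.cp_rv hk]
    exact hB _ (by omega) (by omega)

/-- no A arc becomes no D arc -/
theorem IsCyc.noD_rv (h : S.IsCyc z r) (hna : ∀ i, S.al z i ≤ S.al z (i + 1)) (i : ℕ) :
    S.rev.be (Sys.rv z r) i ≤ S.rev.be (Sys.rv z r) (i + 1) := by
  have h1 : i + 1 ≤ (i + 1) * r := Nat.le_mul_of_pos_right _ h.pos
  have h2 := hna ((i + 1) * r - (i + 1))
  rw [show (i + 1) * r - (i + 1) + 1 = (i + 1) * r - i by omega] at h2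
  rw [h.be_rv h1, h.be_rv (n := i + 1) (by omega : i ≤ (i + 1) * r)]
  omega

theorem IsCyc.exA_rv (h : S.IsCyc z r) (hd : ∃ i, S.be z (i + 1) < S.be z i) :
    ∃ i, S.rev.al (Sys.rv z r) (i + 1) < S.rev.al (Sys.rv z r) i := by
  obtain ⟨d, hd⟩ := hd
  have h1 : d + 1 ≤ (d + 1) * r := Nat.le_mul_of_pos_right _ h.pos
  refine ⟨(d + 1) * r - (d + 1), ?_⟩
  rw [h.al_rv (n := d + 1) (by omega), h.al_rv (n := d + 1) (by omega),
    show (d + 1) * r - ((d + 1) * r - (d + 1) + 1) = d by omega,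
    show (d + 1) * r - ((d + 1) * r - (d + 1)) = d + 1 by omega]
  omega

theorem IsCyc.FU_rv (h : S.IsCyc z r) (hfu : ∀ i, 1 ≤ i → S.FF z i → S.FU z O i) (i : ℕ) (hi : 1 ≤ i)
    (hff : S.rev.FF (Sys.rv z r) i) : S.rev.FU (Sys.rv z r) O i := by
  have h1 : i + 1 ≤ (i + 1) * r := Nat.le_mul_of_pos_right _ h.pos
  obtain ⟨h2, h3⟩ := hff
  rw [h.al_rv h1, h.al_rv (n := i + 1) (by omega : i ≤ (i + 1) * r)] at h2
  rw [h.be_rv (n := i + 1) (by omega : i ≤ (i + 1) * r),
    h.be_rv (n := i + 1) (by omega : i - 1 ≤ (i + 1) * r),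
    show (i + 1) * r - (i - 1) = (i + 1) * r - i + 1 by omega] at h3
  have h4 := hfu ((i + 1) * r - i) (by omega) ⟨by omega, by
    rw [show (i + 1) * r - i - 1 = (i + 1) * r - (i + 1) by omega]; omega⟩
  have h5 := h.rv_eq (n := i + 1) (by omega : i ≤ (i + 1) * r)
  have h6 : S.rev.cp (Sys.rv z r) i = S.cp z ((i + 1) * r - i) := congrArg S.comp h5
  refine ⟨h6 ▸ h4.1, fun j hj => ?_⟩
  rw [h5]
  exact h4.2 (r - j % r) (hj.trans h6)

end Sys

end Crest.Agent.R287
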