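import Crest.Agent.R287.TopRed
import Crest.Agent.R287.CFail
import Crest.Agent.R287.NoD
import Crest.Agent.R287.AllF
import Crest.Agent.R287.Rev

/-!
# R287: the claim for one alternating cycle

PLAN. `top_core`: `Blk z t` by `blk`.  If the indices `t+1..r` lie in one fresh component: `t = 1`: `cfail1`; `t ≥ 2`: if `be 1 - be 0 ≤ pp 1`, `reduce_fresh (0,2)` with `good_K1` (`e = 0`, `m = 0`, `dnn`;
not `SF` because index 2 is unique and index `r` is another arc); if `al (t+1) - al t ≤ pp t`, `reduce_fresh (t-1,t+1)` with `good_Kt` (index `r+1` is unique); else `cfail`.  Otherwise `top_red` gives `(i,j)`; `reduce_fresh`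
(if `(i,j) ≠ (0,t+1)` a unique index of the block, or its copy `+ r`, and the index `r` lie in `[j, i+r]`, so not `SF`).
`top`: take a D arc `d → d+1` to the right of some A arc (periodicity), `a` the last A arc `a → a+1` with `a < d` and then `d` the first D arc after `a`; (`a ≠ d` by `arcA`); `t = d - a`, `1 ≤ t < r` (else arc `a + r` would be a later A arc;
`t = r` would make the D arc a copy of the A arc); rotate by `a`.
`main`: strong induction on `r` generalizing `S z` (needed for `rev`).  If no component is fresh: `Con.done`, `delta_nonneg`.  If some `FF` index `i ≥ 1` is not `FU`: `r ≥ 2` (for `r = 1` the single component is old, as it is unique); rotate by `i - 1`;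
`reduce_old`, or, if the rest is `SF`, the component of the index is old (else the whole cycle is `SF`) and `oldQ` applies.  Otherwise: no A and no D arc: `allF` (`r ≥ 2` since not `SF`); no D: `noD`; no A: `noD` for `S.rev`, `rv z r` and `PS_rv`; both: `top`.
-/

set_option autoImplicit false
open Finset

namespace Crest.Agent.R287

namespace Sys

variable {S : Sys} {z : ℕ → S.E} {r : ℕ} {O : Finset ℕ}

theorem Main.not_SF {k a b i j : ℕ} (hfu : S.FU z O k) (ha : z a = z k) (hne : z b ≠ z a)
    (ha1 : i ≤ a) (ha2 : a ≤ j) (hb1 : i ≤ b) (hb2 : b ≤ j) : ¬ S.SF z O i j := by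
  rintro ⟨B, -, hB⟩
  refine hne ((hfu.2 b ?_).trans ha.symm)
  rw [hB b hb1 hb2, ← hB a ha1 ha2]
  simp only [cp, ha]

theorem IsCyc.top_core (h : S.IsCyc z r) (ih : S.IH O r) (hO : S.root ∈ O) {t : ℕ} (ht : 1 ≤ t) (htr : t < r)
    (hc : S.Chain z 0 (t + 1)) (hfu : ∀ k, 1 ≤ k → k ≤ t → S.FU z O k)
    (hA : S.al z 1 < S.al z 0) (hD : S.be z (t + 1) < S.be z t) : S.PS z O r := by
  have hb := h.blk hO htr.le hc hfu
  by_cases hsf : S.SF z O (t + 1) r
  · rcases Nat.eq_or_lt_of_le ht with rfl | ht2
    · exact h.cfail1 hO htr (hc 1 (by omega) (by omega)) (hfu 1 le_rfl le_rfl) hA hD hsf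
    by_cases h1 : S.be z 1 - S.be z 0 ≤ S.pp z 1
    · refine h.reduce_fresh ih hO (i := 0) (j := 2) (by omega) (by omega)
        (fun k h1 h2 => hfu k h1 (by omega))
        (Main.not_SF (a := 2) (b := r) (hfu 2 (by omega) ht2) rfl
          (h.ne_of_lt (by omega) (by omega)).symm (by omega) (by omega) (by omega) (by omega)) ?_
      refine (hb.good_K1 hA (e := 0) (dvd_zero _) (by omega) (m := 0) rfl (by omega)).mono ?_
      have := hb.dnn (i := 0) (j := 2) (by omega) (by omega)
      simp only [Ex]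
      omega
    by_cases h2 : S.al z (t + 1) - S.al z t ≤ S.pp z t
    · obtain ⟨s, rfl⟩ : ∃ s, t = s + 1 := ⟨t - 1, by omega⟩
      refine h.reduce_fresh ih hO (i := s) (j := s + 1 + 1) (by omega) (by omega)
        (fun k h1 h2 => hfu k (by omega) (by omega))
        (Main.not_SF (a := 1 + r) (b := r) (hfu 1 le_rfl ht) (h.per 1)
          (h.ne_of_lt (by omega) (by omega)) (by omega) (by omega) (by omega) (by omega)) ?_
      refine (hb.good_Kt hD (e := 0) (dvd_zero _) (by omega) (i := s) (m := 0) rfl).mono ?_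
      have := hb.dnn (i := s) (j := s + 1 + 1) (by omega) (by omega)
      simp only [Ex]
      omega
    exact h.cfail hO ht2 htr hc hfu hA hD hsf (by omega) (by omega)
  · obtain ⟨i, j, h1, h2, hg⟩ := hb.top_red ht hA hD
    refine h.reduce_fresh ih hO h1 (by omega) (fun k h3 h4 => hfu k (by omega) (by omega)) ?_ hg
    by_cases hj : j ≤ t
    · exact Main.not_SF (a := j) (b := r) (hfu j (by omega) hj) rfl
        (h.ne_of_lt (by omega) (by omega)).symm le_rfl (by omega) (by omega) (by omega)
    · obtain rfl : j = t + 1 := by omega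
      rcases Nat.eq_zero_or_pos i with rfl | hi
      · rwa [Nat.zero_add]
      · exact Main.not_SF (a := i + r) (b := r) (hfu i hi (by omega)) (h.per i)
          (h.ne_of_lt (by omega) (by omega)) (by omega) le_rfl (by omega) (by omega)

theorem IsCyc.top (h : S.IsCyc z r) (ih : S.IH O r) (hO : S.root ∈ O)
    (hA : ∃ i, S.al z (i + 1) < S.al z i) (hD : ∃ i, S.be z (i + 1) < S.be z i)
    (hfu : ∀ i, 1 ≤ i → S.FF z i → S.FU z O i) : S.PS z O r := by
  classical
  have hAr : ∀ i, S.al z (i + 1) < S.al z i → S.al z (i + r + 1) < S.al z (i + r) := by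
    intro i hi
    rw [show i + r + 1 = i + 1 + r by omega, h.al_add, h.al_add]
    omega
  have hDr : ∀ i n, S.be z (i + 1) < S.be z i → S.be z (i + n * r + 1) < S.be z (i + n * r) := by
    intro i n hi
    induction n with
    | zero => simpa using hi
    | succ n ihn =>
      rw [show i + (n + 1) * r + 1 = i + n * r + 1 + r by ring,
        show i + (n + 1) * r = i + n * r + r by ring, h.be_add, h.be_add]
      omega
  have hex : ∃ t, 1 ≤ t ∧ ∃ a, S.al z (a + 1) < S.al z a ∧ S.be z (a + t + 1) < S.be z (a + t) := by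
    obtain ⟨a, ha⟩ := hA
    obtain ⟨d, hd⟩ := hD
    have h1 : a + 1 ≤ (a + 1) * r := Nat.le_mul_of_pos_right _ h.pos
    refine ⟨d + (a + 1) * r - a, by omega, a, ha, ?_⟩
    rw [show a + (d + (a + 1) * r - a) = d + (a + 1) * r by omega]
    exact hDr d (a + 1) hd
  obtain ⟨ht, a, ha, hd⟩ := Nat.find_spec hex
  set t := Nat.find hex with htdef
  have hmin : ∀ s, 1 ≤ s → s < t → ∀ a, S.al z (a + 1) < S.al z a →
      ¬ S.be z (a + s + 1) < S.be z (a + s) := fun s h1 h2 a h3 h4 =>
    Nat.find_min hex h2 ⟨h1, a, h3, h4⟩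
  have hnA : ∀ k, 1 ≤ k → k ≤ t → S.al z (a + k) ≤ S.al z (a + k + 1) := by
    intro k h1 h2
    by_contra h3
    push Not at h3
    rcases Nat.eq_or_lt_of_le h2 with rfl | h4
    · exact absurd (arcA h3).1 (not_le.2 hd)
    · refine hmin (t - k) (by omega) (by omega) (a + k) h3 ?_
      rwa [show a + k + (t - k) = a + t by omega]
  have hnD : ∀ k, k < t → S.be z (a + k) ≤ S.be z (a + k + 1) := by
    intro k h2
    rcases Nat.eq_zero_or_pos k with rfl | h1
    · exact (arcA ha).1
    · exact not_lt.1 (hmin k h1 h2 a ha)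
  have hff : ∀ k, 1 ≤ k → k ≤ t → S.FF z (k + a) := by
    intro k h1 h2
    refine ⟨?_, ?_⟩
    · rw [Nat.add_comm k a]
      exact hnA k h1 h2
    · have := hnD (k - 1) (by omega)
      rwa [show a + (k - 1) + 1 = k + a by omega, show a + (k - 1) = k + a - 1 by omega] at this
  have htr : t < r := by
    by_contra h1
    exact absurd (hAr a ha) (not_lt.2 (hnA r h.pos (by omega)))
  refine (h.PS_rot a O).1 ((h.rot a).top_core ih hO ht htr
    (fun k h1 h2 => (FF_rot a h1).2 (hff k h1 (by omega)))
    (fun k h1 h2 => (h.FU_rot a O k).2 (hfu _ (by omega) (hff k h1 h2))) ?_ ?_)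
  · rw [al_rot, al_rot, Nat.zero_add, Nat.add_comm 1 a]
    omega
  · rw [be_rot, be_rot, show t + 1 + a = a + t + 1 by omega, Nat.add_comm t a]
    omega

theorem main (r : ℕ) : ∀ (S : Sys) (z : ℕ → S.E) (O : Finset ℕ), S.root ∈ O → S.IsCyc z r →
    ¬ S.SF z O 0 r → S.PS z O r := by
  induction r using Nat.strong_induction_on with
  | _ r IH =>
  intro S z O hO h hsf
  have ih : S.IH O r := fun r' z' hr' hc hs => IH r' hr' S z' O hO hc hs
  have ih' : S.rev.IH O r := fun r' z' hr' hc hs => IH r' hr' S.rev z' O hO hc hs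
  by_cases hall : S.cI z 0 r ⊆ O
  · refine Con.done hall ?_
    have h1 := h.delta_nonneg
    have h2 : 0 ≤ ∑ X ∈ S.cI z 0 r \ O, (S.p X : ℤ) := sum_nonneg fun _ _ => Int.natCast_nonneg _
    omega
  have hr : 2 ≤ r := by
    by_contra hr
    obtain rfl : r = 1 := by have := h.pos; omega
    refine hsf ⟨S.cp z 0, fun h0 => hall fun X hX => ?_, fun k _ _ => ?_⟩
    · simp only [cI, Nat.Ico_zero_eq_range, range_one, image_singleton, mem_singleton] at hX
      exact hX ▸ h0
    · simp only [cp]
      rw [← h.mod k, Nat.mod_one]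
  by_cases hfu : ∀ i, 1 ≤ i → S.FF z i → S.FU z O i
  · by_cases hA : ∃ i, S.al z (i + 1) < S.al z i
    · by_cases hD : ∃ i, S.be z (i + 1) < S.be z i
      · exact h.top ih hO hA hD hfu
      · push Not at hD
        exact h.noD ih hO hD hA hfu
    · push Not at hA
      by_cases hD : ∃ i, S.be z (i + 1) < S.be z i
      · exact h.PS_rv (h.rv.noD ih' hO (h.noD_rv hA) (h.exA_rv hD) (h.FU_rv hfu))
      · push Not at hD
        have hff : ∀ i, 1 ≤ i → S.FF z i := fun i hi => ⟨hA i, by
          have := hD (i - 1)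
          rwa [show i - 1 + 1 = i by omega] at this⟩
        exact h.allF hO hr hff fun i hi => hfu i hi (hff i hi)
  · push Not at hfu
    obtain ⟨i, hi, hff, hnf⟩ := hfu
    obtain ⟨j, rfl⟩ : ∃ j, i = 1 + j := ⟨i - 1, by omega⟩
    have h' := h.rot j
    have hff' : S.FF (S.rot z j) 1 := (FF_rot j le_rfl).2 hff
    have hnf' : ¬ S.FU (S.rot z j) O 1 := fun h1 => hnf ((h.FU_rot j O 1).1 h1)
    have hsf' : ¬ S.SF (S.rot z j) O 0 r := fun h1 => hsf ((h.SF_rot j O).1 h1)
    refine (h.PS_rot j O).1 ?_
    generalize S.rot z j = y at h' hff' hnf' hsf'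
    have hold : S.cp y 1 ∈ O ∨ ∃ k, S.cp y k = S.cp y 1 ∧ y k ≠ y 1 := by
      by_contra h1
      push Not at h1
      exact hnf' h1
    by_cases hs2 : S.SF y O 2 r
    · rcases hold with h1 | ⟨k, h1, h2⟩
      · exact h'.oldQ hO hr hff' h1 hs2
      · exfalso
        obtain ⟨B, hB, hB'⟩ := hs2
        have h0 : S.cp y 0 = B := by
          rw [← hB' r hr le_rfl]
          simp only [cp]
          rw [← h'.per 0, Nat.zero_add]
        have hk : S.cp y k = B := by
          have h3 : S.cp y k = S.cp y (k % r) := by simp only [cp, h'.mod]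
          have h4 := Nat.mod_lt k h'.pos
          have h5 : k % r ≠ 1 := fun h5 => h2 (by rw [← h'.mod k, h5])
          rw [h3]
          rcases Nat.eq_zero_or_pos (k % r) with h6 | h6
          · rw [h6, h0]
          · exact hB' _ (by omega) h4.le
        refine hsf' ⟨B, hB, fun l _ hl => ?_⟩
        rcases Nat.lt_or_ge l 2 with h3 | h3
        · interval_cases l
          · exact h0
          · rw [← h1, hk]
        · exact hB' l h3 hl
    · exact h'.reduce_old ih hr hff' hold hs2

end Sys

end Crest.Agent.R287
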