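import Crest.Agent.R287.Opt

/-!
# R287: a run `1, …, t+1` entered by an A arc, in a cycle without D arcs (linear estimates)

Write `y = be 1 - be 0`, `x = al 2 - al 1`.
PLAN. `run_odd`: `con_pairs K 2 (m+1)`; `Ex_le` (`a = 2`) and `Blk.fw 1 2`.  `run_even`: `con_pairs K 1 (m+2)`, `Ex 1 (m+2) = A₁ + Ex 3 (m+1)`; `Ex_le` (`a = 3`),
`Blk.fw 1 2`, `Blk.fw 1 3`, `x < y`, `pp 1 < y`, monotonicity of `be`.  `run_two`: `tau_le`, `Chain.fw`.  `head_K`, `single_K`: `kapL` with `exists_mult'`.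
Use `Finset.sum_Ico_succ_top`, `Finset.sum_eq_sum_Ico_succ_bot` for `sp`.
-/

set_option autoImplicit false
open Finset

namespace Crest.Agent.R287

namespace Sys

variable {S : Sys} {z : ℕ → S.E} {r : ℕ} {O : Finset ℕ}

theorem Run.sp_bot {a b : ℕ} (h : a < b) : S.sp z a b = S.pp z a + S.sp z (a + 1) b :=
  Finset.sum_eq_sum_Ico_succ_bot h _

theorem Run.sp_top {a b : ℕ} (h : a ≤ b) : S.sp z a (b + 1) = S.sp z a b + S.pp z b :=
  Finset.sum_Ico_succ_top h _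

theorem Run.sp_le {K T : Finset ℕ} {a b : ℕ}
    (hinj : ∀ i j, a ≤ i → i < j → j < b → S.cp z i ≠ S.cp z j)
    (hK : ∀ i, a ≤ i → i < b → S.cp z i ∉ K) (hT : S.cI z a b ⊆ T) :
    S.sp z a b ≤ ∑ X ∈ T \ K, (S.p X : ℤ) := by
  have h1 : S.sp z a b = ∑ X ∈ S.cI z a b, (S.p X : ℤ) := by
    rw [cI, sum_image]
    · rfl
    · intro i hi j hj hij
      simp only [coe_Ico, Set.mem_Ico] at hi hj
      rcases lt_trichotomy i j with h | h | h
      · exact absurd hij (hinj i j hi.1 h hj.2)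
      · exact h
      · exact absurd hij.symm (hinj j i hj.1 h hi.2)
  rw [h1]
  refine sum_le_sum_of_subset_of_nonneg (fun X hX => mem_sdiff.2 ⟨hT hX, ?_⟩)
    fun _ _ _ => Int.natCast_nonneg _
  obtain ⟨i, hi, rfl⟩ := mem_image.1 hX
  exact hK i (mem_Ico.1 hi).1 (mem_Ico.1 hi).2

theorem Run.steps {t : ℕ} (hb : S.Blk z t) (hl : S.be z t ≤ S.be z (t + 1)) {i : ℕ} (h1 : 1 ≤ i)
    (h2 : i ≤ t) : S.al z i ≤ S.al z (i + 1) ∧ S.be z i ≤ S.be z (i + 1) := by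
  refine ⟨hb.alm h1 (by omega) (by omega), ?_⟩
  rcases Nat.eq_or_lt_of_le h2 with rfl | h3
  · exact hl
  · exact hb.bem (by omega) h3

theorem run_odd (K : Finset ℕ) {m : ℕ} (hb : S.Blk z (2 * m + 2))
    (hl : S.be z (2 * m + 2) ≤ S.be z (2 * m + 3)) :
    S.Con K (S.cI z 2 (2 * m + 4)) (S.be z (2 * m + 3) - S.be z 1 + S.sp z 1 (2 * m + 3)) := by
  have h1 := con_pairs (S := S) (z := z) K 2 (m + 1)
    fun i h1 h2 => Run.steps hb hl (by omega) (by omega)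
  have h2 := hb.Ex_le (a := 2) (m := m) (by omega)
  have h3 := hb.fw (i := 1) (j := 2) le_rfl (by omega) (by omega)
  have h4 : S.sp z 2 (2 * m + 3 + 1) = _ := Run.sp_top (by omega)
  have h5 : S.sp z 1 (2 * m + 3) = _ := Run.sp_bot (by omega)
  rw [show 2 + 2 * (m + 1) = 2 * m + 3 + 1 by omega] at h1
  rw [show 2 + 2 * m + 1 = 2 * m + 3 by omega] at h2
  refine h1.mono Subset.rfl subset_union_right ?_
  rw [show 1 + 1 = 2 from rfl] at h5
  omega

theorem run_even (K : Finset ℕ) {m : ℕ} (hb : S.Blk z (2 * m + 3))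
    (hl : S.be z (2 * m + 3) ≤ S.be z (2 * m + 4)) (hy : S.pp z 1 < S.be z 1 - S.be z 0)
    (hx : S.al z 2 - S.al z 1 < S.be z 1 - S.be z 0) :
    S.Con K (S.cI z 1 (2 * m + 5)) (2 * (S.be z (2 * m + 4) - S.be z 0) + S.sp z 1 (2 * m + 4)) := by
  have h1 := con_pairs (S := S) (z := z) K 1 (m + 2)
    fun i h1 h2 => Run.steps hb hl (by omega) (by omega)
  have h2 := hb.Ex_le (a := 3) (m := m) (by omega)
  have h3 := hb.fw (i := 1) (j := 2) le_rfl (by omega) (by omega)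
  have h3' := hb.fw (i := 1) (j := 3) le_rfl (by omega) (by omega)
  have h4 : S.sp z 1 (2 * m + 4 + 1) = _ := Run.sp_top (by omega)
  have h5 : S.Ex z 1 (m + 2) = (S.be z 2 - S.al z 1 - S.pp z 1 - S.pp z 2) + S.Ex z 3 (m + 1) := rfl
  have h6 := hb.bem (i := 2) (j := 2 * m + 3) (by omega) le_rfl
  rw [show 1 + 2 * (m + 2) = 2 * m + 4 + 1 by omega] at h1
  rw [show 3 + 2 * m + 1 = 2 * m + 4 by omega] at h2
  refine h1.mono Subset.rfl subset_union_right ?_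
  omega

theorem run_two (K : Finset ℕ) (hb : S.Blk z 1) (hl : S.be z 1 ≤ S.be z 2) (h2 : S.cp z 2 ≠ S.root)
    (h12 : S.cp z 1 ≠ S.cp z 2) (hx : S.al z 2 - S.al z 1 < S.be z 1 - S.be z 0) :
    S.Con K (S.cI z 1 3) (2 * (S.be z 2 - S.be z 0) + S.pp z 1 + S.pp z 2) := by
  have h1 := con_pairs (S := S) (z := z) K 1 1
    fun i h1 h2 => Run.steps hb hl (by omega) (by omega)
  have h3 : S.be z 1 - S.al z 2 < S.pp z 1 + S.pp z 2 :=
    Chain.fw (fun k h1 h2 => by omega) (by omega) (hb.nr 1 le_rfl le_rfl) h2 h12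
  have h4 : S.sp z 1 3 = S.pp z 1 + S.pp z 2 := by
    rw [Run.sp_bot (by omega), Run.sp_bot (by omega)]
    simp [sp]
  have h5 : S.Ex z 1 1 = (S.be z 2 - S.al z 1 - S.pp z 1 - S.pp z 2) + 0 := rfl
  have h6 := hb.bem (i := 0) (j := 1) (by omega) le_rfl
  refine h1.mono Subset.rfl subset_union_right ?_
  rw [show 1 + 2 * 1 = 3 from rfl]
  omega

theorem head_K (hA : S.al z 1 < S.al z 0) (h1 : S.cp z 1 ≠ S.root) (hy : S.pp z 1 < S.be z 1 - S.be z 0) :
    (S.κ (S.cp z 1) (S.cp z 0) : ℤ) ≤ 2 * (S.be z 1 - S.be z 0) := by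
  obtain ⟨e, he, h2, h3⟩ := exists_mult' (pp_pos h1) (S.be z 1 - S.be z 0)
  have := kapL (i := 0) hA h1 (he.add dvd_rfl) h3
  rw [Nat.zero_add] at this
  omega

theorem single_K (hA : S.al z 1 < S.al z 0) (h1 : S.cp z 1 ≠ S.root) :
    (S.κ (S.cp z 1) (S.cp z 0) : ℤ) ≤ 2 * (S.be z 1 - S.be z 0) + S.pp z 1 := by
  obtain ⟨e, he, h2, h3⟩ := exists_mult' (pp_pos h1) (S.be z 1 - S.be z 0)
  have := kapL (i := 0) hA h1 (he.add dvd_rfl) h3
  have h4 := (arcA (i := 0) hA).1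
  rw [Nat.zero_add] at this h4
  omega

/-- The whole run `1..t+1` (`t ≥ 1`, the last index arbitrary): either everything is connected without using index `0`, or the indices `2..t+1` are,
and index `1` is attached to index `0`. -/
theorem run_all (K : Finset ℕ) (hK : S.root ∈ K) {t : ℕ} (ht : 1 ≤ t) (hb : S.Blk z t)
    (hA : S.al z 1 < S.al z 0) (hl : S.be z t ≤ S.be z (t + 1))
    (hne : ∀ i, 1 ≤ i → i ≤ t → S.cp z i ≠ S.cp z (t + 1)) (hfr : ∀ i, 1 ≤ i → i ≤ t → S.cp z i ∉ K)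
    (hy : S.pp z 1 < S.be z 1 - S.be z 0) (hx : S.al z 2 - S.al z 1 < S.be z 1 - S.be z 0) :
    S.Con K (S.cI z 1 (t + 2)) (2 * (S.be z (t + 1) - S.be z 0) + ∑ X ∈ S.cI z 1 (t + 2) \ K, (S.p X : ℤ)) ∨
    ∃ c₁ c₂ : ℤ, (S.κ (S.cp z 1) (S.cp z 0) : ℤ) ≤ c₁ ∧ S.Con K (S.cI z 2 (t + 2)) c₂ ∧
      c₁ + c₂ ≤ 2 * (S.be z (t + 1) - S.be z 0) + ∑ X ∈ S.cI z 1 (t + 2) \ K, (S.p X : ℤ) := by
  -- t even: run_odd + head_K; t odd ≥ 3: run_even; t = 1: run_two if cp 2 ∉ K, else head_K and Con.done.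
  -- in all cases ∑ ≥ sp 1 (t+1) (+ pp (t+1) if cp (t+1) ∉ K)
  have hsum : S.sp z 1 (t + 1) ≤ ∑ X ∈ S.cI z 1 (t + 2) \ K, (S.p X : ℤ) :=
    Run.sp_le (fun i j h1 h2 h3 => hb.dist i j h1 h2 (by omega)) (fun i h1 h2 => hfr i h1 (by omega))
      (image_subset_image (Ico_subset_Ico le_rfl (by omega)))
  have hK1 := head_K hA (hb.nr 1 le_rfl ht) hy
  have hb1 := hb.bem (i := 1) ht le_rfl
  rcases Nat.even_or_odd' t with ⟨m, rfl | rfl⟩
  · obtain ⟨m, rfl⟩ : ∃ m', m = m' + 1 := ⟨m - 1, by omega⟩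
    exact Or.inr ⟨_, _, hK1, run_odd K (m := m) hb hl, by
      have e1 : 2 * (m + 1) + 1 = 2 * m + 3 := by omega
      rw [e1] at hsum hl ⊢
      omega⟩
  · rcases Nat.eq_zero_or_pos m with rfl | hm
    · simp only [Nat.mul_zero, Nat.zero_add] at *
      by_cases h2 : S.cp z 2 ∈ K
      · refine Or.inr ⟨_, 0, hK1, Con.done (fun X hX => ?_) le_rfl, ?_⟩
        · obtain ⟨i, hi, rfl⟩ := mem_image.1 hX
          obtain rfl : i = 2 := by have := mem_Ico.1 hi; omega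
          exact h2
        · have : 0 ≤ ∑ X ∈ S.cI z 1 (1 + 2) \ K, (S.p X : ℤ) :=
            sum_nonneg fun _ _ => Int.natCast_nonneg _
          omega
      · refine Or.inl ((run_two K hb hl (fun h3 => h2 (h3 ▸ hK)) (hne 1 le_rfl le_rfl) hx).mono
          Subset.rfl subset_union_right ?_)
        have h3 : S.sp z 1 3 ≤ ∑ X ∈ S.cI z 1 (1 + 2) \ K, (S.p X : ℤ) := by
          refine Run.sp_le (fun i j h1 h2 h3 => ?_) (fun i h1 h3 => ?_) Subset.rfl
          · obtain rfl : i = 1 := by omega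
            obtain rfl : j = 2 := by omega
            exact hne 1 le_rfl le_rfl
          · rcases Nat.eq_or_lt_of_le h1 with rfl | h4
            · exact hfr 1 le_rfl le_rfl
            · obtain rfl : i = 2 := by omega
              exact h2
        have h4 : S.sp z 1 3 = S.pp z 1 + S.pp z 2 := by
          rw [Run.sp_bot (by omega), Run.sp_bot (by omega)]
          simp [sp]
        rw [show 1 + 1 = 2 from rfl]
        omega
    · obtain ⟨m, rfl⟩ : ∃ m', m = m' + 1 := ⟨m - 1, by omega⟩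
      refine Or.inl ((run_even K (m := m) hb hl hy hx).mono Subset.rfl subset_union_right ?_)
      have e1 : 2 * (m + 1) + 1 + 1 = 2 * m + 4 := by omega
      rw [e1] at hsum ⊢
      omega

end Sys

end Crest.Agent.R287
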