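import Crest.Agent.R287.SOrb

/-!
# R287: the closed tour of a component, and the tables

PLAN. `ccost_cy`: for a list of arcs `e, π e, …`; inside `vtx e` a step to a suffix costs `0` (`le_ovk` with `k = |v|`), the step from the valley as suffix of `sg e` to the valley as prefix of `sg (π e)` costs 0 (same string, `ovk_eq`), a step to a one-letter longer prefix costs `≤ 1`;
the last vertex of `vtx e` is `sg (π e)`, the first vertex of `vtx (π e)`.  It is easiest to prove a potential form: `lcost (vtx e ++ [sg (π e)]) ≤ |sg (π e)| - cc e`, then by induction `lcost ((range m).map (itr · e)).flatMap vtx ++ [sg (itr m e)]) ≤ ∑_{j<m} (|sg (itr (j+1) e)| - cc (itr j e))`,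
and `∑_{j<m} |sg (itr (j+1) e)| = ∑_{j<m} |sg (itr j e)|` for `m = olen` (`itr_olen`).  (You need `lcost (A ++ u :: B) = lcost (A ++ [u]) + lcost (u :: B)`; prove it here under a private name.)
`fpre`: `cst_tab`, `kap_symm`; members of `cy` are no longer than the total length; `kap (cy X) (cy 0) ≤ |u|` for `u ∈ cy X` by `kap_le` with `[] ∈ cy 0`; `|v| ≤ |u| + dist u v` by `ovf_le`; `tp_mem`.
-/

set_option autoImplicit false
open Crest.Agent.PTime

namespace Crest.Agent.R287

variable {str : List Str} {pi : Mt}

theorem mem_vtx {e : ℕ} {u : Str} : u ∈ vtx str pi e ↔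
    (∃ j ≤ sh str pi e, u = (sg str e).drop j) ∨
    (∃ j, cc str pi e ≤ j ∧ j ≤ (sg str (mt pi e)).length ∧ u = (sg str (mt pi e)).take j) := by
  have h1 : cc str pi e ≤ (sg str (mt pi e)).length := (ovp_le _ _).2
  unfold vtx
  simp only [List.mem_append, List.mem_map, List.mem_range]
  refine or_congr ⟨fun ⟨j, hj, h⟩ => ⟨j, by omega, h.symm⟩, fun ⟨j, hj, h⟩ => ⟨j, by omega, h.symm⟩⟩
    ⟨fun ⟨j, hj, h⟩ => ⟨cc str pi e + j, by omega, by omega, h.symm⟩,
      fun ⟨j, hj, hj', h⟩ => ⟨j - cc str pi e, by omega, ?_⟩⟩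
  rw [h, Nat.add_sub_cancel' hj]

theorem vtx_sub_cy (h : IsPerm str.length (mt pi)) {e : ℕ} (he : e < str.length) {u : Str}
    (hu : u ∈ vtx str pi e) : u ∈ cy str pi (lb str.length pi e) := by
  exact List.mem_flatMap.2 ⟨e, (mem_orb_lb h he).2 ⟨he, rfl⟩, hu⟩

theorem sg_mem_cy (h : IsPerm str.length (mt pi)) {e : ℕ} (he : e < str.length) :
    sg str e ∈ cy str pi (lb str.length pi e) := by
  exact vtx_sub_cy h he (mem_vtx.2 (Or.inl ⟨0, Nat.zero_le _, rfl⟩))

theorem SCy.vtx_head (e : ℕ) (L : List Str) : vtx str pi e ++ L ≠ [] ∧ (vtx str pi e ++ L).headD [] = sg str e := by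
  unfold vtx
  rw [List.range_succ_eq_map]
  simp

theorem SCy.cy_head (X : ℕ) : cy str pi X ≠ [] ∧ (cy str pi X).headD [] = sg str X := by
  unfold cy
  rw [orb_eq_cons, List.flatMap_cons]
  exact SCy.vtx_head X _

theorem cy_ne_nil (X : ℕ) : cy str pi X ≠ [] := by
  exact (SCy.cy_head X).1

theorem nil_mem_cy (hs : SPre str) (h : IsPerm str.length (mt pi)) : [] ∈ cy str pi 0 := by
  have h1 := sg_mem_cy h hs.pos
  rwa [lb_zero h hs.pos, hs.zero] at h1

theorem SCy.dist_suffix {u v : Str} (h : v <:+ u) : dist u v = 0 := by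
  have h1 := h.length_le
  have h2 : v.length ≤ ovf u v := le_ovk (by omega) (by rw [List.take_length]; exact (List.suffix_iff_eq_drop.1 h).symm)
  unfold dist
  omega

theorem SCy.dist_prefix {u v : Str} (h : u <+: v) : dist u v ≤ v.length - u.length := by
  have h1 := h.length_le
  have h2 : u.length ≤ ovf u v :=
    le_ovk (by omega) (by rw [Nat.sub_self, List.drop_zero]; exact List.prefix_iff_eq_take.1 h)
  unfold dist
  omega

theorem SCy.lcost_range (g : ℕ → Str) (k : ℕ) (L : List Str) (hL : L ≠ []) :
    lcost ((List.range (k + 1)).map g ++ L) =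
      ∑ j ∈ Finset.range k, dist (g j) (g (j + 1)) + dist (g k) (L.headD []) + lcost L := by
  induction k generalizing L with
  | zero =>
    obtain ⟨v, B, rfl⟩ := List.exists_cons_of_ne_nil hL
    simp [lcost]
  | succ k ih =>
    rw [List.range_succ, List.map_append, List.append_assoc, ih _ (by simp), Finset.sum_range_succ]
    obtain ⟨v, B, rfl⟩ := List.exists_cons_of_ne_nil hL
    simp [lcost, add_assoc]

theorem SCy.lcost_vtx (e : ℕ) (L : List Str) (hL : L ≠ []) (hd : L.headD [] = sg str (mt pi e)) :
    lcost (vtx str pi e ++ L) + cc str pi e ≤ (sg str (mt pi e)).length + lcost L := by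
  have h1 : cc str pi e ≤ (sg str (mt pi e)).length := (ovp_le _ _).2
  have h2 : (sg str e).drop (sh str pi e) = (sg str (mt pi e)).take (cc str pi e) := ovk_eq _ _ _
  unfold vtx
  rw [List.append_assoc, SCy.lcost_range _ _ _ (by simp [hL]), SCy.lcost_range _ _ _ hL, hd]
  have h3 : ∑ j ∈ Finset.range (sh str pi e), dist ((sg str e).drop j) ((sg str e).drop (j + 1)) = 0 :=
    Finset.sum_eq_zero fun j _ => SCy.dist_suffix (List.drop_suffix_drop_left _ (Nat.le_succ j))
  have h4 : ((List.range ((sg str (mt pi e)).length - cc str pi e + 1)).map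
      (fun j => (sg str (mt pi e)).take (cc str pi e + j)) ++ L).headD [] = (sg str (mt pi e)).take (cc str pi e) := by
    rw [List.range_succ_eq_map]
    simp
  have h5 : ∑ j ∈ Finset.range ((sg str (mt pi e)).length - cc str pi e),
      dist ((sg str (mt pi e)).take (cc str pi e + j)) ((sg str (mt pi e)).take (cc str pi e + (j + 1))) ≤
      (sg str (mt pi e)).length - cc str pi e := by
    refine (Finset.sum_le_card_nsmul _ _ 1 fun j hj => ?_).trans (by simp)
    refine (SCy.dist_prefix (List.take_prefix_take_left (by omega))).trans ?_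
    simp only [List.length_take]
    omega
  rw [h3, h4, h2, SCy.dist_suffix (List.suffix_refl _), Nat.add_sub_cancel' h1, List.take_length,
    SCy.dist_suffix (List.suffix_refl _)]
  omega

theorem SCy.lcost_orb (e m : ℕ) (L : List Str) (hL : L ≠ []) (hd : L.headD [] = sg str (itr pi m e)) :
    lcost (((List.range m).map fun j => itr pi j e).flatMap (vtx str pi) ++ L) +
      ∑ j ∈ Finset.range m, cc str pi (itr pi j e) ≤
      ∑ j ∈ Finset.range m, (sg str (itr pi (j + 1) e)).length + lcost L := by
  induction m generalizing L with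
  | zero => simp
  | succ m ih =>
    have h1 := ih _ (SCy.vtx_head (str := str) (pi := pi) (itr pi m e) L).1 (SCy.vtx_head _ L).2
    have h2 := SCy.lcost_vtx (str := str) (pi := pi) (itr pi m e) L hL (by rw [hd, itr_succ])
    rw [List.range_succ, List.map_append, List.flatMap_append, List.append_assoc, Finset.sum_range_succ,
      Finset.sum_range_succ, itr_succ m]
    simp only [List.map_cons, List.map_nil, List.flatMap_cons, List.flatMap_nil, List.append_nil]
    omega

theorem ccost_cy (h : IsPerm str.length (mt pi)) {X : ℕ} (hX : X < str.length) :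
    ccost (cy str pi X) ≤ wt str pi X := by
  have h0 := itr_olen h hX
  have h1 := SCy.lcost_orb (str := str) (pi := pi) X (olen str.length pi X) [sg str X] (by simp) (by simp [h0])
  have h2 : ∑ j ∈ Finset.range (olen str.length pi X), (sg str (itr pi (j + 1) X)).length =
      ∑ j ∈ Finset.range (olen str.length pi X), (sg str (itr pi j X)).length := by
    have h3 := Finset.sum_range_succ' (fun j => (sg str (itr pi j X)).length) (olen str.length pi X)
    rw [Finset.sum_range_succ, h0] at h3
    have h4 : itr pi 0 X = X := rfl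
    rw [h4] at h3
    omega
  have h3 : wt str pi X + ∑ j ∈ Finset.range (olen str.length pi X), cc str pi (itr pi j X) =
      ∑ j ∈ Finset.range (olen str.length pi X), (sg str (itr pi j X)).length := by
    unfold wt orb
    generalize olen str.length pi X = m
    induction m with
    | zero => simp
    | succ m ih =>
      have h4 : cc str pi (itr pi m X) ≤ (sg str (itr pi m X)).length := (ovp_le _ _).1
      rw [List.range_succ, List.map_append, List.map_append, List.sum_append, Finset.sum_range_succ,
        Finset.sum_range_succ, ← ih]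
      simp only [List.map_cons, List.map_nil, List.sum_cons, List.sum_nil, sh]
      omega
  have h4 : lcost [sg str X] = 0 := by simp [lcost]
  unfold ccost
  rw [(SCy.cy_head X).2]
  unfold cy orb
  omega

theorem SCy.len_le {X : ℕ} {u : Str} (hu : u ∈ cy str pi X) : u.length ≤ str.flatten.length := by
  have h1 : ∀ e, (sg str e).length ≤ str.flatten.length := fun e => by
    unfold sg
    by_cases he : e < str.length
    · rw [List.getD_eq_getElem _ _ he]
      exact (List.sublist_flatten_of_mem (List.getElem_mem he)).length_le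
    · rw [List.getD_eq_default _ _ (by omega)]
      exact Nat.zero_le _
  obtain ⟨e, -, he⟩ := List.mem_flatMap.1 hu
  rcases mem_vtx.1 he with ⟨j, -, rfl⟩ | ⟨j, -, -, rfl⟩
  · exact (List.drop_sublist _ _).length_le.trans (h1 _)
  · exact (List.take_sublist _ _).length_le.trans (h1 _)

theorem fpre (hs : SPre str) (h : IsPerm str.length (mt pi)) :
    FPre (labs str.length pi) 0 (Kt str pi) (Tt str pi) (2 * str.flatten.length) := by
  have hr : 0 ∈ labs str.length pi := (mem_labs h 0).2 ⟨0, hs.pos, lb_zero h hs.pos⟩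
  have hK : ∀ u ∈ labs str.length pi, ∀ v ∈ labs str.length pi,
      cst (Kt str pi) u v = kap (cy str pi u) (cy str pi v) := fun u hu v hv => cst_tab _ _ _ hu hv
  have hT : ∀ u ∈ labs str.length pi, ∀ v ∈ labs str.length pi,
      cst (Tt str pi) u v = tau (cy str pi u) (cy str pi v) := fun u hu v hv => cst_tab _ _ _ hu hv
  have hd : ∀ u v : Str, dist u v ≤ v.length := fun u v => Nat.sub_le _ _
  have hk : ∀ (X : ℕ) (a : Str), a ∈ cy str pi X → kap (cy str pi X) (cy str pi 0) ≤ a.length := fun X a ha => by
    have h1 := kap_le ha (nil_mem_cy hs h)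
    rwa [dist_nil_left, dist_nil_right, zero_add] at h1
  refine ⟨labs_nodup, hr, fun u hu v hv => ?_, fun u hu v hv => ?_, fun u hu v hv => ?_, fun u hu v hv => ?_⟩
  · rw [hK u hu v hv, hK v hv u hu, kap_symm (cy_ne_nil u) (cy_ne_nil v)]
  · obtain ⟨h1, h2⟩ := kp_mem (cy_ne_nil (str := str) (pi := pi) u) (cy_ne_nil (str := str) (pi := pi) v)
    rw [hK u hu v hv]
    unfold kap
    have h3 := (hd (kp (cy str pi u) (cy str pi v)).1 _).trans (SCy.len_le h2)
    have h4 := (hd (kp (cy str pi u) (cy str pi v)).2 _).trans (SCy.len_le h1)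
    omega
  · obtain ⟨h1, h2⟩ := tp_mem (cy_ne_nil (str := str) (pi := pi) u) (cy_ne_nil (str := str) (pi := pi) v)
    rw [hT u hu v hv]
    unfold tau
    have h3 := (hd (tp (cy str pi u) (cy str pi v)).1 _).trans (SCy.len_le h2)
    have h4 := SCy.len_le h1
    omega
  · obtain ⟨h1, h2⟩ := tp_mem (cy_ne_nil (str := str) (pi := pi) u) (cy_ne_nil (str := str) (pi := pi) v)
    rw [hK u hu 0 hr, hK v hv 0 hr, hT u hu v hv]
    have h3 := hk u _ h1
    have h4 := hk v _ h2
    have h5 := (ovf_le (tp (cy str pi u) (cy str pi v)).1 (tp (cy str pi u) (cy str pi v)).2).1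
    unfold tau dist
    omega

end Crest.Agent.R287
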