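import Crest.Agent.R287.FDef

/-!
# R287: strings, overlaps, the greedy cycle cover and its components (definitions)

PLAN. `ovk_*`: `List.find?` on the reversed range finds the largest `k < m` (`List.find?_eq_some_iff_append`, or induction on `m` with `List.range_succ`, `List.reverse_append`).  `amin_spec`: a minimiser exists (`List.exists_min_image`-like /
`Finset.exists_min_image`), so `find?` succeeds (`List.find?_some`, `List.mem_of_find?_eq_some`, `List.find?_eq_none`).  `PT.itr`: `PT.iterate`; every value of `mt pi` is its argument or occurs in `pi`, so its size is `≤ sz pi + sz e`.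
The other `PT` lemmas: `unfold; fun_prop` (possibly after providing `PB` facts).
-/

set_option autoImplicit false
open Crest.Agent.PTime

namespace Crest.Agent.R287

abbrev Str := List ℕ

def sg (str : List Str) (i : ℕ) : Str := str.getD i []

/-- the largest `k < m` such that the last `k` letters of `u` are the first `k` letters of `v` (or `0`) -/
def ovk (u v : Str) (m : ℕ) : ℕ :=
  ((List.range m).reverse.find? fun k => u.drop (u.length - k) == v.take k).getD 0

def ovf (u v : Str) : ℕ := ovk u v (min u.length v.length + 1)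
def ovp (u v : Str) : ℕ := ovk u v (min u.length v.length)
def dist (u v : Str) : ℕ := v.length - ovf u v

def amin {β : Type} (l : List β) (g : β → ℕ) (d : β) : β :=
  (l.find? fun x => l.all fun y => decide (g x ≤ g y)).getD d

/-- index `0` is the empty string (the root); no other string occurs inside another one -/
structure SPre (str : List Str) : Prop where
  pos : 0 < str.length
  zero : sg str 0 = []
  free : ∀ i < str.length, ∀ j < str.length, i ≠ 0 → sg str i <:+: sg str j → i = j

structure IsPerm (n : ℕ) (π : ℕ → ℕ) : Prop where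
  lt : ∀ i < n, π i < n
  inj : ∀ i < n, ∀ j < n, π i = π j → i = j

/-- length of the valley of the arc `e → π e` -/
def cc (str : List Str) (pi : Mt) (e : ℕ) : ℕ := ovp (sg str e) (sg str (mt pi e))
def sh (str : List Str) (pi : Mt) (e : ℕ) : ℕ := (sg str e).length - cc str pi e

def Greedy (str : List Str) (pi : Mt) : Prop :=
  ∀ e < str.length, ∀ f < str.length, ovp (sg str e) (sg str (mt pi f)) ≤ max (cc str pi e) (cc str pi f)

def itr (pi : Mt) (j e : ℕ) : ℕ := (mt pi)^[j] e
def olen (n : ℕ) (pi : Mt) (e : ℕ) : ℕ := ((List.range n).map fun j => itr pi (j + 1) e).findIdx (· == e) + 1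
def orb (n : ℕ) (pi : Mt) (e : ℕ) : List ℕ := (List.range (olen n pi e)).map fun j => itr pi j e
/-- label of the component: the least index in the orbit -/
def lb (n : ℕ) (pi : Mt) (e : ℕ) : ℕ := amin (orb n pi e) (fun x => x) e
def labs (n : ℕ) (pi : Mt) : List ℕ := (List.range n).filter fun e => lb n pi e == e

/-- the vertices of the arc `e`, in walking order -/
def vtx (str : List Str) (pi : Mt) (e : ℕ) : List Str :=
  ((List.range (sh str pi e + 1)).map fun j => (sg str e).drop j) ++
    (List.range ((sg str (mt pi e)).length - cc str pi e + 1)).map fun j =>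
      (sg str (mt pi e)).take (cc str pi e + j)

def cy (str : List Str) (pi : Mt) (X : ℕ) : List Str := (orb str.length pi X).flatMap (vtx str pi)
def wt (str : List Str) (pi : Mt) (X : ℕ) : ℕ := ((orb str.length pi X).map (sh str pi)).sum

def kp (C C' : List Str) : Str × Str := amin (prs C C') (fun q => dist q.1 q.2 + dist q.2 q.1) ([], [])
def kap (C C' : List Str) : ℕ := dist (kp C C').1 (kp C C').2 + dist (kp C C').2 (kp C C').1
def tp (C C' : List Str) : Str × Str := amin (prs C C') (fun q => q.1.length + dist q.1 q.2) ([], [])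
def tau (C C' : List Str) : ℕ := (tp C C').1.length + dist (tp C C').1 (tp C C').2

def CYt (str : List Str) (pi : Mt) : List (ℕ × List Str) := tab (labs str.length pi) (cy str pi)
def Kt (str : List Str) (pi : Mt) : List (ℕ × List (ℕ × ℕ)) :=
  tab (labs str.length pi) fun X => tab (labs str.length pi) fun Y => kap (cy str pi X) (cy str pi Y)
def Tt (str : List Str) (pi : Mt) : List (ℕ × List (ℕ × ℕ)) :=
  tab (labs str.length pi) fun X => tab (labs str.length pi) fun Y => tau (cy str pi X) (cy str pi Y)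

/-- cost of a tour, of a closed tour, and the text of a tour -/
def lcost (L : List Str) : ℕ := ((L.zip L.tail).map fun q => dist q.1 q.2).sum
def ccost (C : List Str) : ℕ := lcost (C ++ [C.headD []])
def merge (L : List Str) : Str := L.headD [] ++ (L.zip L.tail).flatMap fun q => q.2.drop (ovf q.1 q.2)

theorem find_rev_range (p : ℕ → Bool) (m : ℕ) :
    (((List.range m).reverse.find? p).getD 0 = 0 ∨
      (((List.range m).reverse.find? p).getD 0 < m ∧ p (((List.range m).reverse.find? p).getD 0) = true)) ∧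
    ∀ k < m, p k = true → k ≤ ((List.range m).reverse.find? p).getD 0 := by
  induction m with
  | zero => simp
  | succ m ih =>
    rw [List.range_succ, List.reverse_append, List.reverse_singleton, List.singleton_append, List.find?_cons]
    cases hp : p m
    · refine ⟨ih.1.imp id fun h => ⟨Nat.lt_succ_of_lt h.1, h.2⟩, fun k hk h => ih.2 k ?_ h⟩
      rcases Nat.lt_succ_iff_lt_or_eq.1 hk with h1 | rfl
      · exact h1
      · rw [hp] at h; exact absurd h (by simp)
    · exact ⟨Or.inr ⟨by simp, by simpa using hp⟩, fun k hk _ => by simp only [Option.getD_some]; omega⟩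

theorem ovk_lt (u v : Str) (m : ℕ) : ovk u v m = 0 ∨ ovk u v m < m := by
  exact (find_rev_range _ m).1.imp id fun h => h.1

theorem ovk_eq (u v : Str) (m : ℕ) : u.drop (u.length - ovk u v m) = v.take (ovk u v m) := by
  rcases (find_rev_range (fun k => u.drop (u.length - k) == v.take k) m).1 with h | h
  · rw [show ovk u v m = 0 from h]; simp
  · exact beq_iff_eq.1 h.2

theorem le_ovk {u v : Str} {m k : ℕ} (hk : k < m) (h : u.drop (u.length - k) = v.take k) : k ≤ ovk u v m := by
  exact (find_rev_range _ m).2 k hk (beq_iff_eq.2 h)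

theorem ovf_le (u v : Str) : ovf u v ≤ u.length ∧ ovf u v ≤ v.length := by
  have := ovk_lt u v (min u.length v.length + 1)
  unfold ovf
  omega

theorem ovp_le (u v : Str) : ovp u v ≤ u.length ∧ ovp u v ≤ v.length := by
  have := ovk_lt u v (min u.length v.length)
  unfold ovp
  omega

theorem amin_spec {β : Type} {l : List β} (g : β → ℕ) (d : β) (h : l ≠ []) :
    amin l g d ∈ l ∧ ∀ y ∈ l, g (amin l g d) ≤ g y := by
  unfold amin
  cases hf : l.find? fun x => l.all fun y => decide (g x ≤ g y) with
  | none =>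
    obtain ⟨x, hx, hx'⟩ := l.finite_toSet.exists_minimalFor g _ (List.exists_mem_of_ne_nil l h)
    refine absurd ?_ (List.find?_eq_none.1 hf x hx)
    rw [List.all_eq_true]
    intro y hy
    rw [decide_eq_true_iff]
    by_contra hc
    exact hc (hx' hy (not_le.1 hc).le)
  | some x =>
    have h1 := List.find?_some hf
    rw [List.all_eq_true] at h1
    exact ⟨List.mem_of_find?_eq_some hf, fun y hy => of_decide_eq_true (h1 y hy)⟩

theorem prs_ne_nil {β γ : Type} {C : List β} {C' : List γ} (h : C ≠ []) (h' : C' ≠ []) : prs C C' ≠ [] := by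
  obtain ⟨u, hu⟩ := List.exists_mem_of_ne_nil C h
  obtain ⟨v, hv⟩ := List.exists_mem_of_ne_nil C' h'
  exact List.ne_nil_of_mem ((mem_prs C C' (u, v)).2 ⟨hu, hv⟩)

theorem kp_mem {C C' : List Str} (h : C ≠ []) (h' : C' ≠ []) : (kp C C').1 ∈ C ∧ (kp C C').2 ∈ C' := by
  exact (mem_prs _ _ _).1 (amin_spec _ _ (prs_ne_nil h h')).1

theorem tp_mem {C C' : List Str} (h : C ≠ []) (h' : C' ≠ []) : (tp C C').1 ∈ C ∧ (tp C C').2 ∈ C' := by
  exact (mem_prs _ _ _).1 (amin_spec _ _ (prs_ne_nil h h')).1

theorem kap_le {C C' : List Str} {u v : Str} (hu : u ∈ C) (hv : v ∈ C') :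
    kap C C' ≤ dist u v + dist v u := by
  exact (amin_spec (fun q : Str × Str => dist q.1 q.2 + dist q.2 q.1) ([], [])
    (prs_ne_nil (List.ne_nil_of_mem hu) (List.ne_nil_of_mem hv))).2 (u, v) ((mem_prs _ _ _).2 ⟨hu, hv⟩)

theorem tau_le {C C' : List Str} {u v : Str} (hu : u ∈ C) (hv : v ∈ C') :
    tau C C' ≤ u.length + dist u v := by
  exact (amin_spec (fun q : Str × Str => q.1.length + dist q.1 q.2) ([], [])
    (prs_ne_nil (List.ne_nil_of_mem hu) (List.ne_nil_of_mem hv))).2 (u, v) ((mem_prs _ _ _).2 ⟨hu, hv⟩)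

theorem kap_symm {C C' : List Str} (h : C ≠ []) (h' : C' ≠ []) : kap C C' = kap C' C := by
  have h1 := kap_le (kp_mem h h').2 (kp_mem h h').1
  have h2 := kap_le (kp_mem h' h).2 (kp_mem h' h).1
  unfold kap at *
  omega

theorem dist_nil_left (v : Str) : dist [] v = v.length := by
  have := (ovf_le [] v).1
  unfold dist
  rw [List.length_nil] at this
  omega

theorem dist_nil_right (v : Str) : dist v [] = 0 := by simp [dist]

variable {α : Type} [Enc α]

@[fun_prop] theorem PT.sg {s : α → List Str} {i : α → ℕ} (hs : PT s) (hi : PT i) :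
    PT (fun a => sg (s a) (i a)) := by
  unfold R287.sg; fun_prop

@[fun_prop] theorem PT.ovf {u v : α → Str} (hu : PT u) (hv : PT v) : PT (fun a => ovf (u a) (v a)) := by
  unfold R287.ovf R287.ovk; fun_prop

@[fun_prop] theorem PT.ovp {u v : α → Str} (hu : PT u) (hv : PT v) : PT (fun a => ovp (u a) (v a)) := by
  unfold R287.ovp R287.ovk; fun_prop

@[fun_prop] theorem PT.dist {u v : α → Str} (hu : PT u) (hv : PT v) : PT (fun a => dist (u a) (v a)) := by
  exact hv.length.sub (PT.ovf hu hv)

@[fun_prop] theorem PT.cc {s : α → List Str} {pi : α → Mt} {e : α → ℕ} (hs : PT s) (hp : PT pi) (he : PT e) :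
    PT (fun a => cc (s a) (pi a) (e a)) := by
  exact PT.ovp (PT.sg hs he) (PT.sg hs (PT.mt hp he))

@[fun_prop] theorem PT.sh {s : α → List Str} {pi : α → Mt} {e : α → ℕ} (hs : PT s) (hp : PT pi) (he : PT e) :
    PT (fun a => sh (s a) (pi a) (e a)) := by
  exact (PT.sg hs he).length.sub (PT.cc hs hp he)

theorem sz_mt_le (pi : Mt) (x : ℕ) : mt pi x = x ∨ sz (mt pi x) ≤ sz pi := by
  unfold mt look
  cases hf : pi.find? fun q => q.1 == x with
  | none => exact Or.inl rfl
  | some q =>
    have h1 := sz_mem (List.mem_of_find?_eq_some hf)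
    rw [sz_prod] at h1
    exact Or.inr (by simp only [Option.map_some, Option.getD_some]; omega)

theorem sz_itr_le (pi : Mt) (j e : ℕ) : sz ((mt pi)^[j] e) ≤ sz pi + sz e := by
  induction j with
  | zero => exact Nat.le_add_left _ _
  | succ j ih =>
    rw [Function.iterate_succ_apply']
    rcases sz_mt_le pi ((mt pi)^[j] e) with h | h
    · rwa [h]
    · omega

theorem PT.amin {β : Type} [Enc β] {l : α → List β} {g : β → ℕ} {d : α → β} (hl : PT l) (hg : PT g)
    (hd : PT d) : PT (fun a => amin (l a) g (d a)) := by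
  unfold R287.amin; fun_prop

@[fun_prop] theorem PT.itr {pi : α → Mt} {j e : α → ℕ} (hp : PT pi) (hj : PT j) (hj' : PB j) (he : PT e) :
    PT (fun a => itr (pi a) (j a) (e a)) := by
  exact PT.iterate (f := fun a => R287.mt (pi a)) (by fun_prop) he hj hj' (B := fun a => sz (pi a) + sz (e a))
    (hp.pb_sz.add he.pb_sz) fun a i _ => sz_itr_le _ _ _

@[fun_prop] theorem PT.orb {n : α → ℕ} {pi : α → Mt} {e : α → ℕ} (hn : PT n) (hn' : PB n) (hp : PT pi)
    (he : PT e) : PT (fun a => orb (n a) (pi a) (e a)) := by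
  unfold R287.orb R287.olen; fun_prop

theorem PT.lb {n : α → ℕ} {pi : α → Mt} {e : α → ℕ} (hn : PT n) (hn' : PB n) (hp : PT pi)
    (he : PT e) : PT (fun a => lb (n a) (pi a) (e a)) :=
  PT.amin (g := fun x : ℕ => x) (PT.orb hn hn' hp he) PT.id he

@[fun_prop] theorem PT.labs {n : α → ℕ} {pi : α → Mt} (hn : PT n) (hn' : PB n) (hp : PT pi) :
    PT (fun a => labs (n a) (pi a)) := by
  have s1 : PT fun p : α × ℕ => n p.1 := hn.comp (g := fun p : α × ℕ => p.1) (by fun_prop)
  have s1' : PB fun p : α × ℕ => n p.1 := hn'.comp (g := fun p : α × ℕ => p.1) (by fun_prop)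
  have s2 : PT fun p : α × ℕ => pi p.1 := hp.comp (g := fun p : α × ℕ => p.1) (by fun_prop)
  have s4 : PT fun p : α × ℕ => p.2 := by fun_prop
  have h1 : PT fun p : α × ℕ => R287.lb (n p.1) (pi p.1) p.2 := PT.lb s1 s1' s2 s4
  exact PT.filter (f := fun a e => R287.lb (n a) (pi a) e == e) (by fun_prop) (PT.range hn hn')

@[fun_prop] theorem PB.sh {s : α → List Str} {pi : α → Mt} {e : α → ℕ} (hs : PT s) (he : PT e) :
    PB (fun a => sh (s a) (pi a) (e a)) :=
  (PB.length (PT.sg hs he)).mono fun _ => Nat.sub_le _ _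

@[fun_prop] theorem PT.vtx {s : α → List Str} {pi : α → Mt} {e : α → ℕ} (hs : PT s) (hp : PT pi) (he : PT e) :
    PT (fun a => vtx (s a) (pi a) (e a)) := by
  have h1 : PB (fun a => (R287.sg (s a) (R287.mt (pi a) (e a))).length - R287.cc (s a) (pi a) (e a) + 1) :=
    PB.add ((PB.length (PT.sg hs (PT.mt hp he))).mono fun _ => Nat.sub_le _ _) (PB.const 1)
  have s1 : PT fun p : α × ℕ => s p.1 := hs.comp (g := fun p : α × ℕ => p.1) (by fun_prop)
  have s2 : PT fun p : α × ℕ => pi p.1 := hp.comp (g := fun p : α × ℕ => p.1) (by fun_prop)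
  have s3 : PT fun p : α × ℕ => e p.1 := he.comp (g := fun p : α × ℕ => p.1) (by fun_prop)
  have s4 : PT fun p : α × ℕ => p.2 := by fun_prop
  have h2 : PT fun a => (List.range (R287.sh (s a) (pi a) (e a) + 1)).map fun j => (R287.sg (s a) (e a)).drop j :=
    PT.map (f := fun a j => (R287.sg (s a) (e a)).drop j) (PT.drop s4 (PT.sg s1 s3))
      (PT.range ((PT.sh hs hp he).add (PT.const 1)) ((PB.sh hs he).add (PB.const 1)))
  have h3 : PT fun a => (List.range ((R287.sg (s a) (R287.mt (pi a) (e a))).length -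
      R287.cc (s a) (pi a) (e a) + 1)).map fun j =>
      (R287.sg (s a) (R287.mt (pi a) (e a))).take (R287.cc (s a) (pi a) (e a) + j) :=
    PT.map (f := fun a j => (R287.sg (s a) (R287.mt (pi a) (e a))).take (R287.cc (s a) (pi a) (e a) + j))
      (PT.take ((PT.cc s1 s2 s3).add s4) (PT.sg s1 (PT.mt s2 s3)))
      (PT.range (((PT.sg hs (PT.mt hp he)).length.sub (PT.cc hs hp he)).add (PT.const 1)) h1)
  exact h2.append h3

@[fun_prop] theorem PT.cy {s : α → List Str} {pi : α → Mt} {e : α → ℕ} (hs : PT s) (hp : PT pi) (he : PT e) :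
    PT (fun a => cy (s a) (pi a) (e a)) := by
  unfold R287.cy
  exact PT.flatMap (f := fun a => R287.vtx (s a) (pi a)) (PT.vtx (by fun_prop) (by fun_prop) (by fun_prop))
    (PT.orb (by fun_prop) (by fun_prop) hp he)

@[fun_prop] theorem PT.kp {C C' : α → List Str} (h : PT C) (h' : PT C') : PT (fun a => kp (C a) (C' a)) := by
  have h1 : PT fun q : Str × Str => R287.dist q.1 q.2 := PT.dist (by fun_prop) (by fun_prop)
  have h2 : PT fun q : Str × Str => R287.dist q.2 q.1 := PT.dist (by fun_prop) (by fun_prop)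
  exact PT.amin (PT.prs h h') (h1.add h2) (PT.const _)

@[fun_prop] theorem PT.tp {C C' : α → List Str} (h : PT C) (h' : PT C') : PT (fun a => tp (C a) (C' a)) := by
  have h1 : PT fun q : Str × Str => R287.dist q.1 q.2 := PT.dist (by fun_prop) (by fun_prop)
  have h2 : PT fun q : Str × Str => q.1.length := by fun_prop
  exact PT.amin (PT.prs h h') (h2.add h1) (PT.const _)

@[fun_prop] theorem PT.kap {C C' : α → List Str} (h : PT C) (h' : PT C') : PT (fun a => kap (C a) (C' a)) := by
  have h1 := PT.kp h h'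
  exact (PT.dist h1.fst h1.snd).add (PT.dist h1.snd h1.fst)

@[fun_prop] theorem PT.tau {C C' : α → List Str} (h : PT C) (h' : PT C') : PT (fun a => tau (C a) (C' a)) := by
  have h1 := PT.tp h h'
  exact h1.fst.length.add (PT.dist h1.fst h1.snd)

@[fun_prop] theorem PT.CYt {s : α → List Str} {pi : α → Mt} (hs : PT s) (hp : PT pi) :
    PT (fun a => CYt (s a) (pi a)) := by
  exact PT.tab (f := fun a => R287.cy (s a) (pi a)) (PT.labs (by fun_prop) (by fun_prop) hp)
    (PT.cy (by fun_prop) (by fun_prop) (by fun_prop))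

@[fun_prop] theorem PT.Kt {s : α → List Str} {pi : α → Mt} (hs : PT s) (hp : PT pi) :
    PT (fun a => Kt (s a) (pi a)) := by
  unfold R287.Kt
  refine PT.tab (PT.labs (by fun_prop) (by fun_prop) hp) (PT.tab
    (f := fun (p : α × ℕ) Y => R287.kap (R287.cy (s p.1) (pi p.1) p.2) (R287.cy (s p.1) (pi p.1) Y))
    (PT.labs (by fun_prop) (by fun_prop) (by fun_prop)) (PT.kap ?_ ?_))
  · exact PT.cy (by fun_prop) (by fun_prop) (by fun_prop)
  · exact PT.cy (by fun_prop) (by fun_prop) (by fun_prop)

@[fun_prop] theorem PT.Tt {s : α → List Str} {pi : α → Mt} (hs : PT s) (hp : PT pi) :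
    PT (fun a => Tt (s a) (pi a)) := by
  unfold R287.Tt
  refine PT.tab (PT.labs (by fun_prop) (by fun_prop) hp) (PT.tab
    (f := fun (p : α × ℕ) Y => R287.tau (R287.cy (s p.1) (pi p.1) p.2) (R287.cy (s p.1) (pi p.1) Y))
    (PT.labs (by fun_prop) (by fun_prop) (by fun_prop)) (PT.tau ?_ ?_))
  · exact PT.cy (by fun_prop) (by fun_prop) (by fun_prop)
  · exact PT.cy (by fun_prop) (by fun_prop) (by fun_prop)

@[fun_prop] theorem PT.merge {L : α → List Str} (h : PT L) : PT (fun a => merge (L a)) := by
  unfold R287.merge; fun_prop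

end Crest.Agent.R287
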