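import Crest.Agent.R287.SDef

/-!
# R287: orbits of the permutation `π = mt pi` of `{0,…,n-1}`

PLAN. For `e < n`: `e` is a periodic point of `π` with `0 < minimalPeriod π e ≤ n` (pigeonhole on `j ↦ π^[j] e`, `j ≤ n`, and injectivity of iterates on `range n`), and `olen n pi e = Function.minimalPeriod π e` (`List.findIdx` characterisation).
Use `Function.iterate_injOn_Iio_minimalPeriod`, `Function.iterate_mod_minimalPeriod_eq`, `Function.minimalPeriod_apply`/`minimalPeriod_apply_iterate`.  `orb_succ`: `List.ext_getElem`, `List.getElem_rotate`.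
`sum_labs`: `Finset.sum_fiberwise_of_maps_to` with `lb` on `range n`; the fibre of `X ∈ labs` is `(orb X).toFinset`; `List.sum_toFinset`.
-/

set_option autoImplicit false
open Crest.Agent.PTime

namespace Crest.Agent.R287

variable {n : ℕ} {pi : Mt}

theorem itr_lt (h : IsPerm n (mt pi)) {e : ℕ} (he : e < n) (j : ℕ) : itr pi j e < n := by
  induction j with
  | zero => exact he
  | succ j ih =>
    unfold itr at ih ⊢
    rw [Function.iterate_succ_apply']
    exact h.lt _ ih

theorem itr_succ (j e : ℕ) : itr pi (j + 1) e = mt pi (itr pi j e) := by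
  simp [itr, Function.iterate_succ_apply']

theorem olen_pos (e : ℕ) : 0 < olen n pi e := by simp [olen]

theorem itr_add (i j e : ℕ) : itr pi (i + j) e = itr pi i (itr pi j e) := Function.iterate_add_apply _ _ _ _

theorem itr_cancel (h : IsPerm n (mt pi)) {e f : ℕ} (he : e < n) (hf : f < n) (j : ℕ)
    (hj : itr pi j e = itr pi j f) : e = f := by
  induction j with
  | zero => exact hj
  | succ j ih =>
    rw [itr_succ, itr_succ] at hj
    exact ih (h.inj _ (itr_lt h he j) _ (itr_lt h hf j) hj)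

theorem exists_period (h : IsPerm n (mt pi)) {e : ℕ} (he : e < n) : ∃ p, 0 < p ∧ p ≤ n ∧ itr pi p e = e := by
  have key : ∀ a b, a < b → b ≤ n → itr pi a e = itr pi b e → ∃ p, 0 < p ∧ p ≤ n ∧ itr pi p e = e := by
    intro a b hab hb h1
    refine ⟨b - a, by omega, by omega, (itr_cancel h he (itr_lt h he _) a ?_).symm⟩
    rw [← itr_add, h1]
    congr 1
    omega
  obtain ⟨a, ha, b, hb, hab, h1⟩ := Finset.exists_ne_map_eq_of_card_lt_of_maps_to
    (s := Finset.range (n + 1)) (t := Finset.range n) (by simp) (f := fun j => itr pi j e)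
    (fun j _ => by simpa using itr_lt h he j)
  rw [Finset.mem_range] at ha hb
  rcases lt_or_gt_of_ne hab with h2 | h2
  · exact key a b h2 (by omega) h1
  · exact key b a h2 (by omega) h1.symm

theorem mem_periodicPts (h : IsPerm n (mt pi)) {e : ℕ} (he : e < n) : e ∈ Function.periodicPts (mt pi) := by
  obtain ⟨p, h1, -, h2⟩ := exists_period h he
  exact Function.mk_mem_periodicPts h1 h2

theorem olen_eq (h : IsPerm n (mt pi)) {e : ℕ} (he : e < n) : olen n pi e = Function.minimalPeriod (mt pi) e := by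
  obtain ⟨p, h1, h2, h3⟩ := exists_period h he
  have h4 := Function.minimalPeriod_pos_of_mem_periodicPts (mem_periodicPts h he)
  have h5 : Function.minimalPeriod (mt pi) e ≤ p := Function.IsPeriodicPt.minimalPeriod_le h1 h3
  have h6 : ((List.range n).map fun j => itr pi (j + 1) e).findIdx (· == e) =
      Function.minimalPeriod (mt pi) e - 1 := by
    rw [List.findIdx_eq (by simp; omega)]
    simp only [List.getElem_map, List.getElem_range, beq_iff_eq, beq_eq_false_iff_ne]
    refine ⟨?_, fun j hj h7 => ?_⟩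
    · rw [Nat.sub_add_cancel h4]
      exact Function.iterate_minimalPeriod
    · have : Function.minimalPeriod (mt pi) e ≤ j + 1 := Function.IsPeriodicPt.minimalPeriod_le (by omega) h7
      omega
  unfold olen
  omega

theorem itr_olen (h : IsPerm n (mt pi)) {e : ℕ} (he : e < n) : itr pi (olen n pi e) e = e := by
  rw [olen_eq h he]
  exact Function.iterate_minimalPeriod

theorem orb_ne_nil (e : ℕ) : orb n pi e ≠ [] := by
  have := olen_pos (n := n) (pi := pi) e
  unfold orb
  simp only [ne_eq, List.map_eq_nil_iff, List.range_eq_nil]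
  omega

theorem orb_nodup (h : IsPerm n (mt pi)) {e : ℕ} (he : e < n) : (orb n pi e).Nodup := by
  unfold orb
  refine List.Nodup.map_on (fun a ha b hb hab => ?_) List.nodup_range
  rw [List.mem_range, olen_eq h he] at ha hb
  exact Function.iterate_injOn_Iio_minimalPeriod ha hb hab

theorem mem_orb (h : IsPerm n (mt pi)) {e : ℕ} (he : e < n) (f : ℕ) :
    f ∈ orb n pi e ↔ ∃ j, itr pi j e = f := by
  unfold orb
  simp only [List.mem_map, List.mem_range]
  refine ⟨fun ⟨j, _, hj⟩ => ⟨j, hj⟩, fun ⟨j, hj⟩ => ⟨j % olen n pi e, Nat.mod_lt _ (olen_pos e), ?_⟩⟩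
  rw [olen_eq h he, ← hj]
  exact Function.iterate_mod_minimalPeriod_eq

theorem orb_eq_cons (e : ℕ) : orb n pi e = e :: (orb n pi e).tail := by
  unfold orb olen
  rw [List.range_succ_eq_map]
  rfl

theorem orb_succ (h : IsPerm n (mt pi)) {e : ℕ} (he : e < n) :
    orb n pi (mt pi e) = (orb n pi e).tail ++ [e] := by
  have h1 : olen n pi (mt pi e) = olen n pi e := by
    rw [olen_eq h he, olen_eq h (h.lt e he), Function.minimalPeriod_apply (mem_periodicPts h he)]
  have h2 := itr_olen h he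
  unfold orb
  rw [h1]
  obtain ⟨k, hk⟩ : ∃ k, olen n pi e = k + 1 := ⟨olen n pi e - 1, by have := olen_pos (n := n) (pi := pi) e; omega⟩
  rw [hk] at h2 ⊢
  conv_lhs => rw [List.range_succ]
  conv_rhs => rw [List.range_succ_eq_map]
  simp only [List.map_append, List.map_cons, List.map_nil, List.tail_cons, List.map_map]
  congr 1
  exact congrArg (fun x => [x]) h2

theorem lb_spec (e : ℕ) : lb n pi e ∈ orb n pi e ∧ ∀ y ∈ orb n pi e, lb n pi e ≤ y :=
  amin_spec (fun x => x) e (orb_ne_nil e)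

theorem itr_symm (h : IsPerm n (mt pi)) {e f : ℕ} (he : e < n) (hef : ∃ j, itr pi j e = f) : ∃ j, itr pi j f = e := by
  obtain ⟨j, rfl⟩ := hef
  have h1 := olen_pos (n := n) (pi := pi) e
  refine ⟨j * olen n pi e - j, ?_⟩
  rw [← itr_add, Nat.sub_add_cancel (Nat.le_mul_of_pos_right j h1), mul_comm]
  exact Function.IsPeriodicPt.mul_const (itr_olen h he) j

theorem mem_orb_congr (h : IsPerm n (mt pi)) {e f : ℕ} (he : e < n) (hef : ∃ j, itr pi j e = f) (x : ℕ) :
    x ∈ orb n pi e ↔ x ∈ orb n pi f := by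
  obtain ⟨i, hi⟩ := itr_symm h he hef
  obtain ⟨j, hj⟩ := hef
  have hf : f < n := hj ▸ itr_lt h he j
  rw [mem_orb h he, mem_orb h hf]
  constructor
  · rintro ⟨k, rfl⟩
    exact ⟨k + i, by rw [itr_add, hi]⟩
  · rintro ⟨k, rfl⟩
    exact ⟨k + j, by rw [itr_add, hj]⟩

theorem lb_congr (h : IsPerm n (mt pi)) {e f : ℕ} (he : e < n) (hef : ∃ j, itr pi j e = f) :
    lb n pi e = lb n pi f :=
  le_antisymm ((lb_spec e).2 _ ((mem_orb_congr h he hef _).2 (lb_spec f).1))
    ((lb_spec f).2 _ ((mem_orb_congr h he hef _).1 (lb_spec e).1))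

theorem lb_reach (h : IsPerm n (mt pi)) {e : ℕ} (he : e < n) : ∃ j, itr pi j e = lb n pi e :=
  (mem_orb h he _).1 (lb_spec e).1

theorem lb_lt (h : IsPerm n (mt pi)) {e : ℕ} (he : e < n) : lb n pi e < n := by
  obtain ⟨j, hj⟩ := lb_reach h he
  exact hj ▸ itr_lt h he j

theorem lb_succ (h : IsPerm n (mt pi)) {e : ℕ} (he : e < n) : lb n pi (mt pi e) = lb n pi e := by
  exact (lb_congr h he ⟨1, rfl⟩).symm

theorem lb_eq_iff (h : IsPerm n (mt pi)) {e f : ℕ} (he : e < n) (hf : f < n) :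
    lb n pi e = lb n pi f ↔ ∃ j, itr pi j e = f := by
  refine ⟨fun h1 => ?_, lb_congr h he⟩
  obtain ⟨i, hi⟩ := lb_reach h he
  obtain ⟨j, hj⟩ := itr_symm h hf (lb_reach h hf)
  exact ⟨j + i, by rw [itr_add, hi, h1, hj]⟩

theorem lb_zero (h : IsPerm n (mt pi)) (hn : 0 < n) : lb n pi 0 = 0 := by
  exact Nat.le_zero.1 ((lb_spec 0).2 0 ((mem_orb h hn 0).2 ⟨0, rfl⟩))

theorem lb_lb (h : IsPerm n (mt pi)) {e : ℕ} (he : e < n) : lb n pi (lb n pi e) = lb n pi e :=
  (lb_congr h he (lb_reach h he)).symm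

theorem mem_labs (h : IsPerm n (mt pi)) (X : ℕ) : X ∈ labs n pi ↔ ∃ e < n, lb n pi e = X := by
  unfold labs
  simp only [List.mem_filter, List.mem_range, beq_iff_eq]
  refine ⟨fun ⟨h1, h2⟩ => ⟨X, h1, h2⟩, ?_⟩
  rintro ⟨e, he, rfl⟩
  exact ⟨lb_lt h he, lb_lb h he⟩

theorem labs_nodup : (labs n pi).Nodup := by
  exact List.nodup_range.filter _

theorem mem_orb_lb (h : IsPerm n (mt pi)) {e f : ℕ} (he : e < n) :
    f ∈ orb n pi (lb n pi e) ↔ f < n ∧ lb n pi f = lb n pi e := by
  rw [← mem_orb_congr h he (lb_reach h he), mem_orb h he]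
  constructor
  · rintro ⟨j, hj⟩
    exact ⟨hj ▸ itr_lt h he j, (lb_congr h he ⟨j, hj⟩).symm⟩
  · rintro ⟨h1, h2⟩
    exact (lb_eq_iff h he h1).1 h2.symm

theorem sum_orb_lb (h : IsPerm n (mt pi)) {e : ℕ} (he : e < n) (g : ℕ → ℕ) :
    ((orb n pi (lb n pi e)).map g).sum = ((orb n pi e).map g).sum := by
  refine (List.Perm.map g ?_).sum_eq
  rw [List.perm_ext_iff_of_nodup (orb_nodup h (lb_lt h he)) (orb_nodup h he)]
  exact fun x => (mem_orb_congr h he (lb_reach h he) x).symm

theorem sum_labs (h : IsPerm n (mt pi)) (g : ℕ → ℕ) :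
    ∑ X ∈ (labs n pi).toFinset, ((orb n pi X).map g).sum = ∑ e ∈ Finset.range n, g e := by
  rw [← Finset.sum_fiberwise_of_maps_to (s := Finset.range n) (t := (labs n pi).toFinset) (g := lb n pi)
    fun e he => List.mem_toFinset.2 ((mem_labs h _).2 ⟨e, Finset.mem_range.1 he, rfl⟩)]
  refine Finset.sum_congr rfl fun X hX => ?_
  obtain ⟨e, he, rfl⟩ := (mem_labs h X).1 (List.mem_toFinset.1 hX)
  rw [← List.sum_toFinset g (orb_nodup h (lb_lt h he))]
  refine Finset.sum_congr ?_ fun _ _ => rfl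
  ext f
  simp [mem_orb_lb h he]

end Crest.Agent.R287
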