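import Crest.Agent.R287.SWord

/-!
# R287: order of the strings inside a periodic word; Fine–Wilf for different components

`Pl W e A`: the word `G e` (start of the string `sg e`) is placed at position `A` of `W`.

PLAN. `Pl.succ`: `G_step`.  `Pl.sub`: both strings are read off `W` (`G_str`), so `sg e <:+: sg f` (`List.infix_iff_prefix_suffix` or give `sg e = ((sg f).drop _).take _` by `List.ext_getElem`), `SPre.free`.  Consequently equal starts give equal indices (the shorter one is inside), and starts
`A < C` give ends `A + |e| < C + |f|` (`Pl.end_lt`).  `Pl.key`: `C < A < D = C + sh f`: `k = A + |e| - D` is a proper overlap of `sg e` with `sg (π f)` (placed at `D`; `k < |e|`, `k < |π f|` by `end_lt`), `k > cc f` by `end_lt`; `le_ovk` and `Greedy` give `k ≤ cc e`, i.e. `A + sh e ≤ D`;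
equality would give `π e = π f`, `e = f`, `cc e < k ≤ cc e`.  `Pl.not_between`: strong induction on `(D - A).toNat` with `key`, `succ`, `cc_lt`.  `Pl.lb_eq`: shift `f` to the left by a multiple of the period so that `C ≤ A`, then induct on `(A - C).toNat`: `C = A` gives `e = f`; else by `not_between` `C + sh f ≤ A`, continue with `π f` (`lb_succ`).
`wd_fw`: if `L ≥ p + q`, the window `List.ofFn`/`(List.range L).map` has periods `p`, `q`, so period `g = gcd p q` (`List.HasPeriod.gcd`, Mathlib `Mathlib/Data/List/PeriodicityLemma.lean`); a `p`-periodic word with period `g ∣ p` on a window of length `≥ p + g` is `g`-periodic; both words are `g`-periodic and agree on a window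
of length `≥ g`, so everywhere; then `Pl.lb_eq`.  `wd_ord`: `W = wd e`; tails are placed at `-sh e` and `σ - sh f`; compare them, use `not_between` and `end_lt`.
-/

set_option autoImplicit false
open Crest.Agent.PTime

namespace Crest.Agent.R287

def Pl (str : List Str) (pi : Mt) (W : ℤ → ℕ) (e : ℕ) (A : ℤ) : Prop :=
  e < str.length ∧ lb str.length pi e ≠ 0 ∧ ∀ x, W (x + A) = G str pi e x

variable {str : List Str} {pi : Mt} {W : ℤ → ℕ} {e f : ℕ} {A C : ℤ}

theorem sh_cast (str : List Str) (pi : Mt) (e : ℕ) :
    (sh str pi e : ℤ) = (sg str e).length - cc str pi e := by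
  have : cc str pi e ≤ (sg str e).length := (ovp_le _ _).1
  unfold sh
  omega

theorem Pl.sh_pos (hs : SPre str) (h : IsPerm str.length (mt pi)) (he : Pl str pi W e A) :
    (0 : ℤ) < sh str pi e := by
  have := (cc_lt hs h he.1 he.2.1).1
  rw [sh_cast]; omega

theorem Pl.read (hs : SPre str) (h : IsPerm str.length (mt pi)) (he : Pl str pi W e A) {k : ℕ}
    (hk : k < (sg str e).length) : (sg str e)[k] = W (k + A) := by
  rw [he.2.2, G_str hs h he.1 he.2.1 hk, List.getD_eq_getElem _ _ hk]

theorem per_int {u : ℤ → ℕ} {p : ℤ} (hp : ∀ x, u (x + p) = u x) (x n : ℤ) : u (x - n * p) = u x := by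
  simpa using Function.Periodic.sub_int_mul_eq (f := u) (c := p) hp (x := x) n

theorem per_mod {u : ℤ → ℕ} {p : ℤ} (hp : ∀ x, u (x + p) = u x) (x y : ℤ) : u (x % p + y) = u (x + y) := by
  rw [← per_int hp (x + y) (x / p), Int.emod_def]
  congr 1; ring

theorem fw_abs {u v : ℤ → ℕ} {p q L : ℤ} (hp0 : 0 < p) (hq0 : 0 < q) (hp : ∀ x, u (x + p) = u x)
    (hq : ∀ x, v (x + q) = v x) (hL : p + q ≤ L) (hw : ∀ x, 0 ≤ x → x < L → u x = v x) (x : ℤ) : u x = v x := by
  have h1 : ∀ x, u (x + q) = u x := by
    intro x
    have a := Int.emod_nonneg x hp0.ne'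
    have b := Int.emod_lt_of_pos x hp0
    have c := per_mod hp x 0
    rw [add_zero, add_zero] at c
    rw [← per_mod hp x q, hw _ (by omega) (by omega), hq, ← hw _ a (by omega), c]
  have a := Int.emod_nonneg x hq0.ne'
  have b := Int.emod_lt_of_pos x hq0
  have c := per_mod h1 x 0
  have d := per_mod hq x 0
  rw [add_zero, add_zero] at c d
  rw [← c, ← d, hw _ a (by omega)]

theorem Pl.succ (hs : SPre str) (h : IsPerm str.length (mt pi)) (he : Pl str pi W e A) :
    Pl str pi W (mt pi e) (A + sh str pi e) := by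
  refine ⟨h.lt _ he.1, by rw [lb_succ h he.1]; exact he.2.1, fun x => ?_⟩
  rw [G_step hs h he.1 he.2.1, ← he.2.2]
  congr 1; ring

theorem Pl.sub (hs : SPre str) (h : IsPerm str.length (mt pi)) (he : Pl str pi W e A) (hf : Pl str pi W f C)
    (h1 : C ≤ A) (h2 : A + (sg str e).length ≤ C + (sg str f).length) : e = f ∧ A = C := by
  obtain ⟨d, rfl⟩ : ∃ d : ℕ, A = C + d := ⟨(A - C).toNat, by omega⟩
  have e1 : sg str e = ((sg str f).drop d).take (sg str e).length := by
    refine List.ext_getElem (by rw [List.length_take, List.length_drop]; omega) fun k k1 k2 => ?_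
    rw [List.getElem_take, List.getElem_drop, he.read hs h, hf.read hs h]
    congr 1; push_cast; ring
  have e2 : e = f := hs.free e he.1 f hf.1 (ne_zero_of_lb hs h he.2.1)
    (e1 ▸ (List.take_prefix _ _).isInfix.trans (List.drop_suffix _ _).isInfix)
  subst e2
  exact ⟨rfl, by omega⟩

theorem Pl.eq_of_start (hs : SPre str) (h : IsPerm str.length (mt pi)) (he : Pl str pi W e A)
    (hf : Pl str pi W f A) : e = f := by
  rcases le_total (sg str e).length (sg str f).length with h1 | h1
  · exact (he.sub hs h hf le_rfl (by omega)).1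
  · exact (hf.sub hs h he le_rfl (by omega)).1.symm

theorem Pl.end_lt (hs : SPre str) (h : IsPerm str.length (mt pi)) (he : Pl str pi W e A)
    (hf : Pl str pi W f C) (h1 : C < A) : C + (sg str f).length < A + (sg str e).length := by
  by_contra hc
  have := (he.sub hs h hf h1.le (not_lt.1 hc)).2
  omega

theorem Pl.end_le (hs : SPre str) (h : IsPerm str.length (mt pi)) (he : Pl str pi W e A)
    (hf : Pl str pi W f C) (h1 : C ≤ A) : C + (sg str f).length ≤ A + (sg str e).length := by
  rcases h1.eq_or_lt with rfl | h2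
  · rw [he.eq_of_start hs h hf]
  · exact (he.end_lt hs h hf h2).le

theorem Pl.key (hs : SPre str) (h : IsPerm str.length (mt pi)) (hg : Greedy str pi) (he : Pl str pi W e A)
    (hf : Pl str pi W f C) (h1 : C < A) (h2 : A < C + sh str pi f) : A + sh str pi e < C + sh str pi f := by
  have hf' := hf.succ hs h
  have he' := he.succ hs h
  have a1 := he.end_lt hs h hf h1
  have a2 := hf'.end_lt hs h he h2
  have c1 := sh_cast str pi e
  have c2 := sh_cast str pi f
  obtain ⟨k, hk⟩ : ∃ k : ℕ, (k : ℤ) = A + (sg str e).length - (C + sh str pi f) :=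
    ⟨(A + (sg str e).length - (C + sh str pi f)).toNat, by omega⟩
  have a3 : (sg str e).drop ((sg str e).length - k) = (sg str (mt pi f)).take k := by
    refine List.ext_getElem (by rw [List.length_take, List.length_drop]; omega) fun j j1 j2 => ?_
    rw [List.getElem_take, List.getElem_drop, he.read hs h, hf'.read hs h]
    congr 1; omega
  have a4 : k ≤ ovp (sg str e) (sg str (mt pi f)) := le_ovk (by omega) a3
  have a5 := hg e he.1 f hf.1
  have a6 : k ≤ cc str pi e := by omega
  by_contra hc
  have a7 : A + sh str pi e = C + sh str pi f := by omega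
  rw [a7] at he'
  have a8 := h.inj _ he.1 _ hf.1 (he'.eq_of_start hs h hf')
  subst a8
  omega

theorem Pl.not_between (hs : SPre str) (h : IsPerm str.length (mt pi)) (hg : Greedy str pi)
    (he : Pl str pi W e A) (hf : Pl str pi W f C) (h1 : C < A) : C + sh str pi f ≤ A := by
  by_contra hc
  rw [not_le] at hc
  induction hn : (C + sh str pi f - A).toNat using Nat.strong_induction_on generalizing e A with
  | _ n ih =>
    have a1 := he.key hs h hg hf h1 hc
    have a2 := he.sh_pos hs h
    exact ih _ (by omega) (he.succ hs h) (by omega) a1 rfl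

theorem Pl.lb_eq (hs : SPre str) (h : IsPerm str.length (mt pi)) (hg : Greedy str pi)
    (he : Pl str pi W e A) (hf : Pl str pi W f C) : lb str.length pi e = lb str.length pi f := by
  have key : ∀ (n : ℕ) (f : ℕ) (C : ℤ), Pl str pi W f C → C ≤ A → (A - C).toNat = n →
      lb str.length pi e = lb str.length pi f := by
    intro n
    induction n using Nat.strong_induction_on with
    | _ n ih =>
      intro f C hf h1 hn
      rcases h1.eq_or_lt with rfl | h2
      · rw [he.eq_of_start hs h hf]
      · have a1 := he.not_between hs h hg hf h2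
        have a2 := hf.sh_pos hs h
        rw [← lb_succ h hf.1]
        exact ih _ (by omega) _ _ (hf.succ hs h) a1 rfl
  have hw : (1 : ℤ) ≤ wt str pi (lb str.length pi f) := by exact_mod_cast wt_pos hs h hf.1 hf.2.1
  refine key _ f (C - |C - A| * wt str pi (lb str.length pi f)) ⟨hf.1, hf.2.1, fun x => ?_⟩ ?_ rfl
  · rw [← per_int (G_per h hf.1) x |C - A|, ← hf.2.2]
    congr 1; ring
  · nlinarith [le_abs_self (C - A), abs_nonneg (C - A)]

theorem wd_eq (hr : lb str.length pi e ≠ 0) (x : ℤ) : wd str pi e x = G str pi (mt pi e) x := if_neg hr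

theorem wd_per (h : IsPerm str.length (mt pi)) (he : e < str.length) (hr : lb str.length pi e ≠ 0) (x : ℤ) :
    wd str pi e (x + wt str pi (lb str.length pi e)) = wd str pi e x := by
  rw [wd_eq hr, wd_eq hr, ← lb_succ h he, G_per h (h.lt _ he)]

theorem wd_align (hs : SPre str) (h : IsPerm str.length (mt pi)) (he : e < str.length) (hf : f < str.length)
    (hr : lb str.length pi e ≠ 0) (hef : lb str.length pi e = lb str.length pi f) :
    ∃ σ : ℤ, ∀ x, wd str pi f x = wd str pi e (x + σ) := by
  have h0 : Pl str pi (G str pi e) e 0 := ⟨he, hr, fun x => by rw [add_zero]⟩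
  have h1 : ∀ j, ∃ σ, Pl str pi (G str pi e) (itr pi j e) σ := by
    intro j
    induction j with
    | zero => exact ⟨0, h0⟩
    | succ j ih =>
      obtain ⟨σ, hσ⟩ := ih
      rw [itr_succ]
      exact ⟨_, hσ.succ hs h⟩
  obtain ⟨j, rfl⟩ := (lb_eq_iff h he hf).1 hef
  obtain ⟨σ, hσ⟩ := h1 (j + 1)
  rw [itr_succ] at hσ
  refine ⟨σ - sh str pi e, fun x => ?_⟩
  rw [wd_eq hr, wd_eq (hef ▸ hr), G_step hs h he hr, ← hσ.2.2]
  congr 1; ring

theorem pl_of_wd (hs : SPre str) (h : IsPerm str.length (mt pi)) (hf : f < str.length)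
    (hr : lb str.length pi f ≠ 0) {σ : ℤ} (hw : ∀ x, wd str pi f x = W (x + σ)) :
    Pl str pi W f (σ - sh str pi f) := by
  refine ⟨hf, hr, fun x => ?_⟩
  have := hw (x - sh str pi f)
  rw [wd_eq hr, G_step hs h hf hr, sub_add_cancel] at this
  rw [this]
  congr 1; ring

theorem wd_ord (hs : SPre str) (h : IsPerm str.length (mt pi)) (hg : Greedy str pi) (he : e < str.length)
    (hf : f < str.length) (σ : ℤ) (hr : lb str.length pi e ≠ 0) (hr' : lb str.length pi f ≠ 0)
    (hw : ∀ x, wd str pi f x = wd str pi e (x + σ)) :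
    (e = f ∧ σ = 0) ∨
    (σ ≤ (cc str pi e : ℤ) - (sg str e).length ∧ σ + (sg str (mt pi f)).length ≤ cc str pi e) ∨
    (0 ≤ σ + cc str pi f - (sg str f).length ∧ ((sg str (mt pi e)).length : ℤ) ≤ σ + cc str pi f) := by
  have pe : Pl str pi (wd str pi e) e (0 - sh str pi e) := pl_of_wd hs h he hr fun x => by rw [add_zero]
  have pf : Pl str pi (wd str pi e) f (σ - sh str pi f) := pl_of_wd hs h hf hr' hw
  have c1 := sh_cast str pi e
  have c2 := sh_cast str pi f
  rcases lt_trichotomy (σ - sh str pi f) (0 - sh str pi e : ℤ) with h1 | h1 | h1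
  · have a1 := pe.not_between hs h hg pf h1
    have a2 := pe.end_le hs h (pf.succ hs h) a1
    exact Or.inr (Or.inl ⟨by omega, by omega⟩)
  · rw [h1] at pf
    have := pe.eq_of_start hs h pf
    subst this
    exact Or.inl ⟨rfl, by omega⟩
  · have a1 := pf.not_between hs h hg pe h1
    have a2 := pf.end_le hs h (pe.succ hs h) a1
    exact Or.inr (Or.inr ⟨by omega, by omega⟩)

theorem wd_fw (hs : SPre str) (h : IsPerm str.length (mt pi)) (hg : Greedy str pi) (he : e < str.length)
    (hf : f < str.length) (hr : lb str.length pi e ≠ 0) (hr' : lb str.length pi f ≠ 0)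
    (hne : lb str.length pi e ≠ lb str.length pi f) (a b L : ℤ)
    (hw : ∀ x, 0 ≤ x → x < L → wd str pi e (a + x) = wd str pi f (b + x)) :
    L < wt str pi (lb str.length pi e) + wt str pi (lb str.length pi f) := by
  by_contra hc
  have h1 := fw_abs (u := fun x => wd str pi e (a + x)) (v := fun x => wd str pi f (b + x))
    (p := wt str pi (lb str.length pi e)) (q := wt str pi (lb str.length pi f))
    (by exact_mod_cast wt_pos hs h he hr) (by exact_mod_cast wt_pos hs h hf hr')
    (fun x => by rw [← add_assoc, wd_per h he hr])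
    (fun x => by rw [← add_assoc, wd_per h hf hr']) (not_lt.1 hc) hw
  have pe : Pl str pi (wd str pi e) e (0 - sh str pi e) := pl_of_wd hs h he hr fun x => by rw [add_zero]
  have pf : Pl str pi (wd str pi e) f (a - b - sh str pi f) := pl_of_wd hs h hf hr' fun x => by
    have := h1 (x - b)
    simp only [add_sub_cancel] at this
    rw [← this]
    congr 1; ring
  exact hne (pe.lb_eq hs h hg pf)

end Crest.Agent.R287
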