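import Crest.Agent.R287.Cnn

/-!
# R287: the abstract overlap system.

An arc `e` of the greedy cycle cover goes from its tail string (length `lt e`) to its head string (length `lh e`), which overlap in the
valley of length `c e`.  In the word `w e : ℤ → ℕ` the valley occupies `[0, c e)`, the tail `[c e - lt e, c e)`, the head `[0, lh e)`.
`ov e f` is the longest proper overlap of the tail of `e` with the head of `f`.  Sequences `z : ℕ → E` of arcs are laid out on a line: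
the valley of `z i` occupies `[al i, be i)` and the overlap of tail `z i` with head `z (i+1)` occupies `[al (i+1), be i)`.
-/

set_option autoImplicit false
open Finset

namespace Crest.Agent.R287

/-- vertices of a component: left extensions of the valley inside the tail, right extensions inside the head -/
def Vtx (c lt lh : ℕ) (a b : ℤ) : Prop :=
  (b = c ∧ (c : ℤ) - lt ≤ a ∧ a ≤ 0) ∨ (a = 0 ∧ (c : ℤ) ≤ b ∧ b ≤ lh)

/-- the last `k` letters of `u[a,b)` are the first `k` letters of `v[a',b')` -/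
def Ovl (u v : ℤ → ℕ) (a b a' b' k : ℤ) : Prop :=
  0 ≤ k ∧ k ≤ b - a ∧ k ≤ b' - a' ∧ ∀ x, 0 ≤ x → x < k → u (b - k + x) = v (a' + x)

structure Sys where
  E : Type
  [fin : Fintype E]
  [dec : DecidableEq E]
  comp : E → ℕ
  root : ℕ
  p : ℕ → ℕ
  c : E → ℕ
  lt : E → ℕ
  lh : E → ℕ
  ov : E → E → ℕ
  w : E → ℤ → ℕ
  κ : ℕ → ℕ → ℕ
  τ : ℕ → ℕ → ℕ
  root_mem : ∃ e, comp e = root
  c_le_lt : ∀ e, c e ≤ lt e
  c_le_lh : ∀ e, c e ≤ lh e
  c_lt : ∀ e, comp e ≠ root → c e < lt e ∧ c e < lh e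
  p_pos : ∀ e, comp e ≠ root → 0 < p (comp e)
  per : ∀ e, comp e ≠ root → ∀ x : ℤ, w e (x + p (comp e)) = w e x
  ov_lt : ∀ e f, ov e f = 0 ∨ (ov e f < lt e ∧ ov e f < lh f)
  ov_agree : ∀ e f (x : ℤ), 0 ≤ x → x < ov e f → w e (c e - ov e f + x) = w f x
  ov_max : ∀ e f (k : ℕ), k < lt e → k < lh f →
    (∀ x : ℤ, 0 ≤ x → x < k → w e (c e - k + x) = w f x) → k ≤ ov e f
  greedy : ∀ e f, ov e f ≤ max (c e) (c f)
  fw : ∀ e f, comp e ≠ root → comp f ≠ root → comp e ≠ comp f → ∀ a b L : ℤ,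
    (∀ x, 0 ≤ x → x < L → w e (a + x) = w f (b + x)) → L < p (comp e) + p (comp f)
  align : ∀ e f, comp e ≠ root → comp e = comp f → ∃ σ : ℤ, ∀ x, w f x = w e (x + σ)
  ord : ∀ e f (σ : ℤ), comp e ≠ root → comp f ≠ root → (∀ x, w f x = w e (x + σ)) →
    (e = f ∧ σ = 0) ∨ (σ ≤ (c e : ℤ) - lt e ∧ σ + lh f ≤ c e) ∨ (0 ≤ σ + c f - lt f ∧ (lh e : ℤ) ≤ σ + c f)
  κ_symm : ∀ e f, κ (comp e) (comp f) = κ (comp f) (comp e)
  κ_le : ∀ e f (a b a' b' k k' : ℤ), Vtx (c e) (lt e) (lh e) a b → Vtx (c f) (lt f) (lh f) a' b' →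
    Ovl (w e) (w f) a b a' b' k → Ovl (w f) (w e) a' b' a b k' →
    (κ (comp e) (comp f) : ℤ) ≤ (b' - a' - k) + (b - a - k')
  τ_le : ∀ e f (a b a' b' k : ℤ), Vtx (c e) (lt e) (lh e) a b → Vtx (c f) (lt f) (lh f) a' b' →
    Ovl (w e) (w f) a b a' b' k → (τ (comp e) (comp f) : ℤ) ≤ (b - a) + (b' - a') - k
  κ_root : ∀ e (a b : ℤ), Vtx (c e) (lt e) (lh e) a b → (κ (comp e) root : ℤ) ≤ b - a

attribute [instance] Sys.fin Sys.dec

namespace Sys

variable (S : Sys)

/-- all components -/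
def A : Finset ℕ := univ.image S.comp

abbrev Con (O O' : Finset ℕ) (c : ℤ) : Prop := R287.Con S.κ S.τ S.A O O' c

theorem comp_mem (e : S.E) : S.comp e ∈ S.A := mem_image_of_mem _ (mem_univ _)

theorem root_mem_A : S.root ∈ S.A := by
  obtain ⟨e, he⟩ := S.root_mem; exact he ▸ S.comp_mem e

variable (z : ℕ → S.E)

def al : ℕ → ℤ
  | 0 => 0
  | i + 1 => al i + S.c (z i) - S.ov (z i) (z (i + 1))

def be (i : ℕ) : ℤ := S.al z i + S.c (z i)
def W (i : ℕ) (y : ℤ) : ℕ := S.w (z i) (y - S.al z i)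
def cp (i : ℕ) : ℕ := S.comp (z i)
def pp (i : ℕ) : ℤ := S.p (S.comp (z i))
/-- gain when the indices strictly between `i` and `j` are removed -/
def drop (i j : ℕ) : ℤ := S.ov (z i) (z j) - (S.be z i - S.al z j)
/-- (for `i ≥ 1`) the incoming overlap is a prefix and the outgoing overlap a suffix of the valley -/
def FF (i : ℕ) : Prop := S.al z i ≤ S.al z (i + 1) ∧ S.be z (i - 1) ≤ S.be z i
def Chain (i j : ℕ) : Prop := ∀ h, i < h → h < j → S.FF z h
/-- components of the indices in `[i, j)` -/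
def cI (i j : ℕ) : Finset ℕ := (Ico i j).image (S.cp z)
/-- sum of periods of the indices in `[i, j)` -/
def sp (i j : ℕ) : ℤ := ∑ h ∈ Ico i j, S.pp z h
/-- excess of the pairs `(a,a+1), (a+2,a+3), …` (`m` pairs) -/
def Ex : ℕ → ℕ → ℤ
  | _, 0 => 0
  | a, m + 1 => (S.be z (a + 1) - S.al z a - S.pp z a - S.pp z (a + 1)) + Ex (a + 2) m

/-- the indices `1..t` are `FF` and lie in pairwise different non-root components -/
structure Blk (t : ℕ) : Prop where
  ch : S.Chain z 0 (t + 1)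
  nr : ∀ i, 1 ≤ i → i ≤ t → S.cp z i ≠ S.root
  dist : ∀ i j, 1 ≤ i → i < j → j ≤ t → S.cp z i ≠ S.cp z j

/-- the indices strictly between `i` and `j` can be connected with excess `x` over their periods -/
def Good (i j : ℕ) (x : ℤ) : Prop :=
  S.Con {S.root, S.cp z i, S.cp z j} (S.cI z (i + 1) j) (x + S.sp z (i + 1) j)

/-- some segment of the block can be removed -/
def Red (t : ℕ) : Prop := ∃ i j, i + 1 < j ∧ j ≤ t + 1 ∧ S.Good z i j (2 * S.drop z i j)

structure IsCyc (r : ℕ) : Prop where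
  pos : 0 < r
  per : ∀ i, z (i + r) = z i
  inj : ∀ i j, i < r → j < r → z i = z j → i = j

/-- the claim for a cycle: all its components can be connected from `O` at cost `2δ + ∑_{fresh} p` -/
def PS (O : Finset ℕ) (r : ℕ) : Prop :=
  S.Con O (S.cI z 0 r) (2 * S.al z r + ∑ X ∈ S.cI z 0 r \ O, (S.p X : ℤ))

/-- the indices in `[i, j]` all lie in one fresh component -/
def SF (O : Finset ℕ) (i j : ℕ) : Prop := ∃ B, B ∉ O ∧ ∀ h, i ≤ h → h ≤ j → S.cp z h = B

/-- fresh and unique -/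
def FU (O : Finset ℕ) (i : ℕ) : Prop := S.cp z i ∉ O ∧ ∀ j, S.cp z j = S.cp z i → z j = z i

def IH (O : Finset ℕ) (r : ℕ) : Prop :=
  ∀ (r' : ℕ) (z' : ℕ → S.E), r' < r → S.IsCyc z' r' → ¬ S.SF z' O 0 r' → S.PS z' O r'

def rot (j : ℕ) : ℕ → S.E := fun i => z (i + j)

/-- the cycle `j, j+1, …, i+r` obtained by removing the indices strictly between `i` and `j` -/
def cut (r i j : ℕ) : ℕ → S.E := fun h => z (j + h % (i + r + 1 - j))

end Sys

end Crest.Agent.R287
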