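import Crest.Agent.R287.SOrd
import Crest.Agent.R287.SCy
import Crest.Agent.R287.Sys

/-!
# R287: the concrete system

PLAN. `vtx_str`: a `Vtx` `[a,b)` of `e` is the string `u = (sg e).drop (a + sh e)` or `(sg (π e)).take b`, a member of `cy (lb e)` (`mem_vtx`, `vtx_sub_cy`) of length `b - a` with letters `wd e (a + i)` (`wd_tail`, `wd_head`).
`ovl_le`: an `Ovl` witness gives `k ≤ ovf u v` (`le_ovk`, `List.ext_getElem`).  Then `κ_le`, `τ_le`, `κ_root` from `cst_tab`, `mem_labs`, `kap_le`, `tau_le`, `nil_mem_cy`, `dist_nil_left/right`.  `ov_agree`, `ov_max`: `ovk_eq`, `le_ovk`, `wd_tail`, `wd_head` (`sh e + cc e = |sg e|`).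
-/

set_option autoImplicit false
open Crest.Agent.PTime

namespace Crest.Agent.R287

variable {str : List Str} {pi : Mt}

theorem ssys_iff {u v : Str} {k : ℕ} (hk : k ≤ u.length) (hk' : k ≤ v.length) :
    u.drop (u.length - k) = v.take k ↔ ∀ i < k, u.getD (u.length - k + i) 0 = v.getD i 0 := by
  constructor
  · intro h i hi
    have h1 := congrArg (fun l : Str => l.getD i 0) h
    simpa [List.getD_eq_getElem?_getD, List.getElem?_take, hi] using h1
  · intro h
    refine List.ext_getElem (by simp; omega) fun i h1 h2 => ?_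
    have hi : i < k := by simp at h2; omega
    have h3 := h i hi
    rw [List.getD_eq_getElem _ _ (by omega), List.getD_eq_getElem _ _ (by omega)] at h3
    simpa using h3

theorem ssys_sh (e : ℕ) : sh str pi e + cc str pi e = (sg str e).length :=
  Nat.sub_add_cancel (ovp_le _ _).1

theorem ssys_labs (h : IsPerm str.length (mt pi)) {e : ℕ} (he : e < str.length) :
    lb str.length pi e ∈ labs str.length pi := (mem_labs h _).2 ⟨e, he, rfl⟩

theorem ssys_K {X Y : ℕ} (hX : X ∈ labs str.length pi) (hY : Y ∈ labs str.length pi) :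
    cst (Kt str pi) X Y = kap (cy str pi X) (cy str pi Y) :=
  cst_tab _ _ (fun X Y => kap (cy str pi X) (cy str pi Y)) hX hY

theorem ssys_T {X Y : ℕ} (hX : X ∈ labs str.length pi) (hY : Y ∈ labs str.length pi) :
    cst (Tt str pi) X Y = tau (cy str pi X) (cy str pi Y) :=
  cst_tab _ _ (fun X Y => tau (cy str pi X) (cy str pi Y)) hX hY

theorem ssys_dist (u v : Str) : (dist u v : ℤ) = v.length - ovf u v := by
  rw [dist, Nat.cast_sub (ovf_le u v).2]

/-- the agreement condition of the system in terms of the strings -/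
theorem ssys_agree (hs : SPre str) (h : IsPerm str.length (mt pi)) {e f : ℕ} (he : e < str.length)
    (hf : f < str.length) {k : ℕ} (hk : k ≤ (sg str e).length) (hk' : k ≤ (sg str (mt pi f)).length) :
    (sg str e).drop ((sg str e).length - k) = (sg str (mt pi f)).take k ↔
      ∀ x : ℤ, 0 ≤ x → x < k → wd str pi e (cc str pi e - k + x) = wd str pi f x := by
  have h0 := ssys_sh (str := str) (pi := pi) e
  have key : ∀ i < k, wd str pi e (cc str pi e - k + (i : ℤ)) = (sg str e).getD ((sg str e).length - k + i) 0 ∧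
      wd str pi f i = (sg str (mt pi f)).getD i 0 := fun i hi =>
    ⟨by
      rw [← wd_tail hs h he (by omega)]
      congr 1
      omega, wd_head hs h hf (by omega)⟩
  rw [ssys_iff hk hk']
  constructor
  · intro H x hx hx'
    obtain ⟨i, rfl⟩ := Int.eq_ofNat_of_zero_le hx
    have hi : i < k := by omega
    rw [(key i hi).1, (key i hi).2, H i hi]
  · intro H i hi
    rw [← (key i hi).1, ← (key i hi).2]
    exact H i (by omega) (by omega)

theorem vtx_str (hs : SPre str) (h : IsPerm str.length (mt pi)) {e : ℕ} (he : e < str.length) {a b : ℤ}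
    (hv : Vtx (cc str pi e) (sg str e).length (sg str (mt pi e)).length a b) :
    ∃ u ∈ cy str pi (lb str.length pi e), (u.length : ℤ) = b - a ∧
      ∀ i < u.length, u.getD i 0 = wd str pi e (a + i) := by
  have h0 := ssys_sh (str := str) (pi := pi) e
  rcases hv with ⟨h1, h2, h3⟩ | ⟨h1, h2, h3⟩
  · obtain ⟨j, hj⟩ := Int.eq_ofNat_of_zero_le (a := a + sh str pi e) (by omega)
    refine ⟨(sg str e).drop j, vtx_sub_cy h he (mem_vtx.2 (Or.inl ⟨j, by omega, rfl⟩)), ?_, fun i hi => ?_⟩
    · rw [List.length_drop]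
      omega
    · rw [List.length_drop] at hi
      have h4 := wd_tail hs h he (k := j + i) (by omega)
      rw [show a + (i : ℤ) = ((j + i : ℕ) : ℤ) - sh str pi e by omega, h4]
      simp [List.getD_eq_getElem?_getD]
  · obtain ⟨j, hj⟩ := Int.eq_ofNat_of_zero_le (a := b) (by omega)
    refine ⟨(sg str (mt pi e)).take j,
      vtx_sub_cy h he (mem_vtx.2 (Or.inr ⟨j, by omega, by omega, rfl⟩)), ?_, fun i hi => ?_⟩
    · rw [List.length_take]
      omega
    · rw [List.length_take] at hi
      rw [h1, zero_add, wd_head hs h he (by omega)]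
      have : i < j := by omega
      simp [List.getD_eq_getElem?_getD, this]

theorem ovl_le {u v : Str} {w w' : ℤ → ℕ} {a b a' b' k : ℤ} (hu : (u.length : ℤ) = b - a)
    (hu' : ∀ i < u.length, u.getD i 0 = w (a + i)) (hv : (v.length : ℤ) = b' - a')
    (hv' : ∀ i < v.length, v.getD i 0 = w' (a' + i)) (h : Ovl w w' a b a' b' k) : k ≤ ovf u v := by
  obtain ⟨h0, h1, h2, h3⟩ := h
  obtain ⟨m, rfl⟩ := Int.eq_ofNat_of_zero_le h0
  have : m ≤ ovf u v := by
    refine le_ovk (by omega) ((ssys_iff (by omega) (by omega)).2 fun i hi => ?_)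
    rw [hu' _ (by omega), hv' _ (by omega), ← h3 i (by omega) (by omega)]
    congr 1
    omega
  exact_mod_cast this

noncomputable def mkSys (str : List Str) (pi : Mt) (hs : SPre str) (h : IsPerm str.length (mt pi))
    (hg : Greedy str pi) : Sys where
  E := Fin str.length
  comp := fun e => lb str.length pi e
  root := 0
  p := wt str pi
  c := fun e => cc str pi e
  lt := fun e => (sg str e).length
  lh := fun e => (sg str (mt pi e)).length
  ov := fun e f => ovp (sg str e) (sg str (mt pi f))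
  w := fun e => wd str pi e
  κ := cst (Kt str pi)
  τ := cst (Tt str pi)
  root_mem := ⟨⟨0, hs.pos⟩, lb_zero h hs.pos⟩
  c_le_lt := fun _ => (ovp_le _ _).1
  c_le_lh := fun _ => (ovp_le _ _).2
  c_lt := fun e hr => cc_lt hs h e.2 hr
  p_pos := fun e hr => wt_pos hs h e.2 hr
  per := fun e hr x => wd_per h e.2 hr x
  ov_lt := fun e f => (ovk_lt _ _ _).imp_right fun h' => lt_min_iff.1 h'
  ov_agree := fun e f => (ssys_agree hs h e.2 f.2 (ovp_le _ _).1 (ovp_le _ _).2).1 (ovk_eq _ _ _)
  ov_max := fun e f k h1 h2 H => le_ovk (lt_min h1 h2) ((ssys_agree hs h e.2 f.2 h1.le h2.le).2 H)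
  greedy := fun e f => hg e e.2 f f.2
  fw := fun e f hr hr' hne => wd_fw hs h hg e.2 f.2 hr hr' hne
  align := fun e f hr hef => wd_align hs h e.2 f.2 hr hef
  ord := fun e f σ hr hr' hw => (wd_ord hs h hg e.2 f.2 σ hr hr' hw).imp_left fun h => ⟨Fin.ext h.1, h.2⟩
  κ_symm := fun e f => by
    rw [ssys_K (ssys_labs h e.2) (ssys_labs h f.2), ssys_K (ssys_labs h f.2) (ssys_labs h e.2)]
    exact kap_symm (cy_ne_nil _) (cy_ne_nil _)
  κ_le := fun e f a b a' b' k k' h1 h2 h3 h4 => by
    obtain ⟨u, hu, hu1, hu2⟩ := vtx_str hs h e.2 h1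
    obtain ⟨v, hv, hv1, hv2⟩ := vtx_str hs h f.2 h2
    have h5 := ovl_le hu1 hu2 hv1 hv2 h3
    have h6 := ovl_le hv1 hv2 hu1 hu2 h4
    have h7 := kap_le hu hv
    have h8 := ssys_dist u v
    have h9 := ssys_dist v u
    rw [ssys_K (ssys_labs h e.2) (ssys_labs h f.2)]
    omega
  τ_le := fun e f a b a' b' k h1 h2 h3 => by
    obtain ⟨u, hu, hu1, hu2⟩ := vtx_str hs h e.2 h1
    obtain ⟨v, hv, hv1, hv2⟩ := vtx_str hs h f.2 h2
    have h5 := ovl_le hu1 hu2 hv1 hv2 h3
    have h7 := tau_le hu hv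
    have h8 := ssys_dist u v
    rw [ssys_T (ssys_labs h e.2) (ssys_labs h f.2)]
    omega
  κ_root := fun e a b h1 => by
    obtain ⟨u, hu, hu1, -⟩ := vtx_str hs h e.2 h1
    have h7 := kap_le hu (nil_mem_cy hs h)
    rw [dist_nil_left, dist_nil_right] at h7
    rw [ssys_K (ssys_labs h e.2) ((mem_labs h _).2 ⟨0, hs.pos, lb_zero h hs.pos⟩)]
    omega

theorem mkSys_A (hs : SPre str) (h : IsPerm str.length (mt pi)) (hg : Greedy str pi) :
    (mkSys str pi hs h hg).A = (labs str.length pi).toFinset := by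
  ext X
  simp only [Sys.A, Finset.mem_image, Finset.mem_univ, true_and, List.mem_toFinset, mem_labs h]
  exact ⟨fun ⟨e, he⟩ => ⟨e.1, e.2, he⟩, fun ⟨e, he, h'⟩ => ⟨⟨e, he⟩, h'⟩⟩

end Crest.Agent.R287
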