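import Crest.Agent.R287.SOrb

/-!
# R287: the periodic word of a component

`G e` is the periodic word read from the start of `sg e` along the orbit; `wd e` is the word of the arc `e` with origin at the start of its head.

PLAN. `sh_pos`: for `e ≠ 0` the string is nonempty (`SPre.free` with `j = 0`) and `ovp < length` or `= 0` (`ovk_lt`).  `txt_length`: `List.length_flatMap`.  With `orb e = e :: t`, `orb (π e) = t ++ [e]`: `txt e = a ++ b`, `txt (π e) = b ++ a`, `|a| = sh e`; this gives `G_step`
(case distinction on `x % p < |b|`; `Int.emod_emod_of_dvd`, `Int.add_emod`, or via `List.getElem_rotate`).  `G_str`: strong induction on `k` for all `e` of non-root components: `k < sh e` directly (`sh e ≤ p`), else `G e k = G (π e) (k - sh e)`, `k - sh e < cc e ≤ |sg (π e)|`, and `ovk_eq`.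
-/

set_option autoImplicit false
open Crest.Agent.PTime

namespace Crest.Agent.R287

def txt (str : List Str) (pi : Mt) (e : ℕ) : Str :=
  (orb str.length pi e).flatMap fun f => (sg str f).take (sh str pi f)

def G (str : List Str) (pi : Mt) (e : ℕ) (x : ℤ) : ℕ :=
  (txt str pi e).getD (x % (txt str pi e).length).toNat 0

def wd (str : List Str) (pi : Mt) (e : ℕ) (x : ℤ) : ℕ :=
  if lb str.length pi e = 0 then
    (if 0 ≤ x then (sg str (mt pi e)).getD x.toNat 0 else (sg str e).getD (x + sh str pi e).toNat 0)
  else G str pi (mt pi e) x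

variable {str : List Str} {pi : Mt}

theorem ne_zero_of_lb (hs : SPre str) (h : IsPerm str.length (mt pi)) {e : ℕ}
    (hr : lb str.length pi e ≠ 0) : e ≠ 0 := by
  rintro rfl
  exact hr (lb_zero h hs.pos)

theorem SWord.len_pos (hs : SPre str) {e : ℕ} (he : e < str.length) (h0 : e ≠ 0) : 0 < (sg str e).length := by
  rw [List.length_pos_iff]
  intro h1
  exact h0 (hs.free e he 0 hs.pos h0 (by rw [h1]; exact List.nil_infix))

theorem SWord.rot (a b : Str) (hp : 0 < a.length + b.length) (x : ℤ) :
    (b ++ a).getD (x % (b ++ a).length).toNat 0 = (a ++ b).getD ((x + a.length) % (a ++ b).length).toNat 0 := by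
  have e1 : ((b ++ a).length : ℤ) = ((a.length + b.length : ℕ) : ℤ) := by simp [add_comm]
  have e2 : ((a ++ b).length : ℤ) = ((a.length + b.length : ℕ) : ℤ) := by simp
  rw [e1, e2]
  have hp' : (0 : ℤ) < ((a.length + b.length : ℕ) : ℤ) := by exact_mod_cast hp
  obtain ⟨r, hr⟩ := Int.eq_ofNat_of_zero_le (Int.emod_nonneg x hp'.ne')
  have hr' : r < a.length + b.length := by
    have := Int.emod_lt_of_pos x hp'
    rw [hr] at this
    exact_mod_cast this
  rw [← Int.emod_add_emod, hr, ← Nat.cast_add, ← Int.natCast_mod, Int.toNat_natCast, Int.toNat_natCast]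
  by_cases h : r < b.length
  · rw [Nat.mod_eq_of_lt (by omega), List.getD_append _ _ _ _ h, List.getD_append_right _ _ _ _ (by omega),
      Nat.add_sub_cancel]
  · have e3 : (r + a.length) % (a.length + b.length) = r - b.length := by
      rw [show r + a.length = r - b.length + (a.length + b.length) by omega, Nat.add_mod_right,
        Nat.mod_eq_of_lt (by omega)]
    rw [e3, List.getD_append_right _ _ _ _ (by omega), List.getD_append _ _ _ _ (by omega)]

theorem SWord.txt_eq (e : ℕ) : txt str pi e = (sg str e).take (sh str pi e) ++
    (orb str.length pi e).tail.flatMap fun f => (sg str f).take (sh str pi f) := by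
  unfold txt
  conv_lhs => rw [orb_eq_cons, List.flatMap_cons]

theorem SWord.take_len (e : ℕ) : ((sg str e).take (sh str pi e)).length = sh str pi e := by
  rw [List.length_take]
  exact min_eq_left (Nat.sub_le _ _)

theorem SWord.overlap (e : ℕ) {k : ℕ} (h1 : sh str pi e ≤ k) (hk : k < (sg str e).length) :
    (sg str (mt pi e)).getD (k - sh str pi e) 0 = (sg str e).getD k 0 := by
  have h2 : (sg str e).drop (sh str pi e) = (sg str (mt pi e)).take (cc str pi e) := ovk_eq _ _ _
  have h3 : k - sh str pi e < cc str pi e := by unfold sh at h1 ⊢; omega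
  have h4 := congrArg (fun l : Str => l[k - sh str pi e]?) h2
  simp only [List.getElem?_drop, List.getElem?_take, if_pos h3, Nat.add_sub_cancel' h1] at h4
  rw [List.getD_eq_getElem?_getD, List.getD_eq_getElem?_getD, h4]

open SWord

theorem cc_lt (hs : SPre str) (h : IsPerm str.length (mt pi)) {e : ℕ} (he : e < str.length)
    (hr : lb str.length pi e ≠ 0) :
    cc str pi e < (sg str e).length ∧ cc str pi e < (sg str (mt pi e)).length := by
  have h1 := len_pos hs he (ne_zero_of_lb hs h hr)
  have h2 := len_pos hs (h.lt e he) (ne_zero_of_lb hs h (by rwa [lb_succ h he]))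
  have h3 := ovk_lt (sg str e) (sg str (mt pi e)) (min (sg str e).length (sg str (mt pi e)).length)
  unfold cc ovp
  omega

theorem txt_length (h : IsPerm str.length (mt pi)) {e : ℕ} (he : e < str.length) :
    (txt str pi e).length = wt str pi (lb str.length pi e) := by
  unfold txt wt
  rw [sum_orb_lb h he, List.length_flatMap]
  simp only [take_len]

theorem wt_pos (hs : SPre str) (h : IsPerm str.length (mt pi)) {e : ℕ} (he : e < str.length)
    (hr : lb str.length pi e ≠ 0) : 0 < wt str pi (lb str.length pi e) := by
  have h1 := (cc_lt hs h he hr).1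
  rw [← txt_length h he, txt_eq, List.length_append, take_len]
  unfold sh
  omega

theorem G_per (h : IsPerm str.length (mt pi)) {e : ℕ} (he : e < str.length) (x : ℤ) :
    G str pi e (x + wt str pi (lb str.length pi e)) = G str pi e x := by
  unfold G
  rw [txt_length h he, Int.add_emod_right]

theorem G_step (hs : SPre str) (h : IsPerm str.length (mt pi)) {e : ℕ} (he : e < str.length)
    (hr : lb str.length pi e ≠ 0) (x : ℤ) : G str pi (mt pi e) x = G str pi e (x + sh str pi e) := by
  have h1 := wt_pos hs h he hr
  rw [← txt_length h he, txt_eq, List.length_append] at h1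
  have h2 := rot _ _ h1 x
  rw [take_len, ← txt_eq] at h2
  have h3 : txt str pi (mt pi e) = ((orb str.length pi e).tail.flatMap fun f => (sg str f).take (sh str pi f)) ++
      (sg str e).take (sh str pi e) := by
    unfold txt
    rw [orb_succ h he]
    simp
  unfold G
  rw [h3]
  exact h2

theorem G_str (hs : SPre str) (h : IsPerm str.length (mt pi)) {e : ℕ} (he : e < str.length)
    (hr : lb str.length pi e ≠ 0) {k : ℕ} (hk : k < (sg str e).length) :
    G str pi e k = (sg str e).getD k 0 := by
  induction k using Nat.strong_induction_on generalizing e with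
  | _ k ih =>
    have h1 := cc_lt hs h he hr
    by_cases hk1 : k < sh str pi e
    · unfold G
      have h2 : k < (txt str pi e).length := by
        rw [txt_eq, List.length_append, take_len]
        omega
      rw [← Int.natCast_mod, Int.toNat_natCast, Nat.mod_eq_of_lt h2, txt_eq,
        List.getD_append _ _ _ _ (by rwa [take_len]), List.getD_eq_getElem?_getD, List.getD_eq_getElem?_getD,
        List.getElem?_take, if_pos hk1]
    · push Not at hk1
      have h2 := G_step hs h he hr ((k - sh str pi e : ℕ) : ℤ)
      rw [← Nat.cast_add, Nat.sub_add_cancel hk1] at h2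
      rw [← h2, ih (k - sh str pi e) (by unfold sh at hk1 ⊢; omega) (h.lt e he) (by rwa [lb_succ h he])
        (by unfold sh at hk1 ⊢; omega)]
      exact overlap e hk1 hk

theorem wd_head (hs : SPre str) (h : IsPerm str.length (mt pi)) {e : ℕ} (he : e < str.length) {k : ℕ}
    (hk : k < (sg str (mt pi e)).length) : wd str pi e k = (sg str (mt pi e)).getD k 0 := by
  unfold wd
  split_ifs with h1 h2
  · rfl
  · exact absurd (Int.natCast_nonneg k) h2
  · exact G_str hs h (h.lt e he) (by rwa [lb_succ h he]) hk

theorem wd_tail (hs : SPre str) (h : IsPerm str.length (mt pi)) {e : ℕ} (he : e < str.length) {k : ℕ}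
    (hk : k < (sg str e).length) : wd str pi e ((k : ℤ) - sh str pi e) = (sg str e).getD k 0 := by
  unfold wd
  split_ifs with h1 h2
  · have h3 : sh str pi e ≤ k := by omega
    rw [← Nat.cast_sub h3, Int.toNat_natCast]
    exact overlap e h3 hk
  · rw [sub_add_cancel, Int.toNat_natCast]
  · rw [G_step hs h he h1, sub_add_cancel]
    exact G_str hs h he h1 hk

end Crest.Agent.R287
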