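import Crest.Agent.R287.Sys

/-!
# R287: geometry of a sequence of arcs

PLAN. `agree`: induction on `j` (`[al j, be i) ⊆ [al (j-1), be i) ∩ [al j, be (j-1))` when `j-1` is `FF`; base case `ov_agree`).
`W_dvd`: `Function.Periodic.int_mul`-style induction.  `drop_ge`: let `k = be i - al j + Δ`; if `k ≤ 0` trivial; otherwise
`k ≤ ov (z i) (z (i+1))` and `k ≤ ov (z (j-1)) (z j)`, so by `ov_lt` `k < lt (z i)`, `k < lh (z j)`; apply `ov_max` with `k.toNat`.
`tau_le`: three cases (`arcA`, `arcD`); if `al (i+1) < al i` use the vertex `[al (i+1), be i)` of `z i`, if `be (i+1) < be i` the vertex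
`[al (i+1), be i)` of `z (i+1)`, else the two valleys.  `kapL`: `κ_le` with `u = [al (i+1), be i)` (vertex of `z i`, a prefix of the valley `v` of `z (i+1)`),
`k = |u|`, `k' = max 0 (min |u| (|v| - P))` (periodicity of `W (i+1)`; note `|v| - P ≤ |u|`), then `κ_symm`.  `kapR` is the mirror image.
-/

set_option autoImplicit false
open Finset

namespace Crest.Agent.R287

namespace Sys

variable {S : Sys} {z : ℕ → S.E}

theorem k_eq (i : ℕ) : S.be z i - S.al z (i + 1) = S.ov (z i) (z (i + 1)) := by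
  simp [be, al]

theorem al_le_be (i : ℕ) : S.al z i ≤ S.be z i := by simp [be]

theorem arcA {i : ℕ} (h : S.al z (i + 1) < S.al z i) :
    S.be z i ≤ S.be z (i + 1) ∧ S.c (z i) < S.c (z (i + 1)) := by
  have h1 := k_eq (S := S) (z := z) i
  have h2 := S.greedy (z i) (z (i + 1))
  unfold be at *
  omega

theorem arcD {i : ℕ} (h : S.be z (i + 1) < S.be z i) :
    S.al z i ≤ S.al z (i + 1) ∧ S.c (z (i + 1)) < S.c (z i) := by
  have h1 := k_eq (S := S) (z := z) i
  have h2 := S.greedy (z i) (z (i + 1))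
  unfold be at *
  omega

theorem Chain.sub {i j i' j' : ℕ} (h : S.Chain z i j) (hi : i ≤ i') (hj : j' ≤ j) : S.Chain z i' j' :=
  fun k h1 h2 => h k (by omega) (by omega)

theorem Chain.al_mono {i j h h' : ℕ} (hc : S.Chain z i j) (h1 : i < h) (h2 : h ≤ h') (h3 : h' ≤ j) :
    S.al z h ≤ S.al z h' := by
  induction h', h2 using Nat.le_induction with
  | base => exact le_rfl
  | succ k hk ih => exact (ih (by omega)).trans (hc k (by omega) (by omega)).1

theorem Chain.be_mono {i j h h' : ℕ} (hc : S.Chain z i j) (h1 : i ≤ h) (h2 : h ≤ h') (h3 : h' < j) :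
    S.be z h ≤ S.be z h' := by
  induction h', h2 using Nat.le_induction with
  | base => exact le_rfl
  | succ k hk ih => exact (ih (by omega)).trans (hc (k + 1) (by omega) (by omega)).2

theorem agree_succ (i : ℕ) {y : ℤ} (h1 : S.al z (i + 1) ≤ y) (h2 : y < S.be z i) :
    S.W z i y = S.W z (i + 1) y := by
  have h3 := k_eq (S := S) (z := z) i
  have := S.ov_agree (z i) (z (i + 1)) (y - S.al z (i + 1)) (by omega) (by omega)
  unfold W
  rw [← this]
  congr 1
  unfold be at h3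
  omega

theorem Chain.agree {i j : ℕ} (hc : S.Chain z i j) (hij : i < j) {y : ℤ} (h1 : S.al z j ≤ y)
    (h2 : y < S.be z i) : S.W z i y = S.W z j y := by
  induction j, hij using Nat.le_induction with
  | base => exact agree_succ i h1 h2
  | succ k hk ih =>
    have h3 := (hc k hk (by omega)).1
    have h4 : S.be z i ≤ S.be z k := hc.be_mono le_rfl (by omega) (by omega)
    rw [ih (hc.sub le_rfl (by omega)) (by omega)]
    exact agree_succ k h1 (by omega)

theorem pp_pos {i : ℕ} (h : S.cp z i ≠ S.root) : 0 < S.pp z i := by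
  have := S.p_pos (z i) h
  unfold pp
  omega

theorem W_dvd {i : ℕ} (h : S.cp z i ≠ S.root) {P : ℤ} (hP : S.pp z i ∣ P) (y : ℤ) :
    S.W z i (y + P) = S.W z i y := by
  obtain ⟨n, rfl⟩ := hP
  have hp : Function.Periodic (S.w (z i)) (S.pp z i) := S.per (z i) h
  have := (hp.int_mul n) (y - S.al z i)
  unfold W
  rw [← this]
  congr 1
  push_cast
  ring

theorem gap_le (i j : ℕ) : S.al z j - S.be z i ≤ S.drop z i j := by
  unfold drop; omega

theorem Chain.drop_ge {i j : ℕ} (hc : S.Chain z i j) (hij : i + 1 < j) {Δ : ℤ}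
    (h1 : S.al z (i + 1) ≤ S.al z j - Δ) (h2 : S.be z i + Δ ≤ S.be z (j - 1))
    (h3 : ∀ y, S.al z j - Δ ≤ y → y < S.be z i → S.W z i y = S.W z j (y + Δ)) : Δ ≤ S.drop z i j := by
  have _ := hc
  obtain ⟨j, rfl⟩ : ∃ k, j = k + 1 := ⟨j - 1, by omega⟩
  simp only [Nat.add_sub_cancel] at h2
  have e1 := k_eq (S := S) (z := z) i
  have e2 := k_eq (S := S) (z := z) j
  have o1 := S.ov_lt (z i) (z (i + 1))
  have o2 := S.ov_lt (z j) (z (j + 1))
  unfold drop
  by_cases hk : S.be z i - S.al z (j + 1) + Δ ≤ 0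
  · omega
  have := S.ov_max (z i) (z (j + 1)) (S.be z i - S.al z (j + 1) + Δ).toNat (by omega) (by omega) (by
    intro x hx0 hx1
    have := h3 (S.al z (j + 1) - Δ + x) (by omega) (by omega)
    unfold W at this
    convert this using 2
    · unfold be at *; omega
    · ring)
  omega

theorem Chain.drop_nonneg {i j : ℕ} (hc : S.Chain z i j) (hij : i + 1 < j) : 0 ≤ S.drop z i j := by
  refine hc.drop_ge hij ?_ ?_ ?_
  · simpa using hc.al_mono (Nat.lt_succ_self i) hij.le le_rfl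
  · simpa using hc.be_mono le_rfl (show i ≤ j - 1 by omega) (by omega)
  · intro y h1 h2
    rw [add_zero]
    exact hc.agree (by omega) (by omega) h2

/-- Fine–Wilf for two shifted words -/
theorem fw_W {i j : ℕ} (hi : S.cp z i ≠ S.root) (hj : S.cp z j ≠ S.root) (hij : S.cp z i ≠ S.cp z j)
    {a b s : ℤ} (h : ∀ y, a ≤ y → y < b → S.W z i y = S.W z j (y + s)) : b - a < S.pp z i + S.pp z j := by
  refine S.fw (z i) (z j) hi hj hij (a - S.al z i) (a + s - S.al z j) (b - a) ?_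
  intro x h1 h2
  have := h (a + x) (by omega) (by omega)
  unfold W at this
  convert this using 2 <;> ring

theorem Chain.fw {i j : ℕ} (hc : S.Chain z i j) (hij : i < j) (hi : S.cp z i ≠ S.root)
    (hj : S.cp z j ≠ S.root) (hne : S.cp z i ≠ S.cp z j) :
    S.be z i - S.al z j < S.pp z i + S.pp z j := by
  refine fw_W hi hj hne (s := 0) ?_
  intro y h1 h2
  rw [add_zero]
  exact hc.agree hij h1 h2

theorem tau_le (i : ℕ) : (S.τ (S.cp z i) (S.cp z (i + 1)) : ℤ) ≤
    max (S.be z i) (S.be z (i + 1)) - min (S.al z i) (S.al z (i + 1)) := by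
  have e1 := k_eq (S := S) (z := z) i
  have o1 := S.ov_lt (z i) (z (i + 1))
  have g := S.greedy (z i) (z (i + 1))
  have l1 := S.c_le_lt (z i)
  have l2 := S.c_le_lh (z (i + 1))
  have l3 := S.c_le_lt (z (i + 1))
  have key : ∀ a b' : ℤ, Vtx (S.c (z i)) (S.lt (z i)) (S.lh (z i)) a (S.c (z i)) →
      Vtx (S.c (z (i + 1))) (S.lt (z (i + 1))) (S.lh (z (i + 1))) 0 b' →
      (S.ov (z i) (z (i + 1)) : ℤ) ≤ S.c (z i) - a → (S.ov (z i) (z (i + 1)) : ℤ) ≤ b' →
      (S.τ (S.cp z i) (S.cp z (i + 1)) : ℤ) ≤ S.c (z i) - a + b' - S.ov (z i) (z (i + 1)) := by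
    intro a b' h1 h2 h3 h4
    have := S.τ_le (z i) (z (i + 1)) a _ 0 b' (S.ov (z i) (z (i + 1))) h1 h2
      ⟨by omega, h3, by omega, fun x hx0 hx1 => by
        rw [zero_add]; exact S.ov_agree _ _ x hx0 hx1⟩
    unfold cp
    omega
  unfold be at *
  by_cases hA : S.c (z i) < S.ov (z i) (z (i + 1))
  · have := key (S.c (z i) - S.ov (z i) (z (i + 1))) (S.c (z (i + 1))) (Or.inl ⟨rfl, by omega, by omega⟩)
      (Or.inr ⟨rfl, le_rfl, by omega⟩) (by omega) (by omega)
    omega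
  by_cases hD : S.c (z (i + 1)) < S.ov (z i) (z (i + 1))
  · have := key 0 (S.ov (z i) (z (i + 1))) (Or.inl ⟨rfl, by omega, le_rfl⟩)
      (Or.inr ⟨rfl, by omega, by omega⟩) (by omega) le_rfl
    omega
  · have := key 0 (S.c (z (i + 1))) (Or.inl ⟨rfl, by omega, le_rfl⟩)
      (Or.inr ⟨rfl, le_rfl, by omega⟩) (by omega) (by omega)
    omega

theorem w_dvd {i : ℕ} (h : S.cp z i ≠ S.root) {P : ℤ} (hP : S.pp z i ∣ P) (y : ℤ) :
    S.w (z i) (y + P) = S.w (z i) y := by
  have := W_dvd h hP (y + S.al z i)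
  unfold W at this
  convert this using 2 <;> ring

/-- winding along `z (i+1)` from the touching overlap on the left -/
theorem kapL {i : ℕ} (hA : S.al z (i + 1) < S.al z i) (hr : S.cp z (i + 1) ≠ S.root) {P : ℤ}
    (hP : S.pp z (i + 1) ∣ P) (h : S.be z (i + 1) - S.be z i ≤ P) :
    (S.κ (S.cp z (i + 1)) (S.cp z i) : ℤ) ≤ P := by
  have e1 := k_eq (S := S) (z := z) i
  have o1 := S.ov_lt (z i) (z (i + 1))
  have g := S.greedy (z i) (z (i + 1))
  have l2 := S.c_le_lh (z (i + 1))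
  unfold be at *
  have := S.κ_le (z i) (z (i + 1)) (S.c (z i) - S.ov (z i) (z (i + 1))) (S.c (z i)) 0 (S.c (z (i + 1)))
    (S.ov (z i) (z (i + 1))) (max 0 (S.c (z (i + 1)) - P)) (Or.inl ⟨rfl, by omega, by omega⟩)
    (Or.inr ⟨rfl, le_rfl, by omega⟩)
    ⟨by omega, by omega, by omega, fun x hx0 hx1 => by
      rw [zero_add]; exact S.ov_agree _ _ x hx0 hx1⟩
    ⟨by omega, by omega, by omega, fun x hx0 hx1 => by
      rw [S.ov_agree _ _ x hx0 (by omega), ← w_dvd hr hP x]
      congr 1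
      omega⟩
  unfold cp
  rw [S.κ_symm]
  omega

/-- winding along `z i` from the touching overlap on the right -/
theorem kapR {i : ℕ} (hD : S.be z (i + 1) < S.be z i) (hr : S.cp z i ≠ S.root) {P : ℤ}
    (hP : S.pp z i ∣ P) (h : S.al z (i + 1) - S.al z i ≤ P) :
    (S.κ (S.cp z i) (S.cp z (i + 1)) : ℤ) ≤ P := by
  have e1 := k_eq (S := S) (z := z) i
  have o1 := S.ov_lt (z i) (z (i + 1))
  have g := S.greedy (z i) (z (i + 1))
  have l2 := S.c_le_lh (z i)
  unfold be at *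
  have := S.κ_le (z i) (z (i + 1)) 0 (S.c (z i)) 0 (S.ov (z i) (z (i + 1)))
    (S.ov (z i) (z (i + 1))) (max 0 (S.c (z i) - P)) (Or.inr ⟨rfl, le_rfl, by omega⟩)
    (Or.inr ⟨rfl, by omega, by omega⟩)
    ⟨by omega, by omega, by omega, fun x hx0 hx1 => by
      rw [zero_add]; exact S.ov_agree _ _ x hx0 hx1⟩
    ⟨by omega, by omega, by omega, fun x hx0 hx1 => by
      rw [← S.ov_agree (z i) _ _ (by omega) (by omega), zero_add, ← w_dvd hr hP x]
      congr 1
      omega⟩
  unfold cp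
  omega

theorem kap_root (i : ℕ) : (S.κ (S.cp z i) S.root : ℤ) ≤ S.c (z i) := by
  have l2 := S.c_le_lh (z i)
  have := S.κ_root (z i) 0 (S.c (z i)) (Or.inr ⟨rfl, le_rfl, by omega⟩)
  unfold cp
  omega

/-- rounding to multiples of a period -/
theorem exists_mult {q : ℤ} (hq : 0 < q) (x : ℤ) : ∃ P, q ∣ P ∧ P ≤ x ∧ x < P + q := by
  refine ⟨q * (x / q), dvd_mul_right _ _, ?_, ?_⟩
  · have := Int.emod_nonneg x hq.ne'
    have := Int.mul_ediv_add_emod x q
    omega
  · have := Int.emod_lt_of_pos x hq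
    have := Int.mul_ediv_add_emod x q
    omega

theorem exists_mult' {q : ℤ} (hq : 0 < q) (x : ℤ) : ∃ e, q ∣ e ∧ e < x ∧ x ≤ e + q := by
  obtain ⟨P, h1, h2, h3⟩ := exists_mult hq (x - 1)
  exact ⟨P, h1, by omega, by omega⟩

end Sys

end Crest.Agent.R287
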