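import Crest.Agent.R287.TopAux

/-! # R287: irreducible top blocks do not exist (generated case analysis of linear inequalities) -/

set_option autoImplicit false
open Finset

namespace Crest.Agent.R287

namespace Sys

variable {S : Sys} {z : ℕ → S.E}

set_option maxHeartbeats 0 in
set_option linter.unusedVariables false in
theorem arith_2 {a1 a2 a3 b0 b1 b2 d0_3 e1 et p1 p2 : ℤ}
    (b_0 : b1 ≤ b2)
    (b_1 : a1 ≤ a2)
    (b_2 : 0 < p1)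
    (b_3 : 0 < p2)
    (b_4 : p1 ≤ e1)
    (b_5 : e1 < b1 - b0)
    (b_6 : b1 - b0 ≤ e1 + p1)
    (b_7 : 2 * (a2 - a1) < e1 + p1)
    (b_8 : p2 ≤ et)
    (b_9 : et < a3 - a2)
    (b_10 : a3 - a2 ≤ et + p2)
    (b_11 : 2 * (b2 - b1) < et + p2)
    (z_0 : b0 ≤ b1)
    (z_1 : a1 ≤ a3)
    (z_2 : 0 ≤ p1)
    (z_3 : b0 ≤ b2)
    (z_4 : a2 ≤ a3)
    (z_5 : 0 ≤ p2)
    (z_6 : 0 ≤ d0_3)
    (z_7 : 0 ≤ e1)
    (z_8 : 0 ≤ et)
    (C_f_p1_1_2 : p1 ≤ d0_3 ∨ b1 - b0 < p1 ∨ a3 - a1 < p1)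
    (C_f_e1_1_2 : e1 ≤ d0_3 ∨ b1 - b0 < e1 ∨ a3 - a1 < e1)
    (C_f_et_1_2 : et ≤ d0_3 ∨ b2 - b0 < et ∨ a3 - a2 < et)
    (C_OPT_1_2_K1Kt : 2 * d0_3 < e1 + et)
    (C_bf_1_et_1_2 : b2 - b0 - p1 < d0_3 ∨ a3 - a2 < et ∨ et < b2 - b0)
    (C_FW_1_2 : b1 - a2 < p1 + p2)
    (C_OPT_1_2_x12x : 2 * d0_3 < (b2 - a1 - p1 - p2))
    (C_gap_1_2 : a3 - b0 ≤ d0_3)
    (C_f_p2_1_2 : p2 ≤ d0_3 ∨ b2 - b0 < p2 ∨ a3 - a2 < p2)
    (C_fb_p1_2_1_2 : a3 - a1 - p2 < d0_3 ∨ b1 - b0 < p1 ∨ p1 < a3 - a1) : False := by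
  have hn3_0 : ¬ (p1 ≤ d0_3) := fun hp3_0 => by
   have hn4_0 : ¬ (e1 ≤ d0_3) := fun hp4_0 => by
    have hn5_0 : ¬ (et ≤ d0_3) := fun hp5_0 => by
     linarith only [C_OPT_1_2_K1Kt, hp4_0, hp5_0, z_6, z_7, z_8]
    have hn5_1 : ¬ (b2 - b0 < et) := fun hp5_1 => by
     have hn6_0 : ¬ (b2 - b0 - p1 < d0_3) := fun hp6_0 => by
      linarith only [b_4, b_5, b_7, C_FW_1_2, C_OPT_1_2_x12x, hp3_0, hp6_0, z_0, z_1, z_2, z_3, z_4, z_5, z_6, z_7]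
     have hn6_1 : ¬ (a3 - a2 < et) := fun hp6_1 => by
      linarith only [b_9, hp6_1, z_4, z_8]
     have hn6_2 : ¬ (et < b2 - b0) := fun hp6_2 => by
      linarith only [hp5_1, hp6_2, z_3, z_8]
     rcases C_bf_1_et_1_2 with h | h | h
     exacts [hn6_0 h, hn6_1 h, hn6_2 h]
    have hn5_2 : ¬ (a3 - a2 < et) := fun hp5_2 => by
     linarith only [b_9, hp5_2, z_4, z_8]
    rcases C_f_et_1_2 with h | h | h
    exacts [hn5_0 h, hn5_1 h, hn5_2 h]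
   have hn4_1 : ¬ (b1 - b0 < e1) := fun hp4_1 => by
    linarith only [b_5, hp4_1, z_0, z_7]
   have hn4_2 : ¬ (a3 - a1 < e1) := fun hp4_2 => by
    linarith only [b_5, b_8, b_9, b_11, C_FW_1_2, C_OPT_1_2_x12x, C_gap_1_2, hp3_0, hp4_2, z_0, z_1, z_2, z_3, z_4, z_5, z_6, z_7, z_8]
   rcases C_f_e1_1_2 with h | h | h
   exacts [hn4_0 h, hn4_1 h, hn4_2 h]
  have hn3_1 : ¬ (b1 - b0 < p1) := fun hp3_1 => by
   linarith only [b_4, b_5, hp3_1, z_0, z_2, z_7]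
  have hn3_2 : ¬ (a3 - a1 < p1) := fun hp3_2 => by
   have hn7_0 : ¬ (p2 ≤ d0_3) := fun hp7_0 => by
    have hn8_0 : ¬ (a3 - a1 - p2 < d0_3) := fun hp8_0 => by
     linarith only [b_8, b_9, b_11, C_FW_1_2, C_OPT_1_2_x12x, hp7_0, hp8_0, z_0, z_1, z_2, z_3, z_4, z_5, z_6, z_8]
    have hn8_1 : ¬ (b1 - b0 < p1) := fun hp8_1 => by
     linarith only [b_4, b_5, hp8_1, z_0, z_2, z_7]
    have hn8_2 : ¬ (p1 < a3 - a1) := fun hp8_2 => by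
     linarith only [hp3_2, hp8_2, z_1, z_2]
    rcases C_fb_p1_2_1_2 with h | h | h
    exacts [hn8_0 h, hn8_1 h, hn8_2 h]
   have hn7_1 : ¬ (b2 - b0 < p2) := fun hp7_1 => by
    linarith only [b_0, b_1, b_4, b_5, b_8, b_9, hp3_2, hp7_1, z_0, z_1, z_2, z_3, z_4, z_5, z_7, z_8]
   have hn7_2 : ¬ (a3 - a2 < p2) := fun hp7_2 => by
    linarith only [b_8, b_9, hp7_2, z_4, z_5, z_8]
   rcases C_f_p2_1_2 with h | h | h
   exacts [hn7_0 h, hn7_1 h, hn7_2 h]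
  rcases C_f_p1_1_2 with h | h | h
  exacts [hn3_0 h, hn3_1 h, hn3_2 h]

theorem top_2 (hb : S.Blk z (2)) (hA : S.al z 1 < S.al z 0)
    (hD : S.be z 3 < S.be z 2) : S.Red z (2) := by
  by_contra hn
  obtain ⟨e1, he1, he1a, he1b, he1c, he1d, he1m⟩ := hb.irr1 (by omega) hA hn
  obtain ⟨et, het, heta, hetb, hetc, hetd, hetm⟩ : ∃ e, S.pp z 2 ∣ e ∧ e < S.al z 3 - S.al z 2 ∧ S.al z 3 - S.al z 2 ≤ e + S.pp z 2 ∧ S.pp z 2 ≤ e ∧ 2 * (S.be z 2 - S.be z 1) < e + S.pp z 2 ∧ (e ≤ S.pp z 2 ∨ 2 * S.pp z 2 ≤ e) :=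
    Blk.irrt (s := 1) hb hD hn
  have he1n : 0 ≤ e1 := (hb.pos (i := 1) (by omega) (by omega)).le.trans he1c
  have hetn : 0 ≤ et := (hb.pos (i := 2) (by omega) (by omega)).le.trans hetc
  have b_0 : S.be z 1 ≤ S.be z 2 := hb.bem (i := 1) (j := 2) (by omega) (by omega)
  have b_1 : S.al z 1 ≤ S.al z 2 := hb.alm (i := 1) (j := 2) (by omega) (by omega) (by omega)
  have b_2 : 0 < S.pp z 1 := hb.pos (i := 1) (by omega) (by omega)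
  have b_3 : 0 < S.pp z 2 := hb.pos (i := 2) (by omega) (by omega)
  have b_4 : S.pp z 1 ≤ e1 := he1c
  have b_5 : e1 < S.be z 1 - S.be z 0 := he1a
  have b_6 : S.be z 1 - S.be z 0 ≤ e1 + S.pp z 1 := he1b
  have b_7 : 2 * (S.al z 2 - S.al z 1) < e1 + S.pp z 1 := he1d
  have b_8 : S.pp z 2 ≤ et := hetc
  have b_9 : et < S.al z 3 - S.al z 2 := heta
  have b_10 : S.al z 3 - S.al z 2 ≤ et + S.pp z 2 := hetb
  have b_11 : 2 * (S.be z 2 - S.be z 1) < et + S.pp z 2 := hetd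
  have z_0 : S.be z 0 ≤ S.be z 1 := hb.bem (i := 0) (j := 1) (by omega) (by omega)
  have z_1 : S.al z 1 ≤ S.al z 3 := hb.alm (i := 1) (j := 3) (by omega) (by omega) (by omega)
  have z_2 : 0 ≤ S.pp z 1 := (hb.pos (i := 1) (by omega) (by omega)).le
  have z_3 : S.be z 0 ≤ S.be z 2 := hb.bem (i := 0) (j := 2) (by omega) (by omega)
  have z_4 : S.al z 2 ≤ S.al z 3 := hb.alm (i := 2) (j := 3) (by omega) (by omega) (by omega)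
  have z_5 : 0 ≤ S.pp z 2 := (hb.pos (i := 2) (by omega) (by omega)).le
  have z_6 : 0 ≤ S.drop z 0 3 := hb.dnn (i := 0) (j := 3) (by omega) (by omega)
  have z_7 : 0 ≤ e1 := he1n
  have z_8 : 0 ≤ et := hetn
  have C_f_p1_1_2 : S.pp z 1 ≤ S.drop z 0 3 ∨ S.be z 1 - S.be z 0 < S.pp z 1 ∨ S.al z 3 - S.al z 1 < S.pp z 1 := hb.cl_f (i0 := 0) (j0 := 3) (i := 1) (by omega) (by omega) (by omega) (dvd_refl _)
  have C_f_e1_1_2 : e1 ≤ S.drop z 0 3 ∨ S.be z 1 - S.be z 0 < e1 ∨ S.al z 3 - S.al z 1 < e1 := hb.cl_f (i0 := 0) (j0 := 3) (i := 1) (by omega) (by omega) (by omega) he1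
  have C_f_et_1_2 : et ≤ S.drop z 0 3 ∨ S.be z 2 - S.be z 0 < et ∨ S.al z 3 - S.al z 2 < et := hb.cl_f (i0 := 0) (j0 := 3) (i := 2) (by omega) (by omega) (by omega) het
  have C_OPT_1_2_K1Kt : 2 * S.drop z 0 3 < e1 + et := by
    have g : S.Good z 0 3 (e1 + S.Ex z 2 0 + et) := hb.good_KK hA hD he1 he1b het hetb (m := 0) (by omega)
    have g2 := not_red hn g (by omega) (by omega)
    have : S.Ex z 2 0 = 0 := rfl
    linarith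
  have C_bf_1_et_1_2 : S.be z 2 - S.be z 0 - S.pp z 1 < S.drop z 0 3 ∨ S.al z 3 - S.al z 2 < et ∨ et < S.be z 2 - S.be z 0 := hb.cl_bf (i0 := 0) (j0 := 3) (i := 2) (j := 1) (by omega) (by omega) (by omega) (by omega) (by omega) (by omega) het
  have C_FW_1_2 : S.be z 1 - S.al z 2 < S.pp z 1 + S.pp z 2 := hb.fw (i := 1) (j := 2) (by omega) (by omega) (by omega)
  have C_OPT_1_2_x12x : 2 * S.drop z 0 3 < (S.be z 2 - S.al z 1 - S.pp z 1 - S.pp z 2) := by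
    have g : S.Good z 0 3 (S.Ex z 1 1) := hb.good_P (i := 0) (m := 1) (j := 3) (by omega) (by omega)
    have g2 := not_red hn g (by omega) (by omega)
    have : S.Ex z 1 1 = ((S.be z 2 - S.al z 1 - S.pp z 1 - S.pp z 2) + 0) := rfl
    linarith
  have C_gap_1_2 : S.al z 3 - S.be z 0 ≤ S.drop z 0 3 := gap_le _ _
  have C_f_p2_1_2 : S.pp z 2 ≤ S.drop z 0 3 ∨ S.be z 2 - S.be z 0 < S.pp z 2 ∨ S.al z 3 - S.al z 2 < S.pp z 2 := hb.cl_f (i0 := 0) (j0 := 3) (i := 2) (by omega) (by omega) (by omega) (dvd_refl _)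
  have C_fb_p1_2_1_2 : S.al z 3 - S.al z 1 - S.pp z 2 < S.drop z 0 3 ∨ S.be z 1 - S.be z 0 < S.pp z 1 ∨ S.pp z 1 < S.al z 3 - S.al z 1 := hb.cl_fb (i0 := 0) (j0 := 3) (i := 1) (j := 2) (by omega) (by omega) (by omega) (by omega) (by omega) (by omega) (dvd_refl _)
  exact arith_2 b_0 b_1 b_2 b_3 b_4 b_5 b_6 b_7 b_8 b_9 b_10 b_11 z_0 z_1 z_2 z_3 z_4 z_5 z_6 z_7 z_8 C_f_p1_1_2 C_f_e1_1_2 C_f_et_1_2 C_OPT_1_2_K1Kt C_bf_1_et_1_2 C_FW_1_2 C_OPT_1_2_x12x C_gap_1_2 C_f_p2_1_2 C_fb_p1_2_1_2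

end Sys

end Crest.Agent.R287
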