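import Crest.Agent.R287.TopAux

/-! # R287: irreducible top blocks do not exist (generated case analysis of linear inequalities) -/

set_option autoImplicit false
open Finset

namespace Crest.Agent.R287

namespace Sys

variable {S : Sys} {z : ℕ → S.E}

set_option maxHeartbeats 0 in
set_option linter.unusedVariables false in
theorem arith_3 {a1 a2 a3 a4 b0 b1 b2 b3 d0_3 d0_4 d1_4 e1 et p1 p2 p3 : ℤ}
    (b_0 : b1 ≤ b2)
    (b_1 : a1 ≤ a2)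
    (b_2 : b2 ≤ b3)
    (b_3 : a2 ≤ a3)
    (b_4 : 0 < p1)
    (b_5 : 0 < p2)
    (b_6 : 0 < p3)
    (b_7 : p1 ≤ e1)
    (b_8 : e1 < b1 - b0)
    (b_9 : b1 - b0 ≤ e1 + p1)
    (b_10 : 2 * (a2 - a1) < e1 + p1)
    (b_11 : p3 ≤ et)
    (b_12 : et < a4 - a3)
    (b_13 : a4 - a3 ≤ et + p3)
    (b_14 : 2 * (b3 - b2) < et + p3)
    (z_0 : b0 ≤ b1)
    (z_1 : a1 ≤ a4)
    (z_2 : 0 ≤ p1)
    (z_3 : b0 ≤ b2)
    (z_4 : a2 ≤ a4)
    (z_5 : 0 ≤ p2)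
    (z_6 : b0 ≤ b3)
    (z_7 : a3 ≤ a4)
    (z_8 : 0 ≤ p3)
    (z_9 : 0 ≤ d0_3)
    (z_10 : 0 ≤ d0_4)
    (z_11 : 0 ≤ d1_4)
    (z_12 : 0 ≤ e1)
    (z_13 : 0 ≤ et)
    (C_own_1_1_2 : b1 - b0 - p1 < d0_3 ∨ a3 - a1 - p1 < d0_3)
    (C_f_p2_1_2 : p2 ≤ d0_3 ∨ b2 - b0 < p2 ∨ a3 - a2 < p2)
    (C_ff_p1_p2_1_3 : p1 + p2 ≤ d0_4 ∨ b1 - b0 < p1 ∨ a4 - a2 < p2 ∨ a4 - a1 < p1 + p2 ∨ b2 - b0 < p1 + p2)
    (C_FW_1_2 : b1 - a2 < p1 + p2)
    (C_FW_2_3 : b2 - a3 < p2 + p3)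
    (C_OPT_1_3_K1x23x : 2 * d0_4 < e1 + (b3 - a2 - p2 - p3))
    (C_gap_1_3 : a4 - b0 ≤ d0_4)
    (C_OPT_1_2_x12x : 2 * d0_3 < (b2 - a1 - p1 - p2))
    (C_gap_1_2 : a3 - b0 ≤ d0_3)
    (C_f_p1_1_2 : p1 ≤ d0_3 ∨ b1 - b0 < p1 ∨ a3 - a1 < p1)
    (C_f_et_1_3 : et ≤ d0_4 ∨ b3 - b0 < et ∨ a4 - a3 < et)
    (C_OPT_1_3_x12xKt : 2 * d0_4 < (b2 - a1 - p1 - p2) + et)
    (C_bf_1_p2_1_2 : b2 - b0 - p1 < d0_3 ∨ a3 - a2 < p2 ∨ p2 < b2 - b0)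
    (C_f_p1_1_3 : p1 ≤ d0_4 ∨ b1 - b0 < p1 ∨ a4 - a1 < p1)
    (C_FW_1_3 : b1 - a3 < p1 + p3)
    (C_FW3_1_2_3 : b2 - a2 - p2 < p1 + p3 ∨ b2 - a3 < p1 + p3 ∨ b1 - a2 < p1 + p3 ∨ b1 - a3 + p2 < p1 + p3)
    (C_g1_p3_1_3 : p3 + e1 ≤ d0_4 ∨ b3 - b0 - p1 < d0_4 ∨ a4 - a1 - p1 < d0_4 ∨ a4 - a3 < p3 ∨ b3 - b0 < p3)
    (C_OPT_2_3_x23x : 2 * d1_4 < (b3 - a2 - p2 - p3))
    (C_f_p2_1_3 : p2 ≤ d0_4 ∨ b2 - b0 < p2 ∨ a4 - a2 < p2)
    (C_gt_e1_1_3 : e1 + et ≤ d0_4 ∨ a4 - a1 - p3 < d0_4 ∨ b3 - b0 - p3 < d0_4 ∨ a4 - a1 < e1 ∨ b1 - b0 < e1)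
    (C_f_p3_1_3 : p3 ≤ d0_4 ∨ b3 - b0 < p3 ∨ a4 - a3 < p3)
    (C_fb_p2_3_1_3 : a4 - a2 - p3 < d0_4 ∨ b2 - b0 < p2 ∨ p2 < a4 - a2)
    (C_e1mult : e1 ≤ p1 ∨ 2 * p1 ≤ e1) : False := by
  have hn54_0 : ¬ (b1 - b0 - p1 < d0_3) := fun hp54_0 => by
   have hn55_0 : ¬ (p2 ≤ d0_3) := fun hp55_0 => by
    have hn57_0 : ¬ (p1 + p2 ≤ d0_4) := fun hp57_0 => by
     linarith only [b_8, b_11, b_12, b_14, C_FW_1_2, C_FW_2_3, C_OPT_1_3_K1x23x, C_gap_1_3, hp57_0, z_0, z_2, z_3, z_4, z_5, z_6, z_7, z_8, z_10, z_12, z_13]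
    have hn57_1 : ¬ (b1 - b0 < p1) := fun hp57_1 => by
     linarith only [b_7, b_8, hp57_1, z_0, z_2, z_12]
    have hn57_2 : ¬ (a4 - a2 < p2) := fun hp57_2 => by
     linarith only [b_3, b_8, b_10, b_11, b_12, C_FW_1_2, C_FW_2_3, C_OPT_1_2_x12x, C_gap_1_2, hp55_0, hp57_2, z_0, z_1, z_2, z_3, z_4, z_5, z_7, z_8, z_9, z_12, z_13]
    have hn57_3 : ¬ (a4 - a1 < p1 + p2) := fun hp57_3 => by
     linarith only [b_11, b_12, C_FW_2_3, C_OPT_1_2_x12x, hp55_0, hp57_3, z_1, z_2, z_3, z_5, z_7, z_8, z_9, z_13]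
    have hn57_4 : ¬ (b2 - b0 < p1 + p2) := fun hp57_4 => by
     have hn59_0 : ¬ (p1 ≤ d0_3) := fun hp59_0 => by
      linarith only [b_7, b_8, b_10, C_FW_1_2, C_OPT_1_2_x12x, hp55_0, hp57_4, hp59_0, z_0, z_1, z_2, z_3, z_4, z_5, z_9, z_12]
     have hn59_1 : ¬ (b1 - b0 < p1) := fun hp59_1 => by
      linarith only [b_7, b_8, hp59_1, z_0, z_2, z_12]
     have hn59_2 : ¬ (a3 - a1 < p1) := fun hp59_2 => by
      have hn60_0 : ¬ (et ≤ d0_4) := fun hp60_0 => by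
       linarith only [b_11, C_FW_2_3, C_OPT_1_3_x12xKt, hp59_2, hp60_0, z_1, z_2, z_3, z_5, z_7, z_8, z_10, z_13]
      have hn60_1 : ¬ (b3 - b0 < et) := fun hp60_1 => by
       linarith only [b_0, b_2, b_3, b_7, b_8, b_10, b_12, C_FW_1_2, C_FW_2_3, C_OPT_1_2_x12x, C_OPT_1_3_K1x23x, C_gap_1_3, hp55_0, hp60_1, z_0, z_1, z_2, z_3, z_4, z_5, z_6, z_7, z_8, z_9, z_10, z_12, z_13]
      have hn60_2 : ¬ (a4 - a3 < et) := fun hp60_2 => by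
       linarith only [b_12, hp60_2, z_7, z_13]
      rcases C_f_et_1_3 with h | h | h
      exacts [hn60_0 h, hn60_1 h, hn60_2 h]
     rcases C_f_p1_1_2 with h | h | h
     exacts [hn59_0 h, hn59_1 h, hn59_2 h]
    rcases C_ff_p1_p2_1_3 with h | h | h | h | h
    exacts [hn57_0 h, hn57_1 h, hn57_2 h, hn57_3 h, hn57_4 h]
   have hn55_1 : ¬ (b2 - b0 < p2) := fun hp55_1 => by
    have hn61_0 : ¬ (b2 - b0 - p1 < d0_3) := fun hp61_0 => by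
     have hn62_0 : ¬ (p1 ≤ d0_3) := fun hp62_0 => by
      linarith only [b_7, b_8, b_10, C_FW_1_2, C_OPT_1_2_x12x, hp61_0, hp62_0, z_0, z_1, z_2, z_3, z_4, z_5, z_9, z_12]
     have hn62_1 : ¬ (b1 - b0 < p1) := fun hp62_1 => by
      linarith only [b_7, b_8, hp62_1, z_0, z_2, z_12]
     have hn62_2 : ¬ (a3 - a1 < p1) := fun hp62_2 => by
      have hn63_0 : ¬ (et ≤ d0_4) := fun hp63_0 => by
       linarith only [b_11, C_FW_2_3, C_OPT_1_3_x12xKt, hp62_2, hp63_0, z_1, z_2, z_3, z_5, z_7, z_8, z_10, z_13]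
      have hn63_1 : ¬ (b3 - b0 < et) := fun hp63_1 => by
       have hn64_0 : ¬ (p1 ≤ d0_4) := fun hp64_0 => by
        linarith only [b_7, b_8, b_12, C_FW_1_2, C_FW_1_3, C_OPT_1_3_K1x23x, C_gap_1_3, hp63_1, hp64_0, z_0, z_2, z_4, z_5, z_6, z_7, z_8, z_10, z_12, z_13]
       have hn64_1 : ¬ (b1 - b0 < p1) := fun hp64_1 => by
        linarith only [b_7, b_8, hp64_1, z_0, z_2, z_12]
       have hn64_2 : ¬ (a4 - a1 < p1) := fun hp64_2 => by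
        linarith only [b_11, b_12, C_FW_2_3, C_OPT_1_2_x12x, hp64_2, z_1, z_2, z_3, z_5, z_7, z_8, z_9, z_13]
       rcases C_f_p1_1_3 with h | h | h
       exacts [hn64_0 h, hn64_1 h, hn64_2 h]
      have hn63_2 : ¬ (a4 - a3 < et) := fun hp63_2 => by
       linarith only [b_12, hp63_2, z_7, z_13]
      rcases C_f_et_1_3 with h | h | h
      exacts [hn63_0 h, hn63_1 h, hn63_2 h]
     rcases C_f_p1_1_2 with h | h | h
     exacts [hn62_0 h, hn62_1 h, hn62_2 h]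
    have hn61_1 : ¬ (a3 - a2 < p2) := fun hp61_1 => by
     have hn65_0 : ¬ (b2 - a2 - p2 < p1 + p3) := fun hp65_0 => by
      have hn66_0 : ¬ (p1 ≤ d0_3) := fun hp66_0 => by
       have hn67_0 : ¬ (p3 + e1 ≤ d0_4) := fun hp67_0 => by
        linarith only [b_7, b_8, b_10, b_12, b_14, C_FW_1_3, C_OPT_1_2_x12x, C_OPT_1_3_K1x23x, C_gap_1_3, hp65_0, hp66_0, hp67_0, z_0, z_1, z_2, z_3, z_4, z_5, z_6, z_7, z_8, z_9, z_10, z_12, z_13]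
       have hn67_1 : ¬ (b3 - b0 - p1 < d0_4) := fun hp67_1 => by
        linarith only [b_2, b_8, b_10, C_FW_1_2, C_OPT_1_2_x12x, C_OPT_1_3_K1x23x, hp65_0, hp66_0, hp67_1, z_0, z_1, z_2, z_3, z_4, z_5, z_6, z_8, z_9, z_10, z_12]
       have hn67_2 : ¬ (a4 - a1 - p1 < d0_4) := fun hp67_2 => by
        linarith only [b_1, b_7, b_8, b_11, b_12, b_14, C_FW_1_3, C_OPT_1_2_x12x, C_OPT_1_3_K1x23x, hp55_1, hp66_0, hp67_2, z_0, z_1, z_2, z_3, z_4, z_5, z_6, z_7, z_8, z_9, z_10, z_12, z_13]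
       have hn67_3 : ¬ (a4 - a3 < p3) := fun hp67_3 => by
        linarith only [b_11, b_12, hp67_3, z_7, z_8, z_13]
       have hn67_4 : ¬ (b3 - b0 < p3) := fun hp67_4 => by
        linarith only [b_7, b_8, C_FW_1_2, C_OPT_2_3_x23x, hp67_4, z_0, z_2, z_4, z_5, z_6, z_8, z_11, z_12]
       rcases C_g1_p3_1_3 with h | h | h | h | h
       exacts [hn67_0 h, hn67_1 h, hn67_2 h, hn67_3 h, hn67_4 h]
      have hn66_1 : ¬ (b1 - b0 < p1) := fun hp66_1 => by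
       linarith only [b_7, b_8, hp66_1, z_0, z_2, z_12]
      have hn66_2 : ¬ (a3 - a1 < p1) := fun hp66_2 => by
       have hn68_0 : ¬ (p1 ≤ d0_4) := fun hp68_0 => by
        have hn69_0 : ¬ (et ≤ d0_4) := fun hp69_0 => by
         linarith only [b_11, C_FW_2_3, C_OPT_1_3_x12xKt, hp66_2, hp69_0, z_1, z_2, z_3, z_5, z_7, z_8, z_10, z_13]
        have hn69_1 : ¬ (b3 - b0 < et) := fun hp69_1 => by
         linarith only [b_7, b_8, b_12, C_FW_1_2, C_FW_1_3, C_OPT_1_3_K1x23x, C_gap_1_3, hp68_0, hp69_1, z_0, z_2, z_4, z_5, z_6, z_7, z_8, z_10, z_12, z_13]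
        have hn69_2 : ¬ (a4 - a3 < et) := fun hp69_2 => by
         linarith only [b_12, hp69_2, z_7, z_13]
        rcases C_f_et_1_3 with h | h | h
        exacts [hn69_0 h, hn69_1 h, hn69_2 h]
       have hn68_1 : ¬ (b1 - b0 < p1) := fun hp68_1 => by
        linarith only [b_7, b_8, hp68_1, z_0, z_2, z_12]
       have hn68_2 : ¬ (a4 - a1 < p1) := fun hp68_2 => by
        linarith only [b_11, b_12, C_FW_2_3, C_OPT_1_2_x12x, hp68_2, z_1, z_2, z_3, z_5, z_7, z_8, z_9, z_13]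
       rcases C_f_p1_1_3 with h | h | h
       exacts [hn68_0 h, hn68_1 h, hn68_2 h]
      rcases C_f_p1_1_2 with h | h | h
      exacts [hn66_0 h, hn66_1 h, hn66_2 h]
     have hn65_1 : ¬ (b2 - a3 < p1 + p3) := fun hp65_1 => by
      linarith only [hp61_1, not_lt.1 hn65_0, hp65_1, z_2, z_3, z_4, z_5, z_7, z_8]
     have hn65_2 : ¬ (b1 - a2 < p1 + p3) := fun hp65_2 => by
      linarith only [hp55_1, not_lt.1 hn65_0, hp65_2, z_0, z_2, z_3, z_4, z_5, z_8]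
     have hn65_3 : ¬ (b1 - a3 + p2 < p1 + p3) := fun hp65_3 => by
      linarith only [b_0, b_7, b_8, b_11, b_12, b_14, C_FW_1_2, C_OPT_1_3_K1x23x, C_gap_1_3, hp55_1, hp65_3, z_0, z_2, z_3, z_4, z_5, z_6, z_7, z_8, z_10, z_12, z_13]
     rcases C_FW3_1_2_3 with h | h | h | h
     exacts [hn65_0 h, hn65_1 h, hn65_2 h, hn65_3 h]
    have hn61_2 : ¬ (p2 < b2 - b0) := fun hp61_2 => by
     linarith only [hp55_1, hp61_2, z_3, z_5]
    rcases C_bf_1_p2_1_2 with h | h | h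
    exacts [hn61_0 h, hn61_1 h, hn61_2 h]
   have hn55_2 : ¬ (a3 - a2 < p2) := fun hp55_2 => by
    have hn70_0 : ¬ (p2 ≤ d0_4) := fun hp70_0 => by
     have hn71_0 : ¬ (p1 ≤ d0_3) := fun hp71_0 => by
      have hn72_0 : ¬ (e1 + et ≤ d0_4) := fun hp72_0 => by
       linarith only [b_11, b_14, C_FW_2_3, C_OPT_1_3_K1x23x, hp55_2, hp70_0, hp72_0, z_3, z_4, z_5, z_6, z_7, z_8, z_10, z_12, z_13]
      have hn72_1 : ¬ (a4 - a1 - p3 < d0_4) := fun hp72_1 => by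
       have hn73_0 : ¬ (p3 + e1 ≤ d0_4) := fun hp73_0 => by
        linarith only [b_1, b_11, b_12, b_14, C_FW_2_3, C_OPT_1_3_K1x23x, hp72_1, hp73_0, z_1, z_3, z_4, z_5, z_6, z_7, z_8, z_10, z_12, z_13]
       have hn73_1 : ¬ (b3 - b0 - p1 < d0_4) := fun hp73_1 => by
        linarith only [b_2, b_7, b_8, b_10, C_FW_1_2, C_FW_2_3, C_OPT_1_2_x12x, C_OPT_1_3_K1x23x, hp71_0, hp72_1, hp73_1, z_0, z_1, z_2, z_3, z_4, z_5, z_6, z_7, z_8, z_9, z_10, z_12]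
       have hn73_2 : ¬ (a4 - a1 - p1 < d0_4) := fun hp73_2 => by
        have hn74_0 : ¬ (p3 ≤ d0_4) := fun hp74_0 => by
         linarith only [b_12, C_FW_2_3, C_OPT_1_3_x12xKt, hp73_2, hp74_0, z_1, z_2, z_3, z_5, z_7, z_8, z_10, z_13]
        have hn74_1 : ¬ (b3 - b0 < p3) := fun hp74_1 => by
         linarith only [b_7, b_8, C_FW_1_2, C_OPT_2_3_x23x, hp74_1, z_0, z_2, z_4, z_5, z_6, z_8, z_11, z_12]
        have hn74_2 : ¬ (a4 - a3 < p3) := fun hp74_2 => by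
         linarith only [b_11, b_12, hp74_2, z_7, z_8, z_13]
        rcases C_f_p3_1_3 with h | h | h
        exacts [hn74_0 h, hn74_1 h, hn74_2 h]
       have hn73_3 : ¬ (a4 - a3 < p3) := fun hp73_3 => by
        linarith only [b_11, b_12, hp73_3, z_7, z_8, z_13]
       have hn73_4 : ¬ (b3 - b0 < p3) := fun hp73_4 => by
        linarith only [b_7, b_8, C_FW_1_2, C_OPT_2_3_x23x, hp73_4, z_0, z_2, z_4, z_5, z_6, z_8, z_11, z_12]
       rcases C_g1_p3_1_3 with h | h | h | h | h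
       exacts [hn73_0 h, hn73_1 h, hn73_2 h, hn73_3 h, hn73_4 h]
      have hn72_2 : ¬ (b3 - b0 - p3 < d0_4) := fun hp72_2 => by
       linarith only [b_7, b_8, b_10, b_11, b_12, C_FW_1_2, C_FW_2_3, C_OPT_1_2_x12x, C_OPT_1_3_K1x23x, C_gap_1_3, hp70_0, hp71_0, hp72_2, z_0, z_1, z_2, z_3, z_4, z_5, z_6, z_7, z_8, z_9, z_10, z_12, z_13]
      have hn72_3 : ¬ (a4 - a1 < e1) := fun hp72_3 => by
       linarith only [b_8, b_11, b_12, C_FW_2_3, C_OPT_1_2_x12x, hp54_0, hp72_3, z_0, z_1, z_2, z_3, z_5, z_7, z_8, z_9, z_12, z_13]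
      have hn72_4 : ¬ (b1 - b0 < e1) := fun hp72_4 => by
       linarith only [b_8, hp72_4, z_0, z_12]
      rcases C_gt_e1_1_3 with h | h | h | h | h
      exacts [hn72_0 h, hn72_1 h, hn72_2 h, hn72_3 h, hn72_4 h]
     have hn71_1 : ¬ (b1 - b0 < p1) := fun hp71_1 => by
      linarith only [b_7, b_8, hp71_1, z_0, z_2, z_12]
     have hn71_2 : ¬ (a3 - a1 < p1) := fun hp71_2 => by
      have hn75_0 : ¬ (et ≤ d0_4) := fun hp75_0 => by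
       linarith only [b_11, C_FW_2_3, C_OPT_1_3_x12xKt, hp71_2, hp75_0, z_1, z_2, z_3, z_5, z_7, z_8, z_10, z_13]
      have hn75_1 : ¬ (b3 - b0 < et) := fun hp75_1 => by
       linarith only [b_0, b_7, b_8, b_12, C_FW_1_2, C_FW_2_3, C_OPT_1_3_K1x23x, C_gap_1_3, hp70_0, hp75_1, z_0, z_2, z_3, z_4, z_5, z_6, z_7, z_8, z_10, z_12, z_13]
      have hn75_2 : ¬ (a4 - a3 < et) := fun hp75_2 => by
       linarith only [b_12, hp75_2, z_7, z_13]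
      rcases C_f_et_1_3 with h | h | h
      exacts [hn75_0 h, hn75_1 h, hn75_2 h]
     rcases C_f_p1_1_2 with h | h | h
     exacts [hn71_0 h, hn71_1 h, hn71_2 h]
    have hn70_1 : ¬ (b2 - b0 < p2) := fun hp70_1 => by
     linarith only [not_lt.1 hn55_1, hp70_1, z_3, z_5]
    have hn70_2 : ¬ (a4 - a2 < p2) := fun hp70_2 => by
     have hn76_0 : ¬ (a4 - a2 - p3 < d0_4) := fun hp76_0 => by
      have hn77_0 : ¬ (p1 ≤ d0_3) := fun hp77_0 => by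
       have hn78_0 : ¬ (e1 ≤ p1) := fun hp78_0 => by
        have hn79_0 : ¬ (p3 + e1 ≤ d0_4) := fun hp79_0 => by
         linarith only [b_11, b_12, b_14, C_FW_2_3, C_OPT_1_3_K1x23x, hp76_0, hp79_0, z_3, z_4, z_5, z_6, z_7, z_8, z_10, z_12, z_13]
        have hn79_1 : ¬ (b3 - b0 - p1 < d0_4) := fun hp79_1 => by
         linarith only [b_8, b_10, b_11, b_12, C_FW_1_2, C_FW_2_3, C_OPT_1_2_x12x, C_OPT_1_3_K1x23x, hp76_0, hp77_0, hp78_0, hp79_1, z_0, z_1, z_2, z_3, z_4, z_5, z_6, z_7, z_8, z_9, z_10, z_12, z_13]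
        have hn79_2 : ¬ (a4 - a1 - p1 < d0_4) := fun hp79_2 => by
         linarith only [b_1, b_11, b_12, b_14, C_FW_2_3, C_OPT_1_2_x12x, C_OPT_1_3_K1x23x, hp77_0, hp78_0, hp79_2, z_1, z_2, z_3, z_4, z_5, z_6, z_7, z_8, z_9, z_10, z_12, z_13]
        have hn79_3 : ¬ (a4 - a3 < p3) := fun hp79_3 => by
         linarith only [b_11, b_12, hp79_3, z_7, z_8, z_13]
        have hn79_4 : ¬ (b3 - b0 < p3) := fun hp79_4 => by
         linarith only [b_7, b_8, C_FW_1_2, C_OPT_2_3_x23x, hp79_4, z_0, z_2, z_4, z_5, z_6, z_8, z_11, z_12]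
        rcases C_g1_p3_1_3 with h | h | h | h | h
        exacts [hn79_0 h, hn79_1 h, hn79_2 h, hn79_3 h, hn79_4 h]
       have hn78_1 : ¬ (2 * p1 ≤ e1) := fun hp78_1 => by
        have hn82_0 : ¬ (p3 ≤ d0_4) := fun hp82_0 => by
         have hn83_0 : ¬ (p3 + e1 ≤ d0_4) := fun hp83_0 => by
          linarith only [b_11, b_12, b_14, C_FW_2_3, C_OPT_1_3_K1x23x, hp76_0, hp83_0, z_3, z_4, z_5, z_6, z_7, z_8, z_10, z_12, z_13]
         have hn83_1 : ¬ (b3 - b0 - p1 < d0_4) := fun hp83_1 => by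
          linarith only [b_2, b_8, b_10, b_12, C_FW_1_2, C_FW_1_3, C_OPT_1_2_x12x, C_OPT_1_3_K1x23x, C_OPT_1_3_x12xKt, C_gap_1_3, hp54_0, hp78_1, hp83_1, z_0, z_1, z_2, z_3, z_4, z_5, z_6, z_7, z_8, z_9, z_10, z_12, z_13]
         have hn83_2 : ¬ (a4 - a1 - p1 < d0_4) := fun hp83_2 => by
          linarith only [b_12, C_FW_2_3, C_OPT_1_3_x12xKt, hp82_0, hp83_2, z_1, z_2, z_3, z_5, z_7, z_8, z_10, z_13]
         have hn83_3 : ¬ (a4 - a3 < p3) := fun hp83_3 => by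
          linarith only [b_11, b_12, hp83_3, z_7, z_8, z_13]
         have hn83_4 : ¬ (b3 - b0 < p3) := fun hp83_4 => by
          linarith only [b_7, b_8, C_FW_1_2, C_OPT_2_3_x23x, hp83_4, z_0, z_2, z_4, z_5, z_6, z_8, z_11, z_12]
         rcases C_g1_p3_1_3 with h | h | h | h | h
         exacts [hn83_0 h, hn83_1 h, hn83_2 h, hn83_3 h, hn83_4 h]
        have hn82_1 : ¬ (b3 - b0 < p3) := fun hp82_1 => by
         linarith only [b_7, b_8, C_FW_1_2, C_OPT_2_3_x23x, hp82_1, z_0, z_2, z_4, z_5, z_6, z_8, z_11, z_12]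
        have hn82_2 : ¬ (a4 - a3 < p3) := fun hp82_2 => by
         linarith only [b_11, b_12, hp82_2, z_7, z_8, z_13]
        rcases C_f_p3_1_3 with h | h | h
        exacts [hn82_0 h, hn82_1 h, hn82_2 h]
       rcases C_e1mult with h | h
       exacts [hn78_0 h, hn78_1 h]
      have hn77_1 : ¬ (b1 - b0 < p1) := fun hp77_1 => by
       linarith only [b_7, b_8, hp77_1, z_0, z_2, z_12]
      have hn77_2 : ¬ (a3 - a1 < p1) := fun hp77_2 => by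
       have hn84_0 : ¬ (et ≤ d0_4) := fun hp84_0 => by
        linarith only [b_11, C_FW_2_3, C_OPT_1_3_x12xKt, hp77_2, hp84_0, z_1, z_2, z_3, z_5, z_7, z_8, z_10, z_13]
       have hn84_1 : ¬ (b3 - b0 < et) := fun hp84_1 => by
        linarith only [b_7, b_8, b_12, C_FW_1_3, C_OPT_2_3_x23x, hp70_2, hp84_1, z_0, z_2, z_4, z_5, z_6, z_7, z_8, z_11, z_12, z_13]
       have hn84_2 : ¬ (a4 - a3 < et) := fun hp84_2 => by
        linarith only [b_12, hp84_2, z_7, z_13]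
       rcases C_f_et_1_3 with h | h | h
       exacts [hn84_0 h, hn84_1 h, hn84_2 h]
      rcases C_f_p1_1_2 with h | h | h
      exacts [hn77_0 h, hn77_1 h, hn77_2 h]
     have hn76_1 : ¬ (b2 - b0 < p2) := fun hp76_1 => by
      linarith only [not_lt.1 hn55_1, hp76_1, z_3, z_5]
     have hn76_2 : ¬ (p2 < a4 - a2) := fun hp76_2 => by
      linarith only [hp70_2, hp76_2, z_4, z_5]
     rcases C_fb_p2_3_1_3 with h | h | h
     exacts [hn76_0 h, hn76_1 h, hn76_2 h]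
    rcases C_f_p2_1_3 with h | h | h
    exacts [hn70_0 h, hn70_1 h, hn70_2 h]
   rcases C_f_p2_1_2 with h | h | h
   exacts [hn55_0 h, hn55_1 h, hn55_2 h]
  have hn54_1 : ¬ (a3 - a1 - p1 < d0_3) := fun hp54_1 => by
   have hn85_0 : ¬ (p1 ≤ d0_4) := fun hp85_0 => by
    have hn86_0 : ¬ (e1 + et ≤ d0_4) := fun hp86_0 => by
     linarith only [b_1, b_7, b_11, b_14, C_FW_2_3, C_OPT_1_2_x12x, C_OPT_1_3_K1x23x, hp54_1, hp86_0, z_1, z_2, z_3, z_4, z_5, z_6, z_7, z_8, z_9, z_10, z_12, z_13]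
    have hn86_1 : ¬ (a4 - a1 - p3 < d0_4) := fun hp86_1 => by
     have hn87_0 : ¬ (p3 ≤ d0_4) := fun hp87_0 => by
      have hn88_0 : ¬ (p3 + e1 ≤ d0_4) := fun hp88_0 => by
       linarith only [b_1, b_11, b_12, b_14, C_FW_2_3, C_OPT_1_3_K1x23x, hp86_1, hp88_0, z_1, z_3, z_4, z_5, z_6, z_7, z_8, z_10, z_12, z_13]
      have hn88_1 : ¬ (b3 - b0 - p1 < d0_4) := fun hp88_1 => by
       linarith only [b_8, b_12, C_FW_1_2, C_FW_2_3, C_OPT_1_3_K1x23x, C_OPT_1_3_x12xKt, hp85_0, hp86_1, hp88_1, z_0, z_1, z_2, z_3, z_4, z_5, z_6, z_7, z_8, z_10, z_12, z_13]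
      have hn88_2 : ¬ (a4 - a1 - p1 < d0_4) := fun hp88_2 => by
       linarith only [b_12, C_FW_2_3, C_OPT_1_3_x12xKt, hp87_0, hp88_2, z_1, z_2, z_3, z_5, z_7, z_8, z_10, z_13]
      have hn88_3 : ¬ (a4 - a3 < p3) := fun hp88_3 => by
       linarith only [b_11, b_12, hp88_3, z_7, z_8, z_13]
      have hn88_4 : ¬ (b3 - b0 < p3) := fun hp88_4 => by
       linarith only [b_7, b_8, C_FW_1_2, C_OPT_2_3_x23x, hp88_4, z_0, z_2, z_4, z_5, z_6, z_8, z_11, z_12]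
      rcases C_g1_p3_1_3 with h | h | h | h | h
      exacts [hn88_0 h, hn88_1 h, hn88_2 h, hn88_3 h, hn88_4 h]
     have hn87_1 : ¬ (b3 - b0 < p3) := fun hp87_1 => by
      linarith only [b_7, b_8, C_FW_1_2, C_OPT_2_3_x23x, hp87_1, z_0, z_2, z_4, z_5, z_6, z_8, z_11, z_12]
     have hn87_2 : ¬ (a4 - a3 < p3) := fun hp87_2 => by
      linarith only [b_11, b_12, hp87_2, z_7, z_8, z_13]
     rcases C_f_p3_1_3 with h | h | h
     exacts [hn87_0 h, hn87_1 h, hn87_2 h]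
    have hn86_2 : ¬ (b3 - b0 - p3 < d0_4) := fun hp86_2 => by
     linarith only [b_8, C_FW_1_2, C_OPT_1_3_K1x23x, hp85_0, hp86_2, z_0, z_2, z_4, z_5, z_6, z_8, z_10, z_12]
    have hn86_3 : ¬ (a4 - a1 < e1) := fun hp86_3 => by
     linarith only [b_8, b_11, b_12, C_FW_1_3, C_FW_2_3, C_OPT_1_3_x12xKt, C_gap_1_3, hp85_0, not_lt.1 hn86_1, hp86_3, z_0, z_1, z_2, z_3, z_5, z_7, z_8, z_10, z_12, z_13]
    have hn86_4 : ¬ (b1 - b0 < e1) := fun hp86_4 => by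
     linarith only [b_8, hp86_4, z_0, z_12]
    rcases C_gt_e1_1_3 with h | h | h | h | h
    exacts [hn86_0 h, hn86_1 h, hn86_2 h, hn86_3 h, hn86_4 h]
   have hn85_1 : ¬ (b1 - b0 < p1) := fun hp85_1 => by
    linarith only [b_7, b_8, hp85_1, z_0, z_2, z_12]
   have hn85_2 : ¬ (a4 - a1 < p1) := fun hp85_2 => by
    linarith only [b_11, b_12, C_FW_2_3, C_OPT_1_2_x12x, hp85_2, z_1, z_2, z_3, z_5, z_7, z_8, z_9, z_13]
   rcases C_f_p1_1_3 with h | h | h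
   exacts [hn85_0 h, hn85_1 h, hn85_2 h]
  rcases C_own_1_1_2 with h | h
  exacts [hn54_0 h, hn54_1 h]

theorem top_3 (hb : S.Blk z (3)) (hA : S.al z 1 < S.al z 0)
    (hD : S.be z 4 < S.be z 3) : S.Red z (3) := by
  by_contra hn
  obtain ⟨e1, he1, he1a, he1b, he1c, he1d, he1m⟩ := hb.irr1 (by omega) hA hn
  obtain ⟨et, het, heta, hetb, hetc, hetd, hetm⟩ : ∃ e, S.pp z 3 ∣ e ∧ e < S.al z 4 - S.al z 3 ∧ S.al z 4 - S.al z 3 ≤ e + S.pp z 3 ∧ S.pp z 3 ≤ e ∧ 2 * (S.be z 3 - S.be z 2) < e + S.pp z 3 ∧ (e ≤ S.pp z 3 ∨ 2 * S.pp z 3 ≤ e) :=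
    Blk.irrt (s := 2) hb hD hn
  have he1n : 0 ≤ e1 := (hb.pos (i := 1) (by omega) (by omega)).le.trans he1c
  have hetn : 0 ≤ et := (hb.pos (i := 3) (by omega) (by omega)).le.trans hetc
  have b_0 : S.be z 1 ≤ S.be z 2 := hb.bem (i := 1) (j := 2) (by omega) (by omega)
  have b_1 : S.al z 1 ≤ S.al z 2 := hb.alm (i := 1) (j := 2) (by omega) (by omega) (by omega)
  have b_2 : S.be z 2 ≤ S.be z 3 := hb.bem (i := 2) (j := 3) (by omega) (by omega)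
  have b_3 : S.al z 2 ≤ S.al z 3 := hb.alm (i := 2) (j := 3) (by omega) (by omega) (by omega)
  have b_4 : 0 < S.pp z 1 := hb.pos (i := 1) (by omega) (by omega)
  have b_5 : 0 < S.pp z 2 := hb.pos (i := 2) (by omega) (by omega)
  have b_6 : 0 < S.pp z 3 := hb.pos (i := 3) (by omega) (by omega)
  have b_7 : S.pp z 1 ≤ e1 := he1c
  have b_8 : e1 < S.be z 1 - S.be z 0 := he1a
  have b_9 : S.be z 1 - S.be z 0 ≤ e1 + S.pp z 1 := he1b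
  have b_10 : 2 * (S.al z 2 - S.al z 1) < e1 + S.pp z 1 := he1d
  have b_11 : S.pp z 3 ≤ et := hetc
  have b_12 : et < S.al z 4 - S.al z 3 := heta
  have b_13 : S.al z 4 - S.al z 3 ≤ et + S.pp z 3 := hetb
  have b_14 : 2 * (S.be z 3 - S.be z 2) < et + S.pp z 3 := hetd
  have z_0 : S.be z 0 ≤ S.be z 1 := hb.bem (i := 0) (j := 1) (by omega) (by omega)
  have z_1 : S.al z 1 ≤ S.al z 4 := hb.alm (i := 1) (j := 4) (by omega) (by omega) (by omega)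
  have z_2 : 0 ≤ S.pp z 1 := (hb.pos (i := 1) (by omega) (by omega)).le
  have z_3 : S.be z 0 ≤ S.be z 2 := hb.bem (i := 0) (j := 2) (by omega) (by omega)
  have z_4 : S.al z 2 ≤ S.al z 4 := hb.alm (i := 2) (j := 4) (by omega) (by omega) (by omega)
  have z_5 : 0 ≤ S.pp z 2 := (hb.pos (i := 2) (by omega) (by omega)).le
  have z_6 : S.be z 0 ≤ S.be z 3 := hb.bem (i := 0) (j := 3) (by omega) (by omega)
  have z_7 : S.al z 3 ≤ S.al z 4 := hb.alm (i := 3) (j := 4) (by omega) (by omega) (by omega)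
  have z_8 : 0 ≤ S.pp z 3 := (hb.pos (i := 3) (by omega) (by omega)).le
  have z_9 : 0 ≤ S.drop z 0 3 := hb.dnn (i := 0) (j := 3) (by omega) (by omega)
  have z_10 : 0 ≤ S.drop z 0 4 := hb.dnn (i := 0) (j := 4) (by omega) (by omega)
  have z_11 : 0 ≤ S.drop z 1 4 := hb.dnn (i := 1) (j := 4) (by omega) (by omega)
  have z_12 : 0 ≤ e1 := he1n
  have z_13 : 0 ≤ et := hetn
  have C_own_1_1_2 : S.be z 1 - S.be z 0 - S.pp z 1 < S.drop z 0 3 ∨ S.al z 3 - S.al z 1 - S.pp z 1 < S.drop z 0 3 := hb.cl_own (i0 := 0) (j0 := 3) (i := 1) (by omega) (by omega) (by omega)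
  have C_f_p2_1_2 : S.pp z 2 ≤ S.drop z 0 3 ∨ S.be z 2 - S.be z 0 < S.pp z 2 ∨ S.al z 3 - S.al z 2 < S.pp z 2 := hb.cl_f (i0 := 0) (j0 := 3) (i := 2) (by omega) (by omega) (by omega) (dvd_refl _)
  have C_ff_p1_p2_1_3 : S.pp z 1 + S.pp z 2 ≤ S.drop z 0 4 ∨ S.be z 1 - S.be z 0 < S.pp z 1 ∨ S.al z 4 - S.al z 2 < S.pp z 2 ∨ S.al z 4 - S.al z 1 < S.pp z 1 + S.pp z 2 ∨ S.be z 2 - S.be z 0 < S.pp z 1 + S.pp z 2 := hb.cl_ff (i0 := 0) (j0 := 4) (i := 1) (j := 2) (by omega) (by omega) (by omega) (by omega) (dvd_refl _) (hb.pos (i := 1) (by omega) (by omega)).le (dvd_refl _) (hb.pos (i := 2) (by omega) (by omega)).le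
  have C_FW_1_2 : S.be z 1 - S.al z 2 < S.pp z 1 + S.pp z 2 := hb.fw (i := 1) (j := 2) (by omega) (by omega) (by omega)
  have C_FW_2_3 : S.be z 2 - S.al z 3 < S.pp z 2 + S.pp z 3 := hb.fw (i := 2) (j := 3) (by omega) (by omega) (by omega)
  have C_OPT_1_3_K1x23x : 2 * S.drop z 0 4 < e1 + (S.be z 3 - S.al z 2 - S.pp z 2 - S.pp z 3) := by
    have g : S.Good z 0 4 (e1 + S.Ex z 2 1) := hb.good_K1 hA he1 he1b (m := 1) (j := 4) (by omega) (by omega)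
    have g2 := not_red hn g (by omega) (by omega)
    have : S.Ex z 2 1 = ((S.be z 3 - S.al z 2 - S.pp z 2 - S.pp z 3) + 0) := rfl
    linarith
  have C_gap_1_3 : S.al z 4 - S.be z 0 ≤ S.drop z 0 4 := gap_le _ _
  have C_OPT_1_2_x12x : 2 * S.drop z 0 3 < (S.be z 2 - S.al z 1 - S.pp z 1 - S.pp z 2) := by
    have g : S.Good z 0 3 (S.Ex z 1 1) := hb.good_P (i := 0) (m := 1) (j := 3) (by omega) (by omega)
    have g2 := not_red hn g (by omega) (by omega)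
    have : S.Ex z 1 1 = ((S.be z 2 - S.al z 1 - S.pp z 1 - S.pp z 2) + 0) := rfl
    linarith
  have C_gap_1_2 : S.al z 3 - S.be z 0 ≤ S.drop z 0 3 := gap_le _ _
  have C_f_p1_1_2 : S.pp z 1 ≤ S.drop z 0 3 ∨ S.be z 1 - S.be z 0 < S.pp z 1 ∨ S.al z 3 - S.al z 1 < S.pp z 1 := hb.cl_f (i0 := 0) (j0 := 3) (i := 1) (by omega) (by omega) (by omega) (dvd_refl _)
  have C_f_et_1_3 : et ≤ S.drop z 0 4 ∨ S.be z 3 - S.be z 0 < et ∨ S.al z 4 - S.al z 3 < et := hb.cl_f (i0 := 0) (j0 := 4) (i := 3) (by omega) (by omega) (by omega) het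
  have C_OPT_1_3_x12xKt : 2 * S.drop z 0 4 < (S.be z 2 - S.al z 1 - S.pp z 1 - S.pp z 2) + et := by
    have g : S.Good z 0 4 (S.Ex z 1 1 + et) := hb.good_Kt hD het hetb (i := 0) (m := 1) (by omega)
    have g2 := not_red hn g (by omega) (by omega)
    have : S.Ex z 1 1 = ((S.be z 2 - S.al z 1 - S.pp z 1 - S.pp z 2) + 0) := rfl
    linarith
  have C_bf_1_p2_1_2 : S.be z 2 - S.be z 0 - S.pp z 1 < S.drop z 0 3 ∨ S.al z 3 - S.al z 2 < S.pp z 2 ∨ S.pp z 2 < S.be z 2 - S.be z 0 := hb.cl_bf (i0 := 0) (j0 := 3) (i := 2) (j := 1) (by omega) (by omega) (by omega) (by omega) (by omega) (by omega) (dvd_refl _)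
  have C_f_p1_1_3 : S.pp z 1 ≤ S.drop z 0 4 ∨ S.be z 1 - S.be z 0 < S.pp z 1 ∨ S.al z 4 - S.al z 1 < S.pp z 1 := hb.cl_f (i0 := 0) (j0 := 4) (i := 1) (by omega) (by omega) (by omega) (dvd_refl _)
  have C_FW_1_3 : S.be z 1 - S.al z 3 < S.pp z 1 + S.pp z 3 := hb.fw (i := 1) (j := 3) (by omega) (by omega) (by omega)
  have C_FW3_1_2_3 : S.be z 2 - S.al z 2 - S.pp z 2 < S.pp z 1 + S.pp z 3 ∨ S.be z 2 - S.al z 3 < S.pp z 1 + S.pp z 3 ∨ S.be z 1 - S.al z 2 < S.pp z 1 + S.pp z 3 ∨ S.be z 1 - S.al z 3 + S.pp z 2 < S.pp z 1 + S.pp z 3 := hb.cl_fw3 (i := 1) (j := 2) (k := 3) (by omega) (by omega) (by omega) (by omega) (by omega)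
  have C_g1_p3_1_3 : S.pp z 3 + e1 ≤ S.drop z 0 4 ∨ S.be z 3 - S.be z 0 - S.pp z 1 < S.drop z 0 4 ∨ S.al z 4 - S.al z 1 - S.pp z 1 < S.drop z 0 4 ∨ S.al z 4 - S.al z 3 < S.pp z 3 ∨ S.be z 3 - S.be z 0 < S.pp z 3 := hb.cl_g1 (i := 3) (j0 := 4) (by omega) (by omega) (by omega) (dvd_refl _) (hb.pos (i := 3) (by omega) (by omega)).le he1 he1n he1a.le
  have C_OPT_2_3_x23x : 2 * S.drop z 1 4 < (S.be z 3 - S.al z 2 - S.pp z 2 - S.pp z 3) := by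
    have g : S.Good z 1 4 (S.Ex z 2 1) := hb.good_P (i := 1) (m := 1) (j := 4) (by omega) (by omega)
    have g2 := not_red hn g (by omega) (by omega)
    have : S.Ex z 2 1 = ((S.be z 3 - S.al z 2 - S.pp z 2 - S.pp z 3) + 0) := rfl
    linarith
  have C_f_p2_1_3 : S.pp z 2 ≤ S.drop z 0 4 ∨ S.be z 2 - S.be z 0 < S.pp z 2 ∨ S.al z 4 - S.al z 2 < S.pp z 2 := hb.cl_f (i0 := 0) (j0 := 4) (i := 2) (by omega) (by omega) (by omega) (dvd_refl _)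
  have C_gt_e1_1_3 : e1 + et ≤ S.drop z 0 4 ∨ S.al z 4 - S.al z 1 - S.pp z 3 < S.drop z 0 4 ∨ S.be z 3 - S.be z 0 - S.pp z 3 < S.drop z 0 4 ∨ S.al z 4 - S.al z 1 < e1 ∨ S.be z 1 - S.be z 0 < e1 := hb.cl_gt (i0 := 0) (i := 1) (by omega) (by omega) he1 he1n het hetn heta.le
  have C_f_p3_1_3 : S.pp z 3 ≤ S.drop z 0 4 ∨ S.be z 3 - S.be z 0 < S.pp z 3 ∨ S.al z 4 - S.al z 3 < S.pp z 3 := hb.cl_f (i0 := 0) (j0 := 4) (i := 3) (by omega) (by omega) (by omega) (dvd_refl _)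
  have C_fb_p2_3_1_3 : S.al z 4 - S.al z 2 - S.pp z 3 < S.drop z 0 4 ∨ S.be z 2 - S.be z 0 < S.pp z 2 ∨ S.pp z 2 < S.al z 4 - S.al z 2 := hb.cl_fb (i0 := 0) (j0 := 4) (i := 2) (j := 3) (by omega) (by omega) (by omega) (by omega) (by omega) (by omega) (dvd_refl _)
  have C_e1mult : e1 ≤ S.pp z 1 ∨ 2 * S.pp z 1 ≤ e1 := he1m
  exact arith_3 b_0 b_1 b_2 b_3 b_4 b_5 b_6 b_7 b_8 b_9 b_10 b_11 b_12 b_13 b_14 z_0 z_1 z_2 z_3 z_4 z_5 z_6 z_7 z_8 z_9 z_10 z_11 z_12 z_13 C_own_1_1_2 C_f_p2_1_2 C_ff_p1_p2_1_3 C_FW_1_2 C_FW_2_3 C_OPT_1_3_K1x23x C_gap_1_3 C_OPT_1_2_x12x C_gap_1_2 C_f_p1_1_2 C_f_et_1_3 C_OPT_1_3_x12xKt C_bf_1_p2_1_2 C_f_p1_1_3 C_FW_1_3 C_FW3_1_2_3 C_g1_p3_1_3 C_OPT_2_3_x23x C_f_p2_1_3 C_gt_e1_1_3 C_f_p3_1_3 C_fb_p2_3_1_3 C_e1mult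

end Sys

end Crest.Agent.R287
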