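import Crest.Agent.R287.TopAux

/-! # R287: irreducible top blocks do not exist (generated case analysis of linear inequalities) -/

set_option autoImplicit false
open Finset

namespace Crest.Agent.R287

namespace Sys

variable {S : Sys} {z : ℕ → S.E}

set_option maxHeartbeats 0 in
set_option linter.unusedVariables false in
theorem arith_5 {a1 a2 a3 a4 a5 a6 b0 b1 b2 b3 b4 b5 d0_3 d0_4 d0_5 d0_6 d1_4 d1_6 d2_5 d2_6 e1 et p1 p2 p3 p4 p5 : ℤ}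
    (b_0 : b1 ≤ b2)
    (b_1 : a1 ≤ a2)
    (b_2 : b2 ≤ b3)
    (b_3 : a2 ≤ a3)
    (b_4 : b3 ≤ b4)
    (b_5 : a3 ≤ a4)
    (b_6 : b4 ≤ b5)
    (b_7 : a4 ≤ a5)
    (b_8 : 0 < p1)
    (b_9 : 0 < p2)
    (b_10 : 0 < p3)
    (b_11 : 0 < p4)
    (b_12 : 0 < p5)
    (b_13 : p1 ≤ e1)
    (b_14 : e1 < b1 - b0)
    (b_15 : b1 - b0 ≤ e1 + p1)
    (b_16 : 2 * (a2 - a1) < e1 + p1)
    (b_17 : p5 ≤ et)
    (b_18 : et < a6 - a5)
    (b_19 : a6 - a5 ≤ et + p5)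
    (b_20 : 2 * (b5 - b4) < et + p5)
    (z_0 : b0 ≤ b1)
    (z_1 : a1 ≤ a6)
    (z_2 : 0 ≤ p1)
    (z_3 : b0 ≤ b2)
    (z_4 : a2 ≤ a6)
    (z_5 : 0 ≤ p2)
    (z_6 : b0 ≤ b3)
    (z_7 : a3 ≤ a6)
    (z_8 : 0 ≤ p3)
    (z_9 : b0 ≤ b4)
    (z_10 : a4 ≤ a6)
    (z_11 : 0 ≤ p4)
    (z_12 : b0 ≤ b5)
    (z_13 : a5 ≤ a6)
    (z_14 : 0 ≤ p5)
    (z_15 : 0 ≤ d0_3)
    (z_16 : 0 ≤ d0_4)
    (z_17 : 0 ≤ d0_5)
    (z_18 : 0 ≤ d0_6)
    (z_19 : 0 ≤ d1_4)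
    (z_20 : 0 ≤ d1_6)
    (z_21 : 0 ≤ d2_5)
    (z_22 : 0 ≤ d2_6)
    (z_23 : 0 ≤ e1)
    (z_24 : 0 ≤ et)
    (C_f_p3_1_5 : p3 ≤ d0_6 ∨ b3 - b0 < p3 ∨ a6 - a3 < p3)
    (C_f_p5_3_5 : p5 ≤ d2_6 ∨ b5 - b2 < p5 ∨ a6 - a5 < p5)
    (C_ff_p1_p3_1_5 : p1 + p3 ≤ d0_6 ∨ b1 - b0 < p1 ∨ a6 - a3 < p3 ∨ a6 - a1 < p1 + p3 ∨ b3 - b0 < p1 + p3)
    (C_ff_p1_p4_1_5 : p1 + p4 ≤ d0_6 ∨ b1 - b0 < p1 ∨ a6 - a4 < p4 ∨ a6 - a1 < p1 + p4 ∨ b4 - b0 < p1 + p4)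
    (C_FW_1_2 : b1 - a2 < p1 + p2)
    (C_FW_3_4 : b3 - a4 < p3 + p4)
    (C_FW_4_5 : b4 - a5 < p4 + p5)
    (C_OPT_1_5_K1x23xx45x : 2 * d0_6 < e1 + (b3 - a2 - p2 - p3) + (b5 - a4 - p4 - p5))
    (C_gap_1_5 : a6 - b0 ≤ d0_6)
    (C_FW3_1_2_3 : b2 - a2 - p2 < p1 + p3 ∨ b2 - a3 < p1 + p3 ∨ b1 - a2 < p1 + p3 ∨ b1 - a3 + p2 < p1 + p3)
    (C_ff_p3_p5_1_5 : p3 + p5 ≤ d0_6 ∨ b3 - b0 < p3 ∨ a6 - a5 < p5 ∨ a6 - a3 < p3 + p5 ∨ b5 - b0 < p3 + p5)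
    (C_f_e1_1_2 : e1 ≤ d0_3 ∨ b1 - b0 < e1 ∨ a3 - a1 < e1)
    (C_fff_3 : e1 + p3 + et ≤ d0_6 ∨ b3 - b0 < e1 + p3 ∨ a6 - a3 < p3 + et ∨ a6 - a1 < e1 + p3 + et ∨ b5 - b0 < e1 + p3 + et)
    (C_FW_1_3 : b1 - a3 < p1 + p3)
    (C_OPT_1_5_x12xx34xKt : 2 * d0_6 < (b2 - a1 - p1 - p2) + (b4 - a3 - p3 - p4) + et)
    (C_f_e1_1_3 : e1 ≤ d0_4 ∨ b1 - b0 < e1 ∨ a4 - a1 < e1)
    (C_OPT_1_3_K1x23x : 2 * d0_4 < e1 + (b3 - a2 - p2 - p3))
    (C_FW_2_3 : b2 - a3 < p2 + p3)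
    (C_f_et_3_5 : et ≤ d2_6 ∨ b5 - b2 < et ∨ a6 - a5 < et)
    (C_OPT_3_5_x34xKt : 2 * d2_6 < (b4 - a3 - p3 - p4) + et)
    (C_FW_3_5 : b3 - a5 < p3 + p5)
    (C_OPT_1_2_x12x : 2 * d0_3 < (b2 - a1 - p1 - p2))
    (C_OPT_2_3_x23x : 2 * d1_4 < (b3 - a2 - p2 - p3))
    (C_f_p1_1_2 : p1 ≤ d0_3 ∨ b1 - b0 < p1 ∨ a3 - a1 < p1)
    (C_ff_p1_p5_1_5 : p1 + p5 ≤ d0_6 ∨ b1 - b0 < p1 ∨ a6 - a5 < p5 ∨ a6 - a1 < p1 + p5 ∨ b5 - b0 < p1 + p5)
    (C_ff_p1_et_1_5 : p1 + et ≤ d0_6 ∨ b1 - b0 < p1 ∨ a6 - a5 < et ∨ a6 - a1 < p1 + et ∨ b5 - b0 < p1 + et)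
    (C_OPT_3_4_x34x : 2 * d2_5 < (b4 - a3 - p3 - p4))
    (C_f_p1_1_3 : p1 ≤ d0_4 ∨ b1 - b0 < p1 ∨ a4 - a1 < p1)
    (C_f_p1_1_5 : p1 ≤ d0_6 ∨ b1 - b0 < p1 ∨ a6 - a1 < p1)
    (C_FW_2_5 : b2 - a5 < p2 + p5)
    (C_e1mult : e1 ≤ p1 ∨ 2 * p1 ≤ e1)
    (C_f_p5_1_5 : p5 ≤ d0_6 ∨ b5 - b0 < p5 ∨ a6 - a5 < p5)
    (C_OPT_2_5_x23xx45x : 2 * d1_6 < (b3 - a2 - p2 - p3) + (b5 - a4 - p4 - p5))
    (C_f_p1_1_4 : p1 ≤ d0_5 ∨ b1 - b0 < p1 ∨ a5 - a1 < p1)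
    (C_OPT_1_4_x12xx34x : 2 * d0_5 < (b2 - a1 - p1 - p2) + (b4 - a3 - p3 - p4)) : False := by
  have hn372_0 : ¬ (p3 ≤ d0_6) := fun hp372_0 => by
   have hn373_0 : ¬ (p5 ≤ d2_6) := fun hp373_0 => by
    have hn374_0 : ¬ (p1 + p3 ≤ d0_6) := fun hp374_0 => by
     have hn375_0 : ¬ (p1 + p4 ≤ d0_6) := fun hp375_0 => by
      linarith only [b_14, b_17, b_18, b_20, C_FW_1_2, C_FW_3_4, C_FW_4_5, C_OPT_1_5_K1x23xx45x, C_gap_1_5, hp375_0, z_0, z_2, z_4, z_5, z_6, z_8, z_9, z_10, z_11, z_12, z_13, z_14, z_18, z_23, z_24]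
     have hn375_1 : ¬ (b1 - b0 < p1) := fun hp375_1 => by
      linarith only [b_13, b_14, hp375_1, z_0, z_2, z_23]
     have hn375_2 : ¬ (a6 - a4 < p4) := fun hp375_2 => by
      have hn376_0 : ¬ (b2 - a2 - p2 < p1 + p3) := fun hp376_0 => by
       have hn377_0 : ¬ (p3 + p5 ≤ d0_6) := fun hp377_0 => by
        have hn379_0 : ¬ (e1 ≤ d0_3) := fun hp379_0 => by
         have hn380_0 : ¬ (e1 + p3 + et ≤ d0_6) := fun hp380_0 => by
          linarith only [b_13, b_14, b_16, b_17, b_18, C_FW_1_3, C_FW_4_5, C_OPT_1_5_x12xx34xKt, C_gap_1_5, hp376_0, hp380_0, z_0, z_1, z_2, z_3, z_4, z_5, z_7, z_8, z_9, z_11, z_13, z_14, z_18, z_23, z_24]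
         have hn380_1 : ¬ (b3 - b0 < e1 + p3) := fun hp380_1 => by
          have hn381_0 : ¬ (e1 ≤ d0_4) := fun hp381_0 => by
           linarith only [b_13, b_14, C_FW_1_2, C_OPT_1_3_K1x23x, hp380_1, hp381_0, z_0, z_2, z_4, z_5, z_6, z_8, z_16, z_23]
          have hn381_1 : ¬ (b1 - b0 < e1) := fun hp381_1 => by
           linarith only [b_14, hp381_1, z_0, z_23]
          have hn381_2 : ¬ (a4 - a1 < e1) := fun hp381_2 => by
           linarith only [b_5, b_14, b_18, C_FW_1_3, C_FW_2_3, C_FW_4_5, C_OPT_1_5_x12xx34xKt, C_gap_1_5, hp377_0, hp381_2, z_0, z_1, z_2, z_3, z_5, z_7, z_8, z_9, z_10, z_11, z_13, z_14, z_18, z_23, z_24]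
          rcases C_f_e1_1_3 with h | h | h
          exacts [hn381_0 h, hn381_1 h, hn381_2 h]
         have hn380_2 : ¬ (a6 - a3 < p3 + et) := fun hp380_2 => by
          have hn382_0 : ¬ (et ≤ d2_6) := fun hp382_0 => by
           linarith only [b_17, b_18, C_FW_4_5, C_OPT_3_5_x34xKt, hp380_2, hp382_0, z_7, z_8, z_9, z_11, z_13, z_14, z_22, z_24]
          have hn382_1 : ¬ (b5 - b2 < et) := fun hp382_1 => by
           linarith only [b_2, b_14, b_18, C_FW_1_2, C_FW_3_4, C_FW_3_5, C_OPT_1_5_K1x23xx45x, C_gap_1_5, hp374_0, hp382_1, z_0, z_2, z_3, z_4, z_5, z_6, z_8, z_10, z_11, z_12, z_13, z_14, z_18, z_23, z_24]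
          have hn382_2 : ¬ (a6 - a5 < et) := fun hp382_2 => by
           linarith only [b_18, hp382_2, z_13, z_24]
          rcases C_f_et_3_5 with h | h | h
          exacts [hn382_0 h, hn382_1 h, hn382_2 h]
         have hn380_3 : ¬ (a6 - a1 < e1 + p3 + et) := fun hp380_3 => by
          linarith only [b_5, b_14, b_18, b_20, C_FW_1_2, C_FW_1_3, C_FW_2_3, C_FW_3_5, C_FW_4_5, C_OPT_1_2_x12x, C_OPT_1_5_K1x23xx45x, C_OPT_1_5_x12xx34xKt, C_gap_1_5, hp377_0, hp379_0, hp380_3, z_0, z_1, z_2, z_3, z_4, z_5, z_6, z_7, z_8, z_9, z_10, z_11, z_12, z_13, z_14, z_15, z_18, z_23, z_24]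
         have hn380_4 : ¬ (b5 - b0 < e1 + p3 + et) := fun hp380_4 => by
          linarith only [b_2, b_14, b_16, b_17, b_18, C_FW_1_2, C_FW_3_5, C_OPT_1_2_x12x, C_OPT_1_5_K1x23xx45x, C_gap_1_5, hp374_0, hp375_2, hp379_0, hp380_4, z_0, z_1, z_2, z_3, z_4, z_5, z_6, z_8, z_10, z_11, z_12, z_13, z_14, z_15, z_18, z_23, z_24]
         rcases C_fff_3 with h | h | h | h | h
         exacts [hn380_0 h, hn380_1 h, hn380_2 h, hn380_3 h, hn380_4 h]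
        have hn379_1 : ¬ (b1 - b0 < e1) := fun hp379_1 => by
         linarith only [b_14, hp379_1, z_0, z_23]
        have hn379_2 : ¬ (a3 - a1 < e1) := fun hp379_2 => by
         linarith only [b_14, b_18, C_FW_1_3, C_FW_2_3, C_FW_4_5, C_OPT_1_5_x12xx34xKt, C_gap_1_5, hp377_0, hp379_2, z_0, z_1, z_2, z_3, z_5, z_7, z_8, z_9, z_11, z_13, z_14, z_18, z_23, z_24]
        rcases C_f_e1_1_2 with h | h | h
        exacts [hn379_0 h, hn379_1 h, hn379_2 h]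
       have hn377_1 : ¬ (b3 - b0 < p3) := fun hp377_1 => by
        linarith only [b_13, b_14, C_FW_1_2, C_OPT_2_3_x23x, hp377_1, z_0, z_2, z_4, z_5, z_6, z_8, z_19, z_23]
       have hn377_2 : ¬ (a6 - a5 < p5) := fun hp377_2 => by
        linarith only [b_17, b_18, hp377_2, z_13, z_14, z_24]
       have hn377_3 : ¬ (a6 - a3 < p3 + p5) := fun hp377_3 => by
        linarith only [b_18, C_FW_4_5, C_OPT_3_5_x34xKt, hp373_0, hp377_3, z_7, z_8, z_9, z_11, z_13, z_14, z_22, z_24]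
       have hn377_4 : ¬ (b5 - b0 < p3 + p5) := fun hp377_4 => by
        linarith only [b_14, C_FW_1_2, C_FW_3_4, C_OPT_1_5_K1x23xx45x, hp374_0, hp377_4, z_0, z_2, z_4, z_5, z_6, z_8, z_10, z_11, z_12, z_14, z_18, z_23]
       rcases C_ff_p3_p5_1_5 with h | h | h | h | h
       exacts [hn377_0 h, hn377_1 h, hn377_2 h, hn377_3 h, hn377_4 h]
      have hn376_1 : ¬ (b2 - a3 < p1 + p3) := fun hp376_1 => by
       have hn383_0 : ¬ (p1 ≤ d0_3) := fun hp383_0 => by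
        linarith only [b_13, b_14, b_16, b_18, C_FW_1_2, C_FW_4_5, C_OPT_1_2_x12x, C_OPT_1_5_x12xx34xKt, C_gap_1_5, C_OPT_3_5_x34xKt, hp373_0, hp376_1, hp383_0, z_0, z_1, z_2, z_3, z_4, z_5, z_7, z_8, z_9, z_11, z_13, z_14, z_15, z_18, z_22, z_23, z_24]
       have hn383_1 : ¬ (b1 - b0 < p1) := fun hp383_1 => by
        linarith only [b_13, b_14, hp383_1, z_0, z_2, z_23]
       have hn383_2 : ¬ (a3 - a1 < p1) := fun hp383_2 => by
        linarith only [b_1, C_FW_2_3, not_lt.1 hn376_0, hp383_2, z_1, z_2, z_3, z_4, z_5, z_7, z_8]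
       rcases C_f_p1_1_2 with h | h | h
       exacts [hn383_0 h, hn383_1 h, hn383_2 h]
      have hn376_2 : ¬ (b1 - a2 < p1 + p3) := fun hp376_2 => by
       have hn384_0 : ¬ (p3 + p5 ≤ d0_6) := fun hp384_0 => by
        linarith only [b_13, b_14, b_16, b_18, C_FW_2_3, C_FW_4_5, C_OPT_1_5_x12xx34xKt, C_gap_1_5, hp376_2, hp384_0, z_0, z_1, z_2, z_3, z_4, z_5, z_7, z_8, z_9, z_11, z_13, z_14, z_18, z_23, z_24]
       have hn384_1 : ¬ (b3 - b0 < p3) := fun hp384_1 => by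
        linarith only [b_13, b_14, C_FW_1_2, C_OPT_2_3_x23x, hp384_1, z_0, z_2, z_4, z_5, z_6, z_8, z_19, z_23]
       have hn384_2 : ¬ (a6 - a5 < p5) := fun hp384_2 => by
        linarith only [b_17, b_18, hp384_2, z_13, z_14, z_24]
       have hn384_3 : ¬ (a6 - a3 < p3 + p5) := fun hp384_3 => by
        linarith only [b_18, C_FW_4_5, C_OPT_3_5_x34xKt, hp373_0, hp384_3, z_7, z_8, z_9, z_11, z_13, z_14, z_22, z_24]
       have hn384_4 : ¬ (b5 - b0 < p3 + p5) := fun hp384_4 => by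
        linarith only [b_14, C_FW_1_2, C_FW_3_4, C_OPT_1_5_K1x23xx45x, hp374_0, hp384_4, z_0, z_2, z_4, z_5, z_6, z_8, z_10, z_11, z_12, z_14, z_18, z_23]
       rcases C_ff_p3_p5_1_5 with h | h | h | h | h
       exacts [hn384_0 h, hn384_1 h, hn384_2 h, hn384_3 h, hn384_4 h]
      have hn376_3 : ¬ (b1 - a3 + p2 < p1 + p3) := fun hp376_3 => by
       linarith only [b_13, b_14, b_16, b_18, C_FW_1_2, C_FW_2_3, C_FW_4_5, C_OPT_1_5_x12xx34xKt, C_gap_1_5, C_OPT_3_5_x34xKt, hp373_0, hp376_3, z_0, z_1, z_2, z_3, z_4, z_5, z_7, z_8, z_9, z_11, z_13, z_14, z_18, z_22, z_23, z_24]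
      rcases C_FW3_1_2_3 with h | h | h | h
      exacts [hn376_0 h, hn376_1 h, hn376_2 h, hn376_3 h]
     have hn375_3 : ¬ (a6 - a1 < p1 + p4) := fun hp375_3 => by
      have hn385_0 : ¬ (p3 + p5 ≤ d0_6) := fun hp385_0 => by
       linarith only [b_5, b_13, b_14, b_18, C_FW_1_3, C_FW_2_3, C_FW_4_5, C_OPT_1_5_x12xx34xKt, C_gap_1_5, not_lt.1 hn375_2, hp375_3, hp385_0, z_0, z_1, z_2, z_3, z_5, z_7, z_8, z_9, z_10, z_11, z_13, z_14, z_18, z_23, z_24]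
      have hn385_1 : ¬ (b3 - b0 < p3) := fun hp385_1 => by
       linarith only [b_13, b_14, C_FW_1_2, C_OPT_2_3_x23x, hp385_1, z_0, z_2, z_4, z_5, z_6, z_8, z_19, z_23]
      have hn385_2 : ¬ (a6 - a5 < p5) := fun hp385_2 => by
       linarith only [b_17, b_18, hp385_2, z_13, z_14, z_24]
      have hn385_3 : ¬ (a6 - a3 < p3 + p5) := fun hp385_3 => by
       linarith only [b_18, C_FW_4_5, C_OPT_3_5_x34xKt, hp373_0, hp385_3, z_7, z_8, z_9, z_11, z_13, z_14, z_22, z_24]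
      have hn385_4 : ¬ (b5 - b0 < p3 + p5) := fun hp385_4 => by
       linarith only [b_14, C_FW_1_2, C_FW_3_4, C_OPT_1_5_K1x23xx45x, hp374_0, hp385_4, z_0, z_2, z_4, z_5, z_6, z_8, z_10, z_11, z_12, z_14, z_18, z_23]
      rcases C_ff_p3_p5_1_5 with h | h | h | h | h
      exacts [hn385_0 h, hn385_1 h, hn385_2 h, hn385_3 h, hn385_4 h]
     have hn375_4 : ¬ (b4 - b0 < p1 + p4) := fun hp375_4 => by
      have hn386_0 : ¬ (p1 + p5 ≤ d0_6) := fun hp386_0 => by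
       have hn387_0 : ¬ (p1 + et ≤ d0_6) := fun hp387_0 => by
        have hn388_0 : ¬ (e1 + p3 + et ≤ d0_6) := fun hp388_0 => by
         linarith only [b_2, b_13, b_14, b_16, b_17, b_18, C_FW_1_2, C_FW_1_3, C_FW_3_5, C_OPT_1_5_x12xx34xKt, C_gap_1_5, hp375_4, hp388_0, z_0, z_1, z_2, z_3, z_4, z_5, z_6, z_7, z_8, z_9, z_11, z_13, z_14, z_18, z_23, z_24]
        have hn388_1 : ¬ (b3 - b0 < e1 + p3) := fun hp388_1 => by
         linarith only [b_2, b_13, b_14, b_16, C_FW_1_2, C_FW_1_3, C_OPT_1_5_x12xx34xKt, hp374_0, hp375_4, hp387_0, hp388_1, z_0, z_1, z_2, z_3, z_4, z_5, z_6, z_7, z_8, z_9, z_11, z_18, z_23, z_24]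
        have hn388_2 : ¬ (a6 - a3 < p3 + et) := fun hp388_2 => by
         linarith only [b_5, b_14, b_17, b_18, b_20, C_FW_1_2, C_FW_3_5, C_OPT_1_5_K1x23xx45x, hp374_0, hp375_4, hp387_0, hp388_2, z_0, z_2, z_4, z_5, z_6, z_7, z_8, z_9, z_10, z_11, z_12, z_13, z_14, z_18, z_23, z_24]
        have hn388_3 : ¬ (a6 - a1 < e1 + p3 + et) := fun hp388_3 => by
         linarith only [b_5, b_14, b_17, b_18, b_20, C_FW_1_2, C_FW_1_3, C_FW_2_3, C_FW_3_5, C_OPT_1_5_K1x23xx45x, C_OPT_1_5_x12xx34xKt, hp374_0, hp375_4, hp387_0, hp388_3, z_0, z_1, z_2, z_3, z_4, z_5, z_6, z_7, z_8, z_9, z_10, z_11, z_12, z_13, z_14, z_18, z_23, z_24]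
        have hn388_4 : ¬ (b5 - b0 < e1 + p3 + et) := fun hp388_4 => by
         linarith only [b_2, b_14, b_16, b_18, C_FW_1_2, C_FW_1_3, C_FW_3_4, C_FW_3_5, C_OPT_1_5_K1x23xx45x, C_OPT_1_5_x12xx34xKt, C_gap_1_5, hp374_0, hp375_4, hp387_0, hp388_4, z_0, z_1, z_2, z_3, z_4, z_5, z_6, z_7, z_8, z_9, z_10, z_11, z_12, z_13, z_14, z_18, z_23, z_24]
        rcases C_fff_3 with h | h | h | h | h
        exacts [hn388_0 h, hn388_1 h, hn388_2 h, hn388_3 h, hn388_4 h]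
       have hn387_1 : ¬ (b1 - b0 < p1) := fun hp387_1 => by
        linarith only [b_13, b_14, hp387_1, z_0, z_2, z_23]
       have hn387_2 : ¬ (a6 - a5 < et) := fun hp387_2 => by
        linarith only [b_18, hp387_2, z_13, z_24]
       have hn387_3 : ¬ (a6 - a1 < p1 + et) := fun hp387_3 => by
        linarith only [b_1, b_3, b_5, b_14, b_18, b_20, C_FW_1_2, C_FW_2_3, C_FW_3_5, C_FW_4_5, C_OPT_1_5_K1x23xx45x, C_OPT_1_5_x12xx34xKt, C_gap_1_5, hp386_0, hp387_3, z_0, z_1, z_2, z_3, z_4, z_5, z_6, z_7, z_8, z_9, z_10, z_11, z_12, z_13, z_14, z_18, z_23, z_24]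
       have hn387_4 : ¬ (b5 - b0 < p1 + et) := fun hp387_4 => by
        linarith only [b_0, b_2, b_13, b_14, b_18, C_FW_1_2, C_FW_3_4, C_FW_3_5, C_OPT_1_5_K1x23xx45x, C_gap_1_5, hp374_0, hp387_4, z_0, z_2, z_3, z_4, z_5, z_6, z_8, z_10, z_11, z_12, z_13, z_14, z_18, z_23, z_24]
       rcases C_ff_p1_et_1_5 with h | h | h | h | h
       exacts [hn387_0 h, hn387_1 h, hn387_2 h, hn387_3 h, hn387_4 h]
      have hn386_1 : ¬ (b1 - b0 < p1) := fun hp386_1 => by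
       linarith only [b_13, b_14, hp386_1, z_0, z_2, z_23]
      have hn386_2 : ¬ (a6 - a5 < p5) := fun hp386_2 => by
       linarith only [b_17, b_18, hp386_2, z_13, z_14, z_24]
      have hn386_3 : ¬ (a6 - a1 < p1 + p5) := fun hp386_3 => by
       linarith only [b_18, C_FW_2_3, C_FW_4_5, C_OPT_1_2_x12x, C_OPT_3_5_x34xKt, hp373_0, hp386_3, z_1, z_2, z_3, z_5, z_7, z_8, z_9, z_11, z_13, z_14, z_15, z_22, z_24]
      have hn386_4 : ¬ (b5 - b0 < p1 + p5) := fun hp386_4 => by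
       linarith only [b_14, C_FW_1_2, C_FW_3_4, C_OPT_1_5_K1x23xx45x, hp374_0, hp386_4, z_0, z_2, z_4, z_5, z_6, z_8, z_10, z_11, z_12, z_14, z_18, z_23]
      rcases C_ff_p1_p5_1_5 with h | h | h | h | h
      exacts [hn386_0 h, hn386_1 h, hn386_2 h, hn386_3 h, hn386_4 h]
     rcases C_ff_p1_p4_1_5 with h | h | h | h | h
     exacts [hn375_0 h, hn375_1 h, hn375_2 h, hn375_3 h, hn375_4 h]
    have hn374_1 : ¬ (b1 - b0 < p1) := fun hp374_1 => by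
     linarith only [b_13, b_14, hp374_1, z_0, z_2, z_23]
    have hn374_2 : ¬ (a6 - a3 < p3) := fun hp374_2 => by
     linarith only [b_17, b_18, C_FW_4_5, C_OPT_3_4_x34x, hp374_2, z_7, z_8, z_9, z_11, z_13, z_14, z_21, z_24]
    have hn374_3 : ¬ (a6 - a1 < p1 + p3) := fun hp374_3 => by
     linarith only [b_18, C_FW_2_3, C_FW_4_5, C_OPT_1_2_x12x, C_OPT_1_5_x12xx34xKt, C_OPT_3_5_x34xKt, hp372_0, hp373_0, hp374_3, z_1, z_2, z_3, z_5, z_7, z_8, z_9, z_11, z_13, z_14, z_15, z_18, z_22, z_24]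
    have hn374_4 : ¬ (b3 - b0 < p1 + p3) := fun hp374_4 => by
     have hn389_0 : ¬ (p1 ≤ d0_4) := fun hp389_0 => by
      linarith only [b_14, C_FW_1_2, C_OPT_1_3_K1x23x, hp374_4, hp389_0, z_0, z_2, z_4, z_5, z_6, z_8, z_16, z_23]
     have hn389_1 : ¬ (b1 - b0 < p1) := fun hp389_1 => by
      linarith only [b_13, b_14, hp389_1, z_0, z_2, z_23]
     have hn389_2 : ¬ (a4 - a1 < p1) := fun hp389_2 => by
      have hn390_0 : ¬ (p3 + p5 ≤ d0_6) := fun hp390_0 => by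
       linarith only [b_5, b_13, b_14, b_18, C_FW_1_3, C_FW_2_3, C_FW_4_5, C_OPT_1_5_x12xx34xKt, C_gap_1_5, hp389_2, hp390_0, z_0, z_1, z_2, z_3, z_5, z_7, z_8, z_9, z_10, z_11, z_13, z_14, z_18, z_23, z_24]
      have hn390_1 : ¬ (b3 - b0 < p3) := fun hp390_1 => by
       linarith only [b_13, b_14, C_FW_1_2, C_OPT_2_3_x23x, hp390_1, z_0, z_2, z_4, z_5, z_6, z_8, z_19, z_23]
      have hn390_2 : ¬ (a6 - a5 < p5) := fun hp390_2 => by
       linarith only [b_17, b_18, hp390_2, z_13, z_14, z_24]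
      have hn390_3 : ¬ (a6 - a3 < p3 + p5) := fun hp390_3 => by
       linarith only [b_18, C_FW_4_5, C_OPT_3_5_x34xKt, hp373_0, hp390_3, z_7, z_8, z_9, z_11, z_13, z_14, z_22, z_24]
      have hn390_4 : ¬ (b5 - b0 < p3 + p5) := fun hp390_4 => by
       have hn391_0 : ¬ (p1 ≤ d0_6) := fun hp391_0 => by
        linarith only [b_14, C_FW_1_2, C_FW_3_4, C_OPT_1_5_K1x23xx45x, hp372_0, hp390_4, hp391_0, z_0, z_2, z_4, z_5, z_6, z_8, z_10, z_11, z_12, z_14, z_18, z_23]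
       have hn391_1 : ¬ (b1 - b0 < p1) := fun hp391_1 => by
        linarith only [b_13, b_14, hp391_1, z_0, z_2, z_23]
       have hn391_2 : ¬ (a6 - a1 < p1) := fun hp391_2 => by
        linarith only [b_17, b_18, C_FW_2_5, C_OPT_1_2_x12x, hp391_2, z_1, z_2, z_3, z_5, z_13, z_14, z_15, z_24]
       rcases C_f_p1_1_5 with h | h | h
       exacts [hn391_0 h, hn391_1 h, hn391_2 h]
      rcases C_ff_p3_p5_1_5 with h | h | h | h | h
      exacts [hn390_0 h, hn390_1 h, hn390_2 h, hn390_3 h, hn390_4 h]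
     rcases C_f_p1_1_3 with h | h | h
     exacts [hn389_0 h, hn389_1 h, hn389_2 h]
    rcases C_ff_p1_p3_1_5 with h | h | h | h | h
    exacts [hn374_0 h, hn374_1 h, hn374_2 h, hn374_3 h, hn374_4 h]
   have hn373_1 : ¬ (b5 - b2 < p5) := fun hp373_1 => by
    have hn392_0 : ¬ (p1 ≤ d0_3) := fun hp392_0 => by
     have hn393_0 : ¬ (e1 ≤ p1) := fun hp393_0 => by
      have hn394_0 : ¬ (p1 ≤ d0_4) := fun hp394_0 => by
       have hn395_0 : ¬ (p1 + p3 ≤ d0_6) := fun hp395_0 => by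
        linarith only [b_2, b_14, b_17, b_18, C_FW_1_2, C_FW_3_4, C_FW_3_5, C_OPT_1_5_K1x23xx45x, C_gap_1_5, hp373_1, hp395_0, z_0, z_2, z_3, z_4, z_5, z_6, z_8, z_10, z_11, z_12, z_13, z_14, z_18, z_23, z_24]
       have hn395_1 : ¬ (b1 - b0 < p1) := fun hp395_1 => by
        linarith only [b_13, b_14, hp395_1, z_0, z_2, z_23]
       have hn395_2 : ¬ (a6 - a3 < p3) := fun hp395_2 => by
        linarith only [b_17, b_18, C_FW_4_5, C_OPT_3_4_x34x, hp395_2, z_7, z_8, z_9, z_11, z_13, z_14, z_21, z_24]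
       have hn395_3 : ¬ (a6 - a1 < p1 + p3) := fun hp395_3 => by
        linarith only [b_1, b_17, b_18, C_FW_2_5, C_FW_3_4, C_OPT_1_2_x12x, C_OPT_1_5_K1x23xx45x, hp372_0, hp373_1, hp392_0, hp393_0, hp395_3, z_1, z_2, z_3, z_4, z_5, z_6, z_8, z_10, z_11, z_12, z_13, z_14, z_15, z_18, z_23, z_24]
       have hn395_4 : ¬ (b3 - b0 < p1 + p3) := fun hp395_4 => by
        linarith only [b_14, C_FW_1_2, C_OPT_1_3_K1x23x, hp394_0, hp395_4, z_0, z_2, z_4, z_5, z_6, z_8, z_16, z_23]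
       rcases C_ff_p1_p3_1_5 with h | h | h | h | h
       exacts [hn395_0 h, hn395_1 h, hn395_2 h, hn395_3 h, hn395_4 h]
      have hn394_1 : ¬ (b1 - b0 < p1) := fun hp394_1 => by
       linarith only [b_13, b_14, hp394_1, z_0, z_2, z_23]
      have hn394_2 : ¬ (a4 - a1 < p1) := fun hp394_2 => by
       linarith only [b_1, b_5, C_FW_2_3, C_FW_3_4, C_OPT_1_2_x12x, C_OPT_1_5_K1x23xx45x, hp372_0, hp373_1, hp392_0, hp393_0, hp394_2, z_1, z_2, z_3, z_4, z_5, z_6, z_7, z_8, z_10, z_11, z_12, z_14, z_15, z_18, z_23]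
      rcases C_f_p1_1_3 with h | h | h
      exacts [hn394_0 h, hn394_1 h, hn394_2 h]
     have hn393_1 : ¬ (2 * p1 ≤ e1) := fun hp393_1 => by
      have hn396_0 : ¬ (p1 + p3 ≤ d0_6) := fun hp396_0 => by
       linarith only [b_2, b_14, b_17, b_18, C_FW_1_2, C_FW_3_4, C_FW_3_5, C_OPT_1_5_K1x23xx45x, C_gap_1_5, hp373_1, hp396_0, z_0, z_2, z_3, z_4, z_5, z_6, z_8, z_10, z_11, z_12, z_13, z_14, z_18, z_23, z_24]
      have hn396_1 : ¬ (b1 - b0 < p1) := fun hp396_1 => by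
       linarith only [b_13, b_14, hp396_1, z_0, z_2, z_23]
      have hn396_2 : ¬ (a6 - a3 < p3) := fun hp396_2 => by
       linarith only [b_17, b_18, C_FW_4_5, C_OPT_3_4_x34x, hp396_2, z_7, z_8, z_9, z_11, z_13, z_14, z_21, z_24]
      have hn396_3 : ¬ (a6 - a1 < p1 + p3) := fun hp396_3 => by
       have hn397_0 : ¬ (p5 ≤ d0_6) := fun hp397_0 => by
        linarith only [b_18, C_FW_2_3, C_FW_4_5, C_OPT_1_5_x12xx34xKt, hp372_0, hp396_3, hp397_0, z_1, z_2, z_3, z_5, z_7, z_8, z_9, z_11, z_13, z_14, z_18, z_24]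
       have hn397_1 : ¬ (b5 - b0 < p5) := fun hp397_1 => by
        linarith only [b_13, b_14, C_FW_1_2, C_FW_3_4, C_OPT_2_5_x23xx45x, hp397_1, z_0, z_2, z_4, z_5, z_6, z_8, z_10, z_11, z_12, z_14, z_20, z_23]
       have hn397_2 : ¬ (a6 - a5 < p5) := fun hp397_2 => by
        linarith only [b_17, b_18, hp397_2, z_13, z_14, z_24]
       rcases C_f_p5_1_5 with h | h | h
       exacts [hn397_0 h, hn397_1 h, hn397_2 h]
      have hn396_4 : ¬ (b3 - b0 < p1 + p3) := fun hp396_4 => by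
       linarith only [b_14, C_FW_1_2, C_OPT_2_3_x23x, hp393_1, hp396_4, z_0, z_2, z_4, z_5, z_6, z_8, z_19, z_23]
      rcases C_ff_p1_p3_1_5 with h | h | h | h | h
      exacts [hn396_0 h, hn396_1 h, hn396_2 h, hn396_3 h, hn396_4 h]
     rcases C_e1mult with h | h
     exacts [hn393_0 h, hn393_1 h]
    have hn392_1 : ¬ (b1 - b0 < p1) := fun hp392_1 => by
     linarith only [b_13, b_14, hp392_1, z_0, z_2, z_23]
    have hn392_2 : ¬ (a3 - a1 < p1) := fun hp392_2 => by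
     have hn398_0 : ¬ (p1 ≤ d0_6) := fun hp398_0 => by
      have hn399_0 : ¬ (p1 ≤ d0_4) := fun hp399_0 => by
       have hn400_0 : ¬ (p1 + p3 ≤ d0_6) := fun hp400_0 => by
        linarith only [b_2, b_14, b_17, b_18, C_FW_1_2, C_FW_3_4, C_FW_3_5, C_OPT_1_5_K1x23xx45x, C_gap_1_5, hp373_1, hp400_0, z_0, z_2, z_3, z_4, z_5, z_6, z_8, z_10, z_11, z_12, z_13, z_14, z_18, z_23, z_24]
       have hn400_1 : ¬ (b1 - b0 < p1) := fun hp400_1 => by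
        linarith only [b_13, b_14, hp400_1, z_0, z_2, z_23]
       have hn400_2 : ¬ (a6 - a3 < p3) := fun hp400_2 => by
        linarith only [b_17, b_18, C_FW_4_5, C_OPT_3_4_x34x, hp400_2, z_7, z_8, z_9, z_11, z_13, z_14, z_21, z_24]
       have hn400_3 : ¬ (a6 - a1 < p1 + p3) := fun hp400_3 => by
        have hn401_0 : ¬ (p5 ≤ d0_6) := fun hp401_0 => by
         linarith only [b_18, C_FW_2_3, C_FW_4_5, C_OPT_1_5_x12xx34xKt, hp372_0, hp400_3, hp401_0, z_1, z_2, z_3, z_5, z_7, z_8, z_9, z_11, z_13, z_14, z_18, z_24]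
        have hn401_1 : ¬ (b5 - b0 < p5) := fun hp401_1 => by
         linarith only [b_13, b_14, C_FW_1_2, C_FW_3_4, C_OPT_2_5_x23xx45x, hp401_1, z_0, z_2, z_4, z_5, z_6, z_8, z_10, z_11, z_12, z_14, z_20, z_23]
        have hn401_2 : ¬ (a6 - a5 < p5) := fun hp401_2 => by
         linarith only [b_17, b_18, hp401_2, z_13, z_14, z_24]
        rcases C_f_p5_1_5 with h | h | h
        exacts [hn401_0 h, hn401_1 h, hn401_2 h]
       have hn400_4 : ¬ (b3 - b0 < p1 + p3) := fun hp400_4 => by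
        linarith only [b_14, C_FW_1_2, C_OPT_1_3_K1x23x, hp399_0, hp400_4, z_0, z_2, z_4, z_5, z_6, z_8, z_16, z_23]
       rcases C_ff_p1_p3_1_5 with h | h | h | h | h
       exacts [hn400_0 h, hn400_1 h, hn400_2 h, hn400_3 h, hn400_4 h]
      have hn399_1 : ¬ (b1 - b0 < p1) := fun hp399_1 => by
       linarith only [b_13, b_14, hp399_1, z_0, z_2, z_23]
      have hn399_2 : ¬ (a4 - a1 < p1) := fun hp399_2 => by
       have hn402_0 : ¬ (p1 ≤ d0_5) := fun hp402_0 => by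
        have hn403_0 : ¬ (e1 ≤ p1) := fun hp403_0 => by
         have hn405_0 : ¬ (p1 + et ≤ d0_6) := fun hp405_0 => by
          linarith only [b_1, b_2, b_5, b_6, b_17, C_FW_2_3, C_FW_3_4, C_OPT_1_5_K1x23xx45x, C_OPT_1_5_x12xx34xKt, hp372_0, hp373_1, hp399_2, hp403_0, hp405_0, z_1, z_2, z_3, z_4, z_5, z_6, z_7, z_8, z_9, z_10, z_11, z_12, z_14, z_18, z_23, z_24]
         have hn405_1 : ¬ (b1 - b0 < p1) := fun hp405_1 => by
          linarith only [b_13, b_14, hp405_1, z_0, z_2, z_23]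
         have hn405_2 : ¬ (a6 - a5 < et) := fun hp405_2 => by
          linarith only [b_18, hp405_2, z_13, z_24]
         have hn405_3 : ¬ (a6 - a1 < p1 + et) := fun hp405_3 => by
          have hn406_0 : ¬ (p5 ≤ d0_6) := fun hp406_0 => by
           linarith only [b_1, b_4, b_5, b_18, C_FW_2_3, C_FW_4_5, C_OPT_1_4_x12xx34x, C_OPT_1_5_K1x23xx45x, hp373_1, hp402_0, hp403_0, hp405_3, hp406_0, z_1, z_2, z_3, z_4, z_5, z_6, z_7, z_8, z_9, z_10, z_11, z_12, z_13, z_14, z_17, z_18, z_23, z_24]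
          have hn406_1 : ¬ (b5 - b0 < p5) := fun hp406_1 => by
           linarith only [b_13, b_14, C_FW_1_2, C_FW_3_4, C_OPT_2_5_x23xx45x, hp406_1, z_0, z_2, z_4, z_5, z_6, z_8, z_10, z_11, z_12, z_14, z_20, z_23]
          have hn406_2 : ¬ (a6 - a5 < p5) := fun hp406_2 => by
           linarith only [b_17, b_18, hp406_2, z_13, z_14, z_24]
          rcases C_f_p5_1_5 with h | h | h
          exacts [hn406_0 h, hn406_1 h, hn406_2 h]
         have hn405_4 : ¬ (b5 - b0 < p1 + et) := fun hp405_4 => by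
          linarith only [b_13, b_14, b_18, C_FW_1_2, C_FW_1_3, C_FW_2_3, C_FW_3_4, C_FW_4_5, C_OPT_1_4_x12xx34x, C_OPT_1_5_K1x23xx45x, C_gap_1_5, hp372_0, hp392_2, hp402_0, hp405_4, z_0, z_1, z_2, z_3, z_4, z_5, z_6, z_7, z_8, z_9, z_10, z_11, z_12, z_13, z_14, z_17, z_18, z_23, z_24]
         rcases C_ff_p1_et_1_5 with h | h | h | h | h
         exacts [hn405_0 h, hn405_1 h, hn405_2 h, hn405_3 h, hn405_4 h]
        have hn403_1 : ¬ (2 * p1 ≤ e1) := fun hp403_1 => by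
         have hn407_0 : ¬ (p1 + p3 ≤ d0_6) := fun hp407_0 => by
          linarith only [b_2, b_14, b_17, b_18, C_FW_1_2, C_FW_3_4, C_FW_3_5, C_OPT_1_5_K1x23xx45x, C_gap_1_5, hp373_1, hp407_0, z_0, z_2, z_3, z_4, z_5, z_6, z_8, z_10, z_11, z_12, z_13, z_14, z_18, z_23, z_24]
         have hn407_1 : ¬ (b1 - b0 < p1) := fun hp407_1 => by
          linarith only [b_13, b_14, hp407_1, z_0, z_2, z_23]
         have hn407_2 : ¬ (a6 - a3 < p3) := fun hp407_2 => by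
          linarith only [b_17, b_18, C_FW_4_5, C_OPT_3_4_x34x, hp407_2, z_7, z_8, z_9, z_11, z_13, z_14, z_21, z_24]
         have hn407_3 : ¬ (a6 - a1 < p1 + p3) := fun hp407_3 => by
          have hn408_0 : ¬ (p5 ≤ d0_6) := fun hp408_0 => by
           linarith only [b_18, C_FW_2_3, C_FW_4_5, C_OPT_1_5_x12xx34xKt, hp372_0, hp407_3, hp408_0, z_1, z_2, z_3, z_5, z_7, z_8, z_9, z_11, z_13, z_14, z_18, z_24]
          have hn408_1 : ¬ (b5 - b0 < p5) := fun hp408_1 => by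
           linarith only [b_13, b_14, C_FW_1_2, C_FW_3_4, C_OPT_2_5_x23xx45x, hp408_1, z_0, z_2, z_4, z_5, z_6, z_8, z_10, z_11, z_12, z_14, z_20, z_23]
          have hn408_2 : ¬ (a6 - a5 < p5) := fun hp408_2 => by
           linarith only [b_17, b_18, hp408_2, z_13, z_14, z_24]
          rcases C_f_p5_1_5 with h | h | h
          exacts [hn408_0 h, hn408_1 h, hn408_2 h]
         have hn407_4 : ¬ (b3 - b0 < p1 + p3) := fun hp407_4 => by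
          linarith only [b_14, C_FW_1_2, C_OPT_2_3_x23x, hp403_1, hp407_4, z_0, z_2, z_4, z_5, z_6, z_8, z_19, z_23]
         rcases C_ff_p1_p3_1_5 with h | h | h | h | h
         exacts [hn407_0 h, hn407_1 h, hn407_2 h, hn407_3 h, hn407_4 h]
        rcases C_e1mult with h | h
        exacts [hn403_0 h, hn403_1 h]
       have hn402_1 : ¬ (b1 - b0 < p1) := fun hp402_1 => by
        linarith only [b_13, b_14, hp402_1, z_0, z_2, z_23]
       have hn402_2 : ¬ (a5 - a1 < p1) := fun hp402_2 => by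
        have hn409_0 : ¬ (p1 + p5 ≤ d0_6) := fun hp409_0 => by
         linarith only [b_1, b_3, b_5, b_14, b_18, b_20, C_FW_1_2, C_FW_2_3, C_FW_3_5, C_FW_4_5, C_OPT_1_5_K1x23xx45x, C_OPT_1_5_x12xx34xKt, C_gap_1_5, hp402_2, hp409_0, z_0, z_1, z_2, z_3, z_4, z_5, z_6, z_7, z_8, z_9, z_10, z_11, z_12, z_13, z_14, z_18, z_23, z_24]
        have hn409_1 : ¬ (b1 - b0 < p1) := fun hp409_1 => by
         linarith only [b_13, b_14, hp409_1, z_0, z_2, z_23]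
        have hn409_2 : ¬ (a6 - a5 < p5) := fun hp409_2 => by
         linarith only [b_17, b_18, hp409_2, z_13, z_14, z_24]
        have hn409_3 : ¬ (a6 - a1 < p1 + p5) := fun hp409_3 => by
         have hn410_0 : ¬ (p5 ≤ d0_6) := fun hp410_0 => by
          linarith only [b_18, C_FW_2_3, C_FW_4_5, C_OPT_1_5_x12xx34xKt, hp409_3, hp410_0, z_1, z_2, z_3, z_5, z_7, z_8, z_9, z_11, z_13, z_14, z_18, z_24]
         have hn410_1 : ¬ (b5 - b0 < p5) := fun hp410_1 => by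
          linarith only [b_13, b_14, C_FW_1_2, C_FW_3_4, C_OPT_2_5_x23xx45x, hp410_1, z_0, z_2, z_4, z_5, z_6, z_8, z_10, z_11, z_12, z_14, z_20, z_23]
         have hn410_2 : ¬ (a6 - a5 < p5) := fun hp410_2 => by
          linarith only [b_17, b_18, hp410_2, z_13, z_14, z_24]
         rcases C_f_p5_1_5 with h | h | h
         exacts [hn410_0 h, hn410_1 h, hn410_2 h]
        have hn409_4 : ¬ (b5 - b0 < p1 + p5) := fun hp409_4 => by
         linarith only [b_14, C_FW_1_2, C_FW_3_4, C_OPT_1_5_K1x23xx45x, hp398_0, hp409_4, z_0, z_2, z_4, z_5, z_6, z_8, z_10, z_11, z_12, z_14, z_18, z_23]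
        rcases C_ff_p1_p5_1_5 with h | h | h | h | h
        exacts [hn409_0 h, hn409_1 h, hn409_2 h, hn409_3 h, hn409_4 h]
       rcases C_f_p1_1_4 with h | h | h
       exacts [hn402_0 h, hn402_1 h, hn402_2 h]
      rcases C_f_p1_1_3 with h | h | h
      exacts [hn399_0 h, hn399_1 h, hn399_2 h]
     have hn398_1 : ¬ (b1 - b0 < p1) := fun hp398_1 => by
      linarith only [b_13, b_14, hp398_1, z_0, z_2, z_23]
     have hn398_2 : ¬ (a6 - a1 < p1) := fun hp398_2 => by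
      linarith only [b_17, b_18, C_FW_2_5, C_OPT_1_2_x12x, hp398_2, z_1, z_2, z_3, z_5, z_13, z_14, z_15, z_24]
     rcases C_f_p1_1_5 with h | h | h
     exacts [hn398_0 h, hn398_1 h, hn398_2 h]
    rcases C_f_p1_1_2 with h | h | h
    exacts [hn392_0 h, hn392_1 h, hn392_2 h]
   have hn373_2 : ¬ (a6 - a5 < p5) := fun hp373_2 => by
    linarith only [b_17, b_18, hp373_2, z_13, z_14, z_24]
   rcases C_f_p5_3_5 with h | h | h
   exacts [hn373_0 h, hn373_1 h, hn373_2 h]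
  have hn372_1 : ¬ (b3 - b0 < p3) := fun hp372_1 => by
   linarith only [b_13, b_14, C_FW_1_2, C_OPT_2_3_x23x, hp372_1, z_0, z_2, z_4, z_5, z_6, z_8, z_19, z_23]
  have hn372_2 : ¬ (a6 - a3 < p3) := fun hp372_2 => by
   linarith only [b_17, b_18, C_FW_4_5, C_OPT_3_4_x34x, hp372_2, z_7, z_8, z_9, z_11, z_13, z_14, z_21, z_24]
  rcases C_f_p3_1_5 with h | h | h
  exacts [hn372_0 h, hn372_1 h, hn372_2 h]

theorem top_5 (hb : S.Blk z (5)) (hA : S.al z 1 < S.al z 0)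
    (hD : S.be z 6 < S.be z 5) : S.Red z (5) := by
  by_contra hn
  obtain ⟨e1, he1, he1a, he1b, he1c, he1d, he1m⟩ := hb.irr1 (by omega) hA hn
  obtain ⟨et, het, heta, hetb, hetc, hetd, hetm⟩ : ∃ e, S.pp z 5 ∣ e ∧ e < S.al z 6 - S.al z 5 ∧ S.al z 6 - S.al z 5 ≤ e + S.pp z 5 ∧ S.pp z 5 ≤ e ∧ 2 * (S.be z 5 - S.be z 4) < e + S.pp z 5 ∧ (e ≤ S.pp z 5 ∨ 2 * S.pp z 5 ≤ e) :=
    Blk.irrt (s := 4) hb hD hn
  have he1n : 0 ≤ e1 := (hb.pos (i := 1) (by omega) (by omega)).le.trans he1c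
  have hetn : 0 ≤ et := (hb.pos (i := 5) (by omega) (by omega)).le.trans hetc
  have b_0 : S.be z 1 ≤ S.be z 2 := hb.bem (i := 1) (j := 2) (by omega) (by omega)
  have b_1 : S.al z 1 ≤ S.al z 2 := hb.alm (i := 1) (j := 2) (by omega) (by omega) (by omega)
  have b_2 : S.be z 2 ≤ S.be z 3 := hb.bem (i := 2) (j := 3) (by omega) (by omega)
  have b_3 : S.al z 2 ≤ S.al z 3 := hb.alm (i := 2) (j := 3) (by omega) (by omega) (by omega)
  have b_4 : S.be z 3 ≤ S.be z 4 := hb.bem (i := 3) (j := 4) (by omega) (by omega)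
  have b_5 : S.al z 3 ≤ S.al z 4 := hb.alm (i := 3) (j := 4) (by omega) (by omega) (by omega)
  have b_6 : S.be z 4 ≤ S.be z 5 := hb.bem (i := 4) (j := 5) (by omega) (by omega)
  have b_7 : S.al z 4 ≤ S.al z 5 := hb.alm (i := 4) (j := 5) (by omega) (by omega) (by omega)
  have b_8 : 0 < S.pp z 1 := hb.pos (i := 1) (by omega) (by omega)
  have b_9 : 0 < S.pp z 2 := hb.pos (i := 2) (by omega) (by omega)
  have b_10 : 0 < S.pp z 3 := hb.pos (i := 3) (by omega) (by omega)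
  have b_11 : 0 < S.pp z 4 := hb.pos (i := 4) (by omega) (by omega)
  have b_12 : 0 < S.pp z 5 := hb.pos (i := 5) (by omega) (by omega)
  have b_13 : S.pp z 1 ≤ e1 := he1c
  have b_14 : e1 < S.be z 1 - S.be z 0 := he1a
  have b_15 : S.be z 1 - S.be z 0 ≤ e1 + S.pp z 1 := he1b
  have b_16 : 2 * (S.al z 2 - S.al z 1) < e1 + S.pp z 1 := he1d
  have b_17 : S.pp z 5 ≤ et := hetc
  have b_18 : et < S.al z 6 - S.al z 5 := heta
  have b_19 : S.al z 6 - S.al z 5 ≤ et + S.pp z 5 := hetb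
  have b_20 : 2 * (S.be z 5 - S.be z 4) < et + S.pp z 5 := hetd
  have z_0 : S.be z 0 ≤ S.be z 1 := hb.bem (i := 0) (j := 1) (by omega) (by omega)
  have z_1 : S.al z 1 ≤ S.al z 6 := hb.alm (i := 1) (j := 6) (by omega) (by omega) (by omega)
  have z_2 : 0 ≤ S.pp z 1 := (hb.pos (i := 1) (by omega) (by omega)).le
  have z_3 : S.be z 0 ≤ S.be z 2 := hb.bem (i := 0) (j := 2) (by omega) (by omega)
  have z_4 : S.al z 2 ≤ S.al z 6 := hb.alm (i := 2) (j := 6) (by omega) (by omega) (by omega)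
  have z_5 : 0 ≤ S.pp z 2 := (hb.pos (i := 2) (by omega) (by omega)).le
  have z_6 : S.be z 0 ≤ S.be z 3 := hb.bem (i := 0) (j := 3) (by omega) (by omega)
  have z_7 : S.al z 3 ≤ S.al z 6 := hb.alm (i := 3) (j := 6) (by omega) (by omega) (by omega)
  have z_8 : 0 ≤ S.pp z 3 := (hb.pos (i := 3) (by omega) (by omega)).le
  have z_9 : S.be z 0 ≤ S.be z 4 := hb.bem (i := 0) (j := 4) (by omega) (by omega)
  have z_10 : S.al z 4 ≤ S.al z 6 := hb.alm (i := 4) (j := 6) (by omega) (by omega) (by omega)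
  have z_11 : 0 ≤ S.pp z 4 := (hb.pos (i := 4) (by omega) (by omega)).le
  have z_12 : S.be z 0 ≤ S.be z 5 := hb.bem (i := 0) (j := 5) (by omega) (by omega)
  have z_13 : S.al z 5 ≤ S.al z 6 := hb.alm (i := 5) (j := 6) (by omega) (by omega) (by omega)
  have z_14 : 0 ≤ S.pp z 5 := (hb.pos (i := 5) (by omega) (by omega)).le
  have z_15 : 0 ≤ S.drop z 0 3 := hb.dnn (i := 0) (j := 3) (by omega) (by omega)
  have z_16 : 0 ≤ S.drop z 0 4 := hb.dnn (i := 0) (j := 4) (by omega) (by omega)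
  have z_17 : 0 ≤ S.drop z 0 5 := hb.dnn (i := 0) (j := 5) (by omega) (by omega)
  have z_18 : 0 ≤ S.drop z 0 6 := hb.dnn (i := 0) (j := 6) (by omega) (by omega)
  have z_19 : 0 ≤ S.drop z 1 4 := hb.dnn (i := 1) (j := 4) (by omega) (by omega)
  have z_20 : 0 ≤ S.drop z 1 6 := hb.dnn (i := 1) (j := 6) (by omega) (by omega)
  have z_21 : 0 ≤ S.drop z 2 5 := hb.dnn (i := 2) (j := 5) (by omega) (by omega)
  have z_22 : 0 ≤ S.drop z 2 6 := hb.dnn (i := 2) (j := 6) (by omega) (by omega)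
  have z_23 : 0 ≤ e1 := he1n
  have z_24 : 0 ≤ et := hetn
  have C_f_p3_1_5 : S.pp z 3 ≤ S.drop z 0 6 ∨ S.be z 3 - S.be z 0 < S.pp z 3 ∨ S.al z 6 - S.al z 3 < S.pp z 3 := hb.cl_f (i0 := 0) (j0 := 6) (i := 3) (by omega) (by omega) (by omega) (dvd_refl _)
  have C_f_p5_3_5 : S.pp z 5 ≤ S.drop z 2 6 ∨ S.be z 5 - S.be z 2 < S.pp z 5 ∨ S.al z 6 - S.al z 5 < S.pp z 5 := hb.cl_f (i0 := 2) (j0 := 6) (i := 5) (by omega) (by omega) (by omega) (dvd_refl _)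
  have C_ff_p1_p3_1_5 : S.pp z 1 + S.pp z 3 ≤ S.drop z 0 6 ∨ S.be z 1 - S.be z 0 < S.pp z 1 ∨ S.al z 6 - S.al z 3 < S.pp z 3 ∨ S.al z 6 - S.al z 1 < S.pp z 1 + S.pp z 3 ∨ S.be z 3 - S.be z 0 < S.pp z 1 + S.pp z 3 := hb.cl_ff (i0 := 0) (j0 := 6) (i := 1) (j := 3) (by omega) (by omega) (by omega) (by omega) (dvd_refl _) (hb.pos (i := 1) (by omega) (by omega)).le (dvd_refl _) (hb.pos (i := 3) (by omega) (by omega)).le
  have C_ff_p1_p4_1_5 : S.pp z 1 + S.pp z 4 ≤ S.drop z 0 6 ∨ S.be z 1 - S.be z 0 < S.pp z 1 ∨ S.al z 6 - S.al z 4 < S.pp z 4 ∨ S.al z 6 - S.al z 1 < S.pp z 1 + S.pp z 4 ∨ S.be z 4 - S.be z 0 < S.pp z 1 + S.pp z 4 := hb.cl_ff (i0 := 0) (j0 := 6) (i := 1) (j := 4) (by omega) (by omega) (by omega) (by omega) (dvd_refl _) (hb.pos (i := 1) (by omega) (by omega)).le (dvd_refl _) (hb.pos (i := 4) (by omega) (by omega)).le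
  have C_FW_1_2 : S.be z 1 - S.al z 2 < S.pp z 1 + S.pp z 2 := hb.fw (i := 1) (j := 2) (by omega) (by omega) (by omega)
  have C_FW_3_4 : S.be z 3 - S.al z 4 < S.pp z 3 + S.pp z 4 := hb.fw (i := 3) (j := 4) (by omega) (by omega) (by omega)
  have C_FW_4_5 : S.be z 4 - S.al z 5 < S.pp z 4 + S.pp z 5 := hb.fw (i := 4) (j := 5) (by omega) (by omega) (by omega)
  have C_OPT_1_5_K1x23xx45x : 2 * S.drop z 0 6 < e1 + (S.be z 3 - S.al z 2 - S.pp z 2 - S.pp z 3) + (S.be z 5 - S.al z 4 - S.pp z 4 - S.pp z 5) := by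
    have g : S.Good z 0 6 (e1 + S.Ex z 2 2) := hb.good_K1 hA he1 he1b (m := 2) (j := 6) (by omega) (by omega)
    have g2 := not_red hn g (by omega) (by omega)
    have : S.Ex z 2 2 = ((S.be z 3 - S.al z 2 - S.pp z 2 - S.pp z 3) + ((S.be z 5 - S.al z 4 - S.pp z 4 - S.pp z 5) + 0)) := rfl
    linarith
  have C_gap_1_5 : S.al z 6 - S.be z 0 ≤ S.drop z 0 6 := gap_le _ _
  have C_FW3_1_2_3 : S.be z 2 - S.al z 2 - S.pp z 2 < S.pp z 1 + S.pp z 3 ∨ S.be z 2 - S.al z 3 < S.pp z 1 + S.pp z 3 ∨ S.be z 1 - S.al z 2 < S.pp z 1 + S.pp z 3 ∨ S.be z 1 - S.al z 3 + S.pp z 2 < S.pp z 1 + S.pp z 3 := hb.cl_fw3 (i := 1) (j := 2) (k := 3) (by omega) (by omega) (by omega) (by omega) (by omega)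
  have C_ff_p3_p5_1_5 : S.pp z 3 + S.pp z 5 ≤ S.drop z 0 6 ∨ S.be z 3 - S.be z 0 < S.pp z 3 ∨ S.al z 6 - S.al z 5 < S.pp z 5 ∨ S.al z 6 - S.al z 3 < S.pp z 3 + S.pp z 5 ∨ S.be z 5 - S.be z 0 < S.pp z 3 + S.pp z 5 := hb.cl_ff (i0 := 0) (j0 := 6) (i := 3) (j := 5) (by omega) (by omega) (by omega) (by omega) (dvd_refl _) (hb.pos (i := 3) (by omega) (by omega)).le (dvd_refl _) (hb.pos (i := 5) (by omega) (by omega)).le
  have C_f_e1_1_2 : e1 ≤ S.drop z 0 3 ∨ S.be z 1 - S.be z 0 < e1 ∨ S.al z 3 - S.al z 1 < e1 := hb.cl_f (i0 := 0) (j0 := 3) (i := 1) (by omega) (by omega) (by omega) he1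
  have C_fff_3 : e1 + S.pp z 3 + et ≤ S.drop z 0 6 ∨ S.be z 3 - S.be z 0 < e1 + S.pp z 3 ∨ S.al z 6 - S.al z 3 < S.pp z 3 + et ∨ S.al z 6 - S.al z 1 < e1 + S.pp z 3 + et ∨ S.be z 5 - S.be z 0 < e1 + S.pp z 3 + et := hb.cl_fff (i := 3) (by omega) (by omega) he1 he1n he1a.le het hetn heta.le
  have C_FW_1_3 : S.be z 1 - S.al z 3 < S.pp z 1 + S.pp z 3 := hb.fw (i := 1) (j := 3) (by omega) (by omega) (by omega)
  have C_OPT_1_5_x12xx34xKt : 2 * S.drop z 0 6 < (S.be z 2 - S.al z 1 - S.pp z 1 - S.pp z 2) + (S.be z 4 - S.al z 3 - S.pp z 3 - S.pp z 4) + et := by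
    have g : S.Good z 0 6 (S.Ex z 1 2 + et) := hb.good_Kt hD het hetb (i := 0) (m := 2) (by omega)
    have g2 := not_red hn g (by omega) (by omega)
    have : S.Ex z 1 2 = ((S.be z 2 - S.al z 1 - S.pp z 1 - S.pp z 2) + ((S.be z 4 - S.al z 3 - S.pp z 3 - S.pp z 4) + 0)) := rfl
    linarith
  have C_f_e1_1_3 : e1 ≤ S.drop z 0 4 ∨ S.be z 1 - S.be z 0 < e1 ∨ S.al z 4 - S.al z 1 < e1 := hb.cl_f (i0 := 0) (j0 := 4) (i := 1) (by omega) (by omega) (by omega) he1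
  have C_OPT_1_3_K1x23x : 2 * S.drop z 0 4 < e1 + (S.be z 3 - S.al z 2 - S.pp z 2 - S.pp z 3) := by
    have g : S.Good z 0 4 (e1 + S.Ex z 2 1) := hb.good_K1 hA he1 he1b (m := 1) (j := 4) (by omega) (by omega)
    have g2 := not_red hn g (by omega) (by omega)
    have : S.Ex z 2 1 = ((S.be z 3 - S.al z 2 - S.pp z 2 - S.pp z 3) + 0) := rfl
    linarith
  have C_FW_2_3 : S.be z 2 - S.al z 3 < S.pp z 2 + S.pp z 3 := hb.fw (i := 2) (j := 3) (by omega) (by omega) (by omega)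
  have C_f_et_3_5 : et ≤ S.drop z 2 6 ∨ S.be z 5 - S.be z 2 < et ∨ S.al z 6 - S.al z 5 < et := hb.cl_f (i0 := 2) (j0 := 6) (i := 5) (by omega) (by omega) (by omega) het
  have C_OPT_3_5_x34xKt : 2 * S.drop z 2 6 < (S.be z 4 - S.al z 3 - S.pp z 3 - S.pp z 4) + et := by
    have g : S.Good z 2 6 (S.Ex z 3 1 + et) := hb.good_Kt hD het hetb (i := 2) (m := 1) (by omega)
    have g2 := not_red hn g (by omega) (by omega)
    have : S.Ex z 3 1 = ((S.be z 4 - S.al z 3 - S.pp z 3 - S.pp z 4) + 0) := rfl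
    linarith
  have C_FW_3_5 : S.be z 3 - S.al z 5 < S.pp z 3 + S.pp z 5 := hb.fw (i := 3) (j := 5) (by omega) (by omega) (by omega)
  have C_OPT_1_2_x12x : 2 * S.drop z 0 3 < (S.be z 2 - S.al z 1 - S.pp z 1 - S.pp z 2) := by
    have g : S.Good z 0 3 (S.Ex z 1 1) := hb.good_P (i := 0) (m := 1) (j := 3) (by omega) (by omega)
    have g2 := not_red hn g (by omega) (by omega)
    have : S.Ex z 1 1 = ((S.be z 2 - S.al z 1 - S.pp z 1 - S.pp z 2) + 0) := rfl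
    linarith
  have C_OPT_2_3_x23x : 2 * S.drop z 1 4 < (S.be z 3 - S.al z 2 - S.pp z 2 - S.pp z 3) := by
    have g : S.Good z 1 4 (S.Ex z 2 1) := hb.good_P (i := 1) (m := 1) (j := 4) (by omega) (by omega)
    have g2 := not_red hn g (by omega) (by omega)
    have : S.Ex z 2 1 = ((S.be z 3 - S.al z 2 - S.pp z 2 - S.pp z 3) + 0) := rfl
    linarith
  have C_f_p1_1_2 : S.pp z 1 ≤ S.drop z 0 3 ∨ S.be z 1 - S.be z 0 < S.pp z 1 ∨ S.al z 3 - S.al z 1 < S.pp z 1 := hb.cl_f (i0 := 0) (j0 := 3) (i := 1) (by omega) (by omega) (by omega) (dvd_refl _)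
  have C_ff_p1_p5_1_5 : S.pp z 1 + S.pp z 5 ≤ S.drop z 0 6 ∨ S.be z 1 - S.be z 0 < S.pp z 1 ∨ S.al z 6 - S.al z 5 < S.pp z 5 ∨ S.al z 6 - S.al z 1 < S.pp z 1 + S.pp z 5 ∨ S.be z 5 - S.be z 0 < S.pp z 1 + S.pp z 5 := hb.cl_ff (i0 := 0) (j0 := 6) (i := 1) (j := 5) (by omega) (by omega) (by omega) (by omega) (dvd_refl _) (hb.pos (i := 1) (by omega) (by omega)).le (dvd_refl _) (hb.pos (i := 5) (by omega) (by omega)).le
  have C_ff_p1_et_1_5 : S.pp z 1 + et ≤ S.drop z 0 6 ∨ S.be z 1 - S.be z 0 < S.pp z 1 ∨ S.al z 6 - S.al z 5 < et ∨ S.al z 6 - S.al z 1 < S.pp z 1 + et ∨ S.be z 5 - S.be z 0 < S.pp z 1 + et := hb.cl_ff (i0 := 0) (j0 := 6) (i := 1) (j := 5) (by omega) (by omega) (by omega) (by omega) (dvd_refl _) (hb.pos (i := 1) (by omega) (by omega)).le het hetn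
  have C_OPT_3_4_x34x : 2 * S.drop z 2 5 < (S.be z 4 - S.al z 3 - S.pp z 3 - S.pp z 4) := by
    have g : S.Good z 2 5 (S.Ex z 3 1) := hb.good_P (i := 2) (m := 1) (j := 5) (by omega) (by omega)
    have g2 := not_red hn g (by omega) (by omega)
    have : S.Ex z 3 1 = ((S.be z 4 - S.al z 3 - S.pp z 3 - S.pp z 4) + 0) := rfl
    linarith
  have C_f_p1_1_3 : S.pp z 1 ≤ S.drop z 0 4 ∨ S.be z 1 - S.be z 0 < S.pp z 1 ∨ S.al z 4 - S.al z 1 < S.pp z 1 := hb.cl_f (i0 := 0) (j0 := 4) (i := 1) (by omega) (by omega) (by omega) (dvd_refl _)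
  have C_f_p1_1_5 : S.pp z 1 ≤ S.drop z 0 6 ∨ S.be z 1 - S.be z 0 < S.pp z 1 ∨ S.al z 6 - S.al z 1 < S.pp z 1 := hb.cl_f (i0 := 0) (j0 := 6) (i := 1) (by omega) (by omega) (by omega) (dvd_refl _)
  have C_FW_2_5 : S.be z 2 - S.al z 5 < S.pp z 2 + S.pp z 5 := hb.fw (i := 2) (j := 5) (by omega) (by omega) (by omega)
  have C_e1mult : e1 ≤ S.pp z 1 ∨ 2 * S.pp z 1 ≤ e1 := he1m
  have C_f_p5_1_5 : S.pp z 5 ≤ S.drop z 0 6 ∨ S.be z 5 - S.be z 0 < S.pp z 5 ∨ S.al z 6 - S.al z 5 < S.pp z 5 := hb.cl_f (i0 := 0) (j0 := 6) (i := 5) (by omega) (by omega) (by omega) (dvd_refl _)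
  have C_OPT_2_5_x23xx45x : 2 * S.drop z 1 6 < (S.be z 3 - S.al z 2 - S.pp z 2 - S.pp z 3) + (S.be z 5 - S.al z 4 - S.pp z 4 - S.pp z 5) := by
    have g : S.Good z 1 6 (S.Ex z 2 2) := hb.good_P (i := 1) (m := 2) (j := 6) (by omega) (by omega)
    have g2 := not_red hn g (by omega) (by omega)
    have : S.Ex z 2 2 = ((S.be z 3 - S.al z 2 - S.pp z 2 - S.pp z 3) + ((S.be z 5 - S.al z 4 - S.pp z 4 - S.pp z 5) + 0)) := rfl
    linarith
  have C_f_p1_1_4 : S.pp z 1 ≤ S.drop z 0 5 ∨ S.be z 1 - S.be z 0 < S.pp z 1 ∨ S.al z 5 - S.al z 1 < S.pp z 1 := hb.cl_f (i0 := 0) (j0 := 5) (i := 1) (by omega) (by omega) (by omega) (dvd_refl _)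
  have C_OPT_1_4_x12xx34x : 2 * S.drop z 0 5 < (S.be z 2 - S.al z 1 - S.pp z 1 - S.pp z 2) + (S.be z 4 - S.al z 3 - S.pp z 3 - S.pp z 4) := by
    have g : S.Good z 0 5 (S.Ex z 1 2) := hb.good_P (i := 0) (m := 2) (j := 5) (by omega) (by omega)
    have g2 := not_red hn g (by omega) (by omega)
    have : S.Ex z 1 2 = ((S.be z 2 - S.al z 1 - S.pp z 1 - S.pp z 2) + ((S.be z 4 - S.al z 3 - S.pp z 3 - S.pp z 4) + 0)) := rfl
    linarith
  exact arith_5 b_0 b_1 b_2 b_3 b_4 b_5 b_6 b_7 b_8 b_9 b_10 b_11 b_12 b_13 b_14 b_15 b_16 b_17 b_18 b_19 b_20 z_0 z_1 z_2 z_3 z_4 z_5 z_6 z_7 z_8 z_9 z_10 z_11 z_12 z_13 z_14 z_15 z_16 z_17 z_18 z_19 z_20 z_21 z_22 z_23 z_24 C_f_p3_1_5 C_f_p5_3_5 C_ff_p1_p3_1_5 C_ff_p1_p4_1_5 C_FW_1_2 C_FW_3_4 C_FW_4_5 C_OPT_1_5_K1x23xx45x C_gap_1_5 C_FW3_1_2_3 C_ff_p3_p5_1_5 C_f_e1_1_2 C_fff_3 C_FW_1_3 C_OPT_1_5_x12xx34xKt C_f_e1_1_3 C_OPT_1_3_K1x23x C_FW_2_3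 C_f_et_3_5 C_OPT_3_5_x34xKt C_FW_3_5 C_OPT_1_2_x12x C_OPT_2_3_x23x C_f_p1_1_2 C_ff_p1_p5_1_5 C_ff_p1_et_1_5 C_OPT_3_4_x34x C_f_p1_1_3 C_f_p1_1_5 C_FW_2_5 C_e1mult C_f_p5_1_5 C_OPT_2_5_x23xx45x C_f_p1_1_4 C_OPT_1_4_x12xx34x

end Sys

end Crest.Agent.R287
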