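import Crest.Agent.R287.Opt

/-! # R287: irreducible top blocks do not exist (generated case analysis of linear inequalities) -/

set_option autoImplicit false
open Finset

namespace Crest.Agent.R287

namespace Sys

variable {S : Sys} {z : ℕ → S.E}

theorem Ex_succ' {a m i : ℕ} (h : i = a + 2 * m) : S.Ex z a (m + 1) = S.Ex z a m +
    (S.be z (i + 1) - S.al z i - S.pp z i - S.pp z (i + 1)) := by
  subst h; exact Ex_succ a m

theorem Blk.Ex_le' {t : ℕ} (hb : S.Blk z t) {a m i : ℕ} (hi : i = a + 2 * m + 1) (h : a + 2 * m ≤ t) :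
    S.Ex z a (m + 1) ≤ S.be z i - S.al z a - S.pp z a - S.pp z i := by
  subst hi; exact hb.Ex_le h

end Sys

end Crest.Agent.R287
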