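import Crest.Agent.R287.TopAux

/-! # R287: irreducible top blocks do not exist (generated case analysis of linear inequalities) -/

set_option autoImplicit false
open Finset

namespace Crest.Agent.R287

namespace Sys

variable {S : Sys} {z : ℕ → S.E}

set_option maxHeartbeats 0 in
set_option linter.unusedVariables false in
theorem arith_ev {E O a1 a2 a5 a6 a7 b0 b1 b2 b5 b6 d0_5 d0_6 d0_7 d1_7 d2_7 e1 et p1 p2 p5 p6 : ℤ}
    (b_0 : b1 ≤ b2)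
    (b_1 : a1 ≤ a2)
    (b_2 : b2 ≤ b5)
    (b_3 : a2 ≤ a5)
    (b_4 : b5 ≤ b6)
    (b_5 : a5 ≤ a6)
    (b_6 : 0 < p1)
    (b_7 : 0 < p2)
    (b_8 : 0 < p5)
    (b_9 : 0 < p6)
    (b_10 : p1 ≤ e1)
    (b_11 : e1 < b1 - b0)
    (b_12 : b1 - b0 ≤ e1 + p1)
    (b_13 : 2 * (a2 - a1) < e1 + p1)
    (b_14 : p6 ≤ et)
    (b_15 : et < a7 - a6)
    (b_16 : a7 - a6 ≤ et + p6)
    (b_17 : 2 * (b6 - b5) < et + p6)
    (z_0 : b0 ≤ b1)
    (z_1 : a1 ≤ a7)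
    (z_2 : 0 ≤ p1)
    (z_3 : b0 ≤ b2)
    (z_4 : a2 ≤ a7)
    (z_5 : 0 ≤ p2)
    (z_6 : b0 ≤ b5)
    (z_7 : a5 ≤ a7)
    (z_8 : 0 ≤ p5)
    (z_9 : b0 ≤ b6)
    (z_10 : a6 ≤ a7)
    (z_11 : 0 ≤ p6)
    (z_12 : 0 ≤ d0_5)
    (z_13 : 0 ≤ d0_6)
    (z_14 : 0 ≤ d0_7)
    (z_15 : 0 ≤ d1_7)
    (z_16 : 0 ≤ d2_7)
    (z_17 : 0 ≤ e1)
    (z_18 : 0 ≤ et)
    (C_f_p1_1_6 : p1 ≤ d0_7 ∨ b1 - b0 < p1 ∨ a7 - a1 < p1)
    (C_f_p6_1_6 : p6 ≤ d0_7 ∨ b6 - b0 < p6 ∨ a7 - a6 < p6)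
    (C_f_p1_1_4 : p1 ≤ d0_5 ∨ b1 - b0 < p1 ∨ a5 - a1 < p1)
    (C_f_p1_1_5 : p1 ≤ d0_6 ∨ b1 - b0 < p1 ∨ a6 - a1 < p1)
    (C_ff_p1_p6_1_6 : p1 + p6 ≤ d0_7 ∨ b1 - b0 < p1 ∨ a7 - a6 < p6 ∨ a7 - a1 < p1 + p6 ∨ b6 - b0 < p1 + p6)
    (C_FW_1_2 : b1 - a2 < p1 + p2)
    (C_FW_5_6 : b5 - a6 < p5 + p6)
    (C_Obd : O ≤ b5 - a2 - p2 - p5)
    (C_OPT_1_6_K1OKt : 2 * d0_7 < e1 + O + et)
    (C_gap_1_6 : a7 - b0 ≤ d0_7)
    (C_f_p6_2_6 : p6 ≤ d1_7 ∨ b6 - b1 < p6 ∨ a7 - a6 < p6)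
    (C_ff_p2_p6_1_6 : p2 + p6 ≤ d0_7 ∨ b2 - b0 < p2 ∨ a7 - a6 < p6 ∨ a7 - a2 < p2 + p6 ∨ b6 - b0 < p2 + p6)
    (C_Ebd_2_6 : E + (b2 - a6) < p2 + p6)
    (C_OPT_1_6_x12xEx56x : 2 * d0_7 < (b2 - a1 - p1 - p2) + E + (b6 - a5 - p5 - p6))
    (C_OPT_2_6_OKt : 2 * d1_7 < O + et)
    (C_FW_2_6 : b2 - a6 < p2 + p6)
    (C_Ebd_1_6 : E + (b1 - a6) < p1 + p6)
    (C_Ebd_2_5 : E + (b2 - a5) < p2 + p5)
    (C_OPT_1_4_x12xE : 2 * d0_5 < (b2 - a1 - p1 - p2) + E)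
    (C_Ebd_1_5 : E + (b1 - a5) < p1 + p5)
    (C_ff_p1_p5_1_6 : p1 + p5 ≤ d0_7 ∨ b1 - b0 < p1 ∨ a7 - a5 < p5 ∨ a7 - a1 < p1 + p5 ∨ b5 - b0 < p1 + p5)
    (C_OPT_1_5_K1O : 2 * d0_6 < e1 + O)
    (C_FW_2_5 : b2 - a5 < p2 + p5)
    (C_OPT_3_6_Ex56x : 2 * d2_7 < E + (b6 - a5 - p5 - p6)) : False := by
  have hn97_0 : ¬ (p1 ≤ d0_7) := fun hp97_0 => by
   have hn98_0 : ¬ (p6 ≤ d0_7) := fun hp98_0 => by
    have hn99_0 : ¬ (p1 ≤ d0_5) := fun hp99_0 => by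
     have hn100_0 : ¬ (p1 ≤ d0_6) := fun hp100_0 => by
      have hn101_0 : ¬ (p1 + p6 ≤ d0_7) := fun hp101_0 => by
       linarith only [b_11, b_15, C_FW_1_2, C_FW_5_6, C_Obd, C_OPT_1_6_K1OKt, C_gap_1_6, hp101_0, z_0, z_2, z_4, z_5, z_6, z_8, z_10, z_11, z_14, z_17, z_18]
      have hn101_1 : ¬ (b1 - b0 < p1) := fun hp101_1 => by
       linarith only [b_10, b_11, hp101_1, z_0, z_2, z_17]
      have hn101_2 : ¬ (a7 - a6 < p6) := fun hp101_2 => by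
       linarith only [b_14, b_15, hp101_2, z_10, z_11, z_18]
      have hn101_3 : ¬ (a7 - a1 < p1 + p6) := fun hp101_3 => by
       have hn102_0 : ¬ (p6 ≤ d1_7) := fun hp102_0 => by
        have hn103_0 : ¬ (p2 + p6 ≤ d0_7) := fun hp103_0 => by
         linarith only [b_3, b_10, b_11, b_14, b_15, b_17, C_FW_1_2, C_FW_5_6, C_Ebd_2_6, C_OPT_1_6_x12xEx56x, C_gap_1_6, hp101_3, hp103_0, z_0, z_1, z_2, z_3, z_4, z_5, z_6, z_7, z_8, z_9, z_10, z_11, z_14, z_17, z_18]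
        have hn103_1 : ¬ (b2 - b0 < p2) := fun hp103_1 => by
         linarith only [b_0, b_1, b_10, b_11, b_15, C_FW_5_6, C_Obd, C_OPT_2_6_OKt, hp101_3, hp102_0, hp103_1, z_0, z_1, z_2, z_3, z_4, z_5, z_6, z_8, z_10, z_11, z_15, z_17, z_18]
        have hn103_2 : ¬ (a7 - a6 < p6) := fun hp103_2 => by
         linarith only [b_14, b_15, hp103_2, z_10, z_11, z_18]
        have hn103_3 : ¬ (a7 - a2 < p2 + p6) := fun hp103_3 => by
         linarith only [b_15, C_FW_5_6, C_Obd, C_OPT_2_6_OKt, hp102_0, hp103_3, z_4, z_5, z_6, z_8, z_10, z_11, z_15, z_18]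
        have hn103_4 : ¬ (b6 - b0 < p2 + p6) := fun hp103_4 => by
         linarith only [b_1, b_11, b_14, b_15, C_FW_2_6, C_FW_5_6, C_Ebd_1_6, C_Ebd_2_5, C_Obd, C_OPT_1_4_x12xE, C_OPT_1_6_K1OKt, C_OPT_1_6_x12xEx56x, hp98_0, hp99_0, hp101_3, hp103_4, z_0, z_1, z_2, z_3, z_4, z_5, z_6, z_7, z_8, z_9, z_10, z_11, z_12, z_14, z_17, z_18]
        rcases C_ff_p2_p6_1_6 with h | h | h | h | h
        exacts [hn103_0 h, hn103_1 h, hn103_2 h, hn103_3 h, hn103_4 h]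
       have hn102_1 : ¬ (b6 - b1 < p6) := fun hp102_1 => by
        linarith only [b_14, b_15, C_FW_2_6, C_Ebd_1_5, C_OPT_1_6_x12xEx56x, hp97_0, hp98_0, hp101_3, hp102_1, z_0, z_1, z_2, z_3, z_5, z_7, z_8, z_9, z_10, z_11, z_14, z_18]
       have hn102_2 : ¬ (a7 - a6 < p6) := fun hp102_2 => by
        linarith only [b_14, b_15, hp102_2, z_10, z_11, z_18]
       rcases C_f_p6_2_6 with h | h | h
       exacts [hn102_0 h, hn102_1 h, hn102_2 h]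
      have hn101_4 : ¬ (b6 - b0 < p1 + p6) := fun hp101_4 => by
       have hn104_0 : ¬ (p1 + p5 ≤ d0_7) := fun hp104_0 => by
        linarith only [b_2, b_10, b_11, b_13, b_14, b_15, C_FW_1_2, C_FW_5_6, C_Ebd_1_5, C_OPT_1_6_x12xEx56x, C_gap_1_6, hp101_4, hp104_0, z_0, z_1, z_2, z_3, z_4, z_5, z_6, z_7, z_8, z_9, z_10, z_11, z_14, z_17, z_18]
       have hn104_1 : ¬ (b1 - b0 < p1) := fun hp104_1 => by
        linarith only [b_10, b_11, hp104_1, z_0, z_2, z_17]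
       have hn104_2 : ¬ (a7 - a5 < p5) := fun hp104_2 => by
        linarith only [b_4, b_5, b_11, b_14, b_15, C_FW_1_2, C_Obd, C_OPT_1_5_K1O, hp100_0, hp101_4, hp104_2, z_0, z_2, z_4, z_5, z_6, z_7, z_8, z_9, z_10, z_11, z_13, z_17, z_18]
       have hn104_3 : ¬ (a7 - a1 < p1 + p5) := fun hp104_3 => by
        linarith only [b_4, b_11, b_15, C_FW_1_2, C_Ebd_2_6, C_Obd, C_OPT_1_4_x12xE, C_OPT_1_6_K1OKt, hp98_0, hp99_0, hp101_4, hp104_3, z_0, z_1, z_2, z_3, z_4, z_5, z_6, z_8, z_9, z_10, z_11, z_12, z_14, z_17, z_18]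
       have hn104_4 : ¬ (b5 - b0 < p1 + p5) := fun hp104_4 => by
        linarith only [b_11, C_FW_1_2, C_Obd, C_OPT_1_5_K1O, hp100_0, hp104_4, z_0, z_2, z_4, z_5, z_6, z_8, z_13, z_17]
       rcases C_ff_p1_p5_1_6 with h | h | h | h | h
       exacts [hn104_0 h, hn104_1 h, hn104_2 h, hn104_3 h, hn104_4 h]
      rcases C_ff_p1_p6_1_6 with h | h | h | h | h
      exacts [hn101_0 h, hn101_1 h, hn101_2 h, hn101_3 h, hn101_4 h]
     have hn100_1 : ¬ (b1 - b0 < p1) := fun hp100_1 => by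
      linarith only [b_10, b_11, hp100_1, z_0, z_2, z_17]
     have hn100_2 : ¬ (a6 - a1 < p1) := fun hp100_2 => by
      have hn105_0 : ¬ (p1 + p6 ≤ d0_7) := fun hp105_0 => by
       linarith only [b_11, b_15, C_FW_1_2, C_FW_5_6, C_Obd, C_OPT_1_6_K1OKt, C_gap_1_6, hp105_0, z_0, z_2, z_4, z_5, z_6, z_8, z_10, z_11, z_14, z_17, z_18]
      have hn105_1 : ¬ (b1 - b0 < p1) := fun hp105_1 => by
       linarith only [b_10, b_11, hp105_1, z_0, z_2, z_17]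
      have hn105_2 : ¬ (a7 - a6 < p6) := fun hp105_2 => by
       linarith only [b_14, b_15, hp105_2, z_10, z_11, z_18]
      have hn105_3 : ¬ (a7 - a1 < p1 + p6) := fun hp105_3 => by
       have hn106_0 : ¬ (p6 ≤ d1_7) := fun hp106_0 => by
        have hn107_0 : ¬ (p2 + p6 ≤ d0_7) := fun hp107_0 => by
         linarith only [b_3, b_10, b_11, b_14, b_15, b_17, C_FW_1_2, C_FW_5_6, C_Ebd_2_6, C_OPT_1_6_x12xEx56x, C_gap_1_6, hp100_2, hp107_0, z_0, z_1, z_2, z_3, z_4, z_5, z_6, z_7, z_8, z_9, z_10, z_11, z_14, z_17, z_18]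
        have hn107_1 : ¬ (b2 - b0 < p2) := fun hp107_1 => by
         linarith only [b_0, b_1, b_10, b_11, b_15, C_FW_5_6, C_Obd, C_OPT_2_6_OKt, hp105_3, hp106_0, hp107_1, z_0, z_1, z_2, z_3, z_4, z_5, z_6, z_8, z_10, z_11, z_15, z_17, z_18]
        have hn107_2 : ¬ (a7 - a6 < p6) := fun hp107_2 => by
         linarith only [b_14, b_15, hp107_2, z_10, z_11, z_18]
        have hn107_3 : ¬ (a7 - a2 < p2 + p6) := fun hp107_3 => by
         linarith only [b_15, C_FW_5_6, C_Obd, C_OPT_2_6_OKt, hp106_0, hp107_3, z_4, z_5, z_6, z_8, z_10, z_11, z_15, z_18]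
        have hn107_4 : ¬ (b6 - b0 < p2 + p6) := fun hp107_4 => by
         linarith only [b_1, b_11, b_14, b_15, C_FW_2_6, C_FW_5_6, C_Ebd_1_6, C_Ebd_2_5, C_Obd, C_OPT_1_4_x12xE, C_OPT_1_6_K1OKt, C_OPT_1_6_x12xEx56x, hp98_0, hp99_0, hp105_3, hp107_4, z_0, z_1, z_2, z_3, z_4, z_5, z_6, z_7, z_8, z_9, z_10, z_11, z_12, z_14, z_17, z_18]
        rcases C_ff_p2_p6_1_6 with h | h | h | h | h
        exacts [hn107_0 h, hn107_1 h, hn107_2 h, hn107_3 h, hn107_4 h]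
       have hn106_1 : ¬ (b6 - b1 < p6) := fun hp106_1 => by
        linarith only [C_FW_2_6, C_Ebd_1_5, C_OPT_1_6_x12xEx56x, hp97_0, hp98_0, hp100_2, hp106_1, z_0, z_1, z_2, z_3, z_5, z_7, z_8, z_9, z_10, z_11, z_14]
       have hn106_2 : ¬ (a7 - a6 < p6) := fun hp106_2 => by
        linarith only [b_14, b_15, hp106_2, z_10, z_11, z_18]
       rcases C_f_p6_2_6 with h | h | h
       exacts [hn106_0 h, hn106_1 h, hn106_2 h]
      have hn105_4 : ¬ (b6 - b0 < p1 + p6) := fun hp105_4 => by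
       linarith only [b_10, b_11, C_FW_2_6, C_Ebd_1_5, C_OPT_1_6_x12xEx56x, hp97_0, hp98_0, hp100_2, hp105_4, z_0, z_1, z_2, z_3, z_5, z_7, z_8, z_9, z_10, z_11, z_14, z_17]
      rcases C_ff_p1_p6_1_6 with h | h | h | h | h
      exacts [hn105_0 h, hn105_1 h, hn105_2 h, hn105_3 h, hn105_4 h]
     rcases C_f_p1_1_5 with h | h | h
     exacts [hn100_0 h, hn100_1 h, hn100_2 h]
    have hn99_1 : ¬ (b1 - b0 < p1) := fun hp99_1 => by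
     linarith only [b_10, b_11, hp99_1, z_0, z_2, z_17]
    have hn99_2 : ¬ (a5 - a1 < p1) := fun hp99_2 => by
     have hn108_0 : ¬ (p1 ≤ d0_6) := fun hp108_0 => by
      have hn109_0 : ¬ (p1 + p6 ≤ d0_7) := fun hp109_0 => by
       linarith only [b_11, b_15, C_FW_1_2, C_FW_5_6, C_Obd, C_OPT_1_6_K1OKt, C_gap_1_6, hp109_0, z_0, z_2, z_4, z_5, z_6, z_8, z_10, z_11, z_14, z_17, z_18]
      have hn109_1 : ¬ (b1 - b0 < p1) := fun hp109_1 => by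
       linarith only [b_10, b_11, hp109_1, z_0, z_2, z_17]
      have hn109_2 : ¬ (a7 - a6 < p6) := fun hp109_2 => by
       linarith only [b_14, b_15, hp109_2, z_10, z_11, z_18]
      have hn109_3 : ¬ (a7 - a1 < p1 + p6) := fun hp109_3 => by
       have hn110_0 : ¬ (p6 ≤ d1_7) := fun hp110_0 => by
        have hn111_0 : ¬ (p2 + p6 ≤ d0_7) := fun hp111_0 => by
         linarith only [b_3, b_10, b_11, b_14, b_15, b_17, C_FW_1_2, C_FW_5_6, C_Ebd_2_6, C_OPT_1_6_x12xEx56x, C_gap_1_6, hp109_3, hp111_0, z_0, z_1, z_2, z_3, z_4, z_5, z_6, z_7, z_8, z_9, z_10, z_11, z_14, z_17, z_18]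
        have hn111_1 : ¬ (b2 - b0 < p2) := fun hp111_1 => by
         linarith only [b_0, b_1, b_10, b_11, b_15, C_FW_5_6, C_Obd, C_OPT_2_6_OKt, hp109_3, hp110_0, hp111_1, z_0, z_1, z_2, z_3, z_4, z_5, z_6, z_8, z_10, z_11, z_15, z_17, z_18]
        have hn111_2 : ¬ (a7 - a6 < p6) := fun hp111_2 => by
         linarith only [b_14, b_15, hp111_2, z_10, z_11, z_18]
        have hn111_3 : ¬ (a7 - a2 < p2 + p6) := fun hp111_3 => by
         linarith only [b_15, C_FW_5_6, C_Obd, C_OPT_2_6_OKt, hp110_0, hp111_3, z_4, z_5, z_6, z_8, z_10, z_11, z_15, z_18]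
        have hn111_4 : ¬ (b6 - b0 < p2 + p6) := fun hp111_4 => by
         linarith only [b_1, b_11, b_14, b_15, C_FW_2_6, C_FW_5_6, C_Ebd_1_5, C_Obd, C_OPT_1_5_K1O, C_OPT_1_6_x12xEx56x, hp98_0, hp108_0, hp109_3, hp111_4, z_0, z_1, z_2, z_3, z_4, z_5, z_6, z_7, z_8, z_9, z_10, z_11, z_13, z_14, z_17, z_18]
        rcases C_ff_p2_p6_1_6 with h | h | h | h | h
        exacts [hn111_0 h, hn111_1 h, hn111_2 h, hn111_3 h, hn111_4 h]
       have hn110_1 : ¬ (b6 - b1 < p6) := fun hp110_1 => by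
        linarith only [b_14, b_15, C_FW_2_6, C_Ebd_1_5, C_OPT_1_6_x12xEx56x, hp97_0, hp98_0, hp109_3, hp110_1, z_0, z_1, z_2, z_3, z_5, z_7, z_8, z_9, z_10, z_11, z_14, z_18]
       have hn110_2 : ¬ (a7 - a6 < p6) := fun hp110_2 => by
        linarith only [b_14, b_15, hp110_2, z_10, z_11, z_18]
       rcases C_f_p6_2_6 with h | h | h
       exacts [hn110_0 h, hn110_1 h, hn110_2 h]
      have hn109_4 : ¬ (b6 - b0 < p1 + p6) := fun hp109_4 => by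
       linarith only [b_4, b_10, b_11, b_14, b_15, C_FW_1_2, C_FW_2_5, C_FW_5_6, C_Ebd_1_5, C_Obd, C_OPT_1_5_K1O, C_OPT_1_6_x12xEx56x, C_gap_1_6, hp98_0, hp99_2, hp108_0, hp109_4, z_0, z_1, z_2, z_3, z_4, z_5, z_6, z_7, z_8, z_9, z_10, z_11, z_13, z_14, z_17, z_18]
      rcases C_ff_p1_p6_1_6 with h | h | h | h | h
      exacts [hn109_0 h, hn109_1 h, hn109_2 h, hn109_3 h, hn109_4 h]
     have hn108_1 : ¬ (b1 - b0 < p1) := fun hp108_1 => by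
      linarith only [b_10, b_11, hp108_1, z_0, z_2, z_17]
     have hn108_2 : ¬ (a6 - a1 < p1) := fun hp108_2 => by
      have hn112_0 : ¬ (p1 + p6 ≤ d0_7) := fun hp112_0 => by
       linarith only [b_11, b_15, C_FW_1_2, C_FW_5_6, C_Obd, C_OPT_1_6_K1OKt, C_gap_1_6, hp112_0, z_0, z_2, z_4, z_5, z_6, z_8, z_10, z_11, z_14, z_17, z_18]
      have hn112_1 : ¬ (b1 - b0 < p1) := fun hp112_1 => by
       linarith only [b_10, b_11, hp112_1, z_0, z_2, z_17]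
      have hn112_2 : ¬ (a7 - a6 < p6) := fun hp112_2 => by
       linarith only [b_14, b_15, hp112_2, z_10, z_11, z_18]
      have hn112_3 : ¬ (a7 - a1 < p1 + p6) := fun hp112_3 => by
       have hn113_0 : ¬ (p6 ≤ d1_7) := fun hp113_0 => by
        have hn114_0 : ¬ (p2 + p6 ≤ d0_7) := fun hp114_0 => by
         linarith only [b_3, b_10, b_11, b_14, b_15, b_17, C_FW_1_2, C_FW_5_6, C_Ebd_2_6, C_OPT_1_6_x12xEx56x, C_gap_1_6, hp108_2, hp114_0, z_0, z_1, z_2, z_3, z_4, z_5, z_6, z_7, z_8, z_9, z_10, z_11, z_14, z_17, z_18]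
        have hn114_1 : ¬ (b2 - b0 < p2) := fun hp114_1 => by
         linarith only [b_0, b_1, b_10, b_11, b_15, C_FW_5_6, C_Obd, C_OPT_2_6_OKt, hp112_3, hp113_0, hp114_1, z_0, z_1, z_2, z_3, z_4, z_5, z_6, z_8, z_10, z_11, z_15, z_17, z_18]
        have hn114_2 : ¬ (a7 - a6 < p6) := fun hp114_2 => by
         linarith only [b_14, b_15, hp114_2, z_10, z_11, z_18]
        have hn114_3 : ¬ (a7 - a2 < p2 + p6) := fun hp114_3 => by
         linarith only [b_15, C_FW_5_6, C_Obd, C_OPT_2_6_OKt, hp113_0, hp114_3, z_4, z_5, z_6, z_8, z_10, z_11, z_15, z_18]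
        have hn114_4 : ¬ (b6 - b0 < p2 + p6) := fun hp114_4 => by
         linarith only [b_1, b_4, b_5, b_10, b_11, b_15, C_FW_1_2, C_FW_2_5, C_FW_5_6, C_Ebd_1_5, C_Obd, C_OPT_1_6_x12xEx56x, C_OPT_2_6_OKt, hp97_0, hp112_3, hp113_0, hp114_4, z_0, z_1, z_2, z_3, z_4, z_5, z_6, z_7, z_8, z_9, z_10, z_11, z_14, z_15, z_17, z_18]
        rcases C_ff_p2_p6_1_6 with h | h | h | h | h
        exacts [hn114_0 h, hn114_1 h, hn114_2 h, hn114_3 h, hn114_4 h]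
       have hn113_1 : ¬ (b6 - b1 < p6) := fun hp113_1 => by
        linarith only [C_FW_2_6, C_Ebd_1_5, C_OPT_1_6_x12xEx56x, hp97_0, hp98_0, hp108_2, hp113_1, z_0, z_1, z_2, z_3, z_5, z_7, z_8, z_9, z_10, z_11, z_14]
       have hn113_2 : ¬ (a7 - a6 < p6) := fun hp113_2 => by
        linarith only [b_14, b_15, hp113_2, z_10, z_11, z_18]
       rcases C_f_p6_2_6 with h | h | h
       exacts [hn113_0 h, hn113_1 h, hn113_2 h]
      have hn112_4 : ¬ (b6 - b0 < p1 + p6) := fun hp112_4 => by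
       linarith only [b_10, b_11, C_FW_2_6, C_Ebd_1_5, C_OPT_1_6_x12xEx56x, hp97_0, hp98_0, hp108_2, hp112_4, z_0, z_1, z_2, z_3, z_5, z_7, z_8, z_9, z_10, z_11, z_14, z_17]
      rcases C_ff_p1_p6_1_6 with h | h | h | h | h
      exacts [hn112_0 h, hn112_1 h, hn112_2 h, hn112_3 h, hn112_4 h]
     rcases C_f_p1_1_5 with h | h | h
     exacts [hn108_0 h, hn108_1 h, hn108_2 h]
    rcases C_f_p1_1_4 with h | h | h
    exacts [hn99_0 h, hn99_1 h, hn99_2 h]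
   have hn98_1 : ¬ (b6 - b0 < p6) := fun hp98_1 => by
    linarith only [b_10, b_11, C_Ebd_1_5, C_OPT_3_6_Ex56x, hp98_1, z_0, z_2, z_7, z_8, z_9, z_11, z_16, z_17]
   have hn98_2 : ¬ (a7 - a6 < p6) := fun hp98_2 => by
    linarith only [b_14, b_15, hp98_2, z_10, z_11, z_18]
   rcases C_f_p6_1_6 with h | h | h
   exacts [hn98_0 h, hn98_1 h, hn98_2 h]
  have hn97_1 : ¬ (b1 - b0 < p1) := fun hp97_1 => by
   linarith only [b_10, b_11, hp97_1, z_0, z_2, z_17]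
  have hn97_2 : ¬ (a7 - a1 < p1) := fun hp97_2 => by
   linarith only [b_14, b_15, C_Ebd_2_6, C_OPT_1_4_x12xE, hp97_2, z_1, z_2, z_3, z_5, z_10, z_11, z_12, z_18]
  rcases C_f_p1_1_6 with h | h | h
  exacts [hn97_0 h, hn97_1 h, hn97_2 h]

theorem top_ev (m : ℕ) (hb : S.Blk z (2*m+4)) (hA : S.al z 1 < S.al z 0)
    (hD : S.be z (2*m+5) < S.be z (2*m+4)) : S.Red z (2*m+4) := by
  by_contra hn
  obtain ⟨e1, he1, he1a, he1b, he1c, he1d, he1m⟩ := hb.irr1 (by omega) hA hn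
  obtain ⟨et, het, heta, hetb, hetc, hetd, hetm⟩ : ∃ e, S.pp z (2*m+4) ∣ e ∧ e < S.al z (2*m+5) - S.al z (2*m+4) ∧ S.al z (2*m+5) - S.al z (2*m+4) ≤ e + S.pp z (2*m+4) ∧ S.pp z (2*m+4) ≤ e ∧ 2 * (S.be z (2*m+4) - S.be z (2*m+3)) < e + S.pp z (2*m+4) ∧ (e ≤ S.pp z (2*m+4) ∨ 2 * S.pp z (2*m+4) ≤ e) :=
    Blk.irrt (s := 2*m+3) hb hD hn
  have he1n : 0 ≤ e1 := (hb.pos (i := 1) (by omega) (by omega)).le.trans he1c
  have hetn : 0 ≤ et := (hb.pos (i := (2*m+4)) (by omega) (by omega)).le.trans hetc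
  have b_0 : S.be z 1 ≤ S.be z 2 := hb.bem (i := 1) (j := 2) (by omega) (by omega)
  have b_1 : S.al z 1 ≤ S.al z 2 := hb.alm (i := 1) (j := 2) (by omega) (by omega) (by omega)
  have b_2 : S.be z 2 ≤ S.be z (2*m+3) := hb.bem (i := 2) (j := (2*m+3)) (by omega) (by omega)
  have b_3 : S.al z 2 ≤ S.al z (2*m+3) := hb.alm (i := 2) (j := (2*m+3)) (by omega) (by omega) (by omega)
  have b_4 : S.be z (2*m+3) ≤ S.be z (2*m+4) := hb.bem (i := (2*m+3)) (j := (2*m+4)) (by omega) (by omega)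
  have b_5 : S.al z (2*m+3) ≤ S.al z (2*m+4) := hb.alm (i := (2*m+3)) (j := (2*m+4)) (by omega) (by omega) (by omega)
  have b_6 : 0 < S.pp z 1 := hb.pos (i := 1) (by omega) (by omega)
  have b_7 : 0 < S.pp z 2 := hb.pos (i := 2) (by omega) (by omega)
  have b_8 : 0 < S.pp z (2*m+3) := hb.pos (i := (2*m+3)) (by omega) (by omega)
  have b_9 : 0 < S.pp z (2*m+4) := hb.pos (i := (2*m+4)) (by omega) (by omega)
  have b_10 : S.pp z 1 ≤ e1 := he1c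
  have b_11 : e1 < S.be z 1 - S.be z 0 := he1a
  have b_12 : S.be z 1 - S.be z 0 ≤ e1 + S.pp z 1 := he1b
  have b_13 : 2 * (S.al z 2 - S.al z 1) < e1 + S.pp z 1 := he1d
  have b_14 : S.pp z (2*m+4) ≤ et := hetc
  have b_15 : et < S.al z (2*m+5) - S.al z (2*m+4) := heta
  have b_16 : S.al z (2*m+5) - S.al z (2*m+4) ≤ et + S.pp z (2*m+4) := hetb
  have b_17 : 2 * (S.be z (2*m+4) - S.be z (2*m+3)) < et + S.pp z (2*m+4) := hetd
  have z_0 : S.be z 0 ≤ S.be z 1 := hb.bem (i := 0) (j := 1) (by omega) (by omega)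
  have z_1 : S.al z 1 ≤ S.al z (2*m+5) := hb.alm (i := 1) (j := (2*m+5)) (by omega) (by omega) (by omega)
  have z_2 : 0 ≤ S.pp z 1 := (hb.pos (i := 1) (by omega) (by omega)).le
  have z_3 : S.be z 0 ≤ S.be z 2 := hb.bem (i := 0) (j := 2) (by omega) (by omega)
  have z_4 : S.al z 2 ≤ S.al z (2*m+5) := hb.alm (i := 2) (j := (2*m+5)) (by omega) (by omega) (by omega)
  have z_5 : 0 ≤ S.pp z 2 := (hb.pos (i := 2) (by omega) (by omega)).le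
  have z_6 : S.be z 0 ≤ S.be z (2*m+3) := hb.bem (i := 0) (j := (2*m+3)) (by omega) (by omega)
  have z_7 : S.al z (2*m+3) ≤ S.al z (2*m+5) := hb.alm (i := (2*m+3)) (j := (2*m+5)) (by omega) (by omega) (by omega)
  have z_8 : 0 ≤ S.pp z (2*m+3) := (hb.pos (i := (2*m+3)) (by omega) (by omega)).le
  have z_9 : S.be z 0 ≤ S.be z (2*m+4) := hb.bem (i := 0) (j := (2*m+4)) (by omega) (by omega)
  have z_10 : S.al z (2*m+4) ≤ S.al z (2*m+5) := hb.alm (i := (2*m+4)) (j := (2*m+5)) (by omega) (by omega) (by omega)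
  have z_11 : 0 ≤ S.pp z (2*m+4) := (hb.pos (i := (2*m+4)) (by omega) (by omega)).le
  have z_12 : 0 ≤ S.drop z 0 (2*m+3) := hb.dnn (i := 0) (j := (2*m+3)) (by omega) (by omega)
  have z_13 : 0 ≤ S.drop z 0 (2*m+4) := hb.dnn (i := 0) (j := (2*m+4)) (by omega) (by omega)
  have z_14 : 0 ≤ S.drop z 0 (2*m+5) := hb.dnn (i := 0) (j := (2*m+5)) (by omega) (by omega)
  have z_15 : 0 ≤ S.drop z 1 (2*m+5) := hb.dnn (i := 1) (j := (2*m+5)) (by omega) (by omega)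
  have z_16 : 0 ≤ S.drop z 2 (2*m+5) := hb.dnn (i := 2) (j := (2*m+5)) (by omega) (by omega)
  have z_17 : 0 ≤ e1 := he1n
  have z_18 : 0 ≤ et := hetn
  have C_f_p1_1_6 : S.pp z 1 ≤ S.drop z 0 (2*m+5) ∨ S.be z 1 - S.be z 0 < S.pp z 1 ∨ S.al z (2*m+5) - S.al z 1 < S.pp z 1 := hb.cl_f (i0 := 0) (j0 := (2*m+5)) (i := 1) (by omega) (by omega) (by omega) (dvd_refl _)
  have C_f_p6_1_6 : S.pp z (2*m+4) ≤ S.drop z 0 (2*m+5) ∨ S.be z (2*m+4) - S.be z 0 < S.pp z (2*m+4) ∨ S.al z (2*m+5) - S.al z (2*m+4) < S.pp z (2*m+4) := hb.cl_f (i0 := 0) (j0 := (2*m+5)) (i := (2*m+4)) (by omega) (by omega) (by omega) (dvd_refl _)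
  have C_f_p1_1_4 : S.pp z 1 ≤ S.drop z 0 (2*m+3) ∨ S.be z 1 - S.be z 0 < S.pp z 1 ∨ S.al z (2*m+3) - S.al z 1 < S.pp z 1 := hb.cl_f (i0 := 0) (j0 := (2*m+3)) (i := 1) (by omega) (by omega) (by omega) (dvd_refl _)
  have C_f_p1_1_5 : S.pp z 1 ≤ S.drop z 0 (2*m+4) ∨ S.be z 1 - S.be z 0 < S.pp z 1 ∨ S.al z (2*m+4) - S.al z 1 < S.pp z 1 := hb.cl_f (i0 := 0) (j0 := (2*m+4)) (i := 1) (by omega) (by omega) (by omega) (dvd_refl _)
  have C_ff_p1_p6_1_6 : S.pp z 1 + S.pp z (2*m+4) ≤ S.drop z 0 (2*m+5) ∨ S.be z 1 - S.be z 0 < S.pp z 1 ∨ S.al z (2*m+5) - S.al z (2*m+4) < S.pp z (2*m+4) ∨ S.al z (2*m+5) - S.al z 1 < S.pp z 1 + S.pp z (2*m+4) ∨ S.be z (2*m+4) - S.be z 0 < S.pp z 1 + S.pp z (2*m+4) := hb.cl_ff (i0 := 0) (j0 := (2*m+5)) (i := 1) (j := (2*m+4)) (by omega) (by omega) (by omega) (by omega) (dvd_refl _) (hb.pos (i := 1) (by omega) (by omega)).le (dvd_refl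 _) (hb.pos (i := (2*m+4)) (by omega) (by omega)).le
  have C_FW_1_2 : S.be z 1 - S.al z 2 < S.pp z 1 + S.pp z 2 := hb.fw (i := 1) (j := 2) (by omega) (by omega) (by omega)
  have C_FW_5_6 : S.be z (2*m+3) - S.al z (2*m+4) < S.pp z (2*m+3) + S.pp z (2*m+4) := hb.fw (i := (2*m+3)) (j := (2*m+4)) (by omega) (by omega) (by omega)
  have C_Obd : S.Ex z 2 (m+1) ≤ S.be z (2*m+3) - S.al z 2 - S.pp z 2 - S.pp z (2*m+3) := hb.Ex_le' (a := 2) (m := m) (i := 2*m+3) (by omega) (by omega)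
  have C_OPT_1_6_K1OKt : 2 * S.drop z 0 (2*m+5) < e1 + S.Ex z 2 (m+1) + et := by
    have g : S.Good z 0 (2*m+5) (e1 + S.Ex z 2 (m+1) + et) := hb.good_KK hA hD he1 he1b het hetb (m := (m+1)) (by omega)
    have g2 := not_red hn g (by omega) (by omega)
    linarith
  have C_gap_1_6 : S.al z (2*m+5) - S.be z 0 ≤ S.drop z 0 (2*m+5) := gap_le _ _
  have C_f_p6_2_6 : S.pp z (2*m+4) ≤ S.drop z 1 (2*m+5) ∨ S.be z (2*m+4) - S.be z 1 < S.pp z (2*m+4) ∨ S.al z (2*m+5) - S.al z (2*m+4) < S.pp z (2*m+4) := hb.cl_f (i0 := 1) (j0 := (2*m+5)) (i := (2*m+4)) (by omega) (by omega) (by omega) (dvd_refl _)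
  have C_ff_p2_p6_1_6 : S.pp z 2 + S.pp z (2*m+4) ≤ S.drop z 0 (2*m+5) ∨ S.be z 2 - S.be z 0 < S.pp z 2 ∨ S.al z (2*m+5) - S.al z (2*m+4) < S.pp z (2*m+4) ∨ S.al z (2*m+5) - S.al z 2 < S.pp z 2 + S.pp z (2*m+4) ∨ S.be z (2*m+4) - S.be z 0 < S.pp z 2 + S.pp z (2*m+4) := hb.cl_ff (i0 := 0) (j0 := (2*m+5)) (i := 2) (j := (2*m+4)) (by omega) (by omega) (by omega) (by omega) (dvd_refl _) (hb.pos (i := 2) (by omega) (by omega)).le (dvd_refl _) (hb.pos (i := (2*m+4)) (by omega) (by omega)).le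
  have C_Ebd_2_6 : S.Ex z 3 m + (S.be z 2 - S.al z (2*m+4)) < S.pp z 2 + S.pp z (2*m+4) := hb.Ex_lt (h := 2) (a := 3) (m := m) (j := (2*m+4)) (by omega) (by omega) (by omega) (by omega)
  have C_OPT_1_6_x12xEx56x : 2 * S.drop z 0 (2*m+5) < (S.be z 2 - S.al z 1 - S.pp z 1 - S.pp z 2) + S.Ex z 3 m + (S.be z (2*m+4) - S.al z (2*m+3) - S.pp z (2*m+3) - S.pp z (2*m+4)) := by
    have g : S.Good z 0 (2*m+5) (S.Ex z 1 (m+2)) := hb.good_P (i := 0) (m := (m+2)) (j := (2*m+5)) (by omega) (by omega)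
    have g2 := not_red hn g (by omega) (by omega)
    have : S.Ex z 1 (m+2) = (S.be z 2 - S.al z 1 - S.pp z 1 - S.pp z 2) + S.Ex z 3 (m+1) := rfl
    have : S.Ex z 3 (m+1) = S.Ex z 3 m + (S.be z (2*m+4) - S.al z (2*m+3) - S.pp z (2*m+3) - S.pp z (2*m+4)) := Ex_succ' (i := (2*m+3)) (by omega)
    linarith
  have C_OPT_2_6_OKt : 2 * S.drop z 1 (2*m+5) < S.Ex z 2 (m+1) + et := by
    have g : S.Good z 1 (2*m+5) (S.Ex z 2 (m+1) + et) := hb.good_Kt hD het hetb (i := 1) (m := (m+1)) (by omega)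
    have g2 := not_red hn g (by omega) (by omega)
    linarith
  have C_FW_2_6 : S.be z 2 - S.al z (2*m+4) < S.pp z 2 + S.pp z (2*m+4) := hb.fw (i := 2) (j := (2*m+4)) (by omega) (by omega) (by omega)
  have C_Ebd_1_6 : S.Ex z 3 m + (S.be z 1 - S.al z (2*m+4)) < S.pp z 1 + S.pp z (2*m+4) := hb.Ex_lt (h := 1) (a := 3) (m := m) (j := (2*m+4)) (by omega) (by omega) (by omega) (by omega)
  have C_Ebd_2_5 : S.Ex z 3 m + (S.be z 2 - S.al z (2*m+3)) < S.pp z 2 + S.pp z (2*m+3) := hb.Ex_lt (h := 2) (a := 3) (m := m) (j := (2*m+3)) (by omega) (by omega) (by omega) (by omega)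
  have C_OPT_1_4_x12xE : 2 * S.drop z 0 (2*m+3) < (S.be z 2 - S.al z 1 - S.pp z 1 - S.pp z 2) + S.Ex z 3 m := by
    have g : S.Good z 0 (2*m+3) (S.Ex z 1 (m+1)) := hb.good_P (i := 0) (m := (m+1)) (j := (2*m+3)) (by omega) (by omega)
    have g2 := not_red hn g (by omega) (by omega)
    have : S.Ex z 1 (m+1) = (S.be z 2 - S.al z 1 - S.pp z 1 - S.pp z 2) + S.Ex z 3 m := rfl
    linarith
  have C_Ebd_1_5 : S.Ex z 3 m + (S.be z 1 - S.al z (2*m+3)) < S.pp z 1 + S.pp z (2*m+3) := hb.Ex_lt (h := 1) (a := 3) (m := m) (j := (2*m+3)) (by omega) (by omega) (by omega) (by omega)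
  have C_ff_p1_p5_1_6 : S.pp z 1 + S.pp z (2*m+3) ≤ S.drop z 0 (2*m+5) ∨ S.be z 1 - S.be z 0 < S.pp z 1 ∨ S.al z (2*m+5) - S.al z (2*m+3) < S.pp z (2*m+3) ∨ S.al z (2*m+5) - S.al z 1 < S.pp z 1 + S.pp z (2*m+3) ∨ S.be z (2*m+3) - S.be z 0 < S.pp z 1 + S.pp z (2*m+3) := hb.cl_ff (i0 := 0) (j0 := (2*m+5)) (i := 1) (j := (2*m+3)) (by omega) (by omega) (by omega) (by omega) (dvd_refl _) (hb.pos (i := 1) (by omega) (by omega)).le (dvd_refl _) (hb.pos (i := (2*m+3)) (by omega) (by omega)).le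
  have C_OPT_1_5_K1O : 2 * S.drop z 0 (2*m+4) < e1 + S.Ex z 2 (m+1) := by
    have g : S.Good z 0 (2*m+4) (e1 + S.Ex z 2 (m+1)) := hb.good_K1 hA he1 he1b (m := (m+1)) (j := (2*m+4)) (by omega) (by omega)
    have g2 := not_red hn g (by omega) (by omega)
    linarith
  have C_FW_2_5 : S.be z 2 - S.al z (2*m+3) < S.pp z 2 + S.pp z (2*m+3) := hb.fw (i := 2) (j := (2*m+3)) (by omega) (by omega) (by omega)
  have C_OPT_3_6_Ex56x : 2 * S.drop z 2 (2*m+5) < S.Ex z 3 m + (S.be z (2*m+4) - S.al z (2*m+3) - S.pp z (2*m+3) - S.pp z (2*m+4)) := by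
    have g : S.Good z 2 (2*m+5) (S.Ex z 3 (m+1)) := hb.good_P (i := 2) (m := (m+1)) (j := (2*m+5)) (by omega) (by omega)
    have g2 := not_red hn g (by omega) (by omega)
    have : S.Ex z 3 (m+1) = S.Ex z 3 m + (S.be z (2*m+4) - S.al z (2*m+3) - S.pp z (2*m+3) - S.pp z (2*m+4)) := Ex_succ' (i := (2*m+3)) (by omega)
    linarith
  exact arith_ev b_0 b_1 b_2 b_3 b_4 b_5 b_6 b_7 b_8 b_9 b_10 b_11 b_12 b_13 b_14 b_15 b_16 b_17 z_0 z_1 z_2 z_3 z_4 z_5 z_6 z_7 z_8 z_9 z_10 z_11 z_12 z_13 z_14 z_15 z_16 z_17 z_18 C_f_p1_1_6 C_f_p6_1_6 C_f_p1_1_4 C_f_p1_1_5 C_ff_p1_p6_1_6 C_FW_1_2 C_FW_5_6 C_Obd C_OPT_1_6_K1OKt C_gap_1_6 C_f_p6_2_6 C_ff_p2_p6_1_6 C_Ebd_2_6 C_OPT_1_6_x12xEx56x C_OPT_2_6_OKt C_FW_2_6 C_Ebd_1_6 C_Ebd_2_5 C_OPT_1_4_x12xE C_Ebd_1_5 C_ff_p1_p5_1_6 C_OPT_1_5_K1O C_FW_2_5 C_OPT_3_6_Ex56x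

end Sys

end Crest.Agent.R287
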