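import Crest.Agent.R287.TopAux

/-! # R287: irreducible top blocks do not exist (generated case analysis of linear inequalities) -/

set_option autoImplicit false
open Finset

namespace Crest.Agent.R287

namespace Sys

variable {S : Sys} {z : ℕ → S.E}

set_option maxHeartbeats 0 in
set_option linter.unusedVariables false in
theorem arith_od {E O a1 a10 a2 a3 a4 a6 a7 a8 a9 b0 b1 b2 b3 b4 b6 b7 b8 b9 d0_10 d0_3 d0_4 d1_4 d6_10 d6_9 d7_10 e1 et p1 p2 p3 p4 p6 p7 p8 p9 : ℤ}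
    (b_0 : b1 ≤ b2)
    (b_1 : a1 ≤ a2)
    (b_2 : b2 ≤ b3)
    (b_3 : a2 ≤ a3)
    (b_4 : b3 ≤ b4)
    (b_5 : a3 ≤ a4)
    (b_6 : b4 ≤ b6)
    (b_7 : a4 ≤ a6)
    (b_8 : b6 ≤ b7)
    (b_9 : a6 ≤ a7)
    (b_10 : b7 ≤ b8)
    (b_11 : a7 ≤ a8)
    (b_12 : b8 ≤ b9)
    (b_13 : a8 ≤ a9)
    (b_14 : 0 < p1)
    (b_15 : 0 < p2)
    (b_16 : 0 < p3)
    (b_17 : 0 < p4)
    (b_18 : 0 < p6)
    (b_19 : 0 < p7)
    (b_20 : 0 < p8)
    (b_21 : 0 < p9)
    (b_22 : p1 ≤ e1)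
    (b_23 : e1 < b1 - b0)
    (b_24 : b1 - b0 ≤ e1 + p1)
    (b_25 : 2 * (a2 - a1) < e1 + p1)
    (b_26 : p9 ≤ et)
    (b_27 : et < a10 - a9)
    (b_28 : a10 - a9 ≤ et + p9)
    (b_29 : 2 * (b9 - b8) < et + p9)
    (z_0 : b0 ≤ b1)
    (z_1 : a1 ≤ a10)
    (z_2 : 0 ≤ p1)
    (z_3 : b0 ≤ b2)
    (z_4 : a2 ≤ a10)
    (z_5 : 0 ≤ p2)
    (z_6 : b0 ≤ b3)
    (z_7 : a3 ≤ a10)
    (z_8 : 0 ≤ p3)
    (z_9 : b0 ≤ b4)
    (z_10 : a4 ≤ a10)
    (z_11 : 0 ≤ p4)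
    (z_12 : b0 ≤ b6)
    (z_13 : a6 ≤ a10)
    (z_14 : 0 ≤ p6)
    (z_15 : b0 ≤ b7)
    (z_16 : a7 ≤ a10)
    (z_17 : 0 ≤ p7)
    (z_18 : b0 ≤ b8)
    (z_19 : a8 ≤ a10)
    (z_20 : 0 ≤ p8)
    (z_21 : b0 ≤ b9)
    (z_22 : a9 ≤ a10)
    (z_23 : 0 ≤ p9)
    (z_24 : 0 ≤ d0_3)
    (z_25 : 0 ≤ d0_4)
    (z_26 : 0 ≤ d0_10)
    (z_27 : 0 ≤ d1_4)
    (z_28 : 0 ≤ d6_9)
    (z_29 : 0 ≤ d6_10)
    (z_30 : 0 ≤ d7_10)
    (z_31 : 0 ≤ e1)
    (z_32 : 0 ≤ et)
    (C_f_p1_1_3 : p1 ≤ d0_4 ∨ b1 - b0 < p1 ∨ a4 - a1 < p1)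
    (C_ff_p1_p8_1_9 : p1 + p8 ≤ d0_10 ∨ b1 - b0 < p1 ∨ a10 - a8 < p8 ∨ a10 - a1 < p1 + p8 ∨ b8 - b0 < p1 + p8)
    (C_FW_1_2 : b1 - a2 < p1 + p2)
    (C_FW_3_4 : b3 - a4 < p3 + p4)
    (C_FW_7_8 : b7 - a8 < p7 + p8)
    (C_FW_8_9 : b8 - a9 < p8 + p9)
    (C_Ebd : E ≤ b7 - a4 - p4 - p7)
    (C_OPT_1_9_K1x23xEx89x : 2 * d0_10 < e1 + (b3 - a2 - p2 - p3) + E + (b9 - a8 - p8 - p9))
    (C_gap_1_9 : a10 - b0 ≤ d0_10)
    (C_FW3_7_8_9 : b8 - a8 - p8 < p7 + p9 ∨ b8 - a9 < p7 + p9 ∨ b7 - a8 < p7 + p9 ∨ b7 - a9 + p8 < p7 + p9)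
    (C_f_p2_1_9 : p2 ≤ d0_10 ∨ b2 - b0 < p2 ∨ a10 - a2 < p2)
    (C_ff_p2_p9_1_9 : p2 + p9 ≤ d0_10 ∨ b2 - b0 < p2 ∨ a10 - a9 < p9 ∨ a10 - a2 < p2 + p9 ∨ b9 - b0 < p2 + p9)
    (C_FW_2_3 : b2 - a3 < p2 + p3)
    (C_FW_6_7 : b6 - a7 < p6 + p7)
    (C_Obd : O ≤ b6 - a3 - p3 - p6)
    (C_OPT_1_9_x12xOx78xKt : 2 * d0_10 < (b2 - a1 - p1 - p2) + O + (b8 - a7 - p7 - p8) + et)
    (C_ff_p3_p9_1_9 : p3 + p9 ≤ d0_10 ∨ b3 - b0 < p3 ∨ a10 - a9 < p9 ∨ a10 - a3 < p3 + p9 ∨ b9 - b0 < p3 + p9)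
    (C_f_p1_1_2 : p1 ≤ d0_3 ∨ b1 - b0 < p1 ∨ a3 - a1 < p1)
    (C_f_e1_1_3 : e1 ≤ d0_4 ∨ b1 - b0 < e1 ∨ a4 - a1 < e1)
    (C_fff_3 : e1 + p3 + et ≤ d0_10 ∨ b3 - b0 < e1 + p3 ∨ a10 - a3 < p3 + et ∨ a10 - a1 < e1 + p3 + et ∨ b9 - b0 < e1 + p3 + et)
    (C_FW3_1_2_3 : b2 - a2 - p2 < p1 + p3 ∨ b2 - a3 < p1 + p3 ∨ b1 - a2 < p1 + p3 ∨ b1 - a3 + p2 < p1 + p3)
    (C_FW_1_3 : b1 - a3 < p1 + p3)
    (C_OPT_1_3_K1x23x : 2 * d0_4 < e1 + (b3 - a2 - p2 - p3))
    (C_ff_p1_et_1_9 : p1 + et ≤ d0_10 ∨ b1 - b0 < p1 ∨ a10 - a9 < et ∨ a10 - a1 < p1 + et ∨ b9 - b0 < p1 + et)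
    (C_f_et_7_9 : et ≤ d6_10 ∨ b9 - b6 < et ∨ a10 - a9 < et)
    (C_FW_3_7 : b3 - a7 < p3 + p7)
    (C_OPT_7_9_x78xKt : 2 * d6_10 < (b8 - a7 - p7 - p8) + et)
    (C_ff_p1_p7_1_9 : p1 + p7 ≤ d0_10 ∨ b1 - b0 < p1 ∨ a10 - a7 < p7 ∨ a10 - a1 < p1 + p7 ∨ b7 - b0 < p1 + p7)
    (C_FW_7_9 : b7 - a9 < p7 + p9)
    (C_OPT_7_8_x78x : 2 * d6_9 < (b8 - a7 - p7 - p8))
    (C_FW_3_6 : b3 - a6 < p3 + p6)
    (C_FW_3_8 : b3 - a8 < p3 + p8)
    (C_FW_3_9 : b3 - a9 < p3 + p9)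
    (C_OPT_1_2_x12x : 2 * d0_3 < (b2 - a1 - p1 - p2))
    (C_OPT_2_3_x23x : 2 * d1_4 < (b3 - a2 - p2 - p3))
    (C_f_p3_1_9 : p3 ≤ d0_10 ∨ b3 - b0 < p3 ∨ a10 - a3 < p3)
    (C_ff_p1_p3_1_9 : p1 + p3 ≤ d0_10 ∨ b1 - b0 < p1 ∨ a10 - a3 < p3 ∨ a10 - a1 < p1 + p3 ∨ b3 - b0 < p1 + p3)
    (C_ff_p7_p9_1_9 : p7 + p9 ≤ d0_10 ∨ b7 - b0 < p7 ∨ a10 - a9 < p9 ∨ a10 - a7 < p7 + p9 ∨ b9 - b0 < p7 + p9)
    (C_f_p9_7_9 : p9 ≤ d6_10 ∨ b9 - b6 < p9 ∨ a10 - a9 < p9)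
    (C_f_p9_8_9 : p9 ≤ d7_10 ∨ b9 - b7 < p9 ∨ a10 - a9 < p9)
    (C_FW3_1_2_7 : b2 - a2 - p2 < p1 + p7 ∨ b2 - a7 < p1 + p7 ∨ b1 - a2 < p1 + p7 ∨ b1 - a7 + p2 < p1 + p7)
    (C_OPT_8_9_x89x : 2 * d7_10 < (b9 - a8 - p8 - p9))
    (C_f_p7_1_9 : p7 ≤ d0_10 ∨ b7 - b0 < p7 ∨ a10 - a7 < p7)
    (C_f_p9_1_9 : p9 ≤ d0_10 ∨ b9 - b0 < p9 ∨ a10 - a9 < p9)
    (C_FW_1_8 : b1 - a8 < p1 + p8)
    (C_ff_p1_p9_1_9 : p1 + p9 ≤ d0_10 ∨ b1 - b0 < p1 ∨ a10 - a9 < p9 ∨ a10 - a1 < p1 + p9 ∨ b9 - b0 < p1 + p9)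
    (C_g1_p7_1_9 : p7 + e1 ≤ d0_10 ∨ b7 - b0 - p1 < d0_10 ∨ a10 - a1 - p1 < d0_10 ∨ a10 - a7 < p7 ∨ b7 - b0 < p7)
    (C_FW_4_7 : b4 - a7 < p4 + p7)
    (C_e1mult : e1 ≤ p1 ∨ 2 * p1 ≤ e1)
    (C_bf_1_p2_1_9 : b2 - b0 - p1 < d0_10 ∨ a10 - a2 < p2 ∨ p2 < b2 - b0)
    (C_fff_7 : e1 + p7 + et ≤ d0_10 ∨ b7 - b0 < e1 + p7 ∨ a10 - a7 < p7 + et ∨ a10 - a1 < e1 + p7 + et ∨ b9 - b0 < e1 + p7 + et)
    (C_own_9_7_9 : b9 - b6 - p9 < d6_10 ∨ a10 - a9 - p9 < d6_10)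
    (C_g1_p9_1_9 : p9 + e1 ≤ d0_10 ∨ b9 - b0 - p1 < d0_10 ∨ a10 - a1 - p1 < d0_10 ∨ a10 - a9 < p9 ∨ b9 - b0 < p9)
    (C_f_p8_1_9 : p8 ≤ d0_10 ∨ b8 - b0 < p8 ∨ a10 - a8 < p8)
    (C_FW_1_7 : b1 - a7 < p1 + p7)
    (C_ff_p1_p2_1_9 : p1 + p2 ≤ d0_10 ∨ b1 - b0 < p1 ∨ a10 - a2 < p2 ∨ a10 - a1 < p1 + p2 ∨ b2 - b0 < p1 + p2)
    (C_FW_1_4 : b1 - a4 < p1 + p4)
    (C_FW_6_8 : b6 - a8 < p6 + p8)
    (C_FW_2_7 : b2 - a7 < p2 + p7)
    (C_f_p1_1_9 : p1 ≤ d0_10 ∨ b1 - b0 < p1 ∨ a10 - a1 < p1)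
    (C_FW_2_9 : b2 - a9 < p2 + p9)
    (C_FW_2_4 : b2 - a4 < p2 + p4) : False := by
  have hn595_0 : ¬ (p1 ≤ d0_4) := fun hp595_0 => by
   have hn596_0 : ¬ (p1 + p8 ≤ d0_10) := fun hp596_0 => by
    linarith only [b_23, b_26, b_27, b_29, C_FW_1_2, C_FW_3_4, C_FW_7_8, C_FW_8_9, C_Ebd, C_OPT_1_9_K1x23xEx89x, C_gap_1_9, hp596_0, z_0, z_2, z_4, z_5, z_6, z_8, z_10, z_11, z_15, z_17, z_18, z_19, z_20, z_21, z_22, z_23, z_26, z_31, z_32]
   have hn596_1 : ¬ (b1 - b0 < p1) := fun hp596_1 => by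
    linarith only [b_22, b_23, hp596_1, z_0, z_2, z_31]
   have hn596_2 : ¬ (a10 - a8 < p8) := fun hp596_2 => by
    have hn597_0 : ¬ (b8 - a8 - p8 < p7 + p9) := fun hp597_0 => by
     have hn598_0 : ¬ (p2 ≤ d0_10) := fun hp598_0 => by
      have hn599_0 : ¬ (p2 + p9 ≤ d0_10) := fun hp599_0 => by
       linarith only [b_22, b_23, b_25, b_27, C_FW_1_2, C_FW_2_3, C_FW_6_7, C_FW_8_9, C_Obd, C_OPT_1_9_x12xOx78xKt, C_gap_1_9, hp599_0, z_0, z_1, z_2, z_3, z_4, z_5, z_7, z_8, z_12, z_14, z_16, z_17, z_18, z_20, z_22, z_23, z_26, z_31, z_32]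
      have hn599_1 : ¬ (b2 - b0 < p2) := fun hp599_1 => by
       have hn600_0 : ¬ (p3 + p9 ≤ d0_10) := fun hp600_0 => by
        have hn601_0 : ¬ (p1 ≤ d0_3) := fun hp601_0 => by
         have hn603_0 : ¬ (e1 ≤ d0_4) := fun hp603_0 => by
          have hn604_0 : ¬ (e1 + p3 + et ≤ d0_10) := fun hp604_0 => by
           have hn605_0 : ¬ (b2 - a2 - p2 < p1 + p3) := fun hp605_0 => by
            linarith only [b_22, b_23, b_25, b_26, b_27, C_FW_1_3, C_FW_6_7, C_FW_8_9, C_Obd, C_OPT_1_9_x12xOx78xKt, C_gap_1_9, hp604_0, hp605_0, z_0, z_1, z_2, z_3, z_4, z_5, z_7, z_8, z_12, z_14, z_16, z_17, z_18, z_20, z_22, z_23, z_26, z_31, z_32]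
           have hn605_1 : ¬ (b2 - a3 < p1 + p3) := fun hp605_1 => by
            linarith only [b_22, b_23, b_25, b_26, b_27, C_FW_1_2, C_FW_6_7, C_FW_8_9, C_Obd, C_OPT_1_9_x12xOx78xKt, C_gap_1_9, hp604_0, hp605_1, z_0, z_1, z_2, z_3, z_4, z_5, z_7, z_8, z_12, z_14, z_16, z_17, z_18, z_20, z_22, z_23, z_26, z_31, z_32]
           have hn605_2 : ¬ (b1 - a2 < p1 + p3) := fun hp605_2 => by
            linarith only [b_22, b_23, b_25, b_27, C_FW_2_3, C_FW_6_7, C_FW_8_9, C_Obd, C_OPT_1_9_x12xOx78xKt, C_gap_1_9, hp600_0, hp605_2, z_0, z_1, z_2, z_3, z_4, z_5, z_7, z_8, z_12, z_14, z_16, z_17, z_18, z_20, z_22, z_23, z_26, z_31, z_32]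
           have hn605_3 : ¬ (b1 - a3 + p2 < p1 + p3) := fun hp605_3 => by
            linarith only [b_22, b_23, b_25, b_27, C_FW_1_2, C_FW_6_7, C_FW_8_9, C_Obd, C_OPT_1_9_x12xOx78xKt, C_gap_1_9, hp599_1, hp600_0, hp605_3, z_0, z_1, z_2, z_3, z_4, z_5, z_7, z_8, z_12, z_14, z_16, z_17, z_18, z_20, z_22, z_23, z_26, z_31, z_32]
           rcases C_FW3_1_2_3 with h | h | h | h
           exacts [hn605_0 h, hn605_1 h, hn605_2 h, hn605_3 h]
          have hn604_1 : ¬ (b3 - b0 < e1 + p3) := fun hp604_1 => by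
           linarith only [b_22, b_23, C_FW_1_2, C_OPT_1_3_K1x23x, hp603_0, hp604_1, z_0, z_2, z_4, z_5, z_6, z_8, z_25, z_31]
          have hn604_2 : ¬ (a10 - a3 < p3 + et) := fun hp604_2 => by
           have hn606_0 : ¬ (p1 + et ≤ d0_10) := fun hp606_0 => by
            have hn607_0 : ¬ (et ≤ d6_10) := fun hp607_0 => by
             linarith only [b_2, b_22, b_23, b_25, b_26, b_27, C_FW_1_2, C_FW_3_7, C_FW_6_7, C_FW_8_9, C_Obd, C_OPT_1_9_x12xOx78xKt, C_gap_1_9, C_OPT_7_9_x78xKt, hp600_0, hp604_2, hp607_0, z_0, z_1, z_2, z_3, z_4, z_5, z_6, z_7, z_8, z_12, z_14, z_16, z_17, z_18, z_20, z_22, z_23, z_26, z_29, z_31, z_32]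
            have hn607_1 : ¬ (b9 - b6 < et) := fun hp607_1 => by
             have hn608_0 : ¬ (p1 + p7 ≤ d0_10) := fun hp608_0 => by
              linarith only [b_8, b_23, b_27, C_FW_1_2, C_FW_3_4, C_FW_7_8, C_FW_7_9, C_Ebd, C_OPT_1_9_K1x23xEx89x, C_gap_1_9, hp607_1, hp608_0, z_0, z_2, z_4, z_5, z_6, z_8, z_10, z_11, z_12, z_15, z_17, z_19, z_20, z_21, z_22, z_23, z_26, z_31, z_32]
             have hn608_1 : ¬ (b1 - b0 < p1) := fun hp608_1 => by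
              linarith only [b_22, b_23, hp608_1, z_0, z_2, z_31]
             have hn608_2 : ¬ (a10 - a7 < p7) := fun hp608_2 => by
              linarith only [b_26, b_27, C_FW_8_9, C_OPT_7_8_x78x, hp608_2, z_16, z_17, z_18, z_20, z_22, z_23, z_28, z_32]
             have hn608_3 : ¬ (a10 - a1 < p1 + p7) := fun hp608_3 => by
              linarith only [b_5, b_7, b_9, b_22, b_23, b_26, b_27, C_FW_1_3, C_FW_2_3, C_FW_6_7, C_FW_8_9, C_Obd, C_OPT_1_9_x12xOx78xKt, C_gap_1_9, C_OPT_7_8_x78x, hp600_0, hp608_3, z_0, z_1, z_2, z_3, z_5, z_7, z_8, z_10, z_12, z_13, z_14, z_16, z_17, z_18, z_20, z_22, z_23, z_26, z_28, z_31, z_32]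
             have hn608_4 : ¬ (b7 - b0 < p1 + p7) := fun hp608_4 => by
              linarith only [b_2, b_8, b_9, b_22, b_23, b_25, b_27, C_FW_1_2, C_FW_3_6, C_FW_8_9, C_Obd, C_OPT_1_9_x12xOx78xKt, hp600_0, hp604_2, hp606_0, hp608_4, z_0, z_1, z_2, z_3, z_4, z_5, z_6, z_7, z_8, z_12, z_13, z_14, z_15, z_16, z_17, z_18, z_20, z_22, z_23, z_26, z_31, z_32]
             rcases C_ff_p1_p7_1_9 with h | h | h | h | h
             exacts [hn608_0 h, hn608_1 h, hn608_2 h, hn608_3 h, hn608_4 h]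
            have hn607_2 : ¬ (a10 - a9 < et) := fun hp607_2 => by
             linarith only [b_27, hp607_2, z_22, z_32]
            rcases C_f_et_7_9 with h | h | h
            exacts [hn607_0 h, hn607_1 h, hn607_2 h]
           have hn606_1 : ¬ (b1 - b0 < p1) := fun hp606_1 => by
            linarith only [b_22, b_23, hp606_1, z_0, z_2, z_31]
           have hn606_2 : ¬ (a10 - a9 < et) := fun hp606_2 => by
            linarith only [b_27, hp606_2, z_22, z_32]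
           have hn606_3 : ¬ (a10 - a1 < p1 + et) := fun hp606_3 => by
            linarith only [b_5, b_7, b_9, b_11, b_13, b_22, b_23, b_27, C_FW_1_3, C_FW_2_3, C_FW_6_7, C_FW_8_9, C_Obd, C_OPT_1_9_x12xOx78xKt, C_gap_1_9, hp600_0, hp606_3, z_0, z_1, z_2, z_3, z_5, z_7, z_8, z_10, z_12, z_13, z_14, z_16, z_17, z_18, z_19, z_20, z_22, z_23, z_26, z_31, z_32]
           have hn606_4 : ¬ (b9 - b0 < p1 + et) := fun hp606_4 => by
            linarith only [b_10, b_11, b_12, b_13, b_23, b_27, C_FW_1_2, C_FW_3_4, C_FW_3_7, C_FW_3_8, C_FW_3_9, C_Ebd, C_OPT_1_3_K1x23x, C_OPT_1_9_K1x23xEx89x, C_gap_1_9, hp595_0, hp606_4, z_0, z_2, z_4, z_5, z_6, z_8, z_10, z_11, z_15, z_16, z_17, z_18, z_19, z_20, z_21, z_22, z_23, z_25, z_26, z_31, z_32]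
           rcases C_ff_p1_et_1_9 with h | h | h | h | h
           exacts [hn606_0 h, hn606_1 h, hn606_2 h, hn606_3 h, hn606_4 h]
          have hn604_3 : ¬ (a10 - a1 < e1 + p3 + et) := fun hp604_3 => by
           linarith only [b_5, b_7, b_9, b_11, b_22, b_23, b_27, b_29, C_FW_1_2, C_FW_1_3, C_FW_3_4, C_FW_6_7, C_FW_7_9, C_FW_8_9, C_Ebd, C_Obd, C_OPT_1_2_x12x, C_OPT_1_9_K1x23xEx89x, C_OPT_1_9_x12xOx78xKt, C_gap_1_9, hp599_1, hp600_0, hp601_0, hp604_3, z_0, z_1, z_2, z_3, z_4, z_5, z_6, z_7, z_8, z_10, z_11, z_12, z_13, z_14, z_15, z_16, z_17, z_18, z_19, z_20, z_21, z_22, z_23, z_24, z_26, z_31, z_32]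
          have hn604_4 : ¬ (b9 - b0 < e1 + p3 + et) := fun hp604_4 => by
           linarith only [b_3, b_23, b_25, b_27, C_FW_1_2, C_FW_3_4, C_FW_6_7, C_FW_7_9, C_FW_8_9, C_Ebd, C_Obd, C_OPT_1_2_x12x, C_OPT_1_9_K1x23xEx89x, C_OPT_1_9_x12xOx78xKt, C_gap_1_9, hp596_2, hp598_0, hp599_1, hp600_0, hp601_0, hp604_4, z_0, z_1, z_2, z_3, z_4, z_5, z_6, z_7, z_8, z_10, z_11, z_12, z_14, z_15, z_16, z_17, z_18, z_19, z_20, z_21, z_22, z_23, z_24, z_26, z_31, z_32]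
          rcases C_fff_3 with h | h | h | h | h
          exacts [hn604_0 h, hn604_1 h, hn604_2 h, hn604_3 h, hn604_4 h]
         have hn603_1 : ¬ (b1 - b0 < e1) := fun hp603_1 => by
          linarith only [b_23, hp603_1, z_0, z_31]
         have hn603_2 : ¬ (a4 - a1 < e1) := fun hp603_2 => by
          linarith only [b_5, b_23, b_27, C_FW_1_3, C_FW_2_3, C_FW_6_7, C_FW_8_9, C_Obd, C_OPT_1_9_x12xOx78xKt, C_gap_1_9, hp600_0, hp603_2, z_0, z_1, z_2, z_3, z_5, z_7, z_8, z_10, z_12, z_14, z_16, z_17, z_18, z_20, z_22, z_23, z_26, z_31, z_32]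
         rcases C_f_e1_1_3 with h | h | h
         exacts [hn603_0 h, hn603_1 h, hn603_2 h]
        have hn601_1 : ¬ (b1 - b0 < p1) := fun hp601_1 => by
         linarith only [b_22, b_23, hp601_1, z_0, z_2, z_31]
        have hn601_2 : ¬ (a3 - a1 < p1) := fun hp601_2 => by
         linarith only [b_22, b_23, b_27, C_FW_1_3, C_FW_2_3, C_FW_6_7, C_FW_8_9, C_Obd, C_OPT_1_9_x12xOx78xKt, C_gap_1_9, hp600_0, hp601_2, z_0, z_1, z_2, z_3, z_5, z_7, z_8, z_12, z_14, z_16, z_17, z_18, z_20, z_22, z_23, z_26, z_31, z_32]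
        rcases C_f_p1_1_2 with h | h | h
        exacts [hn601_0 h, hn601_1 h, hn601_2 h]
       have hn600_1 : ¬ (b3 - b0 < p3) := fun hp600_1 => by
        linarith only [b_22, b_23, C_FW_1_2, C_OPT_2_3_x23x, hp600_1, z_0, z_2, z_4, z_5, z_6, z_8, z_27, z_31]
       have hn600_2 : ¬ (a10 - a9 < p9) := fun hp600_2 => by
        linarith only [b_26, b_27, hp600_2, z_22, z_23, z_32]
       have hn600_3 : ¬ (a10 - a3 < p3 + p9) := fun hp600_3 => by
        have hn609_0 : ¬ (p3 ≤ d0_10) := fun hp609_0 => by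
         have hn610_0 : ¬ (p1 + p3 ≤ d0_10) := fun hp610_0 => by
          have hn611_0 : ¬ (p7 + p9 ≤ d0_10) := fun hp611_0 => by
           have hn612_0 : ¬ (p9 ≤ d6_10) := fun hp612_0 => by
            have hn613_0 : ¬ (p9 ≤ d7_10) := fun hp613_0 => by
             have hn614_0 : ¬ (b2 - a2 - p2 < p1 + p7) := fun hp614_0 => by
              linarith only [b_11, b_23, b_25, b_26, b_27, b_29, C_FW_1_2, C_FW_3_7, C_FW_6_7, C_FW_8_9, C_Obd, C_OPT_1_3_K1x23x, C_OPT_1_9_x12xOx78xKt, C_gap_1_9, C_OPT_8_9_x89x, hp595_0, hp598_0, hp599_1, hp600_3, hp611_0, hp613_0, hp614_0, z_0, z_1, z_2, z_3, z_4, z_5, z_6, z_7, z_8, z_12, z_14, z_16, z_17, z_18, z_19, z_20, z_21, z_22, z_23, z_25, z_26, z_30, z_31, z_32]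
             have hn614_1 : ¬ (b2 - a7 < p1 + p7) := fun hp614_1 => by
              linarith only [b_22, b_23, b_25, b_27, C_FW_1_2, C_FW_3_7, C_FW_6_7, C_FW_8_9, C_Obd, C_OPT_1_3_K1x23x, C_OPT_1_9_x12xOx78xKt, C_gap_1_9, C_OPT_7_9_x78xKt, hp595_0, hp600_3, hp612_0, hp614_1, z_0, z_1, z_2, z_3, z_4, z_5, z_6, z_7, z_8, z_12, z_14, z_16, z_17, z_18, z_20, z_22, z_23, z_25, z_26, z_29, z_31, z_32]
             have hn614_2 : ¬ (b1 - a2 < p1 + p7) := fun hp614_2 => by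
              linarith only [b_22, b_23, b_25, b_27, C_FW_2_3, C_FW_6_7, C_FW_8_9, C_Obd, C_OPT_1_9_x12xOx78xKt, C_gap_1_9, hp611_0, hp614_2, z_0, z_1, z_2, z_3, z_4, z_5, z_7, z_8, z_12, z_14, z_16, z_17, z_18, z_20, z_22, z_23, z_26, z_31, z_32]
             have hn614_3 : ¬ (b1 - a7 + p2 < p1 + p7) := fun hp614_3 => by
              linarith only [b_11, b_13, b_22, b_23, b_25, b_26, b_27, C_FW_1_2, C_FW_6_7, C_FW_8_9, C_Obd, C_OPT_1_9_x12xOx78xKt, C_gap_1_9, hp599_1, hp600_3, hp611_0, hp614_3, z_0, z_1, z_2, z_3, z_4, z_5, z_7, z_8, z_12, z_14, z_16, z_17, z_18, z_19, z_20, z_22, z_23, z_26, z_31, z_32]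
             rcases C_FW3_1_2_7 with h | h | h | h
             exacts [hn614_0 h, hn614_1 h, hn614_2 h, hn614_3 h]
            have hn613_1 : ¬ (b9 - b7 < p9) := fun hp613_1 => by
             linarith only [b_23, b_26, b_27, C_FW_1_2, C_FW_3_4, C_FW_7_8, C_FW_7_9, C_Ebd, C_OPT_1_9_K1x23xEx89x, C_gap_1_9, not_le.1 hn600_0, hp610_0, hp611_0, hp613_1, z_0, z_2, z_4, z_5, z_6, z_8, z_10, z_11, z_15, z_17, z_19, z_20, z_21, z_22, z_23, z_26, z_31, z_32]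
            have hn613_2 : ¬ (a10 - a9 < p9) := fun hp613_2 => by
             linarith only [b_26, b_27, hp613_2, z_22, z_23, z_32]
            rcases C_f_p9_8_9 with h | h | h
            exacts [hn613_0 h, hn613_1 h, hn613_2 h]
           have hn612_1 : ¬ (b9 - b6 < p9) := fun hp612_1 => by
            linarith only [b_8, b_23, b_26, b_27, C_FW_1_2, C_FW_3_4, C_FW_7_8, C_FW_7_9, C_Ebd, C_OPT_1_9_K1x23xEx89x, C_gap_1_9, not_le.1 hn600_0, hp610_0, hp611_0, hp612_1, z_0, z_2, z_4, z_5, z_6, z_8, z_10, z_11, z_12, z_15, z_17, z_19, z_20, z_21, z_22, z_23, z_26, z_31, z_32]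
           have hn612_2 : ¬ (a10 - a9 < p9) := fun hp612_2 => by
            linarith only [b_26, b_27, hp612_2, z_22, z_23, z_32]
           rcases C_f_p9_7_9 with h | h | h
           exacts [hn612_0 h, hn612_1 h, hn612_2 h]
          have hn611_1 : ¬ (b7 - b0 < p7) := fun hp611_1 => by
           linarith only [b_5, b_7, b_9, b_11, b_22, b_23, b_26, b_27, b_29, C_FW_1_2, C_FW_1_3, C_FW_3_4, C_FW_8_9, C_Ebd, C_OPT_1_9_K1x23xEx89x, C_gap_1_9, hp610_0, hp611_1, z_0, z_2, z_4, z_5, z_6, z_7, z_8, z_10, z_11, z_13, z_15, z_16, z_17, z_18, z_19, z_20, z_21, z_22, z_23, z_26, z_31, z_32]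
          have hn611_2 : ¬ (a10 - a9 < p9) := fun hp611_2 => by
           linarith only [b_26, b_27, hp611_2, z_22, z_23, z_32]
          have hn611_3 : ¬ (a10 - a7 < p7 + p9) := fun hp611_3 => by
           have hn615_0 : ¬ (p9 ≤ d6_10) := fun hp615_0 => by
            linarith only [b_27, C_FW_8_9, C_OPT_7_9_x78xKt, hp611_3, hp615_0, z_16, z_17, z_18, z_20, z_22, z_23, z_29, z_32]
           have hn615_1 : ¬ (b9 - b6 < p9) := fun hp615_1 => by
            have hn617_0 : ¬ (p7 ≤ d0_10) := fun hp617_0 => by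
             have hn620_0 : ¬ (p1 + p7 ≤ d0_10) := fun hp620_0 => by
              linarith only [b_8, b_23, b_26, b_27, C_FW_1_2, C_FW_3_4, C_FW_7_8, C_FW_7_9, C_Ebd, C_OPT_1_9_K1x23xEx89x, C_gap_1_9, hp615_1, hp620_0, z_0, z_2, z_4, z_5, z_6, z_8, z_10, z_11, z_12, z_15, z_17, z_19, z_20, z_21, z_22, z_23, z_26, z_31, z_32]
             have hn620_1 : ¬ (b1 - b0 < p1) := fun hp620_1 => by
              linarith only [b_22, b_23, hp620_1, z_0, z_2, z_31]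
             have hn620_2 : ¬ (a10 - a7 < p7) := fun hp620_2 => by
              linarith only [b_26, b_27, C_FW_8_9, C_OPT_7_8_x78x, hp620_2, z_16, z_17, z_18, z_20, z_22, z_23, z_28, z_32]
             have hn620_3 : ¬ (a10 - a1 < p1 + p7) := fun hp620_3 => by
              have hn621_0 : ¬ (p9 ≤ d0_10) := fun hp621_0 => by
               linarith only [b_27, C_FW_2_3, C_FW_6_7, C_FW_8_9, C_Obd, C_OPT_1_9_x12xOx78xKt, hp617_0, hp620_3, hp621_0, z_1, z_2, z_3, z_5, z_7, z_8, z_12, z_14, z_16, z_17, z_18, z_20, z_22, z_23, z_26, z_32]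
              have hn621_1 : ¬ (b9 - b0 < p9) := fun hp621_1 => by
               linarith only [b_22, b_23, C_FW_1_8, C_OPT_8_9_x89x, hp621_1, z_0, z_2, z_19, z_20, z_21, z_23, z_30, z_31]
              have hn621_2 : ¬ (a10 - a9 < p9) := fun hp621_2 => by
               linarith only [b_26, b_27, hp621_2, z_22, z_23, z_32]
              rcases C_f_p9_1_9 with h | h | h
              exacts [hn621_0 h, hn621_1 h, hn621_2 h]
             have hn620_4 : ¬ (b7 - b0 < p1 + p7) := fun hp620_4 => by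
              have hn622_0 : ¬ (p1 + p9 ≤ d0_10) := fun hp622_0 => by
               linarith only [b_5, b_7, b_9, b_11, b_23, b_26, b_27, b_29, C_FW_1_2, C_FW_3_4, C_FW_8_9, C_Ebd, C_OPT_1_9_K1x23xEx89x, hp600_3, hp610_0, hp620_4, hp622_0, z_0, z_2, z_4, z_5, z_6, z_7, z_8, z_10, z_11, z_13, z_15, z_16, z_17, z_18, z_19, z_20, z_21, z_22, z_23, z_26, z_31, z_32]
              have hn622_1 : ¬ (b1 - b0 < p1) := fun hp622_1 => by
               linarith only [b_22, b_23, hp622_1, z_0, z_2, z_31]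
              have hn622_2 : ¬ (a10 - a9 < p9) := fun hp622_2 => by
               linarith only [b_26, b_27, hp622_2, z_22, z_23, z_32]
              have hn622_3 : ¬ (a10 - a1 < p1 + p9) := fun hp622_3 => by
               have hn623_0 : ¬ (p9 ≤ d0_10) := fun hp623_0 => by
                linarith only [b_27, C_FW_2_3, C_FW_6_7, C_FW_8_9, C_Obd, C_OPT_1_9_x12xOx78xKt, hp622_3, hp623_0, z_1, z_2, z_3, z_5, z_7, z_8, z_12, z_14, z_16, z_17, z_18, z_20, z_22, z_23, z_26, z_32]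
               have hn623_1 : ¬ (b9 - b0 < p9) := fun hp623_1 => by
                linarith only [b_22, b_23, C_FW_1_8, C_OPT_8_9_x89x, hp623_1, z_0, z_2, z_19, z_20, z_21, z_23, z_30, z_31]
               have hn623_2 : ¬ (a10 - a9 < p9) := fun hp623_2 => by
                linarith only [b_26, b_27, hp623_2, z_22, z_23, z_32]
               rcases C_f_p9_1_9 with h | h | h
               exacts [hn623_0 h, hn623_1 h, hn623_2 h]
              have hn622_4 : ¬ (b9 - b0 < p1 + p9) := fun hp622_4 => by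
               linarith only [b_10, b_11, b_12, b_13, b_23, b_26, b_27, C_FW_1_2, C_FW_3_4, C_FW_3_7, C_FW_3_8, C_FW_3_9, C_Ebd, C_OPT_1_3_K1x23x, C_OPT_1_9_K1x23xEx89x, C_gap_1_9, hp595_0, hp622_4, z_0, z_2, z_4, z_5, z_6, z_8, z_10, z_11, z_15, z_16, z_17, z_18, z_19, z_20, z_21, z_22, z_23, z_25, z_26, z_31, z_32]
              rcases C_ff_p1_p9_1_9 with h | h | h | h | h
              exacts [hn622_0 h, hn622_1 h, hn622_2 h, hn622_3 h, hn622_4 h]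
             rcases C_ff_p1_p7_1_9 with h | h | h | h | h
             exacts [hn620_0 h, hn620_1 h, hn620_2 h, hn620_3 h, hn620_4 h]
            have hn617_1 : ¬ (b7 - b0 < p7) := fun hp617_1 => by
             linarith only [b_5, b_7, b_9, b_11, b_22, b_23, b_26, b_27, b_29, C_FW_1_2, C_FW_1_3, C_FW_3_4, C_FW_8_9, C_Ebd, C_OPT_1_9_K1x23xEx89x, C_gap_1_9, hp610_0, hp617_1, z_0, z_2, z_4, z_5, z_6, z_7, z_8, z_10, z_11, z_13, z_15, z_16, z_17, z_18, z_19, z_20, z_21, z_22, z_23, z_26, z_31, z_32]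
            have hn617_2 : ¬ (a10 - a7 < p7) := fun hp617_2 => by
             linarith only [b_26, b_27, C_FW_8_9, C_OPT_7_8_x78x, hp617_2, z_16, z_17, z_18, z_20, z_22, z_23, z_28, z_32]
            rcases C_f_p7_1_9 with h | h | h
            exacts [hn617_0 h, hn617_1 h, hn617_2 h]
           have hn615_2 : ¬ (a10 - a9 < p9) := fun hp615_2 => by
            linarith only [b_26, b_27, hp615_2, z_22, z_23, z_32]
           rcases C_f_p9_7_9 with h | h | h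
           exacts [hn615_0 h, hn615_1 h, hn615_2 h]
          have hn611_4 : ¬ (b9 - b0 < p7 + p9) := fun hp611_4 => by
           linarith only [b_5, b_7, b_9, b_10, b_11, b_22, b_23, b_26, b_27, C_FW_1_2, C_FW_1_3, C_FW_3_4, C_FW_8_9, C_Ebd, C_OPT_1_9_K1x23xEx89x, C_gap_1_9, hp610_0, hp611_4, z_0, z_2, z_4, z_5, z_6, z_7, z_8, z_10, z_11, z_13, z_15, z_16, z_17, z_18, z_19, z_20, z_21, z_22, z_23, z_26, z_31, z_32]
          rcases C_ff_p7_p9_1_9 with h | h | h | h | h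
          exacts [hn611_0 h, hn611_1 h, hn611_2 h, hn611_3 h, hn611_4 h]
         have hn610_1 : ¬ (b1 - b0 < p1) := fun hp610_1 => by
          linarith only [b_22, b_23, hp610_1, z_0, z_2, z_31]
         have hn610_2 : ¬ (a10 - a3 < p3) := fun hp610_2 => by
          linarith only [b_5, b_7, b_9, b_11, b_13, b_22, b_23, b_25, b_26, b_27, C_FW_1_2, C_FW_6_7, C_FW_8_9, C_Obd, C_OPT_1_9_x12xOx78xKt, hp598_0, hp599_1, hp609_0, hp610_2, z_0, z_1, z_2, z_3, z_4, z_5, z_7, z_8, z_10, z_12, z_13, z_14, z_16, z_17, z_18, z_19, z_20, z_22, z_23, z_26, z_31, z_32]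
         have hn610_3 : ¬ (a10 - a1 < p1 + p3) := fun hp610_3 => by
          have hn624_0 : ¬ (p7 ≤ d0_10) := fun hp624_0 => by
           linarith only [b_1, b_3, b_11, b_13, b_23, b_26, b_27, C_FW_1_2, C_FW_3_7, C_FW_6_7, C_FW_8_9, C_Obd, C_OPT_1_3_K1x23x, C_OPT_1_9_x12xOx78xKt, hp595_0, hp599_1, hp609_0, hp610_3, hp624_0, z_0, z_1, z_2, z_3, z_4, z_5, z_6, z_7, z_8, z_12, z_14, z_16, z_17, z_18, z_19, z_20, z_22, z_23, z_25, z_26, z_31, z_32]
          have hn624_1 : ¬ (b7 - b0 < p7) := fun hp624_1 => by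
           linarith only [b_1, b_3, b_4, b_5, b_6, b_7, b_8, b_9, b_23, b_26, b_27, C_FW_1_2, C_FW_8_9, C_OPT_1_3_K1x23x, C_OPT_7_8_x78x, hp595_0, hp610_3, hp624_1, z_0, z_1, z_2, z_4, z_5, z_6, z_7, z_8, z_9, z_10, z_12, z_13, z_15, z_16, z_17, z_18, z_20, z_22, z_23, z_25, z_28, z_31, z_32]
          have hn624_2 : ¬ (a10 - a7 < p7) := fun hp624_2 => by
           linarith only [b_26, b_27, C_FW_8_9, C_OPT_7_8_x78x, hp624_2, z_16, z_17, z_18, z_20, z_22, z_23, z_28, z_32]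
          rcases C_f_p7_1_9 with h | h | h
          exacts [hn624_0 h, hn624_1 h, hn624_2 h]
         have hn610_4 : ¬ (b3 - b0 < p1 + p3) := fun hp610_4 => by
          linarith only [b_23, C_FW_1_2, C_OPT_1_3_K1x23x, hp595_0, hp610_4, z_0, z_2, z_4, z_5, z_6, z_8, z_25, z_31]
         rcases C_ff_p1_p3_1_9 with h | h | h | h | h
         exacts [hn610_0 h, hn610_1 h, hn610_2 h, hn610_3 h, hn610_4 h]
        have hn609_1 : ¬ (b3 - b0 < p3) := fun hp609_1 => by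
         linarith only [b_22, b_23, C_FW_1_2, C_OPT_2_3_x23x, hp609_1, z_0, z_2, z_4, z_5, z_6, z_8, z_27, z_31]
        have hn609_2 : ¬ (a10 - a3 < p3) := fun hp609_2 => by
         have hn625_0 : ¬ (p7 + e1 ≤ d0_10) := fun hp625_0 => by
          linarith only [b_4, b_5, b_11, b_22, b_23, b_26, b_27, b_29, C_FW_1_2, C_FW_4_7, C_FW_7_9, C_FW_8_9, C_Ebd, C_OPT_1_9_K1x23xEx89x, C_gap_1_9, hp609_2, hp625_0, z_0, z_2, z_4, z_5, z_6, z_7, z_8, z_9, z_10, z_11, z_15, z_16, z_17, z_18, z_19, z_20, z_21, z_22, z_23, z_26, z_31, z_32]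
         have hn625_1 : ¬ (b7 - b0 - p1 < d0_10) := fun hp625_1 => by
          linarith only [b_4, b_6, b_8, b_23, C_FW_1_2, C_OPT_1_3_K1x23x, hp595_0, not_le.1 hn609_0, hp625_1, z_0, z_2, z_4, z_5, z_6, z_8, z_9, z_12, z_15, z_25, z_26, z_31]
         have hn625_2 : ¬ (a10 - a1 - p1 < d0_10) := fun hp625_2 => by
          linarith only [b_1, b_3, b_5, b_7, b_9, b_11, b_13, b_23, b_26, b_27, C_FW_1_2, C_FW_3_9, C_FW_6_7, C_FW_8_9, C_Obd, C_OPT_1_3_K1x23x, C_OPT_1_9_x12xOx78xKt, hp595_0, hp599_1, hp609_2, hp625_2, z_0, z_1, z_2, z_3, z_4, z_5, z_6, z_7, z_8, z_10, z_12, z_13, z_14, z_16, z_17, z_18, z_19, z_20, z_22, z_23, z_25, z_26, z_31, z_32]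
         have hn625_3 : ¬ (a10 - a7 < p7) := fun hp625_3 => by
          linarith only [b_26, b_27, C_FW_8_9, C_OPT_7_8_x78x, hp625_3, z_16, z_17, z_18, z_20, z_22, z_23, z_28, z_32]
         have hn625_4 : ¬ (b7 - b0 < p7) := fun hp625_4 => by
          linarith only [b_4, b_5, b_6, b_7, b_8, b_9, b_22, b_23, b_26, b_27, C_FW_1_2, C_FW_8_9, C_OPT_2_3_x23x, C_OPT_7_8_x78x, hp609_2, hp625_4, z_0, z_2, z_4, z_5, z_6, z_7, z_8, z_9, z_10, z_12, z_13, z_15, z_16, z_17, z_18, z_20, z_22, z_23, z_27, z_28, z_31, z_32]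
         rcases C_g1_p7_1_9 with h | h | h | h | h
         exacts [hn625_0 h, hn625_1 h, hn625_2 h, hn625_3 h, hn625_4 h]
        rcases C_f_p3_1_9 with h | h | h
        exacts [hn609_0 h, hn609_1 h, hn609_2 h]
       have hn600_4 : ¬ (b9 - b0 < p3 + p9) := fun hp600_4 => by
        linarith only [b_3, b_4, b_6, b_8, b_10, b_12, b_22, b_23, C_FW_1_2, C_FW_3_4, C_FW_7_8, C_Ebd, C_OPT_1_3_K1x23x, C_OPT_1_9_K1x23xEx89x, C_gap_1_9, hp595_0, hp598_0, not_lt.1 hn600_3, hp600_4, z_0, z_2, z_4, z_5, z_6, z_7, z_8, z_9, z_10, z_11, z_12, z_15, z_17, z_18, z_19, z_20, z_21, z_23, z_25, z_26, z_31]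
       rcases C_ff_p3_p9_1_9 with h | h | h | h | h
       exacts [hn600_0 h, hn600_1 h, hn600_2 h, hn600_3 h, hn600_4 h]
      have hn599_2 : ¬ (a10 - a9 < p9) := fun hp599_2 => by
       linarith only [b_26, b_27, hp599_2, z_22, z_23, z_32]
      have hn599_3 : ¬ (a10 - a2 < p2 + p9) := fun hp599_3 => by
       have hn626_0 : ¬ (p9 ≤ d6_10) := fun hp626_0 => by
        linarith only [b_27, C_FW_3_7, C_FW_8_9, C_OPT_2_3_x23x, C_OPT_7_9_x78xKt, hp599_3, hp626_0, z_4, z_5, z_6, z_8, z_16, z_17, z_18, z_20, z_22, z_23, z_27, z_29, z_32]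
       have hn626_1 : ¬ (b9 - b6 < p9) := fun hp626_1 => by
        have hn627_0 : ¬ (p7 ≤ d0_10) := fun hp627_0 => by
         have hn628_0 : ¬ (e1 ≤ p1) := fun hp628_0 => by
          have hn629_0 : ¬ (p1 + p9 ≤ d0_10) := fun hp629_0 => by
           linarith only [b_8, b_26, b_27, C_FW_3_4, C_FW_7_8, C_FW_7_9, C_Ebd, C_OPT_1_9_K1x23xEx89x, hp599_3, hp626_1, hp627_0, hp628_0, hp629_0, z_2, z_4, z_5, z_6, z_8, z_10, z_11, z_12, z_15, z_17, z_19, z_20, z_21, z_22, z_23, z_26, z_31, z_32]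
          have hn629_1 : ¬ (b1 - b0 < p1) := fun hp629_1 => by
           linarith only [b_22, b_23, hp629_1, z_0, z_2, z_31]
          have hn629_2 : ¬ (a10 - a9 < p9) := fun hp629_2 => by
           linarith only [b_26, b_27, hp629_2, z_22, z_23, z_32]
          have hn629_3 : ¬ (a10 - a1 < p1 + p9) := fun hp629_3 => by
           have hn630_0 : ¬ (p9 ≤ d0_10) := fun hp630_0 => by
            linarith only [b_27, C_FW_2_3, C_FW_6_7, C_FW_8_9, C_Obd, C_OPT_1_9_x12xOx78xKt, hp629_3, hp630_0, z_1, z_2, z_3, z_5, z_7, z_8, z_12, z_14, z_16, z_17, z_18, z_20, z_22, z_23, z_26, z_32]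
           have hn630_1 : ¬ (b9 - b0 < p9) := fun hp630_1 => by
            linarith only [b_22, b_23, C_FW_1_8, C_OPT_8_9_x89x, hp630_1, z_0, z_2, z_19, z_20, z_21, z_23, z_30, z_31]
           have hn630_2 : ¬ (a10 - a9 < p9) := fun hp630_2 => by
            linarith only [b_26, b_27, hp630_2, z_22, z_23, z_32]
           rcases C_f_p9_1_9 with h | h | h
           exacts [hn630_0 h, hn630_1 h, hn630_2 h]
          have hn629_4 : ¬ (b9 - b0 < p1 + p9) := fun hp629_4 => by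
           linarith only [b_10, b_11, b_12, b_13, b_23, b_26, b_27, C_FW_1_2, C_FW_3_4, C_FW_3_7, C_FW_3_8, C_FW_3_9, C_Ebd, C_OPT_1_3_K1x23x, C_OPT_1_9_K1x23xEx89x, C_gap_1_9, hp595_0, hp629_4, z_0, z_2, z_4, z_5, z_6, z_8, z_10, z_11, z_15, z_16, z_17, z_18, z_19, z_20, z_21, z_22, z_23, z_25, z_26, z_31, z_32]
          rcases C_ff_p1_p9_1_9 with h | h | h | h | h
          exacts [hn629_0 h, hn629_1 h, hn629_2 h, hn629_3 h, hn629_4 h]
         have hn628_1 : ¬ (2 * p1 ≤ e1) := fun hp628_1 => by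
          have hn631_0 : ¬ (p1 + p7 ≤ d0_10) := fun hp631_0 => by
           linarith only [b_8, b_23, b_26, b_27, C_FW_1_2, C_FW_3_4, C_FW_7_8, C_FW_7_9, C_Ebd, C_OPT_1_9_K1x23xEx89x, C_gap_1_9, hp626_1, hp631_0, z_0, z_2, z_4, z_5, z_6, z_8, z_10, z_11, z_12, z_15, z_17, z_19, z_20, z_21, z_22, z_23, z_26, z_31, z_32]
          have hn631_1 : ¬ (b1 - b0 < p1) := fun hp631_1 => by
           linarith only [b_22, b_23, hp631_1, z_0, z_2, z_31]
          have hn631_2 : ¬ (a10 - a7 < p7) := fun hp631_2 => by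
           linarith only [b_26, b_27, C_FW_8_9, C_OPT_7_8_x78x, hp631_2, z_16, z_17, z_18, z_20, z_22, z_23, z_28, z_32]
          have hn631_3 : ¬ (a10 - a1 < p1 + p7) := fun hp631_3 => by
           have hn632_0 : ¬ (p9 ≤ d0_10) := fun hp632_0 => by
            linarith only [b_27, C_FW_2_3, C_FW_6_7, C_FW_8_9, C_Obd, C_OPT_1_9_x12xOx78xKt, hp627_0, hp631_3, hp632_0, z_1, z_2, z_3, z_5, z_7, z_8, z_12, z_14, z_16, z_17, z_18, z_20, z_22, z_23, z_26, z_32]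
           have hn632_1 : ¬ (b9 - b0 < p9) := fun hp632_1 => by
            linarith only [b_22, b_23, C_FW_1_8, C_OPT_8_9_x89x, hp632_1, z_0, z_2, z_19, z_20, z_21, z_23, z_30, z_31]
           have hn632_2 : ¬ (a10 - a9 < p9) := fun hp632_2 => by
            linarith only [b_26, b_27, hp632_2, z_22, z_23, z_32]
           rcases C_f_p9_1_9 with h | h | h
           exacts [hn632_0 h, hn632_1 h, hn632_2 h]
          have hn631_4 : ¬ (b7 - b0 < p1 + p7) := fun hp631_4 => by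
           have hn633_0 : ¬ (p1 + p3 ≤ d0_10) := fun hp633_0 => by
            linarith only [b_5, b_7, b_9, b_11, b_23, b_26, b_27, b_29, C_FW_1_2, C_FW_1_3, C_FW_3_4, C_FW_8_9, C_Ebd, C_OPT_1_9_K1x23xEx89x, C_gap_1_9, hp628_1, hp631_4, hp633_0, z_0, z_2, z_4, z_5, z_6, z_7, z_8, z_10, z_11, z_13, z_15, z_16, z_17, z_18, z_19, z_20, z_21, z_22, z_23, z_26, z_31, z_32]
           have hn633_1 : ¬ (b1 - b0 < p1) := fun hp633_1 => by
            linarith only [b_22, b_23, hp633_1, z_0, z_2, z_31]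
           have hn633_2 : ¬ (a10 - a3 < p3) := fun hp633_2 => by
            linarith only [b_4, b_5, b_6, b_7, b_8, b_9, b_23, b_26, b_27, C_FW_1_2, C_FW_8_9, C_OPT_1_3_K1x23x, C_OPT_7_8_x78x, hp595_0, hp631_4, hp633_2, z_0, z_2, z_4, z_5, z_6, z_7, z_8, z_9, z_10, z_12, z_13, z_15, z_16, z_17, z_18, z_20, z_22, z_23, z_25, z_28, z_31, z_32]
           have hn633_3 : ¬ (a10 - a1 < p1 + p3) := fun hp633_3 => by
            linarith only [b_4, b_6, b_8, b_23, C_FW_1_2, C_OPT_1_3_K1x23x, hp595_0, not_lt.1 hn631_3, hp631_4, hp633_3, z_0, z_1, z_2, z_4, z_5, z_6, z_8, z_9, z_12, z_15, z_17, z_25, z_31]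
           have hn633_4 : ¬ (b3 - b0 < p1 + p3) := fun hp633_4 => by
            linarith only [b_23, C_FW_1_2, C_OPT_1_3_K1x23x, hp595_0, hp633_4, z_0, z_2, z_4, z_5, z_6, z_8, z_25, z_31]
           rcases C_ff_p1_p3_1_9 with h | h | h | h | h
           exacts [hn633_0 h, hn633_1 h, hn633_2 h, hn633_3 h, hn633_4 h]
          rcases C_ff_p1_p7_1_9 with h | h | h | h | h
          exacts [hn631_0 h, hn631_1 h, hn631_2 h, hn631_3 h, hn631_4 h]
         rcases C_e1mult with h | h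
         exacts [hn628_0 h, hn628_1 h]
        have hn627_1 : ¬ (b7 - b0 < p7) := fun hp627_1 => by
         linarith only [b_3, b_5, b_7, b_8, b_9, b_22, b_23, b_26, b_27, C_FW_1_2, C_FW_3_4, C_FW_3_8, C_FW_8_9, C_Ebd, C_OPT_1_3_K1x23x, C_OPT_1_9_K1x23xEx89x, C_gap_1_9, C_OPT_7_8_x78x, hp595_0, hp598_0, hp626_1, hp627_1, z_0, z_2, z_4, z_5, z_6, z_7, z_8, z_10, z_11, z_12, z_13, z_15, z_16, z_17, z_18, z_19, z_20, z_21, z_22, z_23, z_25, z_26, z_28, z_31, z_32]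
        have hn627_2 : ¬ (a10 - a7 < p7) := fun hp627_2 => by
         linarith only [b_26, b_27, C_FW_8_9, C_OPT_7_8_x78x, hp627_2, z_16, z_17, z_18, z_20, z_22, z_23, z_28, z_32]
        rcases C_f_p7_1_9 with h | h | h
        exacts [hn627_0 h, hn627_1 h, hn627_2 h]
       have hn626_2 : ¬ (a10 - a9 < p9) := fun hp626_2 => by
        linarith only [b_26, b_27, hp626_2, z_22, z_23, z_32]
       rcases C_f_p9_7_9 with h | h | h
       exacts [hn626_0 h, hn626_1 h, hn626_2 h]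
      have hn599_4 : ¬ (b9 - b0 < p2 + p9) := fun hp599_4 => by
       linarith only [b_10, b_11, b_12, b_13, b_23, b_26, b_27, C_FW_1_2, C_FW_3_4, C_FW_3_7, C_FW_3_8, C_FW_7_8, C_Ebd, C_OPT_1_3_K1x23x, C_OPT_1_9_K1x23xEx89x, C_gap_1_9, hp595_0, hp598_0, hp599_4, z_0, z_2, z_4, z_5, z_6, z_8, z_10, z_11, z_15, z_16, z_17, z_18, z_19, z_20, z_21, z_22, z_23, z_25, z_26, z_31, z_32]
      rcases C_ff_p2_p9_1_9 with h | h | h | h | h
      exacts [hn599_0 h, hn599_1 h, hn599_2 h, hn599_3 h, hn599_4 h]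
     have hn598_1 : ¬ (b2 - b0 < p2) := fun hp598_1 => by
      have hn634_0 : ¬ (b2 - b0 - p1 < d0_10) := fun hp634_0 => by
       have hn635_0 : ¬ (p3 ≤ d0_10) := fun hp635_0 => by
        have hn636_0 : ¬ (p3 + p9 ≤ d0_10) := fun hp636_0 => by
         have hn637_0 : ¬ (p1 + p3 ≤ d0_10) := fun hp637_0 => by
          have hn638_0 : ¬ (p1 + p7 ≤ d0_10) := fun hp638_0 => by
           have hn639_0 : ¬ (e1 ≤ d0_4) := fun hp639_0 => by
            have hn640_0 : ¬ (e1 + p7 + et ≤ d0_10) := fun hp640_0 => by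
             linarith only [b_22, b_23, b_26, b_27, b_29, C_FW_1_2, C_FW_3_4, C_FW_7_9, C_Ebd, C_OPT_1_9_K1x23xEx89x, C_gap_1_9, hp597_0, hp640_0, z_0, z_2, z_4, z_5, z_6, z_8, z_10, z_11, z_15, z_17, z_18, z_19, z_20, z_21, z_22, z_23, z_26, z_31, z_32]
            have hn640_1 : ¬ (b7 - b0 < e1 + p7) := fun hp640_1 => by
             linarith only [b_11, b_22, b_23, b_26, b_27, b_29, C_FW_1_2, C_FW_3_4, C_FW_3_7, C_FW_8_9, C_Ebd, C_OPT_1_3_K1x23x, C_OPT_1_9_K1x23xEx89x, C_gap_1_9, hp638_0, hp639_0, hp640_1, z_0, z_2, z_4, z_5, z_6, z_8, z_10, z_11, z_15, z_16, z_17, z_18, z_19, z_20, z_21, z_22, z_23, z_25, z_26, z_31, z_32]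
            have hn640_2 : ¬ (a10 - a7 < p7 + et) := fun hp640_2 => by
             have hn641_0 : ¬ (et ≤ d6_10) := fun hp641_0 => by
              linarith only [b_26, b_27, C_FW_8_9, C_OPT_7_9_x78xKt, hp640_2, hp641_0, z_16, z_17, z_18, z_20, z_22, z_23, z_29, z_32]
             have hn641_1 : ¬ (b9 - b6 < et) := fun hp641_1 => by
              linarith only [b_8, b_23, b_27, C_FW_1_2, C_FW_3_4, C_FW_7_8, C_FW_7_9, C_Ebd, C_OPT_1_9_K1x23xEx89x, C_gap_1_9, hp638_0, hp641_1, z_0, z_2, z_4, z_5, z_6, z_8, z_10, z_11, z_12, z_15, z_17, z_19, z_20, z_21, z_22, z_23, z_26, z_31, z_32]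
             have hn641_2 : ¬ (a10 - a9 < et) := fun hp641_2 => by
              linarith only [b_27, hp641_2, z_22, z_32]
             rcases C_f_et_7_9 with h | h | h
             exacts [hn641_0 h, hn641_1 h, hn641_2 h]
            have hn640_3 : ¬ (a10 - a1 < e1 + p7 + et) := fun hp640_3 => by
             linarith only [b_5, b_7, b_9, b_23, b_27, C_FW_1_3, C_FW_2_3, C_FW_6_7, C_FW_8_9, C_Obd, C_OPT_1_9_x12xOx78xKt, C_gap_1_9, hp636_0, not_lt.1 hn640_2, hp640_3, z_0, z_1, z_2, z_3, z_5, z_7, z_8, z_10, z_12, z_13, z_14, z_16, z_17, z_18, z_20, z_22, z_23, z_26, z_31, z_32]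
            have hn640_4 : ¬ (b9 - b0 < e1 + p7 + et) := fun hp640_4 => by
             linarith only [b_22, b_23, b_27, C_FW_1_2, C_FW_3_4, C_FW_3_9, C_FW_7_8, C_Ebd, C_OPT_1_3_K1x23x, C_OPT_1_9_K1x23xEx89x, C_gap_1_9, hp638_0, hp639_0, hp640_4, z_0, z_2, z_4, z_5, z_6, z_8, z_10, z_11, z_15, z_17, z_19, z_20, z_21, z_22, z_23, z_25, z_26, z_31, z_32]
            rcases C_fff_7 with h | h | h | h | h
            exacts [hn640_0 h, hn640_1 h, hn640_2 h, hn640_3 h, hn640_4 h]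
           have hn639_1 : ¬ (b1 - b0 < e1) := fun hp639_1 => by
            linarith only [b_23, hp639_1, z_0, z_31]
           have hn639_2 : ¬ (a4 - a1 < e1) := fun hp639_2 => by
            linarith only [b_5, b_23, b_27, C_FW_1_3, C_FW_2_3, C_FW_6_7, C_FW_8_9, C_Obd, C_OPT_1_9_x12xOx78xKt, C_gap_1_9, hp636_0, hp639_2, z_0, z_1, z_2, z_3, z_5, z_7, z_8, z_10, z_12, z_14, z_16, z_17, z_18, z_20, z_22, z_23, z_26, z_31, z_32]
           rcases C_f_e1_1_3 with h | h | h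
           exacts [hn639_0 h, hn639_1 h, hn639_2 h]
          have hn638_1 : ¬ (b1 - b0 < p1) := fun hp638_1 => by
           linarith only [b_22, b_23, hp638_1, z_0, z_2, z_31]
          have hn638_2 : ¬ (a10 - a7 < p7) := fun hp638_2 => by
           linarith only [b_26, b_27, C_FW_8_9, C_OPT_7_8_x78x, hp638_2, z_16, z_17, z_18, z_20, z_22, z_23, z_28, z_32]
          have hn638_3 : ¬ (a10 - a1 < p1 + p7) := fun hp638_3 => by
           linarith only [b_5, b_7, b_9, b_22, b_23, b_26, b_27, C_FW_1_3, C_FW_2_3, C_FW_6_7, C_FW_8_9, C_Obd, C_OPT_1_9_x12xOx78xKt, C_gap_1_9, C_OPT_7_8_x78x, hp636_0, hp638_3, z_0, z_1, z_2, z_3, z_5, z_7, z_8, z_10, z_12, z_13, z_14, z_16, z_17, z_18, z_20, z_22, z_23, z_26, z_28, z_31, z_32]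
          have hn638_4 : ¬ (b7 - b0 < p1 + p7) := fun hp638_4 => by
           have hn642_0 : ¬ (p1 ≤ d0_3) := fun hp642_0 => by
            have hn643_0 : ¬ (p7 ≤ d0_10) := fun hp643_0 => by
             have hn644_0 : ¬ (p9 ≤ d6_10) := fun hp644_0 => by
              have hn645_0 : ¬ (p7 + p9 ≤ d0_10) := fun hp645_0 => by
               have hn646_0 : ¬ (e1 + p3 + et ≤ d0_10) := fun hp646_0 => by
                linarith only [b_2, b_8, b_9, b_22, b_23, b_25, b_26, b_27, C_FW_1_2, C_FW_1_3, C_FW_3_6, C_FW_8_9, C_Obd, C_OPT_1_9_x12xOx78xKt, C_gap_1_9, hp638_4, hp646_0, z_0, z_1, z_2, z_3, z_4, z_5, z_6, z_7, z_8, z_12, z_13, z_14, z_15, z_16, z_17, z_18, z_20, z_22, z_23, z_26, z_31, z_32]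
               have hn646_1 : ¬ (b3 - b0 < e1 + p3) := fun hp646_1 => by
                have hn647_0 : ¬ (e1 ≤ p1) := fun hp647_0 => by
                 linarith only [b_23, C_FW_1_2, C_OPT_1_3_K1x23x, hp595_0, hp646_1, hp647_0, z_0, z_2, z_4, z_5, z_6, z_8, z_25, z_31]
                have hn647_1 : ¬ (2 * p1 ≤ e1) := fun hp647_1 => by
                 linarith only [b_2, b_8, b_9, b_23, b_25, b_27, C_FW_1_2, C_FW_1_3, C_FW_3_6, C_FW_8_9, C_Obd, C_OPT_1_9_x12xOx78xKt, C_gap_1_9, hp636_0, hp638_4, hp647_1, z_0, z_1, z_2, z_3, z_4, z_5, z_6, z_7, z_8, z_12, z_13, z_14, z_15, z_16, z_17, z_18, z_20, z_22, z_23, z_26, z_31, z_32]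
                rcases C_e1mult with h | h
                exacts [hn647_0 h, hn647_1 h]
               have hn646_2 : ¬ (a10 - a3 < p3 + et) := fun hp646_2 => by
                linarith only [b_2, b_5, b_7, b_9, b_11, b_22, b_23, b_25, b_27, b_29, C_FW_1_2, C_FW_3_4, C_FW_3_7, C_FW_8_9, C_Ebd, C_OPT_1_2_x12x, C_OPT_1_9_K1x23xEx89x, C_gap_1_9, hp637_0, hp638_4, hp642_0, hp645_0, hp646_2, z_0, z_1, z_2, z_3, z_4, z_5, z_6, z_7, z_8, z_10, z_11, z_13, z_15, z_16, z_17, z_18, z_19, z_20, z_21, z_22, z_23, z_24, z_26, z_31, z_32]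
               have hn646_3 : ¬ (a10 - a1 < e1 + p3 + et) := fun hp646_3 => by
                linarith only [b_2, b_23, b_27, C_FW_1_3, C_FW_3_9, C_FW_6_7, C_FW_8_9, C_Obd, C_OPT_1_9_x12xOx78xKt, C_gap_1_9, not_le.1 hn598_0, hp636_0, hp646_3, z_0, z_1, z_2, z_3, z_5, z_6, z_7, z_8, z_12, z_14, z_16, z_17, z_18, z_20, z_22, z_23, z_26, z_31, z_32]
               have hn646_4 : ¬ (b9 - b0 < e1 + p3 + et) := fun hp646_4 => by
                linarith only [b_0, b_2, b_23, b_27, C_FW_1_2, C_FW_3_4, C_FW_3_9, C_Ebd, C_OPT_1_9_K1x23xEx89x, hp596_2, hp637_0, hp638_4, hp646_4, z_0, z_2, z_3, z_4, z_5, z_6, z_8, z_10, z_11, z_15, z_17, z_19, z_20, z_21, z_22, z_23, z_26, z_31, z_32]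
               rcases C_fff_3 with h | h | h | h | h
               exacts [hn646_0 h, hn646_1 h, hn646_2 h, hn646_3 h, hn646_4 h]
              have hn645_1 : ¬ (b7 - b0 < p7) := fun hp645_1 => by
               linarith only [b_2, b_8, b_9, b_22, b_23, b_25, b_27, C_FW_1_2, C_FW_1_3, C_FW_3_6, C_FW_8_9, C_Obd, C_OPT_1_9_x12xOx78xKt, C_gap_1_9, hp636_0, hp645_1, z_0, z_1, z_2, z_3, z_4, z_5, z_6, z_7, z_8, z_12, z_13, z_14, z_15, z_16, z_17, z_18, z_20, z_22, z_23, z_26, z_31, z_32]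
              have hn645_2 : ¬ (a10 - a9 < p9) := fun hp645_2 => by
               linarith only [b_26, b_27, hp645_2, z_22, z_23, z_32]
              have hn645_3 : ¬ (a10 - a7 < p7 + p9) := fun hp645_3 => by
               linarith only [b_27, C_FW_8_9, C_OPT_7_9_x78xKt, hp644_0, hp645_3, z_16, z_17, z_18, z_20, z_22, z_23, z_29, z_32]
              have hn645_4 : ¬ (b9 - b0 < p7 + p9) := fun hp645_4 => by
               linarith only [b_5, b_7, b_9, b_10, b_12, b_22, b_23, b_26, b_27, C_FW_1_2, C_FW_1_3, C_FW_3_4, C_FW_3_8, C_FW_8_9, C_Ebd, C_OPT_1_3_K1x23x, C_OPT_1_9_K1x23xEx89x, C_gap_1_9, C_OPT_7_8_x78x, hp595_0, hp636_0, hp645_4, z_0, z_2, z_4, z_5, z_6, z_7, z_8, z_10, z_11, z_13, z_15, z_16, z_17, z_18, z_19, z_20, z_21, z_22, z_23, z_25, z_26, z_28, z_31, z_32]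
              rcases C_ff_p7_p9_1_9 with h | h | h | h | h
              exacts [hn645_0 h, hn645_1 h, hn645_2 h, hn645_3 h, hn645_4 h]
             have hn644_1 : ¬ (b9 - b6 < p9) := fun hp644_1 => by
              linarith only [b_2, b_8, b_22, b_23, b_25, C_FW_1_2, C_FW_3_4, C_FW_3_8, C_Ebd, C_OPT_1_2_x12x, C_OPT_1_9_K1x23xEx89x, hp637_0, hp638_4, hp642_0, hp643_0, hp644_1, z_0, z_1, z_2, z_3, z_4, z_5, z_6, z_8, z_10, z_11, z_12, z_15, z_17, z_19, z_20, z_21, z_23, z_24, z_26, z_31]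
             have hn644_2 : ¬ (a10 - a9 < p9) := fun hp644_2 => by
              linarith only [b_26, b_27, hp644_2, z_22, z_23, z_32]
             rcases C_f_p9_7_9 with h | h | h
             exacts [hn644_0 h, hn644_1 h, hn644_2 h]
            have hn643_1 : ¬ (b7 - b0 < p7) := fun hp643_1 => by
             linarith only [b_2, b_8, b_9, b_22, b_23, b_25, b_27, C_FW_1_2, C_FW_1_3, C_FW_3_6, C_FW_8_9, C_Obd, C_OPT_1_9_x12xOx78xKt, C_gap_1_9, hp636_0, hp643_1, z_0, z_1, z_2, z_3, z_4, z_5, z_6, z_7, z_8, z_12, z_13, z_14, z_15, z_16, z_17, z_18, z_20, z_22, z_23, z_26, z_31, z_32]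
            have hn643_2 : ¬ (a10 - a7 < p7) := fun hp643_2 => by
             linarith only [b_26, b_27, C_FW_8_9, C_OPT_7_8_x78x, hp643_2, z_16, z_17, z_18, z_20, z_22, z_23, z_28, z_32]
            rcases C_f_p7_1_9 with h | h | h
            exacts [hn643_0 h, hn643_1 h, hn643_2 h]
           have hn642_1 : ¬ (b1 - b0 < p1) := fun hp642_1 => by
            linarith only [b_22, b_23, hp642_1, z_0, z_2, z_31]
           have hn642_2 : ¬ (a3 - a1 < p1) := fun hp642_2 => by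
            linarith only [b_22, b_23, b_27, C_FW_1_3, C_FW_2_3, C_FW_6_7, C_FW_8_9, C_Obd, C_OPT_1_9_x12xOx78xKt, C_gap_1_9, hp636_0, hp642_2, z_0, z_1, z_2, z_3, z_5, z_7, z_8, z_12, z_14, z_16, z_17, z_18, z_20, z_22, z_23, z_26, z_31, z_32]
           rcases C_f_p1_1_2 with h | h | h
           exacts [hn642_0 h, hn642_1 h, hn642_2 h]
          rcases C_ff_p1_p7_1_9 with h | h | h | h | h
          exacts [hn638_0 h, hn638_1 h, hn638_2 h, hn638_3 h, hn638_4 h]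
         have hn637_1 : ¬ (b1 - b0 < p1) := fun hp637_1 => by
          linarith only [b_22, b_23, hp637_1, z_0, z_2, z_31]
         have hn637_2 : ¬ (a10 - a3 < p3) := fun hp637_2 => by
          linarith only [b_2, b_22, b_23, b_25, b_26, b_27, C_FW_1_2, C_FW_3_9, C_FW_6_7, C_FW_8_9, C_Obd, C_OPT_1_9_x12xOx78xKt, C_gap_1_9, hp636_0, hp637_2, z_0, z_1, z_2, z_3, z_4, z_5, z_6, z_7, z_8, z_12, z_14, z_16, z_17, z_18, z_20, z_22, z_23, z_26, z_31, z_32]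
         have hn637_3 : ¬ (a10 - a1 < p1 + p3) := fun hp637_3 => by
          linarith only [b_27, C_FW_2_3, C_FW_6_7, C_FW_8_9, C_Obd, C_OPT_1_9_x12xOx78xKt, hp636_0, hp637_3, z_1, z_2, z_3, z_5, z_7, z_8, z_12, z_14, z_16, z_17, z_18, z_20, z_22, z_23, z_26, z_32]
         have hn637_4 : ¬ (b3 - b0 < p1 + p3) := fun hp637_4 => by
          linarith only [b_23, C_FW_1_2, C_OPT_1_3_K1x23x, hp595_0, hp637_4, z_0, z_2, z_4, z_5, z_6, z_8, z_25, z_31]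
         rcases C_ff_p1_p3_1_9 with h | h | h | h | h
         exacts [hn637_0 h, hn637_1 h, hn637_2 h, hn637_3 h, hn637_4 h]
        have hn636_1 : ¬ (b3 - b0 < p3) := fun hp636_1 => by
         linarith only [b_22, b_23, C_FW_1_2, C_OPT_2_3_x23x, hp636_1, z_0, z_2, z_4, z_5, z_6, z_8, z_27, z_31]
        have hn636_2 : ¬ (a10 - a9 < p9) := fun hp636_2 => by
         linarith only [b_26, b_27, hp636_2, z_22, z_23, z_32]
        have hn636_3 : ¬ (a10 - a3 < p3 + p9) := fun hp636_3 => by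
         have hn648_0 : ¬ (b9 - b6 - p9 < d6_10) := fun hp648_0 => by
          have hn649_0 : ¬ (p9 ≤ d7_10) := fun hp649_0 => by
           have hn650_0 : ¬ (p1 + p3 ≤ d0_10) := fun hp650_0 => by
            have hn651_0 : ¬ (p7 + p9 ≤ d0_10) := fun hp651_0 => by
             have hn652_0 : ¬ (b2 - a2 - p2 < p1 + p7) := fun hp652_0 => by
              linarith only [b_2, b_11, b_23, b_25, b_26, b_27, b_29, C_FW_1_2, C_FW_3_7, C_FW_6_7, C_FW_8_9, C_Obd, C_OPT_1_9_x12xOx78xKt, C_gap_1_9, C_OPT_8_9_x89x, hp636_3, hp649_0, hp650_0, hp651_0, hp652_0, z_0, z_1, z_2, z_3, z_4, z_5, z_6, z_7, z_8, z_12, z_14, z_16, z_17, z_18, z_19, z_20, z_21, z_22, z_23, z_26, z_30, z_31, z_32]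
             have hn652_1 : ¬ (b2 - a7 < p1 + p7) := fun hp652_1 => by
              linarith only [b_11, b_22, b_23, b_25, b_26, b_27, b_29, C_FW_1_2, C_FW_6_7, C_FW_8_9, C_Obd, C_OPT_1_9_x12xOx78xKt, C_gap_1_9, C_OPT_8_9_x89x, not_le.1 hn636_0, hp636_3, hp649_0, hp650_0, hp651_0, hp652_1, z_0, z_1, z_2, z_3, z_4, z_5, z_7, z_8, z_12, z_14, z_16, z_17, z_18, z_19, z_20, z_21, z_22, z_23, z_26, z_30, z_31, z_32]
             have hn652_2 : ¬ (b1 - a2 < p1 + p7) := fun hp652_2 => by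
              linarith only [b_22, b_23, b_25, b_27, C_FW_2_3, C_FW_6_7, C_FW_8_9, C_Obd, C_OPT_1_9_x12xOx78xKt, C_gap_1_9, hp651_0, hp652_2, z_0, z_1, z_2, z_3, z_4, z_5, z_7, z_8, z_12, z_14, z_16, z_17, z_18, z_20, z_22, z_23, z_26, z_31, z_32]
             have hn652_3 : ¬ (b1 - a7 + p2 < p1 + p7) := fun hp652_3 => by
              linarith only [b_22, b_23, b_26, b_27, C_FW_8_9, C_gap_1_9, C_OPT_7_8_x78x, not_le.1 hn598_0, hp652_3, z_0, z_2, z_5, z_16, z_17, z_18, z_20, z_22, z_23, z_26, z_28, z_31, z_32]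
             rcases C_FW3_1_2_7 with h | h | h | h
             exacts [hn652_0 h, hn652_1 h, hn652_2 h, hn652_3 h]
            have hn651_1 : ¬ (b7 - b0 < p7) := fun hp651_1 => by
             linarith only [b_4, b_5, b_6, b_7, b_8, b_9, b_22, b_23, b_26, b_27, C_FW_1_2, C_FW_1_3, C_FW_3_4, C_FW_8_9, C_Ebd, C_OPT_1_3_K1x23x, C_OPT_1_9_K1x23xEx89x, C_OPT_7_8_x78x, C_OPT_7_9_x78xKt, C_OPT_8_9_x89x, hp595_0, hp596_2, hp635_0, hp636_3, hp648_0, hp649_0, hp651_1, z_0, z_2, z_4, z_5, z_6, z_7, z_8, z_9, z_10, z_11, z_12, z_13, z_15, z_16, z_17, z_18, z_19, z_20, z_21, z_22, z_23, z_25, z_26, z_28, z_29, z_30, z_31, z_32]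
            have hn651_2 : ¬ (a10 - a9 < p9) := fun hp651_2 => by
             linarith only [b_26, b_27, hp651_2, z_22, z_23, z_32]
            have hn651_3 : ¬ (a10 - a7 < p7 + p9) := fun hp651_3 => by
             have hn653_0 : ¬ (p9 ≤ d6_10) := fun hp653_0 => by
              linarith only [b_27, C_FW_8_9, C_OPT_7_9_x78xKt, hp651_3, hp653_0, z_16, z_17, z_18, z_20, z_22, z_23, z_29, z_32]
             have hn653_1 : ¬ (b9 - b6 < p9) := fun hp653_1 => by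
              have hn654_0 : ¬ (p7 + e1 ≤ d0_10) := fun hp654_0 => by
               linarith only [b_8, b_22, b_23, b_26, b_27, C_FW_1_2, C_FW_3_4, C_FW_7_8, C_FW_7_9, C_Ebd, C_OPT_1_9_K1x23xEx89x, C_gap_1_9, hp653_1, hp654_0, z_0, z_2, z_4, z_5, z_6, z_8, z_10, z_11, z_12, z_15, z_17, z_19, z_20, z_21, z_22, z_23, z_26, z_31, z_32]
              have hn654_1 : ¬ (b7 - b0 - p1 < d0_10) := fun hp654_1 => by
               linarith only [b_8, b_23, C_FW_1_2, C_FW_3_4, C_FW_3_8, C_FW_7_8, C_Ebd, C_OPT_1_3_K1x23x, C_OPT_1_9_K1x23xEx89x, C_OPT_8_9_x89x, hp595_0, not_le.1 hn636_0, hp649_0, hp650_0, hp653_1, hp654_1, z_0, z_2, z_4, z_5, z_6, z_8, z_10, z_11, z_12, z_15, z_17, z_19, z_20, z_21, z_23, z_25, z_26, z_30, z_31]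
              have hn654_2 : ¬ (a10 - a1 - p1 < d0_10) := fun hp654_2 => by
               linarith only [b_1, b_3, b_5, b_7, b_9, b_11, b_23, b_26, b_27, b_29, C_FW_1_2, C_FW_2_3, C_FW_3_9, C_FW_6_7, C_FW_8_9, C_Obd, C_OPT_1_3_K1x23x, C_OPT_1_9_x12xOx78xKt, C_gap_1_9, C_OPT_8_9_x89x, hp595_0, hp649_0, hp654_2, z_0, z_1, z_2, z_3, z_4, z_5, z_6, z_7, z_8, z_10, z_12, z_13, z_14, z_16, z_17, z_18, z_19, z_20, z_21, z_22, z_23, z_25, z_26, z_30, z_31, z_32]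
              have hn654_3 : ¬ (a10 - a7 < p7) := fun hp654_3 => by
               linarith only [b_26, b_27, C_FW_8_9, C_OPT_7_8_x78x, hp654_3, z_16, z_17, z_18, z_20, z_22, z_23, z_28, z_32]
              have hn654_4 : ¬ (b7 - b0 < p7) := fun hp654_4 => by
               linarith only [b_4, b_5, b_6, b_7, b_8, b_9, b_22, b_23, b_26, b_27, C_FW_1_2, C_FW_1_3, C_FW_3_4, C_FW_8_9, C_Ebd, C_OPT_1_3_K1x23x, C_OPT_1_9_K1x23xEx89x, C_OPT_7_8_x78x, C_OPT_7_9_x78xKt, C_OPT_8_9_x89x, hp595_0, hp596_2, hp635_0, hp636_3, hp648_0, hp649_0, hp654_4, z_0, z_2, z_4, z_5, z_6, z_7, z_8, z_9, z_10, z_11, z_12, z_13, z_15, z_16, z_17, z_18, z_19, z_20, z_21, z_22, z_23, z_25, z_26, z_28, z_29, z_30, z_31, z_32]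
              rcases C_g1_p7_1_9 with h | h | h | h | h
              exacts [hn654_0 h, hn654_1 h, hn654_2 h, hn654_3 h, hn654_4 h]
             have hn653_2 : ¬ (a10 - a9 < p9) := fun hp653_2 => by
              linarith only [b_26, b_27, hp653_2, z_22, z_23, z_32]
             rcases C_f_p9_7_9 with h | h | h
             exacts [hn653_0 h, hn653_1 h, hn653_2 h]
            have hn651_4 : ¬ (b9 - b0 < p7 + p9) := fun hp651_4 => by
             linarith only [b_5, b_7, b_9, b_10, b_11, b_23, b_26, b_27, C_FW_1_2, C_FW_3_4, C_FW_3_8, C_FW_8_9, C_Ebd, C_OPT_1_3_K1x23x, C_OPT_1_9_K1x23xEx89x, C_OPT_7_8_x78x, C_OPT_8_9_x89x, hp595_0, hp635_0, hp636_3, hp649_0, hp651_4, z_0, z_2, z_4, z_5, z_6, z_7, z_8, z_10, z_11, z_13, z_15, z_16, z_17, z_18, z_19, z_20, z_21, z_22, z_23, z_25, z_26, z_28, z_30, z_31, z_32]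
            rcases C_ff_p7_p9_1_9 with h | h | h | h | h
            exacts [hn651_0 h, hn651_1 h, hn651_2 h, hn651_3 h, hn651_4 h]
           have hn650_1 : ¬ (b1 - b0 < p1) := fun hp650_1 => by
            linarith only [b_22, b_23, hp650_1, z_0, z_2, z_31]
           have hn650_2 : ¬ (a10 - a3 < p3) := fun hp650_2 => by
            have hn655_0 : ¬ (p1 + p7 ≤ d0_10) := fun hp655_0 => by
             linarith only [b_4, b_5, b_11, b_23, b_26, b_27, b_29, C_FW_1_2, C_FW_4_7, C_FW_7_9, C_FW_8_9, C_Ebd, C_OPT_1_9_K1x23xEx89x, C_gap_1_9, hp650_2, hp655_0, z_0, z_2, z_4, z_5, z_6, z_7, z_8, z_9, z_10, z_11, z_15, z_16, z_17, z_18, z_19, z_20, z_21, z_22, z_23, z_26, z_31, z_32]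
            have hn655_1 : ¬ (b1 - b0 < p1) := fun hp655_1 => by
             linarith only [b_22, b_23, hp655_1, z_0, z_2, z_31]
            have hn655_2 : ¬ (a10 - a7 < p7) := fun hp655_2 => by
             linarith only [b_26, b_27, C_FW_8_9, C_OPT_7_8_x78x, hp655_2, z_16, z_17, z_18, z_20, z_22, z_23, z_28, z_32]
            have hn655_3 : ¬ (a10 - a1 < p1 + p7) := fun hp655_3 => by
             linarith only [b_5, b_7, b_9, b_11, b_13, b_26, b_27, C_FW_2_3, C_FW_6_7, C_FW_8_9, C_Obd, C_OPT_1_9_x12xOx78xKt, C_OPT_7_8_x78x, hp635_0, hp650_2, hp655_3, z_1, z_2, z_3, z_5, z_7, z_8, z_10, z_12, z_13, z_14, z_16, z_17, z_18, z_19, z_20, z_22, z_23, z_26, z_28, z_32]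
            have hn655_4 : ¬ (b7 - b0 < p1 + p7) := fun hp655_4 => by
             linarith only [b_4, b_5, b_6, b_7, b_8, b_9, b_23, b_26, b_27, C_FW_1_2, C_FW_8_9, C_OPT_1_3_K1x23x, C_OPT_7_8_x78x, hp595_0, hp650_2, hp655_4, z_0, z_2, z_4, z_5, z_6, z_7, z_8, z_9, z_10, z_12, z_13, z_15, z_16, z_17, z_18, z_20, z_22, z_23, z_25, z_28, z_31, z_32]
            rcases C_ff_p1_p7_1_9 with h | h | h | h | h
            exacts [hn655_0 h, hn655_1 h, hn655_2 h, hn655_3 h, hn655_4 h]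
           have hn650_3 : ¬ (a10 - a1 < p1 + p3) := fun hp650_3 => by
            linarith only [b_5, b_7, b_9, b_11, b_26, b_27, b_29, C_FW_2_3, C_FW_6_7, C_FW_8_9, C_Obd, C_OPT_1_2_x12x, C_OPT_1_9_x12xOx78xKt, C_OPT_8_9_x89x, hp635_0, hp649_0, hp650_3, z_1, z_2, z_3, z_5, z_7, z_8, z_10, z_12, z_13, z_14, z_16, z_17, z_18, z_19, z_20, z_21, z_22, z_23, z_24, z_26, z_30, z_32]
           have hn650_4 : ¬ (b3 - b0 < p1 + p3) := fun hp650_4 => by
            linarith only [b_23, C_FW_1_2, C_OPT_1_3_K1x23x, hp595_0, hp650_4, z_0, z_2, z_4, z_5, z_6, z_8, z_25, z_31]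
           rcases C_ff_p1_p3_1_9 with h | h | h | h | h
           exacts [hn650_0 h, hn650_1 h, hn650_2 h, hn650_3 h, hn650_4 h]
          have hn649_1 : ¬ (b9 - b7 < p9) := fun hp649_1 => by
           have hn656_0 : ¬ (p7 ≤ d0_10) := fun hp656_0 => by
            have hn657_0 : ¬ (p1 + p7 ≤ d0_10) := fun hp657_0 => by
             linarith only [b_23, b_26, b_27, C_FW_1_2, C_FW_3_4, C_FW_7_8, C_FW_7_9, C_Ebd, C_OPT_1_9_K1x23xEx89x, C_gap_1_9, hp649_1, hp657_0, z_0, z_2, z_4, z_5, z_6, z_8, z_10, z_11, z_15, z_17, z_19, z_20, z_21, z_22, z_23, z_26, z_31, z_32]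
            have hn657_1 : ¬ (b1 - b0 < p1) := fun hp657_1 => by
             linarith only [b_22, b_23, hp657_1, z_0, z_2, z_31]
            have hn657_2 : ¬ (a10 - a7 < p7) := fun hp657_2 => by
             linarith only [b_26, b_27, C_FW_8_9, C_OPT_7_8_x78x, hp657_2, z_16, z_17, z_18, z_20, z_22, z_23, z_28, z_32]
            have hn657_3 : ¬ (a10 - a1 < p1 + p7) := fun hp657_3 => by
             linarith only [b_1, b_11, b_13, b_23, b_26, b_27, C_FW_1_3, C_FW_3_7, C_FW_6_7, C_FW_8_9, C_Obd, C_OPT_1_3_K1x23x, C_OPT_1_9_x12xOx78xKt, hp595_0, not_le.1 hn598_0, hp598_1, hp656_0, hp657_3, z_0, z_1, z_2, z_3, z_4, z_5, z_6, z_7, z_8, z_12, z_14, z_16, z_17, z_18, z_19, z_20, z_22, z_23, z_25, z_26, z_31, z_32]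
            have hn657_4 : ¬ (b7 - b0 < p1 + p7) := fun hp657_4 => by
             have hn658_0 : ¬ (p1 + p3 ≤ d0_10) := fun hp658_0 => by
              have hn659_0 : ¬ (p9 + e1 ≤ d0_10) := fun hp659_0 => by
               linarith only [b_5, b_7, b_9, b_11, b_22, b_23, b_26, b_27, b_29, C_FW_1_2, C_FW_3_4, C_FW_8_9, C_Ebd, C_OPT_1_9_K1x23xEx89x, hp636_3, hp657_4, hp658_0, hp659_0, z_0, z_2, z_4, z_5, z_6, z_7, z_8, z_10, z_11, z_13, z_15, z_16, z_17, z_18, z_19, z_20, z_21, z_22, z_23, z_26, z_31, z_32]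
              have hn659_1 : ¬ (b9 - b0 - p1 < d0_10) := fun hp659_1 => by
               linarith only [b_23, C_FW_1_2, C_FW_3_4, C_FW_7_8, C_Ebd, C_OPT_1_9_K1x23xEx89x, not_le.1 hn636_0, hp658_0, hp659_1, z_0, z_2, z_4, z_5, z_6, z_8, z_10, z_11, z_15, z_17, z_19, z_20, z_21, z_23, z_26, z_31]
              have hn659_2 : ¬ (a10 - a1 - p1 < d0_10) := fun hp659_2 => by
               linarith only [b_1, b_11, b_13, b_23, b_26, b_27, C_FW_1_3, C_FW_3_7, C_FW_6_7, C_FW_8_9, C_Obd, C_OPT_1_3_K1x23x, C_OPT_1_9_x12xOx78xKt, hp595_0, not_le.1 hn598_0, hp598_1, hp656_0, hp659_2, z_0, z_1, z_2, z_3, z_4, z_5, z_6, z_7, z_8, z_12, z_14, z_16, z_17, z_18, z_19, z_20, z_22, z_23, z_25, z_26, z_31, z_32]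
              have hn659_3 : ¬ (a10 - a9 < p9) := fun hp659_3 => by
               linarith only [b_26, b_27, hp659_3, z_22, z_23, z_32]
              have hn659_4 : ¬ (b9 - b0 < p9) := fun hp659_4 => by
               linarith only [b_22, b_23, C_FW_1_8, C_OPT_8_9_x89x, hp659_4, z_0, z_2, z_19, z_20, z_21, z_23, z_30, z_31]
              rcases C_g1_p9_1_9 with h | h | h | h | h
              exacts [hn659_0 h, hn659_1 h, hn659_2 h, hn659_3 h, hn659_4 h]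
             have hn658_1 : ¬ (b1 - b0 < p1) := fun hp658_1 => by
              linarith only [b_22, b_23, hp658_1, z_0, z_2, z_31]
             have hn658_2 : ¬ (a10 - a3 < p3) := fun hp658_2 => by
              linarith only [b_4, b_5, b_6, b_7, b_8, b_9, b_23, b_26, b_27, C_FW_1_2, C_FW_8_9, C_OPT_1_3_K1x23x, C_OPT_7_8_x78x, hp595_0, hp657_4, hp658_2, z_0, z_2, z_4, z_5, z_6, z_7, z_8, z_9, z_10, z_12, z_13, z_15, z_16, z_17, z_18, z_20, z_22, z_23, z_25, z_28, z_31, z_32]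
             have hn658_3 : ¬ (a10 - a1 < p1 + p3) := fun hp658_3 => by
              linarith only [b_1, b_3, b_11, b_13, b_23, b_26, b_27, C_FW_1_2, C_FW_3_7, C_FW_6_7, C_FW_8_9, C_Obd, C_OPT_1_3_K1x23x, C_OPT_1_9_x12xOx78xKt, hp595_0, hp598_1, hp635_0, hp656_0, hp658_3, z_0, z_1, z_2, z_3, z_4, z_5, z_6, z_7, z_8, z_12, z_14, z_16, z_17, z_18, z_19, z_20, z_22, z_23, z_25, z_26, z_31, z_32]
             have hn658_4 : ¬ (b3 - b0 < p1 + p3) := fun hp658_4 => by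
              linarith only [b_23, C_FW_1_2, C_OPT_1_3_K1x23x, hp595_0, hp658_4, z_0, z_2, z_4, z_5, z_6, z_8, z_25, z_31]
             rcases C_ff_p1_p3_1_9 with h | h | h | h | h
             exacts [hn658_0 h, hn658_1 h, hn658_2 h, hn658_3 h, hn658_4 h]
            rcases C_ff_p1_p7_1_9 with h | h | h | h | h
            exacts [hn657_0 h, hn657_1 h, hn657_2 h, hn657_3 h, hn657_4 h]
           have hn656_1 : ¬ (b7 - b0 < p7) := fun hp656_1 => by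
            linarith only [b_5, b_7, b_9, b_22, b_23, b_26, b_27, C_FW_1_2, C_FW_1_3, C_FW_3_4, C_FW_3_8, C_FW_8_9, C_Ebd, C_OPT_1_3_K1x23x, C_OPT_1_9_K1x23xEx89x, C_gap_1_9, C_OPT_7_8_x78x, hp595_0, hp635_0, hp649_1, hp656_1, z_0, z_2, z_4, z_5, z_6, z_7, z_8, z_10, z_11, z_13, z_15, z_16, z_17, z_18, z_19, z_20, z_21, z_22, z_23, z_25, z_26, z_28, z_31, z_32]
           have hn656_2 : ¬ (a10 - a7 < p7) := fun hp656_2 => by
            linarith only [b_26, b_27, C_FW_8_9, C_OPT_7_8_x78x, hp656_2, z_16, z_17, z_18, z_20, z_22, z_23, z_28, z_32]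
           rcases C_f_p7_1_9 with h | h | h
           exacts [hn656_0 h, hn656_1 h, hn656_2 h]
          have hn649_2 : ¬ (a10 - a9 < p9) := fun hp649_2 => by
           linarith only [b_26, b_27, hp649_2, z_22, z_23, z_32]
          rcases C_f_p9_8_9 with h | h | h
          exacts [hn649_0 h, hn649_1 h, hn649_2 h]
         have hn648_1 : ¬ (a10 - a9 - p9 < d6_10) := fun hp648_1 => by
          have hn660_0 : ¬ (p9 ≤ d6_10) := fun hp660_0 => by
           have hn661_0 : ¬ (p1 + p3 ≤ d0_10) := fun hp661_0 => by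
            have hn662_0 : ¬ (p7 + p9 ≤ d0_10) := fun hp662_0 => by
             have hn664_0 : ¬ (p9 ≤ d7_10) := fun hp664_0 => by
              have hn665_0 : ¬ (b2 - a2 - p2 < p1 + p7) := fun hp665_0 => by
               linarith only [b_2, b_11, b_23, b_25, b_26, b_27, b_29, C_FW_1_2, C_FW_3_7, C_FW_6_7, C_FW_8_9, C_Obd, C_OPT_1_9_x12xOx78xKt, C_gap_1_9, C_OPT_8_9_x89x, hp636_3, hp661_0, hp662_0, hp664_0, hp665_0, z_0, z_1, z_2, z_3, z_4, z_5, z_6, z_7, z_8, z_12, z_14, z_16, z_17, z_18, z_19, z_20, z_21, z_22, z_23, z_26, z_30, z_31, z_32]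
              have hn665_1 : ¬ (b2 - a7 < p1 + p7) := fun hp665_1 => by
               linarith only [b_22, b_23, b_25, b_27, C_FW_1_2, C_FW_3_7, C_FW_6_7, C_FW_8_9, C_Obd, C_OPT_1_3_K1x23x, C_OPT_1_9_x12xOx78xKt, C_gap_1_9, C_OPT_7_9_x78xKt, hp595_0, hp636_3, hp660_0, hp665_1, z_0, z_1, z_2, z_3, z_4, z_5, z_6, z_7, z_8, z_12, z_14, z_16, z_17, z_18, z_20, z_22, z_23, z_25, z_26, z_29, z_31, z_32]
              have hn665_2 : ¬ (b1 - a2 < p1 + p7) := fun hp665_2 => by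
               linarith only [b_22, b_23, b_25, b_27, C_FW_2_3, C_FW_6_7, C_FW_8_9, C_Obd, C_OPT_1_9_x12xOx78xKt, C_gap_1_9, hp662_0, hp665_2, z_0, z_1, z_2, z_3, z_4, z_5, z_7, z_8, z_12, z_14, z_16, z_17, z_18, z_20, z_22, z_23, z_26, z_31, z_32]
              have hn665_3 : ¬ (b1 - a7 + p2 < p1 + p7) := fun hp665_3 => by
               linarith only [b_22, b_23, b_26, b_27, C_FW_8_9, C_gap_1_9, C_OPT_7_8_x78x, not_le.1 hn598_0, hp665_3, z_0, z_2, z_5, z_16, z_17, z_18, z_20, z_22, z_23, z_26, z_28, z_31, z_32]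
              rcases C_FW3_1_2_7 with h | h | h | h
              exacts [hn665_0 h, hn665_1 h, hn665_2 h, hn665_3 h]
             have hn664_1 : ¬ (b9 - b7 < p9) := fun hp664_1 => by
              linarith only [b_5, b_7, b_9, b_23, b_26, b_27, C_FW_1_2, C_FW_3_4, C_FW_7_8, C_FW_7_9, C_FW_8_9, C_Ebd, C_OPT_1_9_K1x23xEx89x, C_gap_1_9, C_OPT_7_9_x78xKt, hp636_3, hp660_0, hp661_0, hp664_1, z_0, z_2, z_4, z_5, z_6, z_7, z_8, z_10, z_11, z_13, z_15, z_16, z_17, z_18, z_19, z_20, z_21, z_22, z_23, z_26, z_29, z_31, z_32]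
             have hn664_2 : ¬ (a10 - a9 < p9) := fun hp664_2 => by
              linarith only [b_26, b_27, hp664_2, z_22, z_23, z_32]
             rcases C_f_p9_8_9 with h | h | h
             exacts [hn664_0 h, hn664_1 h, hn664_2 h]
            have hn662_1 : ¬ (b7 - b0 < p7) := fun hp662_1 => by
             linarith only [b_4, b_5, b_6, b_7, b_8, b_9, b_22, b_23, b_27, C_FW_1_2, C_FW_8_9, C_OPT_2_3_x23x, C_OPT_7_9_x78xKt, hp636_3, hp660_0, hp662_1, z_0, z_2, z_4, z_5, z_6, z_7, z_8, z_9, z_10, z_12, z_13, z_15, z_16, z_17, z_18, z_20, z_22, z_23, z_27, z_29, z_31, z_32]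
            have hn662_2 : ¬ (a10 - a9 < p9) := fun hp662_2 => by
             linarith only [b_26, b_27, hp662_2, z_22, z_23, z_32]
            have hn662_3 : ¬ (a10 - a7 < p7 + p9) := fun hp662_3 => by
             linarith only [b_27, C_FW_8_9, C_OPT_7_9_x78xKt, hp660_0, hp662_3, z_16, z_17, z_18, z_20, z_22, z_23, z_29, z_32]
            have hn662_4 : ¬ (b9 - b0 < p7 + p9) := fun hp662_4 => by
             linarith only [b_5, b_7, b_9, b_10, b_12, b_22, b_23, b_27, C_FW_1_2, C_FW_1_3, C_FW_3_4, C_FW_3_8, C_FW_8_9, C_Ebd, C_OPT_1_3_K1x23x, C_OPT_1_9_K1x23xEx89x, C_gap_1_9, C_OPT_7_9_x78xKt, hp595_0, hp635_0, hp660_0, hp662_4, z_0, z_2, z_4, z_5, z_6, z_7, z_8, z_10, z_11, z_13, z_15, z_16, z_17, z_18, z_19, z_20, z_21, z_22, z_23, z_25, z_26, z_29, z_31, z_32]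
            rcases C_ff_p7_p9_1_9 with h | h | h | h | h
            exacts [hn662_0 h, hn662_1 h, hn662_2 h, hn662_3 h, hn662_4 h]
           have hn661_1 : ¬ (b1 - b0 < p1) := fun hp661_1 => by
            linarith only [b_22, b_23, hp661_1, z_0, z_2, z_31]
           have hn661_2 : ¬ (a10 - a3 < p3) := fun hp661_2 => by
            linarith only [b_22, b_23, b_25, b_27, C_FW_1_2, C_FW_3_7, C_FW_6_7, C_FW_8_9, C_Obd, C_OPT_1_3_K1x23x, C_OPT_1_9_x12xOx78xKt, C_gap_1_9, C_OPT_7_9_x78xKt, hp595_0, hp634_0, hp660_0, hp661_2, z_0, z_1, z_2, z_3, z_4, z_5, z_6, z_7, z_8, z_12, z_14, z_16, z_17, z_18, z_20, z_22, z_23, z_25, z_26, z_29, z_31, z_32]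
           have hn661_3 : ¬ (a10 - a1 < p1 + p3) := fun hp661_3 => by
            linarith only [b_3, b_22, b_23, b_27, C_FW_1_2, C_FW_3_7, C_FW_6_7, C_FW_8_9, C_Obd, C_OPT_1_3_K1x23x, C_OPT_1_9_x12xOx78xKt, C_gap_1_9, C_OPT_7_9_x78xKt, hp595_0, hp634_0, hp660_0, hp661_3, z_0, z_1, z_2, z_3, z_4, z_5, z_6, z_7, z_8, z_12, z_14, z_16, z_17, z_18, z_20, z_22, z_23, z_25, z_26, z_29, z_31, z_32]
           have hn661_4 : ¬ (b3 - b0 < p1 + p3) := fun hp661_4 => by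
            linarith only [b_23, C_FW_1_2, C_OPT_1_3_K1x23x, hp595_0, hp661_4, z_0, z_2, z_4, z_5, z_6, z_8, z_25, z_31]
           rcases C_ff_p1_p3_1_9 with h | h | h | h | h
           exacts [hn661_0 h, hn661_1 h, hn661_2 h, hn661_3 h, hn661_4 h]
          have hn660_1 : ¬ (b9 - b6 < p9) := fun hp660_1 => by
           linarith only [not_lt.1 hn648_0, hp660_1, z_12, z_21, z_23, z_29]
          have hn660_2 : ¬ (a10 - a9 < p9) := fun hp660_2 => by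
           linarith only [b_26, b_27, hp660_2, z_22, z_23, z_32]
          rcases C_f_p9_7_9 with h | h | h
          exacts [hn660_0 h, hn660_1 h, hn660_2 h]
         rcases C_own_9_7_9 with h | h
         exacts [hn648_0 h, hn648_1 h]
        have hn636_4 : ¬ (b9 - b0 < p3 + p9) := fun hp636_4 => by
         linarith only [b_10, b_11, b_12, b_13, b_23, b_26, b_27, C_FW_1_2, C_FW_3_4, C_FW_3_7, C_FW_3_8, C_FW_7_8, C_Ebd, C_OPT_1_3_K1x23x, C_OPT_1_9_K1x23xEx89x, C_gap_1_9, hp595_0, hp635_0, hp636_4, z_0, z_2, z_4, z_5, z_6, z_8, z_10, z_11, z_15, z_16, z_17, z_18, z_19, z_20, z_21, z_22, z_23, z_25, z_26, z_31, z_32]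
        rcases C_ff_p3_p9_1_9 with h | h | h | h | h
        exacts [hn636_0 h, hn636_1 h, hn636_2 h, hn636_3 h, hn636_4 h]
       have hn635_1 : ¬ (b3 - b0 < p3) := fun hp635_1 => by
        linarith only [b_22, b_23, C_FW_1_2, C_OPT_2_3_x23x, hp635_1, z_0, z_2, z_4, z_5, z_6, z_8, z_27, z_31]
       have hn635_2 : ¬ (a10 - a3 < p3) := fun hp635_2 => by
        have hn666_0 : ¬ (p7 + e1 ≤ d0_10) := fun hp666_0 => by
         linarith only [b_4, b_5, b_11, b_22, b_23, b_26, b_27, b_29, C_FW_1_2, C_FW_4_7, C_FW_7_9, C_FW_8_9, C_Ebd, C_OPT_1_9_K1x23xEx89x, C_gap_1_9, hp635_2, hp666_0, z_0, z_2, z_4, z_5, z_6, z_7, z_8, z_9, z_10, z_11, z_15, z_16, z_17, z_18, z_19, z_20, z_21, z_22, z_23, z_26, z_31, z_32]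
        have hn666_1 : ¬ (b7 - b0 - p1 < d0_10) := fun hp666_1 => by
         linarith only [b_4, b_6, b_8, b_23, C_FW_1_2, C_OPT_1_3_K1x23x, hp595_0, not_le.1 hn635_0, hp666_1, z_0, z_2, z_4, z_5, z_6, z_8, z_9, z_12, z_15, z_25, z_26, z_31]
        have hn666_2 : ¬ (a10 - a1 - p1 < d0_10) := fun hp666_2 => by
         linarith only [b_1, b_3, b_5, b_7, b_9, b_11, b_13, b_23, b_26, b_27, C_FW_1_2, C_FW_3_9, C_FW_6_7, C_FW_8_9, C_Obd, C_OPT_1_3_K1x23x, C_OPT_1_9_x12xOx78xKt, hp595_0, hp598_1, hp635_2, hp666_2, z_0, z_1, z_2, z_3, z_4, z_5, z_6, z_7, z_8, z_10, z_12, z_13, z_14, z_16, z_17, z_18, z_19, z_20, z_22, z_23, z_25, z_26, z_31, z_32]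
        have hn666_3 : ¬ (a10 - a7 < p7) := fun hp666_3 => by
         linarith only [b_26, b_27, C_FW_8_9, C_OPT_7_8_x78x, hp666_3, z_16, z_17, z_18, z_20, z_22, z_23, z_28, z_32]
        have hn666_4 : ¬ (b7 - b0 < p7) := fun hp666_4 => by
         linarith only [b_4, b_5, b_6, b_7, b_8, b_9, b_22, b_23, b_26, b_27, C_FW_1_2, C_FW_8_9, C_OPT_2_3_x23x, C_OPT_7_8_x78x, hp635_2, hp666_4, z_0, z_2, z_4, z_5, z_6, z_7, z_8, z_9, z_10, z_12, z_13, z_15, z_16, z_17, z_18, z_20, z_22, z_23, z_27, z_28, z_31, z_32]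
        rcases C_g1_p7_1_9 with h | h | h | h | h
        exacts [hn666_0 h, hn666_1 h, hn666_2 h, hn666_3 h, hn666_4 h]
       rcases C_f_p3_1_9 with h | h | h
       exacts [hn635_0 h, hn635_1 h, hn635_2 h]
      have hn634_1 : ¬ (a10 - a2 < p2) := fun hp634_1 => by
       linarith only [b_26, b_27, C_FW_3_9, C_OPT_2_3_x23x, hp634_1, z_4, z_5, z_6, z_8, z_22, z_23, z_27, z_32]
      have hn634_2 : ¬ (p2 < b2 - b0) := fun hp634_2 => by
       linarith only [hp598_1, hp634_2, z_3, z_5]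
      rcases C_bf_1_p2_1_9 with h | h | h
      exacts [hn634_0 h, hn634_1 h, hn634_2 h]
     have hn598_2 : ¬ (a10 - a2 < p2) := fun hp598_2 => by
      linarith only [b_26, b_27, C_FW_3_9, C_OPT_2_3_x23x, hp598_2, z_4, z_5, z_6, z_8, z_22, z_23, z_27, z_32]
     rcases C_f_p2_1_9 with h | h | h
     exacts [hn598_0 h, hn598_1 h, hn598_2 h]
    have hn597_1 : ¬ (b8 - a9 < p7 + p9) := fun hp597_1 => by
     linarith only [hp596_2, not_lt.1 hn597_0, hp597_1, z_17, z_18, z_19, z_20, z_22, z_23]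
    have hn597_2 : ¬ (b7 - a8 < p7 + p9) := fun hp597_2 => by
     linarith only [b_11, b_23, b_26, b_27, b_29, C_FW_1_2, C_FW_3_4, C_FW_3_7, C_FW_8_9, C_Ebd, C_OPT_1_3_K1x23x, C_OPT_1_9_K1x23xEx89x, C_gap_1_9, hp595_0, not_lt.1 hn597_0, hp597_2, z_0, z_2, z_4, z_5, z_6, z_8, z_10, z_11, z_15, z_16, z_17, z_18, z_19, z_20, z_21, z_22, z_23, z_25, z_26, z_31, z_32]
    have hn597_3 : ¬ (b7 - a9 + p8 < p7 + p9) := fun hp597_3 => by
     linarith only [b_23, b_26, b_27, b_29, C_FW_1_2, C_FW_3_4, C_FW_3_8, C_FW_8_9, C_Ebd, C_OPT_1_3_K1x23x, C_OPT_1_9_K1x23xEx89x, C_gap_1_9, hp595_0, hp597_3, z_0, z_2, z_4, z_5, z_6, z_8, z_10, z_11, z_15, z_17, z_18, z_19, z_20, z_21, z_22, z_23, z_25, z_26, z_31, z_32]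
    rcases C_FW3_7_8_9 with h | h | h | h
    exacts [hn597_0 h, hn597_1 h, hn597_2 h, hn597_3 h]
   have hn596_3 : ¬ (a10 - a1 < p1 + p8) := fun hp596_3 => by
    have hn667_0 : ¬ (p8 ≤ d0_10) := fun hp667_0 => by
     have hn668_0 : ¬ (p9 ≤ d0_10) := fun hp668_0 => by
      linarith only [b_27, C_FW_2_3, C_FW_6_7, C_FW_8_9, C_Obd, C_OPT_1_9_x12xOx78xKt, hp596_3, hp667_0, hp668_0, z_1, z_2, z_3, z_5, z_7, z_8, z_12, z_14, z_16, z_17, z_18, z_20, z_22, z_23, z_26, z_32]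
     have hn668_1 : ¬ (b9 - b0 < p9) := fun hp668_1 => by
      linarith only [b_22, b_23, C_FW_1_8, C_OPT_8_9_x89x, hp668_1, z_0, z_2, z_19, z_20, z_21, z_23, z_30, z_31]
     have hn668_2 : ¬ (a10 - a9 < p9) := fun hp668_2 => by
      linarith only [b_26, b_27, hp668_2, z_22, z_23, z_32]
     rcases C_f_p9_1_9 with h | h | h
     exacts [hn668_0 h, hn668_1 h, hn668_2 h]
    have hn667_1 : ¬ (b8 - b0 < p8) := fun hp667_1 => by
     linarith only [b_22, b_23, C_FW_1_7, C_OPT_7_8_x78x, hp667_1, z_0, z_2, z_16, z_17, z_18, z_20, z_28, z_31]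
    have hn667_2 : ¬ (a10 - a8 < p8) := fun hp667_2 => by
     linarith only [not_lt.1 hn596_2, hp667_2, z_19, z_20]
    rcases C_f_p8_1_9 with h | h | h
    exacts [hn667_0 h, hn667_1 h, hn667_2 h]
   have hn596_4 : ¬ (b8 - b0 < p1 + p8) := fun hp596_4 => by
    linarith only [b_23, C_FW_1_2, C_FW_3_7, C_OPT_1_3_K1x23x, C_OPT_7_8_x78x, hp595_0, hp596_4, z_0, z_2, z_4, z_5, z_6, z_8, z_16, z_17, z_18, z_20, z_25, z_28, z_31]
   rcases C_ff_p1_p8_1_9 with h | h | h | h | h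
   exacts [hn596_0 h, hn596_1 h, hn596_2 h, hn596_3 h, hn596_4 h]
  have hn595_1 : ¬ (b1 - b0 < p1) := fun hp595_1 => by
   linarith only [b_22, b_23, hp595_1, z_0, z_2, z_31]
  have hn595_2 : ¬ (a4 - a1 < p1) := fun hp595_2 => by
   have hn669_0 : ¬ (p2 ≤ d0_10) := fun hp669_0 => by
    have hn670_0 : ¬ (p3 + p9 ≤ d0_10) := fun hp670_0 => by
     linarith only [b_5, b_22, b_23, b_27, C_FW_1_3, C_FW_2_3, C_FW_6_7, C_FW_8_9, C_Obd, C_OPT_1_9_x12xOx78xKt, C_gap_1_9, hp595_2, hp670_0, z_0, z_1, z_2, z_3, z_5, z_7, z_8, z_10, z_12, z_14, z_16, z_17, z_18, z_20, z_22, z_23, z_26, z_31, z_32]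
    have hn670_1 : ¬ (b3 - b0 < p3) := fun hp670_1 => by
     linarith only [b_22, b_23, C_FW_1_2, C_OPT_2_3_x23x, hp670_1, z_0, z_2, z_4, z_5, z_6, z_8, z_27, z_31]
    have hn670_2 : ¬ (a10 - a9 < p9) := fun hp670_2 => by
     linarith only [b_26, b_27, hp670_2, z_22, z_23, z_32]
    have hn670_3 : ¬ (a10 - a3 < p3 + p9) := fun hp670_3 => by
     have hn671_0 : ¬ (p7 ≤ d0_10) := fun hp671_0 => by
      have hn672_0 : ¬ (p1 + p9 ≤ d0_10) := fun hp672_0 => by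
       have hn674_0 : ¬ (p1 + p2 ≤ d0_10) := fun hp674_0 => by
        have hn675_0 : ¬ (p1 + p7 ≤ d0_10) := fun hp675_0 => by
         have hn676_0 : ¬ (p9 ≤ d6_10) := fun hp676_0 => by
          have hn678_0 : ¬ (p7 + p9 ≤ d0_10) := fun hp678_0 => by
           have hn679_0 : ¬ (b2 - a2 - p2 < p1 + p7) := fun hp679_0 => by
            linarith only [b_3, b_5, b_27, C_FW_6_7, C_FW_8_9, C_Obd, C_OPT_1_9_x12xOx78xKt, hp595_2, hp670_3, hp672_0, hp678_0, hp679_0, z_1, z_2, z_3, z_4, z_5, z_7, z_8, z_10, z_12, z_14, z_16, z_17, z_18, z_20, z_22, z_23, z_26, z_32]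
           have hn679_1 : ¬ (b2 - a7 < p1 + p7) := fun hp679_1 => by
            linarith only [b_22, b_23, b_25, b_27, C_FW_1_2, C_FW_6_7, C_FW_8_9, C_Obd, C_OPT_1_9_x12xOx78xKt, C_gap_1_9, C_OPT_7_9_x78xKt, hp670_3, hp672_0, hp676_0, hp679_1, z_0, z_1, z_2, z_3, z_4, z_5, z_7, z_8, z_12, z_14, z_16, z_17, z_18, z_20, z_22, z_23, z_26, z_29, z_31, z_32]
           have hn679_2 : ¬ (b1 - a2 < p1 + p7) := fun hp679_2 => by
            linarith only [b_22, b_23, b_25, b_27, C_FW_2_3, C_FW_6_7, C_FW_8_9, C_Obd, C_OPT_1_9_x12xOx78xKt, C_gap_1_9, hp678_0, hp679_2, z_0, z_1, z_2, z_3, z_4, z_5, z_7, z_8, z_12, z_14, z_16, z_17, z_18, z_20, z_22, z_23, z_26, z_31, z_32]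
           have hn679_3 : ¬ (b1 - a7 + p2 < p1 + p7) := fun hp679_3 => by
            linarith only [b_22, b_23, b_25, b_27, C_FW_1_2, C_FW_2_3, C_FW_6_7, C_FW_8_9, C_Obd, C_OPT_1_9_x12xOx78xKt, C_gap_1_9, C_OPT_7_9_x78xKt, hp676_0, hp679_3, z_0, z_1, z_2, z_3, z_4, z_5, z_7, z_8, z_12, z_14, z_16, z_17, z_18, z_20, z_22, z_23, z_26, z_29, z_31, z_32]
           rcases C_FW3_1_2_7 with h | h | h | h
           exacts [hn679_0 h, hn679_1 h, hn679_2 h, hn679_3 h]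
          have hn678_1 : ¬ (b7 - b0 < p7) := fun hp678_1 => by
           linarith only [b_4, b_5, b_6, b_7, b_8, b_9, b_11, b_22, b_23, b_26, b_27, b_29, C_FW_1_2, C_FW_1_4, C_FW_8_9, C_Ebd, C_OPT_1_9_K1x23xEx89x, hp670_3, hp671_0, hp672_0, hp678_1, z_0, z_2, z_4, z_5, z_6, z_7, z_8, z_9, z_10, z_11, z_12, z_13, z_15, z_16, z_17, z_18, z_19, z_20, z_21, z_22, z_23, z_26, z_31, z_32]
          have hn678_2 : ¬ (a10 - a9 < p9) := fun hp678_2 => by
           linarith only [b_26, b_27, hp678_2, z_22, z_23, z_32]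
          have hn678_3 : ¬ (a10 - a7 < p7 + p9) := fun hp678_3 => by
           linarith only [b_27, C_FW_8_9, C_OPT_7_9_x78xKt, hp676_0, hp678_3, z_16, z_17, z_18, z_20, z_22, z_23, z_29, z_32]
          have hn678_4 : ¬ (b9 - b0 < p7 + p9) := fun hp678_4 => by
           linarith only [b_10, b_12, b_22, b_23, C_FW_1_2, C_FW_1_8, C_FW_3_4, C_Ebd, C_OPT_1_9_K1x23xEx89x, hp671_0, hp672_0, hp678_4, z_0, z_2, z_4, z_5, z_6, z_8, z_10, z_11, z_15, z_17, z_18, z_19, z_20, z_21, z_23, z_26, z_31]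
          rcases C_ff_p7_p9_1_9 with h | h | h | h | h
          exacts [hn678_0 h, hn678_1 h, hn678_2 h, hn678_3 h, hn678_4 h]
         have hn676_1 : ¬ (b9 - b6 < p9) := fun hp676_1 => by
          linarith only [b_8, b_23, b_26, b_27, C_FW_1_2, C_FW_3_4, C_FW_7_8, C_FW_7_9, C_Ebd, C_OPT_1_9_K1x23xEx89x, C_gap_1_9, hp675_0, hp676_1, z_0, z_2, z_4, z_5, z_6, z_8, z_10, z_11, z_12, z_15, z_17, z_19, z_20, z_21, z_22, z_23, z_26, z_31, z_32]
         have hn676_2 : ¬ (a10 - a9 < p9) := fun hp676_2 => by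
          linarith only [b_26, b_27, hp676_2, z_22, z_23, z_32]
         rcases C_f_p9_7_9 with h | h | h
         exacts [hn676_0 h, hn676_1 h, hn676_2 h]
        have hn675_1 : ¬ (b1 - b0 < p1) := fun hp675_1 => by
         linarith only [b_22, b_23, hp675_1, z_0, z_2, z_31]
        have hn675_2 : ¬ (a10 - a7 < p7) := fun hp675_2 => by
         linarith only [b_26, b_27, C_FW_8_9, C_OPT_7_8_x78x, hp675_2, z_16, z_17, z_18, z_20, z_22, z_23, z_28, z_32]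
        have hn675_3 : ¬ (a10 - a1 < p1 + p7) := fun hp675_3 => by
         linarith only [b_27, C_FW_2_3, C_FW_6_7, C_FW_8_9, C_Obd, C_OPT_1_9_x12xOx78xKt, hp671_0, hp672_0, hp675_3, z_1, z_2, z_3, z_5, z_7, z_8, z_12, z_14, z_16, z_17, z_18, z_20, z_22, z_23, z_26, z_32]
        have hn675_4 : ¬ (b7 - b0 < p1 + p7) := fun hp675_4 => by
         have hn681_0 : ¬ (p9 ≤ d6_10) := fun hp681_0 => by
          have hn682_0 : ¬ (p7 + p9 ≤ d0_10) := fun hp682_0 => by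
           linarith only [b_22, b_23, b_25, b_27, C_FW_1_2, C_FW_2_3, C_FW_6_7, C_FW_8_9, C_Obd, C_OPT_1_9_x12xOx78xKt, C_gap_1_9, hp674_0, not_le.1 hn675_0, hp682_0, z_0, z_1, z_2, z_3, z_4, z_5, z_7, z_8, z_12, z_14, z_16, z_17, z_18, z_20, z_22, z_23, z_26, z_31, z_32]
          have hn682_1 : ¬ (b7 - b0 < p7) := fun hp682_1 => by
           linarith only [b_4, b_5, b_6, b_7, b_8, b_9, b_11, b_22, b_23, b_26, b_27, b_29, C_FW_1_2, C_FW_1_4, C_FW_8_9, C_Ebd, C_OPT_1_9_K1x23xEx89x, hp670_3, hp671_0, hp672_0, hp682_1, z_0, z_2, z_4, z_5, z_6, z_7, z_8, z_9, z_10, z_11, z_12, z_13, z_15, z_16, z_17, z_18, z_19, z_20, z_21, z_22, z_23, z_26, z_31, z_32]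
          have hn682_2 : ¬ (a10 - a9 < p9) := fun hp682_2 => by
           linarith only [b_26, b_27, hp682_2, z_22, z_23, z_32]
          have hn682_3 : ¬ (a10 - a7 < p7 + p9) := fun hp682_3 => by
           linarith only [b_27, C_FW_8_9, C_OPT_7_9_x78xKt, hp681_0, hp682_3, z_16, z_17, z_18, z_20, z_22, z_23, z_29, z_32]
          have hn682_4 : ¬ (b9 - b0 < p7 + p9) := fun hp682_4 => by
           linarith only [b_10, b_12, b_22, b_23, C_FW_1_2, C_FW_1_8, C_FW_3_4, C_Ebd, C_OPT_1_9_K1x23xEx89x, hp671_0, hp672_0, hp682_4, z_0, z_2, z_4, z_5, z_6, z_8, z_10, z_11, z_15, z_17, z_18, z_19, z_20, z_21, z_23, z_26, z_31]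
          rcases C_ff_p7_p9_1_9 with h | h | h | h | h
          exacts [hn682_0 h, hn682_1 h, hn682_2 h, hn682_3 h, hn682_4 h]
         have hn681_1 : ¬ (b9 - b6 < p9) := fun hp681_1 => by
          linarith only [b_3, b_5, b_7, b_8, b_9, b_22, b_23, b_25, b_27, C_FW_1_2, C_FW_2_3, C_FW_3_4, C_FW_6_8, C_FW_8_9, C_Ebd, C_Obd, C_OPT_1_9_K1x23xEx89x, C_OPT_1_9_x12xOx78xKt, C_gap_1_9, hp672_0, hp674_0, hp675_4, hp681_1, z_0, z_1, z_2, z_3, z_4, z_5, z_6, z_7, z_8, z_10, z_11, z_12, z_13, z_14, z_15, z_16, z_17, z_18, z_19, z_20, z_21, z_22, z_23, z_26, z_31, z_32]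
         have hn681_2 : ¬ (a10 - a9 < p9) := fun hp681_2 => by
          linarith only [b_26, b_27, hp681_2, z_22, z_23, z_32]
         rcases C_f_p9_7_9 with h | h | h
         exacts [hn681_0 h, hn681_1 h, hn681_2 h]
        rcases C_ff_p1_p7_1_9 with h | h | h | h | h
        exacts [hn675_0 h, hn675_1 h, hn675_2 h, hn675_3 h, hn675_4 h]
       have hn674_1 : ¬ (b1 - b0 < p1) := fun hp674_1 => by
        linarith only [b_22, b_23, hp674_1, z_0, z_2, z_31]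
       have hn674_2 : ¬ (a10 - a2 < p2) := fun hp674_2 => by
        linarith only [b_26, b_27, C_FW_3_9, C_OPT_2_3_x23x, hp674_2, z_4, z_5, z_6, z_8, z_22, z_23, z_27, z_32]
       have hn674_3 : ¬ (a10 - a1 < p1 + p2) := fun hp674_3 => by
        linarith only [b_27, C_FW_2_3, C_FW_6_7, C_FW_8_9, C_Obd, C_OPT_1_9_x12xOx78xKt, hp669_0, hp672_0, hp674_3, z_1, z_2, z_3, z_5, z_7, z_8, z_12, z_14, z_16, z_17, z_18, z_20, z_22, z_23, z_26, z_32]
       have hn674_4 : ¬ (b2 - b0 < p1 + p2) := fun hp674_4 => by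
        have hn689_0 : ¬ (p3 ≤ d0_10) := fun hp689_0 => by
         have hn690_0 : ¬ (p1 + p7 ≤ d0_10) := fun hp690_0 => by
          have hn691_0 : ¬ (p9 ≤ d6_10) := fun hp691_0 => by
           have hn694_0 : ¬ (p7 + p9 ≤ d0_10) := fun hp694_0 => by
            have hn695_0 : ¬ (p9 ≤ d7_10) := fun hp695_0 => by
             linarith only [b_5, b_11, b_26, b_27, b_29, C_FW_2_7, C_FW_6_7, C_FW_8_9, C_Obd, C_OPT_1_9_x12xOx78xKt, C_OPT_8_9_x89x, hp595_2, hp670_3, hp689_0, hp694_0, hp695_0, z_1, z_2, z_3, z_5, z_7, z_8, z_10, z_12, z_14, z_16, z_17, z_18, z_19, z_20, z_21, z_22, z_23, z_26, z_30, z_32]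
            have hn695_1 : ¬ (b9 - b7 < p9) := fun hp695_1 => by
             linarith only [b_23, b_26, b_27, C_FW_1_2, C_FW_3_4, C_FW_7_8, C_FW_7_9, C_Ebd, C_OPT_1_9_K1x23xEx89x, C_gap_1_9, hp690_0, hp695_1, z_0, z_2, z_4, z_5, z_6, z_8, z_10, z_11, z_15, z_17, z_19, z_20, z_21, z_22, z_23, z_26, z_31, z_32]
            have hn695_2 : ¬ (a10 - a9 < p9) := fun hp695_2 => by
             linarith only [b_26, b_27, hp695_2, z_22, z_23, z_32]
            rcases C_f_p9_8_9 with h | h | h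
            exacts [hn695_0 h, hn695_1 h, hn695_2 h]
           have hn694_1 : ¬ (b7 - b0 < p7) := fun hp694_1 => by
            linarith only [b_4, b_5, b_6, b_7, b_8, b_9, b_11, b_22, b_23, b_26, b_27, b_29, C_FW_1_2, C_FW_1_4, C_FW_8_9, C_Ebd, C_OPT_1_9_K1x23xEx89x, hp670_3, hp671_0, hp672_0, hp694_1, z_0, z_2, z_4, z_5, z_6, z_7, z_8, z_9, z_10, z_11, z_12, z_13, z_15, z_16, z_17, z_18, z_19, z_20, z_21, z_22, z_23, z_26, z_31, z_32]
           have hn694_2 : ¬ (a10 - a9 < p9) := fun hp694_2 => by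
            linarith only [b_26, b_27, hp694_2, z_22, z_23, z_32]
           have hn694_3 : ¬ (a10 - a7 < p7 + p9) := fun hp694_3 => by
            linarith only [b_27, C_FW_8_9, C_OPT_7_9_x78xKt, hp691_0, hp694_3, z_16, z_17, z_18, z_20, z_22, z_23, z_29, z_32]
           have hn694_4 : ¬ (b9 - b0 < p7 + p9) := fun hp694_4 => by
            linarith only [b_10, b_12, b_22, b_23, C_FW_1_2, C_FW_1_8, C_FW_3_4, C_Ebd, C_OPT_1_9_K1x23xEx89x, hp671_0, hp672_0, hp694_4, z_0, z_2, z_4, z_5, z_6, z_8, z_10, z_11, z_15, z_17, z_18, z_19, z_20, z_21, z_23, z_26, z_31]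
           rcases C_ff_p7_p9_1_9 with h | h | h | h | h
           exacts [hn694_0 h, hn694_1 h, hn694_2 h, hn694_3 h, hn694_4 h]
          have hn691_1 : ¬ (b9 - b6 < p9) := fun hp691_1 => by
           linarith only [b_8, b_23, b_26, b_27, C_FW_1_2, C_FW_3_4, C_FW_7_8, C_FW_7_9, C_Ebd, C_OPT_1_9_K1x23xEx89x, C_gap_1_9, hp690_0, hp691_1, z_0, z_2, z_4, z_5, z_6, z_8, z_10, z_11, z_12, z_15, z_17, z_19, z_20, z_21, z_22, z_23, z_26, z_31, z_32]
          have hn691_2 : ¬ (a10 - a9 < p9) := fun hp691_2 => by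
           linarith only [b_26, b_27, hp691_2, z_22, z_23, z_32]
          rcases C_f_p9_7_9 with h | h | h
          exacts [hn691_0 h, hn691_1 h, hn691_2 h]
         have hn690_1 : ¬ (b1 - b0 < p1) := fun hp690_1 => by
          linarith only [b_22, b_23, hp690_1, z_0, z_2, z_31]
         have hn690_2 : ¬ (a10 - a7 < p7) := fun hp690_2 => by
          linarith only [b_26, b_27, C_FW_8_9, C_OPT_7_8_x78x, hp690_2, z_16, z_17, z_18, z_20, z_22, z_23, z_28, z_32]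
         have hn690_3 : ¬ (a10 - a1 < p1 + p7) := fun hp690_3 => by
          linarith only [b_27, C_FW_2_3, C_FW_6_7, C_FW_8_9, C_Obd, C_OPT_1_9_x12xOx78xKt, hp671_0, hp672_0, hp690_3, z_1, z_2, z_3, z_5, z_7, z_8, z_12, z_14, z_16, z_17, z_18, z_20, z_22, z_23, z_26, z_32]
         have hn690_4 : ¬ (b7 - b0 < p1 + p7) := fun hp690_4 => by
          have hn697_0 : ¬ (p9 ≤ d6_10) := fun hp697_0 => by
           have hn698_0 : ¬ (p7 + p9 ≤ d0_10) := fun hp698_0 => by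
            linarith only [b_5, b_27, C_FW_2_3, C_FW_6_7, C_FW_8_9, C_Obd, C_OPT_1_9_x12xOx78xKt, hp595_2, hp670_3, hp672_0, hp689_0, not_le.1 hn690_0, hp698_0, z_1, z_2, z_3, z_5, z_7, z_8, z_10, z_12, z_14, z_16, z_17, z_18, z_20, z_22, z_23, z_26, z_32]
           have hn698_1 : ¬ (b7 - b0 < p7) := fun hp698_1 => by
            linarith only [b_4, b_5, b_6, b_7, b_8, b_9, b_11, b_22, b_23, b_26, b_27, b_29, C_FW_1_2, C_FW_1_4, C_FW_8_9, C_Ebd, C_OPT_1_9_K1x23xEx89x, hp670_3, hp671_0, hp672_0, hp698_1, z_0, z_2, z_4, z_5, z_6, z_7, z_8, z_9, z_10, z_11, z_12, z_13, z_15, z_16, z_17, z_18, z_19, z_20, z_21, z_22, z_23, z_26, z_31, z_32]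
           have hn698_2 : ¬ (a10 - a9 < p9) := fun hp698_2 => by
            linarith only [b_26, b_27, hp698_2, z_22, z_23, z_32]
           have hn698_3 : ¬ (a10 - a7 < p7 + p9) := fun hp698_3 => by
            linarith only [b_27, C_FW_8_9, C_OPT_7_9_x78xKt, hp697_0, hp698_3, z_16, z_17, z_18, z_20, z_22, z_23, z_29, z_32]
           have hn698_4 : ¬ (b9 - b0 < p7 + p9) := fun hp698_4 => by
            linarith only [b_10, b_12, b_22, b_23, C_FW_1_2, C_FW_1_8, C_FW_3_4, C_Ebd, C_OPT_1_9_K1x23xEx89x, hp671_0, hp672_0, hp698_4, z_0, z_2, z_4, z_5, z_6, z_8, z_10, z_11, z_15, z_17, z_18, z_19, z_20, z_21, z_23, z_26, z_31]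
           rcases C_ff_p7_p9_1_9 with h | h | h | h | h
           exacts [hn698_0 h, hn698_1 h, hn698_2 h, hn698_3 h, hn698_4 h]
          have hn697_1 : ¬ (b9 - b6 < p9) := fun hp697_1 => by
           linarith only [b_5, b_8, b_23, b_27, C_FW_1_2, C_FW_2_3, C_FW_3_4, C_FW_6_7, C_FW_7_8, C_FW_8_9, C_Ebd, C_Obd, C_OPT_1_9_K1x23xEx89x, C_OPT_1_9_x12xOx78xKt, hp595_2, hp670_3, hp671_0, hp672_0, hp689_0, hp690_4, hp697_1, z_0, z_1, z_2, z_3, z_4, z_5, z_6, z_7, z_8, z_10, z_11, z_12, z_14, z_15, z_16, z_17, z_18, z_19, z_20, z_21, z_22, z_23, z_26, z_31, z_32]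
          have hn697_2 : ¬ (a10 - a9 < p9) := fun hp697_2 => by
           linarith only [b_26, b_27, hp697_2, z_22, z_23, z_32]
          rcases C_f_p9_7_9 with h | h | h
          exacts [hn697_0 h, hn697_1 h, hn697_2 h]
         rcases C_ff_p1_p7_1_9 with h | h | h | h | h
         exacts [hn690_0 h, hn690_1 h, hn690_2 h, hn690_3 h, hn690_4 h]
        have hn689_1 : ¬ (b3 - b0 < p3) := fun hp689_1 => by
         linarith only [b_22, b_23, C_FW_1_2, C_OPT_2_3_x23x, hp689_1, z_0, z_2, z_4, z_5, z_6, z_8, z_27, z_31]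
        have hn689_2 : ¬ (a10 - a3 < p3) := fun hp689_2 => by
         linarith only [b_22, b_23, b_25, b_27, C_FW_1_2, C_FW_6_7, C_FW_8_9, C_Obd, C_OPT_1_9_x12xOx78xKt, hp669_0, hp672_0, hp674_4, hp689_2, z_0, z_1, z_2, z_3, z_4, z_5, z_7, z_8, z_12, z_14, z_16, z_17, z_18, z_20, z_22, z_23, z_26, z_31, z_32]
        rcases C_f_p3_1_9 with h | h | h
        exacts [hn689_0 h, hn689_1 h, hn689_2 h]
       rcases C_ff_p1_p2_1_9 with h | h | h | h | h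
       exacts [hn674_0 h, hn674_1 h, hn674_2 h, hn674_3 h, hn674_4 h]
      have hn672_1 : ¬ (b1 - b0 < p1) := fun hp672_1 => by
       linarith only [b_22, b_23, hp672_1, z_0, z_2, z_31]
      have hn672_2 : ¬ (a10 - a9 < p9) := fun hp672_2 => by
       linarith only [b_26, b_27, hp672_2, z_22, z_23, z_32]
      have hn672_3 : ¬ (a10 - a1 < p1 + p9) := fun hp672_3 => by
       have hn699_0 : ¬ (p9 ≤ d0_10) := fun hp699_0 => by
        linarith only [b_27, C_FW_2_3, C_FW_6_7, C_FW_8_9, C_Obd, C_OPT_1_9_x12xOx78xKt, hp672_3, hp699_0, z_1, z_2, z_3, z_5, z_7, z_8, z_12, z_14, z_16, z_17, z_18, z_20, z_22, z_23, z_26, z_32]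
       have hn699_1 : ¬ (b9 - b0 < p9) := fun hp699_1 => by
        linarith only [b_22, b_23, C_FW_1_8, C_OPT_8_9_x89x, hp699_1, z_0, z_2, z_19, z_20, z_21, z_23, z_30, z_31]
       have hn699_2 : ¬ (a10 - a9 < p9) := fun hp699_2 => by
        linarith only [b_26, b_27, hp699_2, z_22, z_23, z_32]
       rcases C_f_p9_1_9 with h | h | h
       exacts [hn699_0 h, hn699_1 h, hn699_2 h]
      have hn672_4 : ¬ (b9 - b0 < p1 + p9) := fun hp672_4 => by
       have hn700_0 : ¬ (p1 ≤ d0_10) := fun hp700_0 => by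
        linarith only [b_23, C_FW_1_2, C_FW_3_4, C_FW_7_8, C_Ebd, C_OPT_1_9_K1x23xEx89x, hp672_4, hp700_0, z_0, z_2, z_4, z_5, z_6, z_8, z_10, z_11, z_15, z_17, z_19, z_20, z_21, z_23, z_26, z_31]
       have hn700_1 : ¬ (b1 - b0 < p1) := fun hp700_1 => by
        linarith only [b_22, b_23, hp700_1, z_0, z_2, z_31]
       have hn700_2 : ¬ (a10 - a1 < p1) := fun hp700_2 => by
        linarith only [b_26, b_27, C_FW_2_9, C_OPT_1_2_x12x, hp700_2, z_1, z_2, z_3, z_5, z_22, z_23, z_24, z_32]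
       rcases C_f_p1_1_9 with h | h | h
       exacts [hn700_0 h, hn700_1 h, hn700_2 h]
      rcases C_ff_p1_p9_1_9 with h | h | h | h | h
      exacts [hn672_0 h, hn672_1 h, hn672_2 h, hn672_3 h, hn672_4 h]
     have hn671_1 : ¬ (b7 - b0 < p7) := fun hp671_1 => by
      have hn701_0 : ¬ (p9 ≤ d6_10) := fun hp701_0 => by
       linarith only [b_4, b_5, b_6, b_7, b_8, b_9, b_22, b_23, b_27, C_FW_1_2, C_FW_8_9, C_OPT_2_3_x23x, C_OPT_7_9_x78xKt, hp670_3, hp671_1, hp701_0, z_0, z_2, z_4, z_5, z_6, z_7, z_8, z_9, z_10, z_12, z_13, z_15, z_16, z_17, z_18, z_20, z_22, z_23, z_27, z_29, z_31, z_32]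
      have hn701_1 : ¬ (b9 - b6 < p9) := fun hp701_1 => by
       have hn703_0 : ¬ (p1 ≤ d0_10) := fun hp703_0 => by
        have hn704_0 : ¬ (p1 + p9 ≤ d0_10) := fun hp704_0 => by
         linarith only [b_3, b_5, b_7, b_8, b_9, b_22, b_23, b_25, b_27, C_FW_1_2, C_FW_2_3, C_FW_3_4, C_FW_6_8, C_FW_8_9, C_Ebd, C_Obd, C_OPT_1_9_K1x23xEx89x, C_OPT_1_9_x12xOx78xKt, C_gap_1_9, hp669_0, hp671_1, hp701_1, hp704_0, z_0, z_1, z_2, z_3, z_4, z_5, z_6, z_7, z_8, z_10, z_11, z_12, z_13, z_14, z_15, z_16, z_17, z_18, z_19, z_20, z_21, z_22, z_23, z_26, z_31, z_32]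
        have hn704_1 : ¬ (b1 - b0 < p1) := fun hp704_1 => by
         linarith only [b_22, b_23, hp704_1, z_0, z_2, z_31]
        have hn704_2 : ¬ (a10 - a9 < p9) := fun hp704_2 => by
         linarith only [b_26, b_27, hp704_2, z_22, z_23, z_32]
        have hn704_3 : ¬ (a10 - a1 < p1 + p9) := fun hp704_3 => by
         have hn705_0 : ¬ (p9 ≤ d0_10) := fun hp705_0 => by
          linarith only [b_27, C_FW_2_3, C_FW_6_7, C_FW_8_9, C_Obd, C_OPT_1_9_x12xOx78xKt, hp704_3, hp705_0, z_1, z_2, z_3, z_5, z_7, z_8, z_12, z_14, z_16, z_17, z_18, z_20, z_22, z_23, z_26, z_32]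
         have hn705_1 : ¬ (b9 - b0 < p9) := fun hp705_1 => by
          linarith only [b_22, b_23, C_FW_1_8, C_OPT_8_9_x89x, hp705_1, z_0, z_2, z_19, z_20, z_21, z_23, z_30, z_31]
         have hn705_2 : ¬ (a10 - a9 < p9) := fun hp705_2 => by
          linarith only [b_26, b_27, hp705_2, z_22, z_23, z_32]
         rcases C_f_p9_1_9 with h | h | h
         exacts [hn705_0 h, hn705_1 h, hn705_2 h]
        have hn704_4 : ¬ (b9 - b0 < p1 + p9) := fun hp704_4 => by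
         linarith only [b_23, C_FW_1_2, C_FW_3_4, C_FW_7_8, C_Ebd, C_OPT_1_9_K1x23xEx89x, hp703_0, hp704_4, z_0, z_2, z_4, z_5, z_6, z_8, z_10, z_11, z_15, z_17, z_19, z_20, z_21, z_23, z_26, z_31]
        rcases C_ff_p1_p9_1_9 with h | h | h | h | h
        exacts [hn704_0 h, hn704_1 h, hn704_2 h, hn704_3 h, hn704_4 h]
       have hn703_1 : ¬ (b1 - b0 < p1) := fun hp703_1 => by
        linarith only [b_22, b_23, hp703_1, z_0, z_2, z_31]
       have hn703_2 : ¬ (a10 - a1 < p1) := fun hp703_2 => by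
        linarith only [b_26, b_27, C_FW_2_9, C_OPT_1_2_x12x, hp703_2, z_1, z_2, z_3, z_5, z_22, z_23, z_24, z_32]
       rcases C_f_p1_1_9 with h | h | h
       exacts [hn703_0 h, hn703_1 h, hn703_2 h]
      have hn701_2 : ¬ (a10 - a9 < p9) := fun hp701_2 => by
       linarith only [b_26, b_27, hp701_2, z_22, z_23, z_32]
      rcases C_f_p9_7_9 with h | h | h
      exacts [hn701_0 h, hn701_1 h, hn701_2 h]
     have hn671_2 : ¬ (a10 - a7 < p7) := fun hp671_2 => by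
      linarith only [b_26, b_27, C_FW_8_9, C_OPT_7_8_x78x, hp671_2, z_16, z_17, z_18, z_20, z_22, z_23, z_28, z_32]
     rcases C_f_p7_1_9 with h | h | h
     exacts [hn671_0 h, hn671_1 h, hn671_2 h]
    have hn670_4 : ¬ (b9 - b0 < p3 + p9) := fun hp670_4 => by
     have hn706_0 : ¬ (p1 ≤ d0_10) := fun hp706_0 => by
      have hn707_0 : ¬ (p3 ≤ d0_10) := fun hp707_0 => by
       linarith only [b_23, C_FW_1_2, C_FW_3_4, C_FW_7_8, C_Ebd, C_OPT_1_9_K1x23xEx89x, hp670_4, hp706_0, hp707_0, z_0, z_2, z_4, z_5, z_6, z_8, z_10, z_11, z_15, z_17, z_19, z_20, z_21, z_23, z_26, z_31]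
      have hn707_1 : ¬ (b3 - b0 < p3) := fun hp707_1 => by
       linarith only [b_22, b_23, C_FW_1_2, C_OPT_2_3_x23x, hp707_1, z_0, z_2, z_4, z_5, z_6, z_8, z_27, z_31]
      have hn707_2 : ¬ (a10 - a3 < p3) := fun hp707_2 => by
       linarith only [not_lt.1 hn670_3, hp707_2, z_7, z_8, z_23]
      rcases C_f_p3_1_9 with h | h | h
      exacts [hn707_0 h, hn707_1 h, hn707_2 h]
     have hn706_1 : ¬ (b1 - b0 < p1) := fun hp706_1 => by
      linarith only [b_22, b_23, hp706_1, z_0, z_2, z_31]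
     have hn706_2 : ¬ (a10 - a1 < p1) := fun hp706_2 => by
      linarith only [b_26, b_27, C_FW_2_9, C_OPT_1_2_x12x, hp706_2, z_1, z_2, z_3, z_5, z_22, z_23, z_24, z_32]
     rcases C_f_p1_1_9 with h | h | h
     exacts [hn706_0 h, hn706_1 h, hn706_2 h]
    rcases C_ff_p3_p9_1_9 with h | h | h | h | h
    exacts [hn670_0 h, hn670_1 h, hn670_2 h, hn670_3 h, hn670_4 h]
   have hn669_1 : ¬ (b2 - b0 < p2) := fun hp669_1 => by
    have hn709_0 : ¬ (p3 ≤ d0_10) := fun hp709_0 => by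
     have hn710_0 : ¬ (p3 + p9 ≤ d0_10) := fun hp710_0 => by
      linarith only [b_5, b_22, b_23, b_27, C_FW_1_3, C_FW_2_3, C_FW_6_7, C_FW_8_9, C_Obd, C_OPT_1_9_x12xOx78xKt, C_gap_1_9, hp595_2, hp710_0, z_0, z_1, z_2, z_3, z_5, z_7, z_8, z_10, z_12, z_14, z_16, z_17, z_18, z_20, z_22, z_23, z_26, z_31, z_32]
     have hn710_1 : ¬ (b3 - b0 < p3) := fun hp710_1 => by
      linarith only [b_22, b_23, C_FW_1_2, C_OPT_2_3_x23x, hp710_1, z_0, z_2, z_4, z_5, z_6, z_8, z_27, z_31]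
     have hn710_2 : ¬ (a10 - a9 < p9) := fun hp710_2 => by
      linarith only [b_26, b_27, hp710_2, z_22, z_23, z_32]
     have hn710_3 : ¬ (a10 - a3 < p3 + p9) := fun hp710_3 => by
      have hn711_0 : ¬ (p7 ≤ d0_10) := fun hp711_0 => by
       have hn712_0 : ¬ (p8 ≤ d0_10) := fun hp712_0 => by
        have hn714_0 : ¬ (p1 + p7 ≤ d0_10) := fun hp714_0 => by
         have hn715_0 : ¬ (p1 + p9 ≤ d0_10) := fun hp715_0 => by
          have hn716_0 : ¬ (p1 + p8 ≤ d0_10) := fun hp716_0 => by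
           linarith only [b_23, b_26, b_27, b_29, C_FW_1_2, C_FW_3_4, C_FW_7_8, C_FW_8_9, C_Ebd, C_OPT_1_9_K1x23xEx89x, C_gap_1_9, hp716_0, z_0, z_2, z_4, z_5, z_6, z_8, z_10, z_11, z_15, z_17, z_18, z_19, z_20, z_21, z_22, z_23, z_26, z_31, z_32]
          have hn716_1 : ¬ (b1 - b0 < p1) := fun hp716_1 => by
           linarith only [b_22, b_23, hp716_1, z_0, z_2, z_31]
          have hn716_2 : ¬ (a10 - a8 < p8) := fun hp716_2 => by
           have hn717_0 : ¬ (p9 ≤ d7_10) := fun hp717_0 => by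
            linarith only [b_5, b_26, b_27, b_29, C_FW_2_3, C_FW_6_7, C_FW_8_9, C_Obd, C_OPT_1_9_x12xOx78xKt, C_OPT_8_9_x89x, hp595_2, hp709_0, hp710_3, hp712_0, hp716_2, hp717_0, z_1, z_2, z_3, z_5, z_7, z_8, z_10, z_12, z_14, z_16, z_17, z_18, z_19, z_20, z_21, z_22, z_23, z_26, z_30, z_32]
           have hn717_1 : ¬ (b9 - b7 < p9) := fun hp717_1 => by
            linarith only [b_23, b_26, b_27, C_FW_1_2, C_FW_3_4, C_FW_7_8, C_FW_7_9, C_Ebd, C_OPT_1_9_K1x23xEx89x, C_gap_1_9, hp714_0, hp717_1, z_0, z_2, z_4, z_5, z_6, z_8, z_10, z_11, z_15, z_17, z_19, z_20, z_21, z_22, z_23, z_26, z_31, z_32]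
           have hn717_2 : ¬ (a10 - a9 < p9) := fun hp717_2 => by
            linarith only [b_26, b_27, hp717_2, z_22, z_23, z_32]
           rcases C_f_p9_8_9 with h | h | h
           exacts [hn717_0 h, hn717_1 h, hn717_2 h]
          have hn716_3 : ¬ (a10 - a1 < p1 + p8) := fun hp716_3 => by
           linarith only [b_1, b_2, b_3, b_11, b_13, b_26, b_27, C_FW_3_7, C_FW_6_7, C_FW_8_9, C_Obd, C_OPT_1_9_x12xOx78xKt, not_le.1 hn669_0, hp712_0, hp714_0, hp716_3, z_1, z_2, z_3, z_4, z_5, z_6, z_7, z_8, z_12, z_14, z_16, z_17, z_18, z_19, z_20, z_22, z_23, z_26, z_32]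
          have hn716_4 : ¬ (b8 - b0 < p1 + p8) := fun hp716_4 => by
           linarith only [b_5, b_23, b_27, b_29, C_FW_1_2, C_FW_3_4, C_FW_6_7, C_FW_7_8, C_FW_8_9, C_Ebd, C_Obd, C_OPT_1_9_K1x23xEx89x, C_OPT_1_9_x12xOx78xKt, hp595_2, hp669_1, hp709_0, hp710_3, hp712_0, hp715_0, hp716_4, z_0, z_1, z_2, z_3, z_4, z_5, z_6, z_7, z_8, z_10, z_11, z_12, z_14, z_15, z_16, z_17, z_18, z_19, z_20, z_21, z_22, z_23, z_26, z_31, z_32]
          rcases C_ff_p1_p8_1_9 with h | h | h | h | h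
          exacts [hn716_0 h, hn716_1 h, hn716_2 h, hn716_3 h, hn716_4 h]
         have hn715_1 : ¬ (b1 - b0 < p1) := fun hp715_1 => by
          linarith only [b_22, b_23, hp715_1, z_0, z_2, z_31]
         have hn715_2 : ¬ (a10 - a9 < p9) := fun hp715_2 => by
          linarith only [b_26, b_27, hp715_2, z_22, z_23, z_32]
         have hn715_3 : ¬ (a10 - a1 < p1 + p9) := fun hp715_3 => by
          linarith only [b_1, b_11, b_13, b_26, b_27, C_FW_3_7, C_OPT_2_3_x23x, not_le.1 hn669_0, hp714_0, hp715_3, z_1, z_2, z_4, z_5, z_6, z_8, z_16, z_17, z_19, z_22, z_23, z_26, z_27, z_32]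
         have hn715_4 : ¬ (b9 - b0 < p1 + p9) := fun hp715_4 => by
          linarith only [b_23, C_FW_1_2, C_FW_3_4, C_FW_7_8, C_Ebd, C_OPT_1_9_K1x23xEx89x, hp714_0, hp715_4, z_0, z_2, z_4, z_5, z_6, z_8, z_10, z_11, z_15, z_17, z_19, z_20, z_21, z_23, z_26, z_31]
         rcases C_ff_p1_p9_1_9 with h | h | h | h | h
         exacts [hn715_0 h, hn715_1 h, hn715_2 h, hn715_3 h, hn715_4 h]
        have hn714_1 : ¬ (b1 - b0 < p1) := fun hp714_1 => by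
         linarith only [b_22, b_23, hp714_1, z_0, z_2, z_31]
        have hn714_2 : ¬ (a10 - a7 < p7) := fun hp714_2 => by
         linarith only [b_26, b_27, C_FW_8_9, C_OPT_7_8_x78x, hp714_2, z_16, z_17, z_18, z_20, z_22, z_23, z_28, z_32]
        have hn714_3 : ¬ (a10 - a1 < p1 + p7) := fun hp714_3 => by
         have hn718_0 : ¬ (p9 ≤ d0_10) := fun hp718_0 => by
          linarith only [b_27, C_FW_2_3, C_FW_6_7, C_FW_8_9, C_Obd, C_OPT_1_9_x12xOx78xKt, hp711_0, hp714_3, hp718_0, z_1, z_2, z_3, z_5, z_7, z_8, z_12, z_14, z_16, z_17, z_18, z_20, z_22, z_23, z_26, z_32]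
         have hn718_1 : ¬ (b9 - b0 < p9) := fun hp718_1 => by
          linarith only [b_22, b_23, C_FW_1_8, C_OPT_8_9_x89x, hp718_1, z_0, z_2, z_19, z_20, z_21, z_23, z_30, z_31]
         have hn718_2 : ¬ (a10 - a9 < p9) := fun hp718_2 => by
          linarith only [b_26, b_27, hp718_2, z_22, z_23, z_32]
         rcases C_f_p9_1_9 with h | h | h
         exacts [hn718_0 h, hn718_1 h, hn718_2 h]
        have hn714_4 : ¬ (b7 - b0 < p1 + p7) := fun hp714_4 => by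
         have hn720_0 : ¬ (p9 ≤ d6_10) := fun hp720_0 => by
          have hn721_0 : ¬ (p1 + p8 ≤ d0_10) := fun hp721_0 => by
           linarith only [b_23, b_26, b_27, b_29, C_FW_1_2, C_FW_3_4, C_FW_7_8, C_FW_8_9, C_Ebd, C_OPT_1_9_K1x23xEx89x, C_gap_1_9, hp721_0, z_0, z_2, z_4, z_5, z_6, z_8, z_10, z_11, z_15, z_17, z_18, z_19, z_20, z_21, z_22, z_23, z_26, z_31, z_32]
          have hn721_1 : ¬ (b1 - b0 < p1) := fun hp721_1 => by
           linarith only [b_22, b_23, hp721_1, z_0, z_2, z_31]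
          have hn721_2 : ¬ (a10 - a8 < p8) := fun hp721_2 => by
           have hn722_0 : ¬ (p1 + p9 ≤ d0_10) := fun hp722_0 => by
            linarith only [b_5, b_23, b_26, b_27, b_29, C_FW_1_2, C_FW_2_3, C_FW_3_4, C_FW_6_7, C_FW_8_9, C_Ebd, C_Obd, C_OPT_1_9_K1x23xEx89x, C_OPT_1_9_x12xOx78xKt, hp595_2, hp709_0, hp710_3, hp712_0, hp714_4, hp721_2, hp722_0, z_0, z_1, z_2, z_3, z_4, z_5, z_6, z_7, z_8, z_10, z_11, z_12, z_14, z_15, z_16, z_17, z_18, z_19, z_20, z_21, z_22, z_23, z_26, z_31, z_32]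
           have hn722_1 : ¬ (b1 - b0 < p1) := fun hp722_1 => by
            linarith only [b_22, b_23, hp722_1, z_0, z_2, z_31]
           have hn722_2 : ¬ (a10 - a9 < p9) := fun hp722_2 => by
            linarith only [b_26, b_27, hp722_2, z_22, z_23, z_32]
           have hn722_3 : ¬ (a10 - a1 < p1 + p9) := fun hp722_3 => by
            linarith only [b_27, C_FW_2_7, C_FW_8_9, C_OPT_1_2_x12x, C_OPT_7_9_x78xKt, hp720_0, hp722_3, z_1, z_2, z_3, z_5, z_16, z_17, z_18, z_20, z_22, z_23, z_24, z_29, z_32]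
           have hn722_4 : ¬ (b9 - b0 < p1 + p9) := fun hp722_4 => by
            have hn723_0 : ¬ (p1 ≤ d0_10) := fun hp723_0 => by
             linarith only [b_23, C_FW_1_2, C_FW_3_4, C_FW_7_8, C_Ebd, C_OPT_1_9_K1x23xEx89x, hp722_4, hp723_0, z_0, z_2, z_4, z_5, z_6, z_8, z_10, z_11, z_15, z_17, z_19, z_20, z_21, z_23, z_26, z_31]
            have hn723_1 : ¬ (b1 - b0 < p1) := fun hp723_1 => by
             linarith only [b_22, b_23, hp723_1, z_0, z_2, z_31]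
            have hn723_2 : ¬ (a10 - a1 < p1) := fun hp723_2 => by
             linarith only [b_26, b_27, C_FW_2_9, C_OPT_1_2_x12x, hp723_2, z_1, z_2, z_3, z_5, z_22, z_23, z_24, z_32]
            rcases C_f_p1_1_9 with h | h | h
            exacts [hn723_0 h, hn723_1 h, hn723_2 h]
           rcases C_ff_p1_p9_1_9 with h | h | h | h | h
           exacts [hn722_0 h, hn722_1 h, hn722_2 h, hn722_3 h, hn722_4 h]
          have hn721_3 : ¬ (a10 - a1 < p1 + p8) := fun hp721_3 => by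
           linarith only [b_27, C_FW_2_3, C_FW_2_7, C_FW_6_7, C_FW_8_9, C_Obd, C_OPT_1_2_x12x, C_OPT_1_9_x12xOx78xKt, C_OPT_7_9_x78xKt, hp712_0, hp720_0, hp721_3, z_1, z_2, z_3, z_5, z_7, z_8, z_12, z_14, z_16, z_17, z_18, z_20, z_22, z_23, z_24, z_26, z_29, z_32]
          have hn721_4 : ¬ (b8 - b0 < p1 + p8) := fun hp721_4 => by
           have hn724_0 : ¬ (p1 + p9 ≤ d0_10) := fun hp724_0 => by
            linarith only [b_5, b_23, b_27, b_29, C_FW_1_2, C_FW_3_4, C_FW_6_7, C_FW_7_8, C_FW_8_9, C_Ebd, C_Obd, C_OPT_1_9_K1x23xEx89x, C_OPT_1_9_x12xOx78xKt, hp595_2, hp669_1, hp709_0, hp710_3, hp712_0, hp721_4, hp724_0, z_0, z_1, z_2, z_3, z_4, z_5, z_6, z_7, z_8, z_10, z_11, z_12, z_14, z_15, z_16, z_17, z_18, z_19, z_20, z_21, z_22, z_23, z_26, z_31, z_32]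
           have hn724_1 : ¬ (b1 - b0 < p1) := fun hp724_1 => by
            linarith only [b_22, b_23, hp724_1, z_0, z_2, z_31]
           have hn724_2 : ¬ (a10 - a9 < p9) := fun hp724_2 => by
            linarith only [b_26, b_27, hp724_2, z_22, z_23, z_32]
           have hn724_3 : ¬ (a10 - a1 < p1 + p9) := fun hp724_3 => by
            linarith only [b_27, C_FW_2_7, C_FW_8_9, C_OPT_1_2_x12x, C_OPT_7_9_x78xKt, hp720_0, hp724_3, z_1, z_2, z_3, z_5, z_16, z_17, z_18, z_20, z_22, z_23, z_24, z_29, z_32]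
           have hn724_4 : ¬ (b9 - b0 < p1 + p9) := fun hp724_4 => by
            have hn725_0 : ¬ (p1 ≤ d0_10) := fun hp725_0 => by
             linarith only [b_23, C_FW_1_2, C_FW_3_4, C_FW_7_8, C_Ebd, C_OPT_1_9_K1x23xEx89x, hp724_4, hp725_0, z_0, z_2, z_4, z_5, z_6, z_8, z_10, z_11, z_15, z_17, z_19, z_20, z_21, z_23, z_26, z_31]
            have hn725_1 : ¬ (b1 - b0 < p1) := fun hp725_1 => by
             linarith only [b_22, b_23, hp725_1, z_0, z_2, z_31]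
            have hn725_2 : ¬ (a10 - a1 < p1) := fun hp725_2 => by
             linarith only [b_26, b_27, C_FW_2_9, C_OPT_1_2_x12x, hp725_2, z_1, z_2, z_3, z_5, z_22, z_23, z_24, z_32]
            rcases C_f_p1_1_9 with h | h | h
            exacts [hn725_0 h, hn725_1 h, hn725_2 h]
           rcases C_ff_p1_p9_1_9 with h | h | h | h | h
           exacts [hn724_0 h, hn724_1 h, hn724_2 h, hn724_3 h, hn724_4 h]
          rcases C_ff_p1_p8_1_9 with h | h | h | h | h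
          exacts [hn721_0 h, hn721_1 h, hn721_2 h, hn721_3 h, hn721_4 h]
         have hn720_1 : ¬ (b9 - b6 < p9) := fun hp720_1 => by
          have hn726_0 : ¬ (p1 + p9 ≤ d0_10) := fun hp726_0 => by
           linarith only [b_5, b_8, b_23, b_27, C_FW_1_2, C_FW_2_3, C_FW_3_4, C_FW_6_7, C_FW_7_8, C_FW_8_9, C_Ebd, C_Obd, C_OPT_1_9_K1x23xEx89x, C_OPT_1_9_x12xOx78xKt, hp595_2, hp709_0, hp710_3, hp711_0, hp714_4, hp720_1, hp726_0, z_0, z_1, z_2, z_3, z_4, z_5, z_6, z_7, z_8, z_10, z_11, z_12, z_14, z_15, z_16, z_17, z_18, z_19, z_20, z_21, z_22, z_23, z_26, z_31, z_32]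
          have hn726_1 : ¬ (b1 - b0 < p1) := fun hp726_1 => by
           linarith only [b_22, b_23, hp726_1, z_0, z_2, z_31]
          have hn726_2 : ¬ (a10 - a9 < p9) := fun hp726_2 => by
           linarith only [b_26, b_27, hp726_2, z_22, z_23, z_32]
          have hn726_3 : ¬ (a10 - a1 < p1 + p9) := fun hp726_3 => by
           have hn727_0 : ¬ (p9 ≤ d0_10) := fun hp727_0 => by
            linarith only [b_27, C_FW_2_3, C_FW_6_7, C_FW_8_9, C_Obd, C_OPT_1_9_x12xOx78xKt, hp726_3, hp727_0, z_1, z_2, z_3, z_5, z_7, z_8, z_12, z_14, z_16, z_17, z_18, z_20, z_22, z_23, z_26, z_32]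
           have hn727_1 : ¬ (b9 - b0 < p9) := fun hp727_1 => by
            linarith only [b_22, b_23, C_FW_1_8, C_OPT_8_9_x89x, hp727_1, z_0, z_2, z_19, z_20, z_21, z_23, z_30, z_31]
           have hn727_2 : ¬ (a10 - a9 < p9) := fun hp727_2 => by
            linarith only [b_26, b_27, hp727_2, z_22, z_23, z_32]
           rcases C_f_p9_1_9 with h | h | h
           exacts [hn727_0 h, hn727_1 h, hn727_2 h]
          have hn726_4 : ¬ (b9 - b0 < p1 + p9) := fun hp726_4 => by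
           have hn728_0 : ¬ (p1 ≤ d0_10) := fun hp728_0 => by
            linarith only [b_23, C_FW_1_2, C_FW_3_4, C_FW_7_8, C_Ebd, C_OPT_1_9_K1x23xEx89x, hp726_4, hp728_0, z_0, z_2, z_4, z_5, z_6, z_8, z_10, z_11, z_15, z_17, z_19, z_20, z_21, z_23, z_26, z_31]
           have hn728_1 : ¬ (b1 - b0 < p1) := fun hp728_1 => by
            linarith only [b_22, b_23, hp728_1, z_0, z_2, z_31]
           have hn728_2 : ¬ (a10 - a1 < p1) := fun hp728_2 => by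
            linarith only [b_26, b_27, C_FW_2_9, C_OPT_1_2_x12x, hp728_2, z_1, z_2, z_3, z_5, z_22, z_23, z_24, z_32]
           rcases C_f_p1_1_9 with h | h | h
           exacts [hn728_0 h, hn728_1 h, hn728_2 h]
          rcases C_ff_p1_p9_1_9 with h | h | h | h | h
          exacts [hn726_0 h, hn726_1 h, hn726_2 h, hn726_3 h, hn726_4 h]
         have hn720_2 : ¬ (a10 - a9 < p9) := fun hp720_2 => by
          linarith only [b_26, b_27, hp720_2, z_22, z_23, z_32]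
         rcases C_f_p9_7_9 with h | h | h
         exacts [hn720_0 h, hn720_1 h, hn720_2 h]
        rcases C_ff_p1_p7_1_9 with h | h | h | h | h
        exacts [hn714_0 h, hn714_1 h, hn714_2 h, hn714_3 h, hn714_4 h]
       have hn712_1 : ¬ (b8 - b0 < p8) := fun hp712_1 => by
        linarith only [b_22, b_23, C_FW_1_7, C_OPT_7_8_x78x, hp712_1, z_0, z_2, z_16, z_17, z_18, z_20, z_28, z_31]
       have hn712_2 : ¬ (a10 - a8 < p8) := fun hp712_2 => by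
        have hn730_0 : ¬ (p9 ≤ d6_10) := fun hp730_0 => by
         have hn731_0 : ¬ (p7 + p9 ≤ d0_10) := fun hp731_0 => by
          have hn732_0 : ¬ (p9 ≤ d7_10) := fun hp732_0 => by
           linarith only [b_5, b_11, b_26, b_27, b_29, C_FW_2_7, C_FW_6_7, C_FW_8_9, C_Obd, C_OPT_1_9_x12xOx78xKt, C_OPT_8_9_x89x, hp595_2, hp709_0, hp710_3, hp731_0, hp732_0, z_1, z_2, z_3, z_5, z_7, z_8, z_10, z_12, z_14, z_16, z_17, z_18, z_19, z_20, z_21, z_22, z_23, z_26, z_30, z_32]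
          have hn732_1 : ¬ (b9 - b7 < p9) := fun hp732_1 => by
           have hn733_0 : ¬ (p1 ≤ d0_10) := fun hp733_0 => by
            have hn734_0 : ¬ (p1 + p9 ≤ d0_10) := fun hp734_0 => by
             linarith only [b_4, b_5, b_6, b_8, b_23, b_26, b_27, C_FW_1_2, C_FW_2_4, C_FW_6_7, C_FW_7_8, C_FW_7_9, C_FW_8_9, C_Ebd, C_Obd, C_OPT_1_9_K1x23xEx89x, C_OPT_1_9_x12xOx78xKt, C_gap_1_9, hp595_2, hp710_3, hp731_0, hp732_1, hp734_0, z_0, z_1, z_2, z_3, z_4, z_5, z_6, z_7, z_8, z_9, z_10, z_11, z_12, z_14, z_15, z_16, z_17, z_18, z_19, z_20, z_21, z_22, z_23, z_26, z_31, z_32]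
            have hn734_1 : ¬ (b1 - b0 < p1) := fun hp734_1 => by
             linarith only [b_22, b_23, hp734_1, z_0, z_2, z_31]
            have hn734_2 : ¬ (a10 - a9 < p9) := fun hp734_2 => by
             linarith only [b_26, b_27, hp734_2, z_22, z_23, z_32]
            have hn734_3 : ¬ (a10 - a1 < p1 + p9) := fun hp734_3 => by
             linarith only [b_27, C_FW_2_7, C_FW_8_9, C_OPT_1_2_x12x, C_OPT_7_9_x78xKt, hp730_0, hp734_3, z_1, z_2, z_3, z_5, z_16, z_17, z_18, z_20, z_22, z_23, z_24, z_29, z_32]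
            have hn734_4 : ¬ (b9 - b0 < p1 + p9) := fun hp734_4 => by
             linarith only [b_23, C_FW_1_2, C_FW_3_4, C_FW_7_8, C_Ebd, C_OPT_1_9_K1x23xEx89x, hp733_0, hp734_4, z_0, z_2, z_4, z_5, z_6, z_8, z_10, z_11, z_15, z_17, z_19, z_20, z_21, z_23, z_26, z_31]
            rcases C_ff_p1_p9_1_9 with h | h | h | h | h
            exacts [hn734_0 h, hn734_1 h, hn734_2 h, hn734_3 h, hn734_4 h]
           have hn733_1 : ¬ (b1 - b0 < p1) := fun hp733_1 => by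
            linarith only [b_22, b_23, hp733_1, z_0, z_2, z_31]
           have hn733_2 : ¬ (a10 - a1 < p1) := fun hp733_2 => by
            linarith only [b_26, b_27, C_FW_2_9, C_OPT_1_2_x12x, hp733_2, z_1, z_2, z_3, z_5, z_22, z_23, z_24, z_32]
           rcases C_f_p1_1_9 with h | h | h
           exacts [hn733_0 h, hn733_1 h, hn733_2 h]
          have hn732_2 : ¬ (a10 - a9 < p9) := fun hp732_2 => by
           linarith only [b_26, b_27, hp732_2, z_22, z_23, z_32]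
          rcases C_f_p9_8_9 with h | h | h
          exacts [hn732_0 h, hn732_1 h, hn732_2 h]
         have hn731_1 : ¬ (b7 - b0 < p7) := fun hp731_1 => by
          linarith only [b_4, b_5, b_6, b_7, b_8, b_9, b_22, b_23, b_27, C_FW_1_2, C_FW_8_9, C_OPT_2_3_x23x, C_OPT_7_9_x78xKt, hp710_3, hp730_0, hp731_1, z_0, z_2, z_4, z_5, z_6, z_7, z_8, z_9, z_10, z_12, z_13, z_15, z_16, z_17, z_18, z_20, z_22, z_23, z_27, z_29, z_31, z_32]
         have hn731_2 : ¬ (a10 - a9 < p9) := fun hp731_2 => by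
          linarith only [b_26, b_27, hp731_2, z_22, z_23, z_32]
         have hn731_3 : ¬ (a10 - a7 < p7 + p9) := fun hp731_3 => by
          linarith only [b_27, C_FW_8_9, C_OPT_7_9_x78xKt, hp730_0, hp731_3, z_16, z_17, z_18, z_20, z_22, z_23, z_29, z_32]
         have hn731_4 : ¬ (b9 - b0 < p7 + p9) := fun hp731_4 => by
          linarith only [b_0, b_2, b_5, b_7, b_9, b_10, b_12, b_22, b_23, b_27, C_FW_1_2, C_FW_3_4, C_FW_3_7, C_FW_8_9, C_Ebd, C_OPT_1_9_K1x23xEx89x, C_OPT_7_9_x78xKt, hp709_0, hp710_3, hp712_2, hp730_0, hp731_4, z_0, z_2, z_3, z_4, z_5, z_6, z_7, z_8, z_10, z_11, z_13, z_15, z_16, z_17, z_18, z_19, z_20, z_21, z_22, z_23, z_26, z_29, z_31, z_32]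
         rcases C_ff_p7_p9_1_9 with h | h | h | h | h
         exacts [hn731_0 h, hn731_1 h, hn731_2 h, hn731_3 h, hn731_4 h]
        have hn730_1 : ¬ (b9 - b6 < p9) := fun hp730_1 => by
         have hn736_0 : ¬ (p1 + p7 ≤ d0_10) := fun hp736_0 => by
          linarith only [b_8, b_23, b_26, b_27, C_FW_1_2, C_FW_3_4, C_FW_7_8, C_FW_7_9, C_Ebd, C_OPT_1_9_K1x23xEx89x, C_gap_1_9, hp730_1, hp736_0, z_0, z_2, z_4, z_5, z_6, z_8, z_10, z_11, z_12, z_15, z_17, z_19, z_20, z_21, z_22, z_23, z_26, z_31, z_32]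
         have hn736_1 : ¬ (b1 - b0 < p1) := fun hp736_1 => by
          linarith only [b_22, b_23, hp736_1, z_0, z_2, z_31]
         have hn736_2 : ¬ (a10 - a7 < p7) := fun hp736_2 => by
          linarith only [b_26, b_27, C_FW_8_9, C_OPT_7_8_x78x, hp736_2, z_16, z_17, z_18, z_20, z_22, z_23, z_28, z_32]
         have hn736_3 : ¬ (a10 - a1 < p1 + p7) := fun hp736_3 => by
          have hn737_0 : ¬ (p9 ≤ d0_10) := fun hp737_0 => by
           linarith only [b_27, C_FW_2_3, C_FW_6_7, C_FW_8_9, C_Obd, C_OPT_1_9_x12xOx78xKt, hp711_0, hp736_3, hp737_0, z_1, z_2, z_3, z_5, z_7, z_8, z_12, z_14, z_16, z_17, z_18, z_20, z_22, z_23, z_26, z_32]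
          have hn737_1 : ¬ (b9 - b0 < p9) := fun hp737_1 => by
           linarith only [b_22, b_23, C_FW_1_8, C_OPT_8_9_x89x, hp737_1, z_0, z_2, z_19, z_20, z_21, z_23, z_30, z_31]
          have hn737_2 : ¬ (a10 - a9 < p9) := fun hp737_2 => by
           linarith only [b_26, b_27, hp737_2, z_22, z_23, z_32]
          rcases C_f_p9_1_9 with h | h | h
          exacts [hn737_0 h, hn737_1 h, hn737_2 h]
         have hn736_4 : ¬ (b7 - b0 < p1 + p7) := fun hp736_4 => by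
          have hn738_0 : ¬ (p1 + p9 ≤ d0_10) := fun hp738_0 => by
           linarith only [b_5, b_8, b_23, b_27, C_FW_1_2, C_FW_2_3, C_FW_3_4, C_FW_6_7, C_FW_7_8, C_FW_8_9, C_Ebd, C_Obd, C_OPT_1_9_K1x23xEx89x, C_OPT_1_9_x12xOx78xKt, hp595_2, hp709_0, hp710_3, hp711_0, hp730_1, hp736_4, hp738_0, z_0, z_1, z_2, z_3, z_4, z_5, z_6, z_7, z_8, z_10, z_11, z_12, z_14, z_15, z_16, z_17, z_18, z_19, z_20, z_21, z_22, z_23, z_26, z_31, z_32]
          have hn738_1 : ¬ (b1 - b0 < p1) := fun hp738_1 => by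
           linarith only [b_22, b_23, hp738_1, z_0, z_2, z_31]
          have hn738_2 : ¬ (a10 - a9 < p9) := fun hp738_2 => by
           linarith only [b_26, b_27, hp738_2, z_22, z_23, z_32]
          have hn738_3 : ¬ (a10 - a1 < p1 + p9) := fun hp738_3 => by
           have hn739_0 : ¬ (p9 ≤ d0_10) := fun hp739_0 => by
            linarith only [b_27, C_FW_2_3, C_FW_6_7, C_FW_8_9, C_Obd, C_OPT_1_9_x12xOx78xKt, hp738_3, hp739_0, z_1, z_2, z_3, z_5, z_7, z_8, z_12, z_14, z_16, z_17, z_18, z_20, z_22, z_23, z_26, z_32]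
           have hn739_1 : ¬ (b9 - b0 < p9) := fun hp739_1 => by
            linarith only [b_22, b_23, C_FW_1_8, C_OPT_8_9_x89x, hp739_1, z_0, z_2, z_19, z_20, z_21, z_23, z_30, z_31]
           have hn739_2 : ¬ (a10 - a9 < p9) := fun hp739_2 => by
            linarith only [b_26, b_27, hp739_2, z_22, z_23, z_32]
           rcases C_f_p9_1_9 with h | h | h
           exacts [hn739_0 h, hn739_1 h, hn739_2 h]
          have hn738_4 : ¬ (b9 - b0 < p1 + p9) := fun hp738_4 => by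
           have hn740_0 : ¬ (p1 ≤ d0_10) := fun hp740_0 => by
            linarith only [b_23, C_FW_1_2, C_FW_3_4, C_FW_7_8, C_Ebd, C_OPT_1_9_K1x23xEx89x, hp738_4, hp740_0, z_0, z_2, z_4, z_5, z_6, z_8, z_10, z_11, z_15, z_17, z_19, z_20, z_21, z_23, z_26, z_31]
           have hn740_1 : ¬ (b1 - b0 < p1) := fun hp740_1 => by
            linarith only [b_22, b_23, hp740_1, z_0, z_2, z_31]
           have hn740_2 : ¬ (a10 - a1 < p1) := fun hp740_2 => by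
            linarith only [b_26, b_27, C_FW_2_9, C_OPT_1_2_x12x, hp740_2, z_1, z_2, z_3, z_5, z_22, z_23, z_24, z_32]
           rcases C_f_p1_1_9 with h | h | h
           exacts [hn740_0 h, hn740_1 h, hn740_2 h]
          rcases C_ff_p1_p9_1_9 with h | h | h | h | h
          exacts [hn738_0 h, hn738_1 h, hn738_2 h, hn738_3 h, hn738_4 h]
         rcases C_ff_p1_p7_1_9 with h | h | h | h | h
         exacts [hn736_0 h, hn736_1 h, hn736_2 h, hn736_3 h, hn736_4 h]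
        have hn730_2 : ¬ (a10 - a9 < p9) := fun hp730_2 => by
         linarith only [b_26, b_27, hp730_2, z_22, z_23, z_32]
        rcases C_f_p9_7_9 with h | h | h
        exacts [hn730_0 h, hn730_1 h, hn730_2 h]
       rcases C_f_p8_1_9 with h | h | h
       exacts [hn712_0 h, hn712_1 h, hn712_2 h]
      have hn711_1 : ¬ (b7 - b0 < p7) := fun hp711_1 => by
       have hn742_0 : ¬ (p1 ≤ d0_10) := fun hp742_0 => by
        have hn744_0 : ¬ (p1 + p9 ≤ d0_10) := fun hp744_0 => by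
         linarith only [b_5, b_7, b_9, b_11, b_23, b_26, b_27, b_29, C_FW_1_2, C_FW_3_4, C_FW_8_9, C_Ebd, C_OPT_1_9_K1x23xEx89x, hp709_0, hp710_3, hp711_1, hp744_0, z_0, z_2, z_4, z_5, z_6, z_7, z_8, z_10, z_11, z_13, z_15, z_16, z_17, z_18, z_19, z_20, z_21, z_22, z_23, z_26, z_31, z_32]
        have hn744_1 : ¬ (b1 - b0 < p1) := fun hp744_1 => by
         linarith only [b_22, b_23, hp744_1, z_0, z_2, z_31]
        have hn744_2 : ¬ (a10 - a9 < p9) := fun hp744_2 => by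
         linarith only [b_26, b_27, hp744_2, z_22, z_23, z_32]
        have hn744_3 : ¬ (a10 - a1 < p1 + p9) := fun hp744_3 => by
         have hn745_0 : ¬ (p9 ≤ d0_10) := fun hp745_0 => by
          linarith only [b_27, C_FW_2_3, C_FW_6_7, C_FW_8_9, C_Obd, C_OPT_1_9_x12xOx78xKt, hp744_3, hp745_0, z_1, z_2, z_3, z_5, z_7, z_8, z_12, z_14, z_16, z_17, z_18, z_20, z_22, z_23, z_26, z_32]
         have hn745_1 : ¬ (b9 - b0 < p9) := fun hp745_1 => by
          linarith only [b_22, b_23, C_FW_1_8, C_OPT_8_9_x89x, hp745_1, z_0, z_2, z_19, z_20, z_21, z_23, z_30, z_31]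
         have hn745_2 : ¬ (a10 - a9 < p9) := fun hp745_2 => by
          linarith only [b_26, b_27, hp745_2, z_22, z_23, z_32]
         rcases C_f_p9_1_9 with h | h | h
         exacts [hn745_0 h, hn745_1 h, hn745_2 h]
        have hn744_4 : ¬ (b9 - b0 < p1 + p9) := fun hp744_4 => by
         linarith only [b_23, C_FW_1_2, C_FW_3_4, C_FW_7_8, C_Ebd, C_OPT_1_9_K1x23xEx89x, hp742_0, hp744_4, z_0, z_2, z_4, z_5, z_6, z_8, z_10, z_11, z_15, z_17, z_19, z_20, z_21, z_23, z_26, z_31]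
        rcases C_ff_p1_p9_1_9 with h | h | h | h | h
        exacts [hn744_0 h, hn744_1 h, hn744_2 h, hn744_3 h, hn744_4 h]
       have hn742_1 : ¬ (b1 - b0 < p1) := fun hp742_1 => by
        linarith only [b_22, b_23, hp742_1, z_0, z_2, z_31]
       have hn742_2 : ¬ (a10 - a1 < p1) := fun hp742_2 => by
        linarith only [b_26, b_27, C_FW_2_9, C_OPT_1_2_x12x, hp742_2, z_1, z_2, z_3, z_5, z_22, z_23, z_24, z_32]
       rcases C_f_p1_1_9 with h | h | h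
       exacts [hn742_0 h, hn742_1 h, hn742_2 h]
      have hn711_2 : ¬ (a10 - a7 < p7) := fun hp711_2 => by
       linarith only [b_26, b_27, C_FW_8_9, C_OPT_7_8_x78x, hp711_2, z_16, z_17, z_18, z_20, z_22, z_23, z_28, z_32]
      rcases C_f_p7_1_9 with h | h | h
      exacts [hn711_0 h, hn711_1 h, hn711_2 h]
     have hn710_4 : ¬ (b9 - b0 < p3 + p9) := fun hp710_4 => by
      have hn746_0 : ¬ (p1 ≤ d0_10) := fun hp746_0 => by
       linarith only [b_23, C_FW_1_2, C_FW_3_4, C_FW_7_8, C_Ebd, C_OPT_1_9_K1x23xEx89x, hp709_0, hp710_4, hp746_0, z_0, z_2, z_4, z_5, z_6, z_8, z_10, z_11, z_15, z_17, z_19, z_20, z_21, z_23, z_26, z_31]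
      have hn746_1 : ¬ (b1 - b0 < p1) := fun hp746_1 => by
       linarith only [b_22, b_23, hp746_1, z_0, z_2, z_31]
      have hn746_2 : ¬ (a10 - a1 < p1) := fun hp746_2 => by
       linarith only [b_26, b_27, C_FW_2_9, C_OPT_1_2_x12x, hp746_2, z_1, z_2, z_3, z_5, z_22, z_23, z_24, z_32]
      rcases C_f_p1_1_9 with h | h | h
      exacts [hn746_0 h, hn746_1 h, hn746_2 h]
     rcases C_ff_p3_p9_1_9 with h | h | h | h | h
     exacts [hn710_0 h, hn710_1 h, hn710_2 h, hn710_3 h, hn710_4 h]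
    have hn709_1 : ¬ (b3 - b0 < p3) := fun hp709_1 => by
     linarith only [b_22, b_23, C_FW_1_2, C_OPT_2_3_x23x, hp709_1, z_0, z_2, z_4, z_5, z_6, z_8, z_27, z_31]
    have hn709_2 : ¬ (a10 - a3 < p3) := fun hp709_2 => by
     have hn747_0 : ¬ (p7 ≤ d0_10) := fun hp747_0 => by
      have hn748_0 : ¬ (p9 ≤ d0_10) := fun hp748_0 => by
       linarith only [b_4, b_5, b_6, b_8, b_22, b_23, b_26, b_27, C_FW_1_2, C_FW_6_7, C_FW_7_9, C_FW_8_9, C_Obd, C_OPT_1_9_x12xOx78xKt, C_OPT_2_3_x23x, hp595_2, hp669_1, hp709_2, hp747_0, hp748_0, z_0, z_1, z_2, z_3, z_4, z_5, z_6, z_7, z_8, z_9, z_10, z_12, z_14, z_15, z_16, z_17, z_18, z_20, z_22, z_23, z_26, z_27, z_31, z_32]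
      have hn748_1 : ¬ (b9 - b0 < p9) := fun hp748_1 => by
       linarith only [b_22, b_23, C_FW_1_8, C_OPT_8_9_x89x, hp748_1, z_0, z_2, z_19, z_20, z_21, z_23, z_30, z_31]
      have hn748_2 : ¬ (a10 - a9 < p9) := fun hp748_2 => by
       linarith only [b_26, b_27, hp748_2, z_22, z_23, z_32]
      rcases C_f_p9_1_9 with h | h | h
      exacts [hn748_0 h, hn748_1 h, hn748_2 h]
     have hn747_1 : ¬ (b7 - b0 < p7) := fun hp747_1 => by
      linarith only [b_4, b_5, b_6, b_7, b_8, b_9, b_22, b_23, b_26, b_27, C_FW_1_2, C_FW_8_9, C_OPT_2_3_x23x, C_OPT_7_8_x78x, hp709_2, hp747_1, z_0, z_2, z_4, z_5, z_6, z_7, z_8, z_9, z_10, z_12, z_13, z_15, z_16, z_17, z_18, z_20, z_22, z_23, z_27, z_28, z_31, z_32]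
     have hn747_2 : ¬ (a10 - a7 < p7) := fun hp747_2 => by
      linarith only [b_26, b_27, C_FW_8_9, C_OPT_7_8_x78x, hp747_2, z_16, z_17, z_18, z_20, z_22, z_23, z_28, z_32]
     rcases C_f_p7_1_9 with h | h | h
     exacts [hn747_0 h, hn747_1 h, hn747_2 h]
    rcases C_f_p3_1_9 with h | h | h
    exacts [hn709_0 h, hn709_1 h, hn709_2 h]
   have hn669_2 : ¬ (a10 - a2 < p2) := fun hp669_2 => by
    linarith only [b_26, b_27, C_FW_3_9, C_OPT_2_3_x23x, hp669_2, z_4, z_5, z_6, z_8, z_22, z_23, z_27, z_32]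
   rcases C_f_p2_1_9 with h | h | h
   exacts [hn669_0 h, hn669_1 h, hn669_2 h]
  rcases C_f_p1_1_3 with h | h | h
  exacts [hn595_0 h, hn595_1 h, hn595_2 h]

theorem top_od (m : ℕ) (hb : S.Blk z (2*m+7)) (hA : S.al z 1 < S.al z 0)
    (hD : S.be z (2*m+8) < S.be z (2*m+7)) : S.Red z (2*m+7) := by
  by_contra hn
  obtain ⟨e1, he1, he1a, he1b, he1c, he1d, he1m⟩ := hb.irr1 (by omega) hA hn
  obtain ⟨et, het, heta, hetb, hetc, hetd, hetm⟩ : ∃ e, S.pp z (2*m+7) ∣ e ∧ e < S.al z (2*m+8) - S.al z (2*m+7) ∧ S.al z (2*m+8) - S.al z (2*m+7) ≤ e + S.pp z (2*m+7) ∧ S.pp z (2*m+7) ≤ e ∧ 2 * (S.be z (2*m+7) - S.be z (2*m+6)) < e + S.pp z (2*m+7) ∧ (e ≤ S.pp z (2*m+7) ∨ 2 * S.pp z (2*m+7) ≤ e) :=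
    Blk.irrt (s := 2*m+6) hb hD hn
  have he1n : 0 ≤ e1 := (hb.pos (i := 1) (by omega) (by omega)).le.trans he1c
  have hetn : 0 ≤ et := (hb.pos (i := (2*m+7)) (by omega) (by omega)).le.trans hetc
  have b_0 : S.be z 1 ≤ S.be z 2 := hb.bem (i := 1) (j := 2) (by omega) (by omega)
  have b_1 : S.al z 1 ≤ S.al z 2 := hb.alm (i := 1) (j := 2) (by omega) (by omega) (by omega)
  have b_2 : S.be z 2 ≤ S.be z 3 := hb.bem (i := 2) (j := 3) (by omega) (by omega)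
  have b_3 : S.al z 2 ≤ S.al z 3 := hb.alm (i := 2) (j := 3) (by omega) (by omega) (by omega)
  have b_4 : S.be z 3 ≤ S.be z 4 := hb.bem (i := 3) (j := 4) (by omega) (by omega)
  have b_5 : S.al z 3 ≤ S.al z 4 := hb.alm (i := 3) (j := 4) (by omega) (by omega) (by omega)
  have b_6 : S.be z 4 ≤ S.be z (2*m+4) := hb.bem (i := 4) (j := (2*m+4)) (by omega) (by omega)
  have b_7 : S.al z 4 ≤ S.al z (2*m+4) := hb.alm (i := 4) (j := (2*m+4)) (by omega) (by omega) (by omega)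
  have b_8 : S.be z (2*m+4) ≤ S.be z (2*m+5) := hb.bem (i := (2*m+4)) (j := (2*m+5)) (by omega) (by omega)
  have b_9 : S.al z (2*m+4) ≤ S.al z (2*m+5) := hb.alm (i := (2*m+4)) (j := (2*m+5)) (by omega) (by omega) (by omega)
  have b_10 : S.be z (2*m+5) ≤ S.be z (2*m+6) := hb.bem (i := (2*m+5)) (j := (2*m+6)) (by omega) (by omega)
  have b_11 : S.al z (2*m+5) ≤ S.al z (2*m+6) := hb.alm (i := (2*m+5)) (j := (2*m+6)) (by omega) (by omega) (by omega)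
  have b_12 : S.be z (2*m+6) ≤ S.be z (2*m+7) := hb.bem (i := (2*m+6)) (j := (2*m+7)) (by omega) (by omega)
  have b_13 : S.al z (2*m+6) ≤ S.al z (2*m+7) := hb.alm (i := (2*m+6)) (j := (2*m+7)) (by omega) (by omega) (by omega)
  have b_14 : 0 < S.pp z 1 := hb.pos (i := 1) (by omega) (by omega)
  have b_15 : 0 < S.pp z 2 := hb.pos (i := 2) (by omega) (by omega)
  have b_16 : 0 < S.pp z 3 := hb.pos (i := 3) (by omega) (by omega)
  have b_17 : 0 < S.pp z 4 := hb.pos (i := 4) (by omega) (by omega)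
  have b_18 : 0 < S.pp z (2*m+4) := hb.pos (i := (2*m+4)) (by omega) (by omega)
  have b_19 : 0 < S.pp z (2*m+5) := hb.pos (i := (2*m+5)) (by omega) (by omega)
  have b_20 : 0 < S.pp z (2*m+6) := hb.pos (i := (2*m+6)) (by omega) (by omega)
  have b_21 : 0 < S.pp z (2*m+7) := hb.pos (i := (2*m+7)) (by omega) (by omega)
  have b_22 : S.pp z 1 ≤ e1 := he1c
  have b_23 : e1 < S.be z 1 - S.be z 0 := he1a
  have b_24 : S.be z 1 - S.be z 0 ≤ e1 + S.pp z 1 := he1b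
  have b_25 : 2 * (S.al z 2 - S.al z 1) < e1 + S.pp z 1 := he1d
  have b_26 : S.pp z (2*m+7) ≤ et := hetc
  have b_27 : et < S.al z (2*m+8) - S.al z (2*m+7) := heta
  have b_28 : S.al z (2*m+8) - S.al z (2*m+7) ≤ et + S.pp z (2*m+7) := hetb
  have b_29 : 2 * (S.be z (2*m+7) - S.be z (2*m+6)) < et + S.pp z (2*m+7) := hetd
  have z_0 : S.be z 0 ≤ S.be z 1 := hb.bem (i := 0) (j := 1) (by omega) (by omega)
  have z_1 : S.al z 1 ≤ S.al z (2*m+8) := hb.alm (i := 1) (j := (2*m+8)) (by omega) (by omega) (by omega)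
  have z_2 : 0 ≤ S.pp z 1 := (hb.pos (i := 1) (by omega) (by omega)).le
  have z_3 : S.be z 0 ≤ S.be z 2 := hb.bem (i := 0) (j := 2) (by omega) (by omega)
  have z_4 : S.al z 2 ≤ S.al z (2*m+8) := hb.alm (i := 2) (j := (2*m+8)) (by omega) (by omega) (by omega)
  have z_5 : 0 ≤ S.pp z 2 := (hb.pos (i := 2) (by omega) (by omega)).le
  have z_6 : S.be z 0 ≤ S.be z 3 := hb.bem (i := 0) (j := 3) (by omega) (by omega)
  have z_7 : S.al z 3 ≤ S.al z (2*m+8) := hb.alm (i := 3) (j := (2*m+8)) (by omega) (by omega) (by omega)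
  have z_8 : 0 ≤ S.pp z 3 := (hb.pos (i := 3) (by omega) (by omega)).le
  have z_9 : S.be z 0 ≤ S.be z 4 := hb.bem (i := 0) (j := 4) (by omega) (by omega)
  have z_10 : S.al z 4 ≤ S.al z (2*m+8) := hb.alm (i := 4) (j := (2*m+8)) (by omega) (by omega) (by omega)
  have z_11 : 0 ≤ S.pp z 4 := (hb.pos (i := 4) (by omega) (by omega)).le
  have z_12 : S.be z 0 ≤ S.be z (2*m+4) := hb.bem (i := 0) (j := (2*m+4)) (by omega) (by omega)
  have z_13 : S.al z (2*m+4) ≤ S.al z (2*m+8) := hb.alm (i := (2*m+4)) (j := (2*m+8)) (by omega) (by omega) (by omega)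
  have z_14 : 0 ≤ S.pp z (2*m+4) := (hb.pos (i := (2*m+4)) (by omega) (by omega)).le
  have z_15 : S.be z 0 ≤ S.be z (2*m+5) := hb.bem (i := 0) (j := (2*m+5)) (by omega) (by omega)
  have z_16 : S.al z (2*m+5) ≤ S.al z (2*m+8) := hb.alm (i := (2*m+5)) (j := (2*m+8)) (by omega) (by omega) (by omega)
  have z_17 : 0 ≤ S.pp z (2*m+5) := (hb.pos (i := (2*m+5)) (by omega) (by omega)).le
  have z_18 : S.be z 0 ≤ S.be z (2*m+6) := hb.bem (i := 0) (j := (2*m+6)) (by omega) (by omega)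
  have z_19 : S.al z (2*m+6) ≤ S.al z (2*m+8) := hb.alm (i := (2*m+6)) (j := (2*m+8)) (by omega) (by omega) (by omega)
  have z_20 : 0 ≤ S.pp z (2*m+6) := (hb.pos (i := (2*m+6)) (by omega) (by omega)).le
  have z_21 : S.be z 0 ≤ S.be z (2*m+7) := hb.bem (i := 0) (j := (2*m+7)) (by omega) (by omega)
  have z_22 : S.al z (2*m+7) ≤ S.al z (2*m+8) := hb.alm (i := (2*m+7)) (j := (2*m+8)) (by omega) (by omega) (by omega)
  have z_23 : 0 ≤ S.pp z (2*m+7) := (hb.pos (i := (2*m+7)) (by omega) (by omega)).le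
  have z_24 : 0 ≤ S.drop z 0 3 := hb.dnn (i := 0) (j := 3) (by omega) (by omega)
  have z_25 : 0 ≤ S.drop z 0 4 := hb.dnn (i := 0) (j := 4) (by omega) (by omega)
  have z_26 : 0 ≤ S.drop z 0 (2*m+8) := hb.dnn (i := 0) (j := (2*m+8)) (by omega) (by omega)
  have z_27 : 0 ≤ S.drop z 1 4 := hb.dnn (i := 1) (j := 4) (by omega) (by omega)
  have z_28 : 0 ≤ S.drop z (2*m+4) (2*m+7) := hb.dnn (i := (2*m+4)) (j := (2*m+7)) (by omega) (by omega)
  have z_29 : 0 ≤ S.drop z (2*m+4) (2*m+8) := hb.dnn (i := (2*m+4)) (j := (2*m+8)) (by omega) (by omega)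
  have z_30 : 0 ≤ S.drop z (2*m+5) (2*m+8) := hb.dnn (i := (2*m+5)) (j := (2*m+8)) (by omega) (by omega)
  have z_31 : 0 ≤ e1 := he1n
  have z_32 : 0 ≤ et := hetn
  have C_f_p1_1_3 : S.pp z 1 ≤ S.drop z 0 4 ∨ S.be z 1 - S.be z 0 < S.pp z 1 ∨ S.al z 4 - S.al z 1 < S.pp z 1 := hb.cl_f (i0 := 0) (j0 := 4) (i := 1) (by omega) (by omega) (by omega) (dvd_refl _)
  have C_ff_p1_p8_1_9 : S.pp z 1 + S.pp z (2*m+6) ≤ S.drop z 0 (2*m+8) ∨ S.be z 1 - S.be z 0 < S.pp z 1 ∨ S.al z (2*m+8) - S.al z (2*m+6) < S.pp z (2*m+6) ∨ S.al z (2*m+8) - S.al z 1 < S.pp z 1 + S.pp z (2*m+6) ∨ S.be z (2*m+6) - S.be z 0 < S.pp z 1 + S.pp z (2*m+6) := hb.cl_ff (i0 := 0) (j0 := (2*m+8)) (i := 1) (j := (2*m+6)) (by omega) (by omega) (by omega) (by omega) (dvd_refl _) (hb.pos (i := 1) (by omega) (by omega)).le (dvd_refl _) (hb.pos (i := (2*m+6)) (by omega) (by omega)).le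
  have C_FW_1_2 : S.be z 1 - S.al z 2 < S.pp z 1 + S.pp z 2 := hb.fw (i := 1) (j := 2) (by omega) (by omega) (by omega)
  have C_FW_3_4 : S.be z 3 - S.al z 4 < S.pp z 3 + S.pp z 4 := hb.fw (i := 3) (j := 4) (by omega) (by omega) (by omega)
  have C_FW_7_8 : S.be z (2*m+5) - S.al z (2*m+6) < S.pp z (2*m+5) + S.pp z (2*m+6) := hb.fw (i := (2*m+5)) (j := (2*m+6)) (by omega) (by omega) (by omega)
  have C_FW_8_9 : S.be z (2*m+6) - S.al z (2*m+7) < S.pp z (2*m+6) + S.pp z (2*m+7) := hb.fw (i := (2*m+6)) (j := (2*m+7)) (by omega) (by omega) (by omega)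
  have C_Ebd : S.Ex z 4 (m+1) ≤ S.be z (2*m+5) - S.al z 4 - S.pp z 4 - S.pp z (2*m+5) := hb.Ex_le' (a := 4) (m := m) (i := 2*m+5) (by omega) (by omega)
  have C_OPT_1_9_K1x23xEx89x : 2 * S.drop z 0 (2*m+8) < e1 + (S.be z 3 - S.al z 2 - S.pp z 2 - S.pp z 3) + S.Ex z 4 (m+1) + (S.be z (2*m+7) - S.al z (2*m+6) - S.pp z (2*m+6) - S.pp z (2*m+7)) := by
    have g : S.Good z 0 (2*m+8) (e1 + S.Ex z 2 (m+3)) := hb.good_K1 hA he1 he1b (m := (m+3)) (j := (2*m+8)) (by omega) (by omega)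
    have g2 := not_red hn g (by omega) (by omega)
    have : S.Ex z 2 (m+3) = (S.be z 3 - S.al z 2 - S.pp z 2 - S.pp z 3) + S.Ex z 4 (m+2) := rfl
    have : S.Ex z 4 (m+2) = S.Ex z 4 (m+1) + (S.be z (2*m+7) - S.al z (2*m+6) - S.pp z (2*m+6) - S.pp z (2*m+7)) := Ex_succ' (i := (2*m+6)) (by omega)
    linarith
  have C_gap_1_9 : S.al z (2*m+8) - S.be z 0 ≤ S.drop z 0 (2*m+8) := gap_le _ _
  have C_FW3_7_8_9 : S.be z (2*m+6) - S.al z (2*m+6) - S.pp z (2*m+6) < S.pp z (2*m+5) + S.pp z (2*m+7) ∨ S.be z (2*m+6) - S.al z (2*m+7) < S.pp z (2*m+5) + S.pp z (2*m+7) ∨ S.be z (2*m+5) - S.al z (2*m+6) < S.pp z (2*m+5) + S.pp z (2*m+7) ∨ S.be z (2*m+5) - S.al z (2*m+7) + S.pp z (2*m+6) < S.pp z (2*m+5) + S.pp z (2*m+7) := hb.cl_fw3 (i := (2*m+5)) (j := (2*m+6)) (k := (2*m+7)) (by omega) (by omega) (by omega) (by omega) (by omega)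
  have C_f_p2_1_9 : S.pp z 2 ≤ S.drop z 0 (2*m+8) ∨ S.be z 2 - S.be z 0 < S.pp z 2 ∨ S.al z (2*m+8) - S.al z 2 < S.pp z 2 := hb.cl_f (i0 := 0) (j0 := (2*m+8)) (i := 2) (by omega) (by omega) (by omega) (dvd_refl _)
  have C_ff_p2_p9_1_9 : S.pp z 2 + S.pp z (2*m+7) ≤ S.drop z 0 (2*m+8) ∨ S.be z 2 - S.be z 0 < S.pp z 2 ∨ S.al z (2*m+8) - S.al z (2*m+7) < S.pp z (2*m+7) ∨ S.al z (2*m+8) - S.al z 2 < S.pp z 2 + S.pp z (2*m+7) ∨ S.be z (2*m+7) - S.be z 0 < S.pp z 2 + S.pp z (2*m+7) := hb.cl_ff (i0 := 0) (j0 := (2*m+8)) (i := 2) (j := (2*m+7)) (by omega) (by omega) (by omega) (by omega) (dvd_refl _) (hb.pos (i := 2) (by omega) (by omega)).le (dvd_refl _) (hb.pos (i := (2*m+7)) (by omega) (by omega)).le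
  have C_FW_2_3 : S.be z 2 - S.al z 3 < S.pp z 2 + S.pp z 3 := hb.fw (i := 2) (j := 3) (by omega) (by omega) (by omega)
  have C_FW_6_7 : S.be z (2*m+4) - S.al z (2*m+5) < S.pp z (2*m+4) + S.pp z (2*m+5) := hb.fw (i := (2*m+4)) (j := (2*m+5)) (by omega) (by omega) (by omega)
  have C_Obd : S.Ex z 3 (m+1) ≤ S.be z (2*m+4) - S.al z 3 - S.pp z 3 - S.pp z (2*m+4) := hb.Ex_le' (a := 3) (m := m) (i := 2*m+4) (by omega) (by omega)
  have C_OPT_1_9_x12xOx78xKt : 2 * S.drop z 0 (2*m+8) < (S.be z 2 - S.al z 1 - S.pp z 1 - S.pp z 2) + S.Ex z 3 (m+1) + (S.be z (2*m+6) - S.al z (2*m+5) - S.pp z (2*m+5) - S.pp z (2*m+6)) + et := by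
    have g : S.Good z 0 (2*m+8) (S.Ex z 1 (m+3) + et) := hb.good_Kt hD het hetb (i := 0) (m := (m+3)) (by omega)
    have g2 := not_red hn g (by omega) (by omega)
    have : S.Ex z 1 (m+3) = (S.be z 2 - S.al z 1 - S.pp z 1 - S.pp z 2) + S.Ex z 3 (m+2) := rfl
    have : S.Ex z 3 (m+2) = S.Ex z 3 (m+1) + (S.be z (2*m+6) - S.al z (2*m+5) - S.pp z (2*m+5) - S.pp z (2*m+6)) := Ex_succ' (i := (2*m+5)) (by omega)
    linarith
  have C_ff_p3_p9_1_9 : S.pp z 3 + S.pp z (2*m+7) ≤ S.drop z 0 (2*m+8) ∨ S.be z 3 - S.be z 0 < S.pp z 3 ∨ S.al z (2*m+8) - S.al z (2*m+7) < S.pp z (2*m+7) ∨ S.al z (2*m+8) - S.al z 3 < S.pp z 3 + S.pp z (2*m+7) ∨ S.be z (2*m+7) - S.be z 0 < S.pp z 3 + S.pp z (2*m+7) := hb.cl_ff (i0 := 0) (j0 := (2*m+8)) (i := 3) (j := (2*m+7)) (by omega) (by omega) (by omega) (by omega) (dvd_refl _) (hb.pos (i := 3) (by omega) (by omega)).le (dvd_refl _) (hb.pos (i := (2*m+7)) (by omega) (by omega)).le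
  have C_f_p1_1_2 : S.pp z 1 ≤ S.drop z 0 3 ∨ S.be z 1 - S.be z 0 < S.pp z 1 ∨ S.al z 3 - S.al z 1 < S.pp z 1 := hb.cl_f (i0 := 0) (j0 := 3) (i := 1) (by omega) (by omega) (by omega) (dvd_refl _)
  have C_f_e1_1_3 : e1 ≤ S.drop z 0 4 ∨ S.be z 1 - S.be z 0 < e1 ∨ S.al z 4 - S.al z 1 < e1 := hb.cl_f (i0 := 0) (j0 := 4) (i := 1) (by omega) (by omega) (by omega) he1
  have C_fff_3 : e1 + S.pp z 3 + et ≤ S.drop z 0 (2*m+8) ∨ S.be z 3 - S.be z 0 < e1 + S.pp z 3 ∨ S.al z (2*m+8) - S.al z 3 < S.pp z 3 + et ∨ S.al z (2*m+8) - S.al z 1 < e1 + S.pp z 3 + et ∨ S.be z (2*m+7) - S.be z 0 < e1 + S.pp z 3 + et := hb.cl_fff (i := 3) (by omega) (by omega) he1 he1n he1a.le het hetn heta.le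
  have C_FW3_1_2_3 : S.be z 2 - S.al z 2 - S.pp z 2 < S.pp z 1 + S.pp z 3 ∨ S.be z 2 - S.al z 3 < S.pp z 1 + S.pp z 3 ∨ S.be z 1 - S.al z 2 < S.pp z 1 + S.pp z 3 ∨ S.be z 1 - S.al z 3 + S.pp z 2 < S.pp z 1 + S.pp z 3 := hb.cl_fw3 (i := 1) (j := 2) (k := 3) (by omega) (by omega) (by omega) (by omega) (by omega)
  have C_FW_1_3 : S.be z 1 - S.al z 3 < S.pp z 1 + S.pp z 3 := hb.fw (i := 1) (j := 3) (by omega) (by omega) (by omega)
  have C_OPT_1_3_K1x23x : 2 * S.drop z 0 4 < e1 + (S.be z 3 - S.al z 2 - S.pp z 2 - S.pp z 3) := by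
    have g : S.Good z 0 4 (e1 + S.Ex z 2 1) := hb.good_K1 hA he1 he1b (m := 1) (j := 4) (by omega) (by omega)
    have g2 := not_red hn g (by omega) (by omega)
    have : S.Ex z 2 1 = ((S.be z 3 - S.al z 2 - S.pp z 2 - S.pp z 3) + 0) := rfl
    linarith
  have C_ff_p1_et_1_9 : S.pp z 1 + et ≤ S.drop z 0 (2*m+8) ∨ S.be z 1 - S.be z 0 < S.pp z 1 ∨ S.al z (2*m+8) - S.al z (2*m+7) < et ∨ S.al z (2*m+8) - S.al z 1 < S.pp z 1 + et ∨ S.be z (2*m+7) - S.be z 0 < S.pp z 1 + et := hb.cl_ff (i0 := 0) (j0 := (2*m+8)) (i := 1) (j := (2*m+7)) (by omega) (by omega) (by omega) (by omega) (dvd_refl _) (hb.pos (i := 1) (by omega) (by omega)).le het hetn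
  have C_f_et_7_9 : et ≤ S.drop z (2*m+4) (2*m+8) ∨ S.be z (2*m+7) - S.be z (2*m+4) < et ∨ S.al z (2*m+8) - S.al z (2*m+7) < et := hb.cl_f (i0 := (2*m+4)) (j0 := (2*m+8)) (i := (2*m+7)) (by omega) (by omega) (by omega) het
  have C_FW_3_7 : S.be z 3 - S.al z (2*m+5) < S.pp z 3 + S.pp z (2*m+5) := hb.fw (i := 3) (j := (2*m+5)) (by omega) (by omega) (by omega)
  have C_OPT_7_9_x78xKt : 2 * S.drop z (2*m+4) (2*m+8) < (S.be z (2*m+6) - S.al z (2*m+5) - S.pp z (2*m+5) - S.pp z (2*m+6)) + et := by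
    have g : S.Good z (2*m+4) (2*m+8) (S.Ex z (2*m+5) 1 + et) := hb.good_Kt hD het hetb (i := (2*m+4)) (m := 1) (by omega)
    have g2 := not_red hn g (by omega) (by omega)
    have : S.Ex z (2*m+5) 1 = ((S.be z (2*m+6) - S.al z (2*m+5) - S.pp z (2*m+5) - S.pp z (2*m+6)) + 0) := rfl
    linarith
  have C_ff_p1_p7_1_9 : S.pp z 1 + S.pp z (2*m+5) ≤ S.drop z 0 (2*m+8) ∨ S.be z 1 - S.be z 0 < S.pp z 1 ∨ S.al z (2*m+8) - S.al z (2*m+5) < S.pp z (2*m+5) ∨ S.al z (2*m+8) - S.al z 1 < S.pp z 1 + S.pp z (2*m+5) ∨ S.be z (2*m+5) - S.be z 0 < S.pp z 1 + S.pp z (2*m+5) := hb.cl_ff (i0 := 0) (j0 := (2*m+8)) (i := 1) (j := (2*m+5)) (by omega) (by omega) (by omega) (by omega) (dvd_refl _) (hb.pos (i := 1) (by omega) (by omega)).le (dvd_refl _) (hb.pos (i := (2*m+5)) (by omega) (by omega)).le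
  have C_FW_7_9 : S.be z (2*m+5) - S.al z (2*m+7) < S.pp z (2*m+5) + S.pp z (2*m+7) := hb.fw (i := (2*m+5)) (j := (2*m+7)) (by omega) (by omega) (by omega)
  have C_OPT_7_8_x78x : 2 * S.drop z (2*m+4) (2*m+7) < (S.be z (2*m+6) - S.al z (2*m+5) - S.pp z (2*m+5) - S.pp z (2*m+6)) := by
    have g : S.Good z (2*m+4) (2*m+7) (S.Ex z (2*m+5) 1) := hb.good_P (i := (2*m+4)) (m := 1) (j := (2*m+7)) (by omega) (by omega)
    have g2 := not_red hn g (by omega) (by omega)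
    have : S.Ex z (2*m+5) 1 = ((S.be z (2*m+6) - S.al z (2*m+5) - S.pp z (2*m+5) - S.pp z (2*m+6)) + 0) := rfl
    linarith
  have C_FW_3_6 : S.be z 3 - S.al z (2*m+4) < S.pp z 3 + S.pp z (2*m+4) := hb.fw (i := 3) (j := (2*m+4)) (by omega) (by omega) (by omega)
  have C_FW_3_8 : S.be z 3 - S.al z (2*m+6) < S.pp z 3 + S.pp z (2*m+6) := hb.fw (i := 3) (j := (2*m+6)) (by omega) (by omega) (by omega)
  have C_FW_3_9 : S.be z 3 - S.al z (2*m+7) < S.pp z 3 + S.pp z (2*m+7) := hb.fw (i := 3) (j := (2*m+7)) (by omega) (by omega) (by omega)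
  have C_OPT_1_2_x12x : 2 * S.drop z 0 3 < (S.be z 2 - S.al z 1 - S.pp z 1 - S.pp z 2) := by
    have g : S.Good z 0 3 (S.Ex z 1 1) := hb.good_P (i := 0) (m := 1) (j := 3) (by omega) (by omega)
    have g2 := not_red hn g (by omega) (by omega)
    have : S.Ex z 1 1 = ((S.be z 2 - S.al z 1 - S.pp z 1 - S.pp z 2) + 0) := rfl
    linarith
  have C_OPT_2_3_x23x : 2 * S.drop z 1 4 < (S.be z 3 - S.al z 2 - S.pp z 2 - S.pp z 3) := by
    have g : S.Good z 1 4 (S.Ex z 2 1) := hb.good_P (i := 1) (m := 1) (j := 4) (by omega) (by omega)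
    have g2 := not_red hn g (by omega) (by omega)
    have : S.Ex z 2 1 = ((S.be z 3 - S.al z 2 - S.pp z 2 - S.pp z 3) + 0) := rfl
    linarith
  have C_f_p3_1_9 : S.pp z 3 ≤ S.drop z 0 (2*m+8) ∨ S.be z 3 - S.be z 0 < S.pp z 3 ∨ S.al z (2*m+8) - S.al z 3 < S.pp z 3 := hb.cl_f (i0 := 0) (j0 := (2*m+8)) (i := 3) (by omega) (by omega) (by omega) (dvd_refl _)
  have C_ff_p1_p3_1_9 : S.pp z 1 + S.pp z 3 ≤ S.drop z 0 (2*m+8) ∨ S.be z 1 - S.be z 0 < S.pp z 1 ∨ S.al z (2*m+8) - S.al z 3 < S.pp z 3 ∨ S.al z (2*m+8) - S.al z 1 < S.pp z 1 + S.pp z 3 ∨ S.be z 3 - S.be z 0 < S.pp z 1 + S.pp z 3 := hb.cl_ff (i0 := 0) (j0 := (2*m+8)) (i := 1) (j := 3) (by omega) (by omega) (by omega) (by omega) (dvd_refl _) (hb.pos (i := 1) (by omega) (by omega)).le (dvd_refl _) (hb.pos (i := 3) (by omega) (by omega)).le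
  have C_ff_p7_p9_1_9 : S.pp z (2*m+5) + S.pp z (2*m+7) ≤ S.drop z 0 (2*m+8) ∨ S.be z (2*m+5) - S.be z 0 < S.pp z (2*m+5) ∨ S.al z (2*m+8) - S.al z (2*m+7) < S.pp z (2*m+7) ∨ S.al z (2*m+8) - S.al z (2*m+5) < S.pp z (2*m+5) + S.pp z (2*m+7) ∨ S.be z (2*m+7) - S.be z 0 < S.pp z (2*m+5) + S.pp z (2*m+7) := hb.cl_ff (i0 := 0) (j0 := (2*m+8)) (i := (2*m+5)) (j := (2*m+7)) (by omega) (by omega) (by omega) (by omega) (dvd_refl _) (hb.pos (i := (2*m+5)) (by omega) (by omega)).le (dvd_refl _) (hb.pos (i := (2*m+7)) (by omega) (by omega)).le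
  have C_f_p9_7_9 : S.pp z (2*m+7) ≤ S.drop z (2*m+4) (2*m+8) ∨ S.be z (2*m+7) - S.be z (2*m+4) < S.pp z (2*m+7) ∨ S.al z (2*m+8) - S.al z (2*m+7) < S.pp z (2*m+7) := hb.cl_f (i0 := (2*m+4)) (j0 := (2*m+8)) (i := (2*m+7)) (by omega) (by omega) (by omega) (dvd_refl _)
  have C_f_p9_8_9 : S.pp z (2*m+7) ≤ S.drop z (2*m+5) (2*m+8) ∨ S.be z (2*m+7) - S.be z (2*m+5) < S.pp z (2*m+7) ∨ S.al z (2*m+8) - S.al z (2*m+7) < S.pp z (2*m+7) := hb.cl_f (i0 := (2*m+5)) (j0 := (2*m+8)) (i := (2*m+7)) (by omega) (by omega) (by omega) (dvd_refl _)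
  have C_FW3_1_2_7 : S.be z 2 - S.al z 2 - S.pp z 2 < S.pp z 1 + S.pp z (2*m+5) ∨ S.be z 2 - S.al z (2*m+5) < S.pp z 1 + S.pp z (2*m+5) ∨ S.be z 1 - S.al z 2 < S.pp z 1 + S.pp z (2*m+5) ∨ S.be z 1 - S.al z (2*m+5) + S.pp z 2 < S.pp z 1 + S.pp z (2*m+5) := hb.cl_fw3 (i := 1) (j := 2) (k := (2*m+5)) (by omega) (by omega) (by omega) (by omega) (by omega)
  have C_OPT_8_9_x89x : 2 * S.drop z (2*m+5) (2*m+8) < (S.be z (2*m+7) - S.al z (2*m+6) - S.pp z (2*m+6) - S.pp z (2*m+7)) := by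
    have g : S.Good z (2*m+5) (2*m+8) (S.Ex z (2*m+6) 1) := hb.good_P (i := (2*m+5)) (m := 1) (j := (2*m+8)) (by omega) (by omega)
    have g2 := not_red hn g (by omega) (by omega)
    have : S.Ex z (2*m+6) 1 = ((S.be z (2*m+7) - S.al z (2*m+6) - S.pp z (2*m+6) - S.pp z (2*m+7)) + 0) := rfl
    linarith
  have C_f_p7_1_9 : S.pp z (2*m+5) ≤ S.drop z 0 (2*m+8) ∨ S.be z (2*m+5) - S.be z 0 < S.pp z (2*m+5) ∨ S.al z (2*m+8) - S.al z (2*m+5) < S.pp z (2*m+5) := hb.cl_f (i0 := 0) (j0 := (2*m+8)) (i := (2*m+5)) (by omega) (by omega) (by omega) (dvd_refl _)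
  have C_f_p9_1_9 : S.pp z (2*m+7) ≤ S.drop z 0 (2*m+8) ∨ S.be z (2*m+7) - S.be z 0 < S.pp z (2*m+7) ∨ S.al z (2*m+8) - S.al z (2*m+7) < S.pp z (2*m+7) := hb.cl_f (i0 := 0) (j0 := (2*m+8)) (i := (2*m+7)) (by omega) (by omega) (by omega) (dvd_refl _)
  have C_FW_1_8 : S.be z 1 - S.al z (2*m+6) < S.pp z 1 + S.pp z (2*m+6) := hb.fw (i := 1) (j := (2*m+6)) (by omega) (by omega) (by omega)
  have C_ff_p1_p9_1_9 : S.pp z 1 + S.pp z (2*m+7) ≤ S.drop z 0 (2*m+8) ∨ S.be z 1 - S.be z 0 < S.pp z 1 ∨ S.al z (2*m+8) - S.al z (2*m+7) < S.pp z (2*m+7) ∨ S.al z (2*m+8) - S.al z 1 < S.pp z 1 + S.pp z (2*m+7) ∨ S.be z (2*m+7) - S.be z 0 < S.pp z 1 + S.pp z (2*m+7) := hb.cl_ff (i0 := 0) (j0 := (2*m+8)) (i := 1) (j := (2*m+7)) (by omega) (by omega) (by omega) (by omega) (dvd_refl _) (hb.pos (i := 1) (by omega) (by omega)).le (dvd_refl _) (hb.pos (i := (2*m+7)) (by omega) (by omega)).le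
  have C_g1_p7_1_9 : S.pp z (2*m+5) + e1 ≤ S.drop z 0 (2*m+8) ∨ S.be z (2*m+5) - S.be z 0 - S.pp z 1 < S.drop z 0 (2*m+8) ∨ S.al z (2*m+8) - S.al z 1 - S.pp z 1 < S.drop z 0 (2*m+8) ∨ S.al z (2*m+8) - S.al z (2*m+5) < S.pp z (2*m+5) ∨ S.be z (2*m+5) - S.be z 0 < S.pp z (2*m+5) := hb.cl_g1 (i := (2*m+5)) (j0 := (2*m+8)) (by omega) (by omega) (by omega) (dvd_refl _) (hb.pos (i := (2*m+5)) (by omega) (by omega)).le he1 he1n he1a.le
  have C_FW_4_7 : S.be z 4 - S.al z (2*m+5) < S.pp z 4 + S.pp z (2*m+5) := hb.fw (i := 4) (j := (2*m+5)) (by omega) (by omega) (by omega)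
  have C_e1mult : e1 ≤ S.pp z 1 ∨ 2 * S.pp z 1 ≤ e1 := he1m
  have C_bf_1_p2_1_9 : S.be z 2 - S.be z 0 - S.pp z 1 < S.drop z 0 (2*m+8) ∨ S.al z (2*m+8) - S.al z 2 < S.pp z 2 ∨ S.pp z 2 < S.be z 2 - S.be z 0 := hb.cl_bf (i0 := 0) (j0 := (2*m+8)) (i := 2) (j := 1) (by omega) (by omega) (by omega) (by omega) (by omega) (by omega) (dvd_refl _)
  have C_fff_7 : e1 + S.pp z (2*m+5) + et ≤ S.drop z 0 (2*m+8) ∨ S.be z (2*m+5) - S.be z 0 < e1 + S.pp z (2*m+5) ∨ S.al z (2*m+8) - S.al z (2*m+5) < S.pp z (2*m+5) + et ∨ S.al z (2*m+8) - S.al z 1 < e1 + S.pp z (2*m+5) + et ∨ S.be z (2*m+7) - S.be z 0 < e1 + S.pp z (2*m+5) + et := hb.cl_fff (i := (2*m+5)) (by omega) (by omega) he1 he1n he1a.le het hetn heta.le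
  have C_own_9_7_9 : S.be z (2*m+7) - S.be z (2*m+4) - S.pp z (2*m+7) < S.drop z (2*m+4) (2*m+8) ∨ S.al z (2*m+8) - S.al z (2*m+7) - S.pp z (2*m+7) < S.drop z (2*m+4) (2*m+8) := hb.cl_own (i0 := (2*m+4)) (j0 := (2*m+8)) (i := (2*m+7)) (by omega) (by omega) (by omega)
  have C_g1_p9_1_9 : S.pp z (2*m+7) + e1 ≤ S.drop z 0 (2*m+8) ∨ S.be z (2*m+7) - S.be z 0 - S.pp z 1 < S.drop z 0 (2*m+8) ∨ S.al z (2*m+8) - S.al z 1 - S.pp z 1 < S.drop z 0 (2*m+8) ∨ S.al z (2*m+8) - S.al z (2*m+7) < S.pp z (2*m+7) ∨ S.be z (2*m+7) - S.be z 0 < S.pp z (2*m+7) := hb.cl_g1 (i := (2*m+7)) (j0 := (2*m+8)) (by omega) (by omega) (by omega) (dvd_refl _) (hb.pos (i := (2*m+7)) (by omega) (by omega)).le he1 he1n he1a.le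
  have C_f_p8_1_9 : S.pp z (2*m+6) ≤ S.drop z 0 (2*m+8) ∨ S.be z (2*m+6) - S.be z 0 < S.pp z (2*m+6) ∨ S.al z (2*m+8) - S.al z (2*m+6) < S.pp z (2*m+6) := hb.cl_f (i0 := 0) (j0 := (2*m+8)) (i := (2*m+6)) (by omega) (by omega) (by omega) (dvd_refl _)
  have C_FW_1_7 : S.be z 1 - S.al z (2*m+5) < S.pp z 1 + S.pp z (2*m+5) := hb.fw (i := 1) (j := (2*m+5)) (by omega) (by omega) (by omega)
  have C_ff_p1_p2_1_9 : S.pp z 1 + S.pp z 2 ≤ S.drop z 0 (2*m+8) ∨ S.be z 1 - S.be z 0 < S.pp z 1 ∨ S.al z (2*m+8) - S.al z 2 < S.pp z 2 ∨ S.al z (2*m+8) - S.al z 1 < S.pp z 1 + S.pp z 2 ∨ S.be z 2 - S.be z 0 < S.pp z 1 + S.pp z 2 := hb.cl_ff (i0 := 0) (j0 := (2*m+8)) (i := 1) (j := 2) (by omega) (by omega) (by omega) (by omega) (dvd_refl _) (hb.pos (i := 1) (by omega) (by omega)).le (dvd_refl _) (hb.pos (i := 2) (by omega) (by omega)).le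
  have C_FW_1_4 : S.be z 1 - S.al z 4 < S.pp z 1 + S.pp z 4 := hb.fw (i := 1) (j := 4) (by omega) (by omega) (by omega)
  have C_FW_6_8 : S.be z (2*m+4) - S.al z (2*m+6) < S.pp z (2*m+4) + S.pp z (2*m+6) := hb.fw (i := (2*m+4)) (j := (2*m+6)) (by omega) (by omega) (by omega)
  have C_FW_2_7 : S.be z 2 - S.al z (2*m+5) < S.pp z 2 + S.pp z (2*m+5) := hb.fw (i := 2) (j := (2*m+5)) (by omega) (by omega) (by omega)
  have C_f_p1_1_9 : S.pp z 1 ≤ S.drop z 0 (2*m+8) ∨ S.be z 1 - S.be z 0 < S.pp z 1 ∨ S.al z (2*m+8) - S.al z 1 < S.pp z 1 := hb.cl_f (i0 := 0) (j0 := (2*m+8)) (i := 1) (by omega) (by omega) (by omega) (dvd_refl _)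
  have C_FW_2_9 : S.be z 2 - S.al z (2*m+7) < S.pp z 2 + S.pp z (2*m+7) := hb.fw (i := 2) (j := (2*m+7)) (by omega) (by omega) (by omega)
  have C_FW_2_4 : S.be z 2 - S.al z 4 < S.pp z 2 + S.pp z 4 := hb.fw (i := 2) (j := 4) (by omega) (by omega) (by omega)
  exact arith_od b_0 b_1 b_2 b_3 b_4 b_5 b_6 b_7 b_8 b_9 b_10 b_11 b_12 b_13 b_14 b_15 b_16 b_17 b_18 b_19 b_20 b_21 b_22 b_23 b_24 b_25 b_26 b_27 b_28 b_29 z_0 z_1 z_2 z_3 z_4 z_5 z_6 z_7 z_8 z_9 z_10 z_11 z_12 z_13 z_14 z_15 z_16 z_17 z_18 z_19 z_20 z_21 z_22 z_23 z_24 z_25 z_26 z_27 z_28 z_29 z_30 z_31 z_32 C_f_p1_1_3 C_ff_p1_p8_1_9 C_FW_1_2 C_FW_3_4 C_FW_7_8 C_FW_8_9 C_Ebd C_OPT_1_9_K1x23xEx89x C_gap_1_9 C_FW3_7_8_9 C_f_p2_1_9 C_ff_p2_p9_1_9 C_FW_2_3 C_FW_6_7 C_Obd C_OPT_1_9_x12xOx78xKt C_ff_p3_p9_1_9 C_f_p1_1_2 C_f_e1_1_3 C_fff_3 C_FW3_1_2_3 C_FW_1_3 C_OPT_1_3_K1x23x C_ff_p1_et_1_9 C_f_et_7_9 C_FW_3_7 C_OPT_7_9_x78xKt C_ff_p1_p7_1_9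 C_FW_7_9 C_OPT_7_8_x78x C_FW_3_6 C_FW_3_8 C_FW_3_9 C_OPT_1_2_x12x C_OPT_2_3_x23x C_f_p3_1_9 C_ff_p1_p3_1_9 C_ff_p7_p9_1_9 C_f_p9_7_9 C_f_p9_8_9 C_FW3_1_2_7 C_OPT_8_9_x89x C_f_p7_1_9 C_f_p9_1_9 C_FW_1_8 C_ff_p1_p9_1_9 C_g1_p7_1_9 C_FW_4_7 C_e1mult C_bf_1_p2_1_9 C_fff_7 C_own_9_7_9 C_g1_p9_1_9 C_f_p8_1_9 C_FW_1_7 C_ff_p1_p2_1_9 C_FW_1_4 C_FW_6_8 C_FW_2_7 C_f_p1_1_9 C_FW_2_9 C_FW_2_4

end Sys

end Crest.Agent.R287
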