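import Crest.Agent.R287.Top2
import Crest.Agent.R287.Top3
import Crest.Agent.R287.Top5
import Crest.Agent.R287.TopEv
import Crest.Agent.R287.TopOd

/-!
# R287: an irreducible top block does not exist
-/

set_option autoImplicit false
open Finset

namespace Crest.Agent.R287

namespace Sys

variable {S : Sys} {z : ℕ → S.E} {r : ℕ} {O : Finset ℕ}

theorem Blk.top_red {t : ℕ} (hb : S.Blk z t) (ht : 1 ≤ t) (hA : S.al z 1 < S.al z 0)
    (hD : S.be z (t + 1) < S.be z t) : S.Red z t := by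
  have h : t = 1 ∨ t = 2 ∨ t = 3 ∨ t = 5 ∨ (∃ m, t = 2 * m + 4) ∨ ∃ m, t = 2 * m + 7 := by
    rcases Nat.even_or_odd' t with ⟨k, rfl | rfl⟩
    · by_cases h2 : k = 1
      · omega
      · exact Or.inr (Or.inr (Or.inr (Or.inr (Or.inl ⟨k - 2, by omega⟩))))
    · by_cases h2 : k ≤ 2
      · omega
      · exact Or.inr (Or.inr (Or.inr (Or.inr (Or.inr ⟨k - 3, by omega⟩))))
  rcases h with rfl | rfl | rfl | rfl | ⟨m, rfl⟩ | ⟨m, rfl⟩
  · have h0 := hb.dnn (i := 0) (j := 2) (by omega) (by omega)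
    exact ⟨0, 2, by omega, by omega, (hb.top1 hA hD).mono (by omega)⟩
  · exact top_2 hb hA hD
  · exact top_3 hb hA hD
  · exact top_5 hb hA hD
  · exact top_ev m hb hA hD
  · exact top_od m hb hA hD

end Sys

end Crest.Agent.R287
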