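import Crest.Agent.R287.WDef

/-!
# R287: counting lemmas for the dual update

PLAN. `rem_perm`: induction on `A` generalizing `Ω` is awkward because `top` changes; prove instead for a general list `Ω` and a nodup list `A` such that every `a ∈ A` lies in some entry and no entry contains two
elements of `A`: erasing the first entry containing `a` does not change the first entry containing `a' ≠ a` (`List.eraseP`, `List.find?`; induction on `Ω`), and `Ω ~ top Ω a :: Ω.eraseP _`.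
`lead_unique`/`exists_lead`: the leader is the minimum of the component (`mem_bfs`, `Conn.symm`, `Conn.trans`, `Finset.min'` or `List.minimum`).
`AH_lt_lead`: fix `d₀ ∈ D`, `μ = T d₀`.  Map `a ∈ AH` to the leader of the component of `μ a ∈ D` (`g1`); `μ a` is `Out` (`μ (μ a) = a ∉ D`), so by `g2` the map is injective and misses the leader of the component of `d₀`.
Compare lengths of nodup lists through `List.toFinset_card_of_nodup` and `Finset.card_le_card_of_injOn` into `lead.toFinset.erase _`.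
-/

set_option autoImplicit false
open Crest.Agent.PTime

namespace Crest.Agent.R287

variable {V : List ℕ} {C : Ct} {R : ℕ} {Ω : List Ent} {D : List ℕ} {T : List (ℕ × Mt)} {M0 : Mt}

namespace WCnt

theorem rem_cons (Ω : List Ent) (a : ℕ) (A : List ℕ) :
    rem Ω (a :: A) = rem (Ω.eraseP fun W => decide (a ∈ W.1)) A := rfl

theorem perm_top {a : ℕ} (h : ∃ W ∈ Ω, a ∈ W.1) :
    Ω.Perm (top Ω a :: Ω.eraseP fun W => decide (a ∈ W.1)) := by
  induction Ω with
  | nil => simp at h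
  | cons W Ω ih =>
    rw [top_cons]
    by_cases h1 : a ∈ W.1
    · rw [if_pos h1, List.eraseP_cons_of_pos (by simpa using h1)]
    · rw [if_neg h1, List.eraseP_cons_of_neg (by simpa using h1)]
      obtain ⟨W', h2, h3⟩ := h
      rcases List.mem_cons.1 h2 with rfl | h2
      · exact absurd h3 h1
      · exact ((ih ⟨W', h2, h3⟩).cons W).trans (List.Perm.swap _ _ _)

theorem top_erase {a a' : ℕ} (h : ∀ W ∈ Ω, a ∈ W.1 → a' ∉ W.1) :
    top (Ω.eraseP fun W => decide (a ∈ W.1)) a' = top Ω a' := by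
  induction Ω with
  | nil => rfl
  | cons W Ω ih =>
    by_cases h1 : a ∈ W.1
    · rw [List.eraseP_cons_of_pos (by simpa using h1), top_cons,
        if_neg (h W List.mem_cons_self h1)]
    · rw [List.eraseP_cons_of_neg (by simpa using h1), top_cons, top_cons,
        ih fun W' hW' => h W' (List.mem_cons_of_mem _ hW')]

theorem rem_perm {A : List ℕ} (hA : A.Nodup) (h1 : ∀ a ∈ A, ∃ W ∈ Ω, a ∈ W.1)
    (h2 : ∀ W ∈ Ω, ∀ a ∈ A, ∀ a' ∈ A, a ∈ W.1 → a' ∈ W.1 → a = a') :
    Ω.Perm (A.map (top Ω) ++ rem Ω A) := by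
  induction A generalizing Ω with
  | nil => exact List.Perm.refl _
  | cons a A ih =>
    rw [List.nodup_cons] at hA
    have h3 : ∀ a' ∈ A, ∀ W ∈ Ω, a ∈ W.1 → a' ∉ W.1 := fun a' ha' W hW h4 h5 =>
      hA.1 (h2 W hW a List.mem_cons_self a' (List.mem_cons_of_mem _ ha') h4 h5 ▸ ha')
    have h4 := ih (Ω := Ω.eraseP fun W => decide (a ∈ W.1)) hA.2
      (fun a' ha' => by
        obtain ⟨W, hW, h5⟩ := h1 a' (List.mem_cons_of_mem _ ha')
        exact ⟨W, (List.mem_eraseP_of_neg (by simpa using fun h6 => h3 a' ha' W hW h6 h5)).2 hW, h5⟩)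
      fun W hW b hb b' hb' => h2 W (List.mem_of_mem_eraseP hW) b (List.mem_cons_of_mem _ hb) b'
        (List.mem_cons_of_mem _ hb')
    rw [List.map_congr_left fun a' ha' => top_erase (h3 a' ha')] at h4
    rw [rem_cons, List.map_cons, List.cons_append]
    exact (perm_top (h1 a List.mem_cons_self)).trans (h4.cons _)

theorem two_le {U : Finset ℕ} {ν : ℕ → ℕ} (hν : PM U ν) {W : List ℕ} (hW : ∀ x ∈ W, x ∈ U)
    (ho : ¬ Even W.toFinset.card) :
    2 ≤ ∑ v ∈ U, if (decide (v ∈ W) != decide (ν v ∈ W)) = true then 1 else 0 := by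
  have h1 : ∃ v ∈ W, ν v ∉ W := by
    by_contra h1
    push Not at h1
    refine ho (PM.even (μ := fun v => if v ∈ W then ν v else v) ⟨fun v => ?_, fun v => ?_⟩)
    · by_cases h2 : v ∈ W
      · simp only [h2, h1 v h2, if_true, hν.inv]
      · simp only [h2, if_false]
    · by_cases h2 : v ∈ W
      · simp only [h2, if_true, List.mem_toFinset, iff_true]
        exact (hν.iff v).2 (hW v h2)
      · simp [h2]
  obtain ⟨v, h2, h3⟩ := h1
  have h4 : v ≠ ν v := fun h5 => h3 (h5 ▸ h2)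
  refine le_trans ?_ (Finset.sum_le_sum_of_subset (s := {v, ν v}) ?_)
  · rw [Finset.sum_pair h4]
    simp [h2, h3, hν.inv]
  · intro x hx
    rcases Finset.mem_insert.1 hx with rfl | hx
    · exact hW _ h2
    · rw [Finset.mem_singleton.1 hx]
      exact hν.mem (hW _ h2)

theorem sum_load {U : Finset ℕ} {ν : ℕ → ℕ}
    (h : ∀ W ∈ Ω, 2 ≤ ∑ v ∈ U, if (decide (v ∈ W.1) != decide (ν v ∈ W.1)) = true then 1 else 0) :
    2 * Ω.length ≤ ∑ v ∈ U, load Ω v (ν v) := by
  unfold load
  induction Ω with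
  | nil => simp
  | cons W Ω ih =>
    have h1 := ih fun W' hW' => h W' (List.mem_cons_of_mem _ hW')
    have h2 := h W List.mem_cons_self
    simp only [List.countP_cons, Finset.sum_add_distrib, List.length_cons]
    omega

end WCnt

theorem rem_sublist (Ω : List Ent) (A : List ℕ) : (rem Ω A).Sublist Ω := by
  induction A generalizing Ω with
  | nil => exact List.Sublist.refl _
  | cons a A ih => exact (ih _).trans List.eraseP_sublist

theorem rem_perm (h : WInv V C R Ω) (hc : Cov V Ω) {A : List ℕ} (hA : A.Nodup)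
    (hAV : ∀ a ∈ A, a ∈ VH V Ω) : Ω.Perm (A.map (top Ω) ++ rem Ω A) := by
  refine WCnt.rem_perm hA (fun a ha => hc.ex (mem_VH.1 (hAV a ha)).1) fun W hW a ha a' ha' h1 h2 => ?_
  rw [← (mem_VH.1 (hAV a ha)).2, ← (mem_VH.1 (hAV a' ha')).2]
  exact lab_eq_of_mem h hc hW h1 h2

theorem mem_lead {d : ℕ} : d ∈ lead V C Ω D ↔ d ∈ D ∧ ∀ x, Conn D (EH V C Ω) d x → d ≤ x := by
  simp only [lead, List.mem_filter, List.all_eq_true, decide_eq_true_eq]
  exact and_congr_right fun hd => forall_congr' fun x => by rw [mem_bfs hd]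

theorem exists_lead {x : ℕ} (hx : x ∈ D) : ∃ d ∈ lead V C Ω D, Conn D (EH V C Ω) d x := by
  classical
  have h1 : ∃ d, Conn D (EH V C Ω) x d := ⟨x, Relation.ReflTransGen.refl⟩
  have h2 := Nat.find_spec h1
  exact ⟨Nat.find h1, mem_lead.2 ⟨h2.mem hx, fun y hy => Nat.find_min' h1 (h2.trans hy)⟩, h2.symm⟩

theorem lead_unique {d d' x : ℕ} (hd : d ∈ lead V C Ω D) (hd' : d' ∈ lead V C Ω D)
    (h : Conn D (EH V C Ω) d x) (h' : Conn D (EH V C Ω) d' x) : d = d' := by
  exact le_antisymm ((mem_lead.1 hd).2 _ (h.trans h'.symm)) ((mem_lead.1 hd').2 _ (h'.trans h.symm))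

theorem AH_lt_lead (hV : V.Nodup) (hg : GEspec (VH V Ω) (EH V C Ω) D T M0) (hD : D ≠ []) :
    (AH V C Ω D).length < (lead V C Ω D).length := by
  obtain ⟨d₀, hd₀⟩ := List.exists_mem_of_ne_nil D hD
  choose! L hL1 hL2 using fun x (hx : x ∈ D) => exists_lead (V := V) (C := C) (Ω := Ω) hx
  set μ := mt (look T d₀ []) with hμ
  have hin : ∀ a ∈ AH V C Ω D, μ a ∈ D ∧ Out D μ (μ a) := fun a ha => by
    obtain ⟨h1, h2, h3⟩ := mem_AH.1 ha
    exact ⟨hg.g1 d₀ hd₀ a h1 h2 h3, Or.inr (by rw [hμ, (hg.mat d₀ hd₀).inv]; exact h2)⟩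
  have hkey : ∀ x ∈ D, ∀ y ∈ D, Out D μ x → Out D μ y → L x = L y → x = y :=
    fun x hx y hy h1 h2 h3 => hg.g2 d₀ hd₀ x hx y hy ((hL2 x hx).symm.trans (h3 ▸ hL2 y hy)) h1 h2
  have hnd : (AH V C Ω D).Nodup := (hV.filter _).filter _
  rw [← List.toFinset_card_of_nodup hnd]
  refine lt_of_lt_of_le ?_ (List.toFinset_card_le (lead V C Ω D))
  refine lt_of_le_of_lt ?_ (Finset.card_erase_lt_of_mem (List.mem_toFinset.2 (hL1 d₀ hd₀)))
  refine Finset.card_le_card_of_injOn (fun a => L (μ a)) (fun a ha => ?_) fun a ha b hb hab => ?_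
  · have ha' : a ∈ AH V C Ω D := by simpa using ha
    obtain ⟨h1, h2⟩ := hin a ha'
    refine Finset.mem_coe.2 (Finset.mem_erase.2 ⟨fun h3 => ?_, List.mem_toFinset.2 (hL1 _ h1)⟩)
    have h4 := hkey _ h1 _ hd₀ h2 (Or.inl (hg.self d₀ hd₀)) h3
    have h5 : a = d₀ := by
      rw [← (hg.mat d₀ hd₀).inv a, ← hμ, h4]
      exact hg.self d₀ hd₀
    exact (mem_AH.1 ha').2.1 (h5 ▸ hd₀)
  · have ha' : a ∈ AH V C Ω D := by simpa using ha
    have hb' : b ∈ AH V C Ω D := by simpa using hb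
    have h4 := hkey _ (hin a ha').1 _ (hin b hb').1 (hin a ha').2 (hin b hb').2 hab
    rw [← (hg.mat d₀ hd₀).inv a, ← (hg.mat d₀ hd₀).inv b, ← hμ, h4]

/-- weak duality -/
theorem weak_dual (h : WInv V C R Ω) {ν : ℕ → ℕ} (hν : PM V.toFinset ν) :
    2 * Ω.length ≤ cost (cst C) V.toFinset ν := by
  -- `cost ≥ ∑_v load v (ν v) = ∑_{W ∈ Ω} #{v | exactly one of v, ν v in W}` and each term is `≥ 2`: `W` is odd (`WInv.pm`, `PM.even`), so some `v ∈ W` has `ν v ∉ W`
  -- (otherwise `ν` restricted to `W` would be a `PM` of `W`); `v` and `ν v` both count.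
  refine (WCnt.sum_load (U := V.toFinset) (ν := ν) fun W hW => WCnt.two_le hν
    (fun x hx => List.mem_toFinset.2 (h.sub W hW x hx)) fun he => ?_).trans
    (Finset.sum_le_sum fun v hv => h.feas v (List.mem_toFinset.1 hv) _
      (List.mem_toFinset.1 (hν.mem hv)) ((hν.iff v).2 hv).symm)
  obtain ⟨v, hv⟩ := List.exists_mem_of_ne_nil _ (h.ne W hW)
  have h1 := (h.pm W hW v hv).even
  have h2 := Finset.card_erase_add_one (List.mem_toFinset.2 hv)
  rw [← h2, Nat.even_add_one] at he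
  exact he h1

end Crest.Agent.R287
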