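import Crest.Agent.R287.GE

/-!
# R287: minimum-cost perfect matching by unit dual ascent (definitions, supernodes)

The dual solution is a list `Ω` of odd vertex sets (each of weight one, with repetitions; earlier sets contain or avoid later sets).  Each set `U` carries, for
every `v ∈ U`, a cheap perfect matching of `U - v`.  The maximal sets ("supernodes") are the first entries containing a vertex.

PLAN for the lemmas: `top` is `find?`; use `List.find?_eq_some_iff_append` (`Ω = as ++ W :: bs`, no entry of `as` contains `v`) and `List.pairwise_append`/`pairwise_cons`.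
`top_eq`: if `u ∈ (top v).1` then no earlier entry contains `u` (it would meet, hence contain, `top v`).  `sub_top`: an entry containing `v` is `top v` or later.
-/

set_option autoImplicit false
open Crest.Agent.PTime

namespace Crest.Agent.R287

abbrev Ct := List (ℕ × List (ℕ × ℕ))
abbrev Ent := List ℕ × List (ℕ × Mt)

def top (Ω : List Ent) (v : ℕ) : Ent := (Ω.find? fun W => decide (v ∈ W.1)).getD ([], [])
def lab (Ω : List Ent) (v : ℕ) : ℕ := (top Ω v).1.headD v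
def Yc (Ω : List Ent) (v : ℕ) : ℕ := Ω.countP fun W => decide (v ∈ W.1)
def load (Ω : List Ent) (u v : ℕ) : ℕ := Ω.countP fun W => decide (u ∈ W.1) != decide (v ∈ W.1)
/-- number of entries inside `U` avoiding `v` -/
def inn (Ω : List Ent) (U : Finset ℕ) (v : ℕ) : ℕ :=
  Ω.countP fun W => decide (W.1.toFinset ⊆ U ∧ v ∉ W.1)
def sing (Ω : List Ent) (v : ℕ) : ℕ := Ω.countP fun W => decide (W.1.toFinset = {v})

structure WInv (V : List ℕ) (C : Ct) (R : ℕ) (Ω : List Ent) : Prop where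
  ne : ∀ W ∈ Ω, W.1 ≠ []
  sub : ∀ W ∈ Ω, ∀ x ∈ W.1, x ∈ V
  ord : Ω.Pairwise fun W W' => (∀ x ∈ W'.1, x ∈ W.1) ∨ (∀ x ∈ W'.1, x ∉ W.1)
  feas : ∀ u ∈ V, ∀ v ∈ V, u ≠ v → load Ω u v ≤ cst C u v
  pm : ∀ W ∈ Ω, ∀ v ∈ W.1, PM (W.1.toFinset.erase v) (mt (look W.2 v []))
  cheap : ∀ W ∈ Ω, ∀ v ∈ W.1, cost (cst C) (W.1.toFinset.erase v) (mt (look W.2 v [])) ≤
    2 * inn Ω W.1.toFinset v + (W.1.toFinset.erase v).card
  sing : ∀ v ∈ V, R + V.length * R ≤ sing Ω v + Ω.length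
  small : ∀ W ∈ Ω, sz W ≤ 10 * (sz V + 1) ^ 3

/-- every vertex has a singleton entry -/
def Cov (V : List ℕ) (Ω : List Ent) : Prop := ∀ v ∈ V, ∃ W ∈ Ω, W.1.toFinset = {v}

def Sym (V : List ℕ) (C : Ct) : Prop := ∀ u ∈ V, ∀ v ∈ V, cst C u v = cst C v u

/-- almost tight edge between different supernodes -/
def elig (C : Ct) (Ω : List Ent) (u v : ℕ) : Bool :=
  decide (lab Ω u ≠ lab Ω v ∧ cst C u v ≤ Yc Ω u + Yc Ω v + 1)

def VH (V : List ℕ) (Ω : List Ent) : List ℕ := V.filter fun v => lab Ω v == v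
def EH (V : List ℕ) (C : Ct) (Ω : List Ent) : List (ℕ × ℕ) :=
  ((prs V V).filter fun q => elig C Ω q.1 q.2).map fun q => (lab Ω q.1, lab Ω q.2)

def pick (V : List ℕ) (C : Ct) (Ω : List Ent) (S S' : ℕ) : ℕ × ℕ :=
  ((prs V V).find? fun q => lab Ω q.1 == S && lab Ω q.2 == S' && elig C Ω q.1 q.2).getD (0, 0)

/-- the end in supernode `S` of the chosen edge between `S` and `S'` -/
def port (V : List ℕ) (C : Ct) (Ω : List Ent) (S S' : ℕ) : ℕ :=
  if S < S' then (pick V C Ω S S').1 else (pick V C Ω S' S).2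

/-- the vertex of the supernode `S` that is not matched inside `S` -/
def base (V : List ℕ) (C : Ct) (Ω : List Ent) (m : Mt) (v0 S : ℕ) : ℕ :=
  if v0 ∈ V ∧ lab Ω v0 = S then v0 else port V C Ω S (mt m S)

/-- expansion of a matching `m` of the supernodes in `Ss` (missing the supernode of `v0`) to a matching of vertices missing `v0` -/
def expand (V : List ℕ) (C : Ct) (Ω : List Ent) (m : Mt) (Ss : List ℕ) (v0 v : ℕ) : ℕ :=
  if v ∈ V ∧ lab Ω v ∈ Ss then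
    if v = base V C Ω m v0 (lab Ω v) then
      (if v = v0 then v else port V C Ω (mt m (lab Ω v)) (lab Ω v))
    else mt (look (top Ω v).2 (base V C Ω m v0 (lab Ω v)) []) v
  else v

/-- the union of the supernodes in `Ss` -/
def uni (V : List ℕ) (Ω : List Ent) (Ss : List ℕ) : List ℕ := V.filter fun v => decide (lab Ω v ∈ Ss)

def AH (V : List ℕ) (C : Ct) (Ω : List Ent) (D : List ℕ) : List ℕ :=
  (VH V Ω).filter fun a => decide (a ∉ D) && D.any fun d => decide (Adj (EH V C Ω) a d)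

noncomputable def lead (V : List ℕ) (C : Ct) (Ω : List Ent) (D : List ℕ) : List ℕ :=
  D.filter fun d => (bfs D (EH V C Ω) d).all fun x => decide (d ≤ x)

noncomputable def newE (V : List ℕ) (C : Ct) (Ω : List Ent) (D : List ℕ) (T : List (ℕ × Mt)) (d : ℕ) : Ent :=
  (uni V Ω (bfs D (EH V C Ω) d), tab (uni V Ω (bfs D (EH V C Ω) d)) fun v0 =>
    tab V (expand V C Ω (look T (lab Ω v0) []) (bfs D (EH V C Ω) d) v0))

def rem (Ω : List Ent) (A : List ℕ) : List Ent :=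
  A.foldl (fun Ω a => Ω.eraseP fun W => decide (a ∈ W.1)) Ω

noncomputable def upd (V : List ℕ) (C : Ct) (Ω : List Ent) (D : List ℕ) (T : List (ℕ × Mt)) : List Ent :=
  (lead V C Ω D).map (newE V C Ω D T) ++ rem Ω (AH V C Ω D)

variable {V : List ℕ} {C : Ct} {R : ℕ} {Ω : List Ent}

theorem top_cons (W : Ent) (Ω : List Ent) (v : ℕ) :
    top (W :: Ω) v = if v ∈ W.1 then W else top Ω v := by
  unfold top
  by_cases h : v ∈ W.1 <;> simp [h]

theorem top_spec {v : ℕ} (h : ∃ W ∈ Ω, v ∈ W.1) : top Ω v ∈ Ω ∧ v ∈ (top Ω v).1 := by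
  induction Ω with
  | nil => simp at h
  | cons W Ω ih =>
    rw [top_cons]
    split_ifs with h1
    · exact ⟨List.mem_cons_self, h1⟩
    · obtain ⟨W', h2, h3⟩ := h
      rcases List.mem_cons.1 h2 with rfl | h2
      · exact absurd h3 h1
      · exact ⟨List.mem_cons_of_mem _ (ih ⟨W', h2, h3⟩).1, (ih ⟨W', h2, h3⟩).2⟩

theorem Cov.ex (hc : Cov V Ω) {v : ℕ} (hv : v ∈ V) : ∃ W ∈ Ω, v ∈ W.1 := by
  obtain ⟨W, h1, h2⟩ := hc v hv
  exact ⟨W, h1, List.mem_toFinset.1 (h2 ▸ Finset.mem_singleton_self v)⟩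

theorem WDef.top_eq
    (h : Ω.Pairwise fun W W' => (∀ x ∈ W'.1, x ∈ W.1) ∨ (∀ x ∈ W'.1, x ∉ W.1)) {u v : ℕ}
    (hv : ∃ W ∈ Ω, v ∈ W.1) (hu : u ∈ (top Ω v).1) : top Ω u = top Ω v := by
  induction Ω with
  | nil => simp at hv
  | cons W Ω ih =>
    rw [List.pairwise_cons] at h
    rw [top_cons] at hu
    rw [top_cons, top_cons]
    by_cases h1 : v ∈ W.1
    · rw [if_pos h1] at hu
      rw [if_pos h1, if_pos hu]
    · rw [if_neg h1] at hu
      have hv' : ∃ W ∈ Ω, v ∈ W.1 := by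
        obtain ⟨W', h2, h3⟩ := hv
        rcases List.mem_cons.1 h2 with rfl | h2
        · exact absurd h3 h1
        · exact ⟨W', h2, h3⟩
      have h2 := top_spec hv'
      have h3 : u ∉ W.1 := (h.1 _ h2.1).elim (fun h4 => absurd (h4 v h2.2) h1) fun h4 => h4 u hu
      rw [if_neg h1, if_neg h3]
      exact ih h.2 hv' hu

theorem WDef.sub_top
    (h : Ω.Pairwise fun W W' => (∀ x ∈ W'.1, x ∈ W.1) ∨ (∀ x ∈ W'.1, x ∉ W.1)) {W : Ent}
    (hW : W ∈ Ω) {v : ℕ} (hv : v ∈ W.1) : ∀ x ∈ W.1, x ∈ (top Ω v).1 := by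
  induction Ω with
  | nil => simp at hW
  | cons W0 Ω ih =>
    rw [List.pairwise_cons] at h
    rw [top_cons]
    rcases List.mem_cons.1 hW with rfl | h2
    · rw [if_pos hv]
      exact fun _ hx => hx
    · split_ifs with h1
      · exact (h.1 W h2).elim id fun h3 => absurd h1 (h3 v hv)
      · exact ih h.2 h2

theorem WDef.headD_mem {l : List ℕ} {v : ℕ} (h : v ∈ l) (w : ℕ) : l.headD w ∈ l := by
  cases l with
  | nil => simp at h
  | cons a l => simp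

theorem WDef.headD_eq {l : List ℕ} {v : ℕ} (h : v ∈ l) (w w' : ℕ) : l.headD w = l.headD w' := by
  cases l with
  | nil => simp at h
  | cons a l => rfl

theorem WDef.load_eq {u v : ℕ} (h : ∀ W ∈ Ω, u ∈ W.1 → v ∉ W.1) :
    load Ω u v = Yc Ω u + Yc Ω v := by
  unfold load Yc
  induction Ω with
  | nil => rfl
  | cons W Ω ih =>
    have h1 := ih fun W' hW' => h W' (List.mem_cons_of_mem _ hW')
    have h2 := h W List.mem_cons_self
    simp only [List.countP_cons, h1]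
    by_cases h3 : u ∈ W.1 <;> by_cases h4 : v ∈ W.1 <;> simp [h3, h4] at h2 ⊢ <;> omega

theorem WDef.elig_symm {C : Ct} (hs : Sym V C) {u v : ℕ} (hu : u ∈ V) (hv : v ∈ V)
    (h : elig C Ω u v = true) : elig C Ω v u = true := by
  simp only [elig, decide_eq_true_eq] at h ⊢
  exact ⟨h.1.symm, by rw [hs v hv u hu]; omega⟩

theorem WDef.mem_EH {C : Ct} {S S' : ℕ} : (S, S') ∈ EH V C Ω ↔
    ∃ u ∈ V, ∃ v ∈ V, lab Ω u = S ∧ lab Ω v = S' ∧ elig C Ω u v = true := by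
  simp only [EH, List.mem_map, List.mem_filter, mem_prs, Prod.mk.injEq]
  constructor
  · rintro ⟨q, ⟨⟨h1, h2⟩, h3⟩, h4, h5⟩
    exact ⟨q.1, h1, q.2, h2, h4, h5, h3⟩
  · rintro ⟨u, h1, v, h2, h4, h5, h3⟩
    exact ⟨(u, v), ⟨⟨h1, h2⟩, h3⟩, h4, h5⟩

theorem WDef.pick_spec {C : Ct} {S S' : ℕ}
    (h : ∃ u ∈ V, ∃ v ∈ V, lab Ω u = S ∧ lab Ω v = S' ∧ elig C Ω u v = true) :
    (pick V C Ω S S').1 ∈ V ∧ (pick V C Ω S S').2 ∈ V ∧ lab Ω (pick V C Ω S S').1 = S ∧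
      lab Ω (pick V C Ω S S').2 = S' ∧ elig C Ω (pick V C Ω S S').1 (pick V C Ω S S').2 = true := by
  unfold pick
  cases hq : (prs V V).find? fun q => lab Ω q.1 == S && lab Ω q.2 == S' && elig C Ω q.1 q.2 with
  | none =>
    obtain ⟨u, h1, v, h2, h3, h4, h5⟩ := h
    exact absurd (by simp [h3, h4, h5])
      (List.find?_eq_none.1 hq (u, v) ((mem_prs _ _ _).2 ⟨h1, h2⟩))
  | some q =>
    have h1 := (mem_prs _ _ _).1 (List.mem_of_find?_eq_some hq)
    have h2 := List.find?_some hq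
    simp only [Bool.and_eq_true, beq_iff_eq] at h2
    exact ⟨h1.1, h1.2, h2.1.1, h2.1.2, h2.2⟩

theorem top_mem (hc : Cov V Ω) {v : ℕ} (hv : v ∈ V) : top Ω v ∈ Ω ∧ v ∈ (top Ω v).1 := by
  exact top_spec (hc.ex hv)

theorem top_eq (h : WInv V C R Ω) (hc : Cov V Ω) {u v : ℕ} (hv : v ∈ V) (hu : u ∈ (top Ω v).1) :
    top Ω u = top Ω v := by
  exact WDef.top_eq h.ord (hc.ex hv) hu

theorem sub_top (h : WInv V C R Ω) {W : Ent} (hW : W ∈ Ω) {v : ℕ} (hv : v ∈ W.1) :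
    ∀ x ∈ W.1, x ∈ (top Ω v).1 := by
  exact WDef.sub_top h.ord hW hv

theorem lab_mem_top (h : WInv V C R Ω) (hc : Cov V Ω) {v : ℕ} (hv : v ∈ V) : lab Ω v ∈ (top Ω v).1 := by
  exact WDef.headD_mem (top_mem hc hv).2 v

theorem lab_mem_VH (h : WInv V C R Ω) (hc : Cov V Ω) {v : ℕ} (hv : v ∈ V) : lab Ω v ∈ VH V Ω := by
  have h1 := lab_mem_top h hc hv
  simp only [VH, List.mem_filter, beq_iff_eq]
  refine ⟨h.sub _ (top_mem hc hv).1 _ h1, ?_⟩
  change (top Ω (lab Ω v)).1.headD (lab Ω v) = (top Ω v).1.headD v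
  rw [top_eq h hc hv h1]
  exact WDef.headD_eq h1 _ _

theorem mem_VH {S : ℕ} : S ∈ VH V Ω ↔ S ∈ V ∧ lab Ω S = S := by simp [VH]

theorem mem_uni {Ss : List ℕ} {v : ℕ} : v ∈ uni V Ω Ss ↔ v ∈ V ∧ lab Ω v ∈ Ss := by simp [uni]

theorem lab_eq_iff (h : WInv V C R Ω) (hc : Cov V Ω) {u v : ℕ} (hu : u ∈ V) (hv : v ∈ V) :
    lab Ω u = lab Ω v ↔ u ∈ (top Ω v).1 := by
  constructor
  · intro h1
    have h2 := top_eq h hc hu (lab_mem_top h hc hu)
    have h3 := top_eq h hc hv (lab_mem_top h hc hv)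
    rw [← h3, ← h1, h2]
    exact (top_mem hc hu).2
  · intro h1
    unfold lab
    rw [top_eq h hc hv h1]
    exact WDef.headD_eq h1 _ _

/-- every entry lies in one supernode -/
theorem lab_eq_of_mem (h : WInv V C R Ω) (hc : Cov V Ω) {W : Ent} (hW : W ∈ Ω) {u v : ℕ} (hu : u ∈ W.1)
    (hv : v ∈ W.1) : lab Ω u = lab Ω v := by
  exact (lab_eq_iff h hc (h.sub W hW u hu) (h.sub W hW v hv)).2 (sub_top h hW hv u hu)

theorem load_eq (h : WInv V C R Ω) (hc : Cov V Ω) {u v : ℕ} (hne : lab Ω u ≠ lab Ω v) :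
    load Ω u v = Yc Ω u + Yc Ω v := by
  exact WDef.load_eq fun W hW hu hv => hne (lab_eq_of_mem h hc hW hu hv)

theorem adj_EH_iff (hs : Sym V C) {S S' : ℕ} : Adj (EH V C Ω) S S' ↔
    ∃ u ∈ V, ∃ v ∈ V, lab Ω u = S ∧ lab Ω v = S' ∧ elig C Ω u v = true := by
  unfold Adj
  rw [WDef.mem_EH, WDef.mem_EH]
  constructor
  · rintro ⟨-, h1 | ⟨u, h1, v, h2, h3, h4, h5⟩⟩
    · exact h1
    · exact ⟨v, h2, u, h1, h4, h3, WDef.elig_symm hs h1 h2 h5⟩
  · intro h1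
    refine ⟨?_, Or.inl h1⟩
    obtain ⟨u, -, v, -, rfl, rfl, h5⟩ := h1
    simp only [elig, decide_eq_true_eq] at h5
    exact h5.1

theorem port_spec (hs : Sym V C) {S S' : ℕ} (h : Adj (EH V C Ω) S S') :
    port V C Ω S S' ∈ V ∧ lab Ω (port V C Ω S S') = S ∧
      cst C (port V C Ω S S') (port V C Ω S' S) ≤ Yc Ω (port V C Ω S S') + Yc Ω (port V C Ω S' S) + 1 := by
  unfold port
  rcases lt_or_gt_of_ne h.1 with h1 | h1
  · obtain ⟨h2, h3, h4, h5, h6⟩ := WDef.pick_spec ((adj_EH_iff hs).1 h)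
    rw [if_pos h1, if_neg h1.not_gt]
    simp only [elig, decide_eq_true_eq] at h6
    exact ⟨h2, h4, h6.2⟩
  · obtain ⟨h2, h3, h4, h5, h6⟩ := WDef.pick_spec ((adj_EH_iff hs).1 h.symm)
    rw [if_neg h1.not_gt, if_pos h1]
    have h7 := WDef.elig_symm hs h2 h3 h6
    simp only [elig, decide_eq_true_eq] at h7
    exact ⟨h3, h5, h7.2⟩

theorem mem_AH {D : List ℕ} {a : ℕ} :
    a ∈ AH V C Ω D ↔ a ∈ VH V Ω ∧ a ∉ D ∧ ∃ d ∈ D, Adj (EH V C Ω) a d := by
  simp [AH]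

end Crest.Agent.R287
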