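import Crest.Agent.R287.WDef

/-!
# R287: expanding a matching of supernodes

PLAN. For `S ∈ Ss` put `q S = base … S` (in `V`, `lab (q S) = S` by `port_spec`), `N S = mt (look (top S).2 (q S) [])`, a perfect matching of `(top S) - q S` (`WInv.pm`; `top v = top S` for `lab v = S`).
`expand` acts as `N S` on `(top S) - q S`, and maps `q S ↦ q (m S)` for non-special `S`.  Cost: split the sum over `U.erase v0` by `lab` (`Finset.sum_fiberwise_of_maps_to`); the fibre of `S` contributes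
`cost (N S) + [S not special] cst (q S) (q (m S))`, and `cst (q S) (q (m S)) ≤ Yc (q S) + Yc (q (m S)) + 1`; summing over the non-special `S` (`m` permutes them: `Finset.sum_bij'`/`sum_involution`-like reindexing) gives
`∑ (2 Yc (q S) + 1)`.  Finally `inn Ω (top S) (q S) + Yc (q S)` = number of entries inside `top S` (`sub_top`), and summing these counts over `S` (for the special `S` only `inn Ω (top S) v0`) gives at most
`inn Ω U v0` (each nonempty entry lies in exactly one supernode, `lab_eq_of_mem`; induction on the list `Ω` for a fixed labelling, or `List.countP` as a sum of indicators and `Finset.sum_comm`).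
-/

set_option autoImplicit false
open Crest.Agent.PTime

namespace Crest.Agent.R287

namespace WExpA

theorem sum_cnt {β : Type} (F : Finset ℕ) (sp : ℕ → Prop) [DecidablePred sp] (p q : ℕ → β → Bool)
    (r : β → Bool) (l : List β)
    (h : ∀ W ∈ l, ∑ S ∈ F, ((if p S W = true then 1 else 0) +
      if sp S then 0 else (if q S W = true then 1 else 0)) ≤ if r W = true then 1 else 0) :
    ∑ S ∈ F, (l.countP (p S) + if sp S then 0 else l.countP (q S)) ≤ l.countP r := by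
  induction l with
  | nil => simp
  | cons W l ih =>
    have h1 := ih fun W' hW' => h W' (List.mem_cons_of_mem _ hW')
    have h2 := h W List.mem_cons_self
    rw [List.countP_cons]
    refine le_trans (le_of_eq ?_) (Nat.add_le_add h1 h2)
    rw [← Finset.sum_add_distrib]
    refine Finset.sum_congr rfl fun S _ => ?_
    simp only [List.countP_cons]
    split_ifs <;> omega

variable {V : List ℕ} {C : Ct} {R : ℕ} {Ω : List Ent} {m : Mt} {Ss : List ℕ} {v0 : ℕ}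

theorem top_lab (h : WInv V C R Ω) (hc : Cov V Ω) {v : ℕ} (hv : v ∈ V) : top Ω (lab Ω v) = top Ω v :=
  top_eq h hc hv (lab_mem_top h hc hv)

theorem mem_top_iff (h : WInv V C R Ω) (hc : Cov V Ω) {S : ℕ} (hS : S ∈ VH V Ω) {v : ℕ} :
    v ∈ (top Ω S).1 ↔ v ∈ V ∧ lab Ω v = S := by
  obtain ⟨h1, h2⟩ := mem_VH.1 hS
  constructor
  · intro hv
    have hvV := h.sub _ (top_mem hc h1).1 v hv
    exact ⟨hvV, ((lab_eq_iff h hc hvV h1).2 hv).trans h2⟩
  · rintro ⟨h3, h4⟩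
    exact (lab_eq_iff h hc h3 h1).1 (h4.trans h2.symm)

theorem base_sp {S : ℕ} (hsp : v0 ∈ V ∧ lab Ω v0 = S) : base V C Ω m v0 S = v0 := by
  unfold base; rw [if_pos hsp]

theorem base_nsp {S : ℕ} (hsp : ¬ (v0 ∈ V ∧ lab Ω v0 = S)) :
    base V C Ω m v0 S = port V C Ω S (mt m S) := by
  unfold base; rw [if_neg hsp]

end WExpA

open WExpA in
theorem expand_spec {V : List ℕ} {C : Ct} {R : ℕ} {Ω : List Ent} (h : WInv V C R Ω) (hc : Cov V Ω)
    (hs : Sym V C) (m : Mt) (Ss : List ℕ) (v0 : ℕ) (hSs : ∀ S ∈ Ss, S ∈ VH V Ω)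
    (hinv : ∀ S, mt m (mt m S) = S)
    (hm : ∀ S ∈ Ss, ¬ (v0 ∈ V ∧ lab Ω v0 = S) →
      mt m S ∈ Ss ∧ ¬ (v0 ∈ V ∧ lab Ω v0 = mt m S) ∧ Adj (EH V C Ω) S (mt m S)) :
    PM ((uni V Ω Ss).toFinset.erase v0) (expand V C Ω m Ss v0) ∧
      cost (cst C) ((uni V Ω Ss).toFinset.erase v0) (expand V C Ω m Ss v0) ≤
        2 * inn Ω (uni V Ω Ss).toFinset v0 + ((uni V Ω Ss).toFinset.erase v0).card := by
  obtain ⟨q, hq⟩ : ∃ q : ℕ → ℕ, q = base V C Ω m v0 := ⟨_, rfl⟩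
  obtain ⟨e, he⟩ : ∃ e : ℕ → ℕ, e = expand V C Ω m Ss v0 := ⟨_, rfl⟩
  obtain ⟨N, hN⟩ : ∃ N : ℕ → ℕ → ℕ, N = fun S => mt (look (top Ω S).2 (q S) []) := ⟨_, rfl⟩
  rw [← he]
  have qsp : ∀ S, (v0 ∈ V ∧ lab Ω v0 = S) → q S = v0 := fun S hS => by rw [hq, base_sp hS]
  have qnsp : ∀ S, ¬ (v0 ∈ V ∧ lab Ω v0 = S) → q S = port V C Ω S (mt m S) := fun S hS => by
    rw [hq, base_nsp hS]
  have qV : ∀ S ∈ Ss, q S ∈ V ∧ lab Ω (q S) = S := by
    intro S hS
    by_cases hsp : v0 ∈ V ∧ lab Ω v0 = S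
    · rw [qsp S hsp]; exact hsp
    · rw [qnsp S hsp]
      have := port_spec hs (hm S hS hsp).2.2
      exact ⟨this.1, this.2.1⟩
  have qtop : ∀ S ∈ Ss, q S ∈ (top Ω S).1 := fun S hS => (mem_top_iff h hc (hSs S hS)).2 (qV S hS)
  have topm : ∀ S ∈ Ss, top Ω S ∈ Ω := fun S hS => (top_mem hc (mem_VH.1 (hSs S hS)).1).1
  have Npm : ∀ S ∈ Ss, PM ((top Ω S).1.toFinset.erase (q S)) (N S) := fun S hS => by
    rw [hN]; exact h.pm _ (topm S hS) _ (qtop S hS)
  have Nch : ∀ S ∈ Ss, cost (cst C) ((top Ω S).1.toFinset.erase (q S)) (N S) ≤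
      2 * inn Ω (top Ω S).1.toFinset (q S) + ((top Ω S).1.toFinset.erase (q S)).card := fun S hS => by
    rw [hN]; exact h.cheap _ (topm S hS) _ (qtop S hS)
  have memE : ∀ S ∈ Ss, ∀ v, v ∈ (top Ω S).1.toFinset.erase (q S) ↔ v ≠ q S ∧ v ∈ V ∧ lab Ω v = S := by
    intro S hS v
    rw [Finset.mem_erase, List.mem_toFinset, mem_top_iff h hc (hSs S hS)]
  have memU : ∀ v, v ∈ (uni V Ω Ss).toFinset.erase v0 ↔ v ≠ v0 ∧ v ∈ V ∧ lab Ω v ∈ Ss := by
    intro v
    rw [Finset.mem_erase, List.mem_toFinset, mem_uni]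
  have ea : ∀ v, ¬ (v ∈ V ∧ lab Ω v ∈ Ss) → e v = v := fun v hv => by
    rw [he]; unfold expand; rw [if_neg hv]
  have eb : e v0 = v0 := by
    by_cases hv : v0 ∈ V ∧ lab Ω v0 ∈ Ss
    · rw [he]; unfold expand
      rw [if_pos hv, if_pos (base_sp ⟨hv.1, rfl⟩).symm, if_pos rfl]
    · exact ea _ hv
  have qne : ∀ S ∈ Ss, ¬ (v0 ∈ V ∧ lab Ω v0 = S) → q S ≠ v0 := fun S hS hsp e1 =>
    hsp (e1 ▸ qV S hS)
  have ec : ∀ S ∈ Ss, ¬ (v0 ∈ V ∧ lab Ω v0 = S) → e (q S) = q (mt m S) := by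
    intro S hS hsp
    obtain ⟨h1, h2⟩ := qV S hS
    rw [qnsp _ (hm S hS hsp).2.1, hinv, he]
    unfold expand
    rw [h2, if_pos ⟨h1, hS⟩, ← hq, if_pos rfl, if_neg (qne S hS hsp)]
  have ed : ∀ S ∈ Ss, ∀ v ∈ (top Ω S).1.toFinset.erase (q S), e v = N S v := by
    intro S hS v hv
    obtain ⟨h1, h2, h3⟩ := (memE S hS v).1 hv
    rw [he, hN]
    unfold expand
    rw [← top_lab h hc h2, h3, if_pos ⟨h2, hS⟩, ← hq, if_neg h1]
  -- the cases for a vertex
  have cases : ∀ v, (v ∉ (uni V Ω Ss).toFinset.erase v0 ∧ e v = v) ∨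
      (v ∈ (uni V Ω Ss).toFinset.erase v0 ∧ ∃ S ∈ Ss, (¬ (v0 ∈ V ∧ lab Ω v0 = S) ∧ v = q S) ∨
        v ∈ (top Ω S).1.toFinset.erase (q S)) := by
    intro v
    by_cases hv : v ∈ (uni V Ω Ss).toFinset.erase v0
    · right
      obtain ⟨h1, h2, h3⟩ := (memU v).1 hv
      refine ⟨hv, lab Ω v, h3, ?_⟩
      by_cases h4 : v = q (lab Ω v)
      · exact Or.inl ⟨fun hsp => h1 (h4.trans (qsp _ hsp)), h4⟩
      · exact Or.inr ((memE _ h3 v).2 ⟨h4, h2, rfl⟩)
    · left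
      refine ⟨hv, ?_⟩
      by_cases h1 : v = v0
      · rw [h1, eb]
      · exact ea v fun h2 => hv ((memU v).2 ⟨h1, h2⟩)
  refine ⟨⟨fun v => ?_, fun v => ?_⟩, ?_⟩
  · rcases cases v with ⟨-, h1⟩ | ⟨-, S, hS, ⟨h1, rfl⟩ | h1⟩
    · rw [h1, h1]
    · rw [ec S hS h1, ec _ (hm S hS h1).1 (hm S hS h1).2.1, hinv]
    · rw [ed S hS v h1, ed S hS _ ((Npm S hS).mem h1), (Npm S hS).inv]
  · rcases cases v with ⟨h0, h1⟩ | ⟨h0, S, hS, ⟨h1, rfl⟩ | h1⟩
    · simp only [h1, h0, ne_eq, not_true]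
    · simp only [h0, iff_true]
      rw [ec S hS h1]
      intro e1
      have h2 := (qV _ (hm S hS h1).1).2
      rw [e1, (qV S hS).2] at h2
      exact (hm S hS h1).2.2.1 h2
    · simp only [h0, iff_true]
      rw [ed S hS v h1]
      exact ((Npm S hS).iff v).2 h1
  -- the cost
  have split : ∀ g : ℕ → ℕ, ∑ v ∈ (uni V Ω Ss).toFinset.erase v0, g v =
      ∑ S ∈ Ss.toFinset, (∑ v ∈ (top Ω S).1.toFinset.erase (q S), g v +
        if v0 ∈ V ∧ lab Ω v0 = S then 0 else g (q S)) := by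
    intro g
    rw [← Finset.sum_fiberwise_of_maps_to (s := (uni V Ω Ss).toFinset.erase v0) (t := Ss.toFinset)
      (g := lab Ω) fun v hv => List.mem_toFinset.2 ((memU v).1 hv).2.2]
    refine Finset.sum_congr rfl fun S hS => ?_
    rw [List.mem_toFinset] at hS
    split_ifs with hsp
    · rw [Nat.add_zero]
      refine Finset.sum_congr ?_ fun _ _ => rfl
      ext v
      rw [Finset.mem_filter, memU, memE S hS, qsp S hsp]
      constructor
      · rintro ⟨⟨h1, h2, -⟩, h3⟩; exact ⟨h1, h2, h3⟩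
      · rintro ⟨h1, h2, h3⟩; exact ⟨⟨h1, h2, h3 ▸ hS⟩, h3⟩
    · rw [Finset.sum_erase_add _ _ (List.mem_toFinset.2 (qtop S hS))]
      refine Finset.sum_congr ?_ fun _ _ => rfl
      ext v
      rw [Finset.mem_filter, memU, List.mem_toFinset, mem_top_iff h hc (hSs S hS)]
      constructor
      · rintro ⟨⟨-, h2, -⟩, h3⟩; exact ⟨h2, h3⟩
      · rintro ⟨h2, h3⟩; exact ⟨⟨fun e1 => hsp (e1 ▸ ⟨h2, h3⟩), h2, h3 ▸ hS⟩, h3⟩
  have reix : ∑ S ∈ Ss.toFinset, (if v0 ∈ V ∧ lab Ω v0 = S then 0 else Yc Ω (q (mt m S))) =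
      ∑ S ∈ Ss.toFinset, (if v0 ∈ V ∧ lab Ω v0 = S then 0 else Yc Ω (q S)) := by
    simp only [← ite_not (v0 ∈ V ∧ lab Ω v0 = _), ← Finset.sum_filter]
    refine Finset.sum_nbij' (mt m) (mt m) ?_ ?_ (fun S _ => hinv S) (fun S _ => hinv S) fun _ _ => rfl
    all_goals
      intro S hS
      rw [Finset.mem_filter, List.mem_toFinset] at hS ⊢
      exact ⟨(hm S hS.1 hS.2).1, (hm S hS.1 hS.2).2.1⟩
  have cnt : ∑ S ∈ Ss.toFinset, (inn Ω (top Ω S).1.toFinset (q S) +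
      if v0 ∈ V ∧ lab Ω v0 = S then 0 else Yc Ω (q S)) ≤ inn Ω (uni V Ω Ss).toFinset v0 := by
    refine sum_cnt Ss.toFinset (fun S => v0 ∈ V ∧ lab Ω v0 = S)
      (fun S (W : Ent) => decide (W.1.toFinset ⊆ (top Ω S).1.toFinset ∧ q S ∉ W.1))
      (fun S (W : Ent) => decide (q S ∈ W.1))
      (fun W : Ent => decide (W.1.toFinset ⊆ (uni V Ω Ss).toFinset ∧ v0 ∉ W.1)) Ω fun W hW => ?_
    obtain ⟨x, hx⟩ := List.exists_mem_of_ne_nil _ (h.ne W hW)
    have hz : ∀ S ∈ Ss.toFinset, S ≠ lab Ω x →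
        ((if decide (W.1.toFinset ⊆ (top Ω S).1.toFinset ∧ q S ∉ W.1) = true then 1 else 0) +
          if v0 ∈ V ∧ lab Ω v0 = S then 0 else (if decide (q S ∈ W.1) = true then 1 else 0)) = 0 := by
      intro S hS hne
      rw [List.mem_toFinset] at hS
      have h1 : ¬ W.1.toFinset ⊆ (top Ω S).1.toFinset := fun hsub =>
        hne ((mem_top_iff h hc (hSs S hS)).1 (List.mem_toFinset.1 (hsub (List.mem_toFinset.2 hx)))).2.symm
      have h2 : q S ∉ W.1 := fun hq' => hne ((qV S hS).2.symm.trans (lab_eq_of_mem h hc hW hq' hx))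
      simp only [decide_eq_true_eq]
      rw [if_neg fun h3 => h1 h3.1, if_neg h2, ite_self]
    by_cases hxS : lab Ω x ∈ Ss
    · rw [Finset.sum_eq_single_of_mem _ (List.mem_toFinset.2 hxS) hz]
      have h1 : W.1.toFinset ⊆ (uni V Ω Ss).toFinset := fun y hy => by
        rw [List.mem_toFinset] at hy ⊢
        exact mem_uni.2 ⟨h.sub W hW y hy, lab_eq_of_mem h hc hW hy hx ▸ hxS⟩
      simp only [decide_eq_true_eq]
      by_cases h2 : v0 ∈ W.1
      · have hsp : v0 ∈ V ∧ lab Ω v0 = lab Ω x := ⟨h.sub W hW _ h2, lab_eq_of_mem h hc hW h2 hx⟩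
        rw [if_pos hsp, if_neg fun h3 => h3.2 (qsp _ hsp ▸ h2)]
        exact Nat.zero_le _
      · rw [if_pos (show W.1.toFinset ⊆ (uni V Ω Ss).toFinset ∧ v0 ∉ W.1 from ⟨h1, h2⟩)]
        by_cases h3 : q (lab Ω x) ∈ W.1
        · rw [if_neg fun h4 => h4.2 h3]
          split_ifs <;> omega
        · rw [if_neg h3]
          split_ifs <;> omega
    · rw [Finset.sum_eq_zero fun S hS => hz S hS fun e1 => hxS (e1 ▸ List.mem_toFinset.1 hS)]
      exact Nat.zero_le _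
  have hcard := split fun _ => 1
  rw [← Finset.card_eq_sum_ones] at hcard
  unfold cost
  rw [split, hcard]
  refine le_trans ?_ (Nat.add_le_add_right (Nat.mul_le_mul_left 2 cnt) _)
  rw [two_mul, Finset.sum_add_distrib (f := fun S => inn Ω (top Ω S).1.toFinset (q S))]
  nth_rewrite 1 [← reix]
  simp only [← Finset.sum_add_distrib]
  refine Finset.sum_le_sum fun S hS => ?_
  rw [List.mem_toFinset] at hS
  have h1 := Nch S hS
  have h2 : ∑ v ∈ (top Ω S).1.toFinset.erase (q S), cst C v (e v) =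
      cost (cst C) ((top Ω S).1.toFinset.erase (q S)) (N S) :=
    Finset.sum_congr rfl fun v hv => by rw [ed S hS v hv]
  rw [h2, ← Finset.card_eq_sum_ones]
  split_ifs with hsp
  · omega
  · have h3 := (port_spec hs (hm S hS hsp).2.2).2.2
    have h4 : q (mt m S) = port V C Ω (mt m S) S := by rw [qnsp _ (hm S hS hsp).2.1, hinv]
    rw [← qnsp S hsp, ← h4] at h3
    rw [ec S hS hsp]
    omega

end Crest.Agent.R287
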