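import Crest.Agent.R287.WExp
import Crest.Agent.R287.WCnt

/-!
# R287: the dual update keeps the invariant

PLAN. `Ω' = new ++ rem`, `Ω ~ old ++ rem` with `old = AH.map top` (`rem_perm`, `List.Perm.countP_eq`, `List.countP_append`).  New entries are the unions `U_d` of the components of `D` (pairwise disjoint, `lead_unique`; nonempty since `d ∈ U_d`);
every old entry lies in one supernode (`lab_eq_of_mem`) so it is inside or disjoint from `U_d` (`ord`; `List.pairwise_append`, `List.Pairwise.sublist`).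
`feas`: `load' + (#old separating) = load + (#new separating)`.  Same supernode: no new entry separates.  Different supernodes: `load = Yc u + Yc v`; if not eligible `load + 2 ≤ cst` and at most two new entries separate
(at most one contains `u`, at most one `v`).  If eligible the labels are adjacent: both in `D` → same component, none separates; one in `D`, the other not → the other is in `AH`, its top entry is removed and separates, and only one new entry separates; none in `D` → none separates.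
`pm`/`cheap`: for old entries `W`: `inn Ω' W v ≥ inn Ω W v` since a removed entry `top a ⊆ W` contains `W` (`sub_top`) hence `v`.  For new entries: `expand_spec` with `m = look T (lab v0) []`, `Ss = bfs D EH d` (by `g2` every other member `S` of the component is not `Out`,
so `m S ∈ D`, adjacent, in the component, and `≠ lab v0` which is fixed); `mt_tab_eq`; `inn Ω' U v0 ≥ inn Ω U v0` since removed entries are disjoint from `U` (nonempty, labels in `AH`, not in `D`).
`sing`: at most one removed entry is `{v}` and the length grows (`AH_lt_lead`).  `small`: `sz_tab_le`, `sz_tab_self`, `sz_sublist`, `length_le_sz`.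
-/

set_option autoImplicit false
open Crest.Agent.PTime

namespace Crest.Agent.R287

namespace WUpdA

theorem countP_le_one {l : List ℕ} (hl : l.Nodup) (p : ℕ → Bool)
    (h : ∀ a ∈ l, ∀ b ∈ l, p a = true → p b = true → a = b) : l.countP p ≤ 1 := by
  induction l with
  | nil => simp
  | cons a l ih =>
    rw [List.nodup_cons] at hl
    rw [List.countP_cons]
    by_cases ha : p a = true
    · have : l.countP p = 0 := by
        rw [List.countP_eq_zero]
        intro b hb hpb
        exact hl.1 (h a (by simp) b (by simp [hb]) ha hpb ▸ hb)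
      simp [this, ha]
    · have := ih hl.2 fun a ha b hb => h a (by simp [ha]) b (by simp [hb])
      simpa [ha] using this

theorem countP_xor_le {β : Type} (l : List β) (p q : β → Bool) :
    l.countP (fun x => p x != q x) ≤ l.countP p + l.countP q := by
  induction l with
  | nil => simp
  | cons a l ih =>
    simp only [List.countP_cons]
    cases p a <;> cases q a <;> simp <;> omega

variable {V : List ℕ} {C : Ct} {R : ℕ} {Ω : List Ent} {D : List ℕ} {T : List (ℕ × Mt)} {M0 : Mt}

theorem mem_newE {d x : ℕ} (hd : d ∈ lead V C Ω D) :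
    x ∈ (newE V C Ω D T d).1 ↔ x ∈ V ∧ Conn D (EH V C Ω) d (lab Ω x) := by
  unfold newE
  rw [mem_uni, mem_bfs (mem_lead.1 hd).1]

theorem AH_nodup (hV : V.Nodup) : (AH V C Ω D).Nodup := (hV.filter _).filter _

theorem lead_nodup (hg : GEspec (VH V Ω) (EH V C Ω) D T M0) : (lead V C Ω D).Nodup :=
  hg.nodup.filter _

theorem cnt_old (hV : V.Nodup) (h : WInv V C R Ω) (hc : Cov V Ω) (p : Ent → Bool) :
    Ω.countP p = (AH V C Ω D).countP (fun a => p (top Ω a)) + (rem Ω (AH V C Ω D)).countP p := by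
  rw [(rem_perm h hc (AH_nodup (C := C) (D := D) hV) fun a ha => (mem_AH.1 ha).1).countP_eq,
    List.countP_append, List.countP_map]
  rfl

theorem cnt_new (p : Ent → Bool) :
    (upd V C Ω D T).countP p =
      (lead V C Ω D).countP (fun d => p (newE V C Ω D T d)) + (rem Ω (AH V C Ω D)).countP p := by
  unfold upd
  rw [List.countP_append, List.countP_map]
  rfl

theorem cnt_mem_le (hg : GEspec (VH V Ω) (EH V C Ω) D T M0) (x : ℕ) :
    (lead V C Ω D).countP (fun d => decide (x ∈ (newE V C Ω D T d).1)) ≤ 1 := by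
  refine countP_le_one (lead_nodup hg) _ fun a ha b hb h1 h2 => ?_
  rw [decide_eq_true_iff, mem_newE ha] at h1
  rw [decide_eq_true_iff, mem_newE hb] at h2
  exact lead_unique ha hb h1.2 h2.2

theorem cnt_mem_zero {x : ℕ} (hx : lab Ω x ∉ D) :
    (lead V C Ω D).countP (fun d => decide (x ∈ (newE V C Ω D T d).1)) = 0 := by
  rw [List.countP_eq_zero]
  intro d hd h1
  rw [decide_eq_true_iff, mem_newE hd] at h1
  exact hx (h1.2.mem (mem_lead.1 hd).1)

theorem cnt_sep_zero {u v : ℕ} (hu : u ∈ V) (hv : v ∈ V)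
    (h : ∀ d ∈ D, Conn D (EH V C Ω) d (lab Ω u) ↔ Conn D (EH V C Ω) d (lab Ω v)) :
    (lead V C Ω D).countP (fun d => decide (u ∈ (newE V C Ω D T d).1) !=
      decide (v ∈ (newE V C Ω D T d).1)) = 0 := by
  rw [List.countP_eq_zero]
  intro d hd
  have h1 : u ∈ (newE V C Ω D T d).1 ↔ v ∈ (newE V C Ω D T d).1 := by
    rw [mem_newE hd, mem_newE hd, h d (mem_lead.1 hd).1]
    simp [hu, hv]
  simp [h1]

theorem old_sep (h : WInv V C R Ω) (hc : Cov V Ω) {u v : ℕ} (hu : u ∈ V) (hv : v ∈ V)
    (hne : lab Ω u ≠ lab Ω v) (_hA : lab Ω v ∈ AH V C Ω D) :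
    u ∉ (top Ω (lab Ω v)).1 ∧ v ∈ (top Ω (lab Ω v)).1 := by
  have e : top Ω (lab Ω v) = top Ω v := top_eq h hc hv (lab_mem_top h hc hv)
  rw [e]
  exact ⟨fun hm => hne ((lab_eq_iff h hc hu hv).2 hm), (top_mem hc hv).2⟩

theorem feas (hV : V.Nodup) (h : WInv V C R Ω) (hc : Cov V Ω) (hs : Sym V C)
    (hg : GEspec (VH V Ω) (EH V C Ω) D T M0) {u v : ℕ} (hu : u ∈ V) (hv : v ∈ V) (huv : u ≠ v) :
    load (upd V C Ω D T) u v ≤ cst C u v := by
  have h0 := h.feas u hu v hv huv
  have e1 := cnt_old (D := D) hV h hc fun W => decide (u ∈ W.1) != decide (v ∈ W.1)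
  have e2 := cnt_new (V := V) (C := C) (Ω := Ω) (D := D) (T := T)
    fun W => decide (u ∈ W.1) != decide (v ∈ W.1)
  have e3 := countP_xor_le (lead V C Ω D) (fun d => decide (u ∈ (newE V C Ω D T d).1))
    (fun d => decide (v ∈ (newE V C Ω D T d).1))
  have e4 := cnt_mem_le hg u
  have e5 := cnt_mem_le hg v
  change load Ω u v = _ at e1
  change load (upd V C Ω D T) u v = _ at e2
  by_cases hl : lab Ω u = lab Ω v
  · have := cnt_sep_zero (C := C) (Ω := Ω) (D := D) (T := T) hu hv fun d _ => by rw [hl]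
    omega
  have e6 := load_eq h hc hl
  by_cases he : elig C Ω u v = true
  · have hadj : Adj (EH V C Ω) (lab Ω u) (lab Ω v) := (adj_EH_iff hs).2 ⟨u, hu, v, hv, rfl, rfl, he⟩
    by_cases huD : lab Ω u ∈ D <;> by_cases hvD : lab Ω v ∈ D
    · have hcn : Conn D (EH V C Ω) (lab Ω u) (lab Ω v) := Relation.ReflTransGen.single ⟨huD, hvD, hadj⟩
      have := cnt_sep_zero (C := C) (Ω := Ω) (D := D) (T := T) hu hv fun d _ =>
        ⟨fun h1 => h1.trans hcn, fun h1 => h1.trans hcn.symm⟩
      omega
    · have hA : lab Ω v ∈ AH V C Ω D := mem_AH.2 ⟨lab_mem_VH h hc hv, hvD, _, huD, hadj.symm⟩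
      have h1 := old_sep h hc hu hv hl hA
      have h2 : 0 < (AH V C Ω D).countP (fun a => decide (u ∈ (top Ω a).1) != decide (v ∈ (top Ω a).1)) :=
        List.countP_pos_iff.2 ⟨_, hA, by simp [h1.1, h1.2]⟩
      have h3 := cnt_mem_zero (V := V) (C := C) (T := T) hvD
      omega
    · have hA : lab Ω u ∈ AH V C Ω D := mem_AH.2 ⟨lab_mem_VH h hc hu, huD, _, hvD, hadj⟩
      have h1 := old_sep h hc hv hu (Ne.symm hl) hA
      have h2 : 0 < (AH V C Ω D).countP (fun a => decide (u ∈ (top Ω a).1) != decide (v ∈ (top Ω a).1)) :=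
        List.countP_pos_iff.2 ⟨_, hA, by simp [h1.1, h1.2]⟩
      have h3 := cnt_mem_zero (V := V) (C := C) (T := T) huD
      omega
    · have h3 := cnt_mem_zero (V := V) (C := C) (T := T) huD
      have h4 := cnt_mem_zero (V := V) (C := C) (T := T) hvD
      omega
  · have : Yc Ω u + Yc Ω v + 1 < cst C u v := by
      by_contra hc'
      exact he (decide_eq_true ⟨hl, by omega⟩)
    omega

theorem new_spec (h : WInv V C R Ω) (hc : Cov V Ω) (hs : Sym V C)
    (hg : GEspec (VH V Ω) (EH V C Ω) D T M0) {d : ℕ} (hd : d ∈ lead V C Ω D) {v0 : ℕ}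
    (hv : v0 ∈ (newE V C Ω D T d).1) :
    PM ((newE V C Ω D T d).1.toFinset.erase v0)
        (expand V C Ω (look T (lab Ω v0) []) (bfs D (EH V C Ω) d) v0) ∧
      cost (cst C) ((newE V C Ω D T d).1.toFinset.erase v0)
          (expand V C Ω (look T (lab Ω v0) []) (bfs D (EH V C Ω) d) v0) ≤
        2 * inn Ω (newE V C Ω D T d).1.toFinset v0 + ((newE V C Ω D T d).1.toFinset.erase v0).card := by
  have hdD := (mem_lead.1 hd).1
  obtain ⟨hvV, hcn⟩ := (mem_newE hd).1 hv
  have h0 : lab Ω v0 ∈ D := hcn.mem hdD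
  refine expand_spec h hc hs _ _ v0 (fun S hS => hg.sub S (((mem_bfs hdD S).1 hS).mem hdD))
    (hg.mat _ h0).inv fun S hS hne => ?_
  have hS' := (mem_bfs hdD S).1 hS
  have hSD := hS'.mem hdD
  have hne' : S ≠ lab Ω v0 := fun e => hne ⟨hvV, e.symm⟩
  have hno : ¬ Out D (mt (look T (lab Ω v0) [])) S := fun ho =>
    hne' (hg.g2 _ h0 S hSD _ h0 (hS'.symm.trans hcn) ho (Or.inl (hg.self _ h0)))
  unfold Out at hno
  push Not at hno
  have hadj := ((hg.mat _ h0).adj S hno.1).2
  refine ⟨(mem_bfs hdD _).2 (hS'.trans (Relation.ReflTransGen.single ⟨hSD, hno.2, hadj⟩)), ?_, hadj⟩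
  rintro ⟨-, e⟩
  apply hne'
  have := (hg.mat _ h0).inv S
  rw [← e, hg.self _ h0] at this
  exact this.symm

theorem look_newE {d v0 : ℕ} (hv : v0 ∈ (newE V C Ω D T d).1) :
    mt (look (newE V C Ω D T d).2 v0 []) =
      expand V C Ω (look T (lab Ω v0) []) (bfs D (EH V C Ω) d) v0 := by
  unfold newE at hv ⊢
  simp only at hv ⊢
  rw [look_tab, if_pos hv, mt_tab_eq]
  intro v hv'
  simp [expand, hv']

theorem inn_le (hV : V.Nodup) (h : WInv V C R Ω) (hc : Cov V Ω) (U : Finset ℕ) (v : ℕ)
    (hz : ∀ a ∈ AH V C Ω D, a ∈ U → v ∈ (top Ω a).1) : inn Ω U v ≤ inn (upd V C Ω D T) U v := by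
  have e1 := cnt_old (D := D) hV h hc fun W => decide (W.1.toFinset ⊆ U ∧ v ∉ W.1)
  have e2 := cnt_new (V := V) (C := C) (Ω := Ω) (D := D) (T := T)
    fun W => decide (W.1.toFinset ⊆ U ∧ v ∉ W.1)
  change inn Ω U v = _ at e1
  change inn (upd V C Ω D T) U v = _ at e2
  have : (AH V C Ω D).countP (fun a => decide ((top Ω a).1.toFinset ⊆ U ∧ v ∉ (top Ω a).1)) = 0 := by
    rw [List.countP_eq_zero]
    intro a ha h1
    rw [decide_eq_true_iff] at h1
    exact h1.2 (hz a ha (h1.1 (List.mem_toFinset.2 (top_mem hc (mem_VH.1 (mem_AH.1 ha).1).1).2)))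
  omega

theorem mem_upd {W : Ent} (hW : W ∈ upd V C Ω D T) :
    (∃ d ∈ lead V C Ω D, W = newE V C Ω D T d) ∨ W ∈ Ω := by
  unfold upd at hW
  rcases List.mem_append.1 hW with h1 | h1
  · obtain ⟨d, hd, e⟩ := List.mem_map.1 h1
    exact Or.inl ⟨d, hd, e.symm⟩
  · exact Or.inr ((rem_sublist _ _).subset h1)

theorem len_upd (hV : V.Nodup) (h : WInv V C R Ω) (hc : Cov V Ω)
    (hg : GEspec (VH V Ω) (EH V C Ω) D T M0) (hD : D ≠ []) :
    Ω.length < (upd V C Ω D T).length := by
  have e1 := (rem_perm h hc (AH_nodup (C := C) (D := D) hV) fun a ha => (mem_AH.1 ha).1).length_eq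
  have e2 := AH_lt_lead hV hg hD
  unfold upd
  rw [List.length_append, List.length_map] at e1 ⊢
  omega

end WUpdA

open WUpdA in
theorem upd_inv {V : List ℕ} {C : Ct} {R : ℕ} {Ω : List Ent} {D : List ℕ} {T : List (ℕ × Mt)} {M0 : Mt}
    (hV : V.Nodup) (h : WInv V C R Ω) (hc : Cov V Ω) (hs : Sym V C)
    (hg : GEspec (VH V Ω) (EH V C Ω) D T M0) (hD : D ≠ []) :
    WInv V C R (upd V C Ω D T) ∧ Ω.length < (upd V C Ω D T).length := by
  have hlen := len_upd hV h hc hg hD
  refine ⟨⟨fun W hW => ?_, fun W hW => ?_, ?_, fun u hu v hv huv => feas hV h hc hs hg hu hv huv,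
    fun W hW v hv => ?_, fun W hW v hv => ?_, fun v hv => ?_, fun W hW => ?_⟩, hlen⟩
  · rcases mem_upd hW with ⟨d, hd, rfl⟩ | h1
    · have h1 := mem_VH.1 (hg.sub d (mem_lead.1 hd).1)
      refine List.ne_nil_of_mem ((mem_newE hd).2 ⟨h1.1, ?_⟩)
      rw [h1.2]
      exact Relation.ReflTransGen.refl
    · exact h.ne W h1
  · rcases mem_upd hW with ⟨d, hd, rfl⟩ | h1
    · exact fun x hx => ((mem_newE hd).1 hx).1
    · exact h.sub W h1
  · unfold upd
    rw [List.pairwise_append]
    refine ⟨?_, h.ord.sublist (rem_sublist _ _), fun W hW W' hW' => ?_⟩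
    · rw [List.pairwise_map]
      refine List.Pairwise.imp_of_mem (fun {a b} ha hb hab => Or.inr fun x hx hx' => hab ?_) (lead_nodup hg)
      exact lead_unique ha hb ((mem_newE ha).1 hx').2 ((mem_newE hb).1 hx).2
    · obtain ⟨d, hd, rfl⟩ := List.mem_map.1 hW
      have h1 := (rem_sublist _ _).subset hW'
      by_cases hx : ∃ x ∈ W'.1, x ∈ (newE V C Ω D T d).1
      · obtain ⟨x, hx, hx'⟩ := hx
        refine Or.inl fun y hy => (mem_newE hd).2 ⟨h.sub W' h1 y hy, ?_⟩
        rw [lab_eq_of_mem h hc h1 hy hx]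
        exact ((mem_newE hd).1 hx').2
      · push Not at hx
        exact Or.inr hx
  · rcases mem_upd hW with ⟨d, hd, rfl⟩ | h1
    · rw [look_newE hv]
      exact (new_spec h hc hs hg hd hv).1
    · exact h.pm W h1 v hv
  · rcases mem_upd hW with ⟨d, hd, rfl⟩ | h1
    · rw [look_newE hv]
      have h1 := (new_spec h hc hs hg hd hv).2
      have h2 := inn_le (D := D) (T := T) hV h hc (newE V C Ω D T d).1.toFinset v fun a ha haU => by
        have h3 := mem_AH.1 ha
        have h4 := ((mem_newE hd).1 (List.mem_toFinset.1 haU)).2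
        rw [(mem_VH.1 h3.1).2] at h4
        exact absurd (h4.mem (mem_lead.1 hd).1) h3.2.1
      omega
    · have h2 := h.cheap W h1 v hv
      have h3 := inn_le (D := D) (T := T) hV h hc W.1.toFinset v fun a _ haU =>
        sub_top h h1 (List.mem_toFinset.1 haU) v hv
      omega
  · have h1 := h.sing v hv
    have e1 := cnt_old (D := D) hV h hc fun W => decide (W.1.toFinset = {v})
    have e2 := cnt_new (V := V) (C := C) (Ω := Ω) (D := D) (T := T) fun W => decide (W.1.toFinset = {v})
    change sing Ω v = _ at e1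
    change sing (upd V C Ω D T) v = _ at e2
    have : (AH V C Ω D).countP (fun a => decide ((top Ω a).1.toFinset = {v})) ≤ 1 := by
      have key : ∀ a ∈ AH V C Ω D, decide ((top Ω a).1.toFinset = {v}) = true → a = v := by
        intro a ha h2
        rw [decide_eq_true_iff] at h2
        have := List.mem_toFinset.2 (top_mem hc (mem_VH.1 (mem_AH.1 ha).1).1).2
        rwa [h2, Finset.mem_singleton] at this
      exact countP_le_one (AH_nodup hV) _ fun a ha b hb h2 h3 => (key a ha h2).trans (key b hb h3).symm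
    omega
  · rcases mem_upd hW with ⟨d, hd, rfl⟩ | h1
    · have hsub : (uni V Ω (bfs D (EH V C Ω) d)).Sublist V := List.filter_sublist
      have h1 := sz_sublist hsub
      have h2 := hsub.length_le.trans (length_le_sz V)
      have h3 := sz_tab_le (uni V Ω (bfs D (EH V C Ω) d))
        (fun v0 => tab V (expand V C Ω (look T (lab Ω v0) []) (bfs D (EH V C Ω) d) v0))
        (sz V * (2 * sz V + 2) + 1) fun v0 hv0 => sz_tab_self V _ fun v hv => by
          have hp := (new_spec h hc hs hg hd (T := T) hv0).1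
          by_cases hm : v ∈ (newE V C Ω D T d).1.toFinset.erase v0
          · exact ((mem_newE hd).1 (List.mem_toFinset.1 (Finset.mem_of_mem_erase (hp.mem hm)))).1
          · rw [← hp.iff, not_not] at hm
            rwa [hm]
      have h4 : (uni V Ω (bfs D (EH V C Ω) d)).length *
          (sz (uni V Ω (bfs D (EH V C Ω) d)) + (sz V * (2 * sz V + 2) + 1) + 2) ≤
          sz V * (sz V + (sz V * (2 * sz V + 2) + 1) + 2) := Nat.mul_le_mul h2 (by omega)
      unfold newE
      rw [sz_pair]
      nlinarith [Nat.zero_le (sz V), Nat.zero_le (sz V ^ 2), Nat.zero_le (sz V ^ 3)]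
    · exact h.small W h1

end Crest.Agent.R287
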