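import Crest.Agent.R287.MDef

/-!
# R287: Gallai's walk of one matching `Q` towards another matching `P`, protecting a vertex `c`

PLAN. `exists_loop` with input `((V,E),Q,P,c)`, `Pre` = both are matchings, state `R : Mt` (initially `tab V (mt Q)`),
`Done` = no `v ∈ V` with `v ≠ c`, `mt R v = v`, `mt P v ≠ v`.  Step: take the first such `v`, `w = mt P v`, and put
`R := linkT V (unlinkT V R w) v w` (if `R` fixes `w` this is an augmentation: the number of fixed points drops by 2;
otherwise it stays the same and the newly missed vertex is `mt R w`; `c` can only get matched in an augmentation).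
Potential: number of `x ∈ V` with `mt R x = mt P x` (`v`,`w` start to agree; `x = mt R w ≠ w` did not agree before since
`mt P w = v ≠ x`), at most `V.length`.  Invariant: `R` is `tab V _` of a matching (size: `IsMat.sz_tab`), common fixed points
of `Q`, `P` stay fixed, and the last disjunction of the statement (parity: the count only drops by 2).
-/

set_option autoImplicit false
open Crest.Agent.PTime

namespace Crest.Agent.R287

namespace WalkA

/-- the next vertex -/
def nx (V : List ℕ) (P R : Mt) (c : ℕ) : Option ℕ :=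
  V.find? fun v => decide (v ≠ c) && decide (mt R v = v) && decide (mt P v ≠ v)

theorem PT_nx {α : Type} [Enc α] {V : α → List ℕ} {P R : α → Mt} {c : α → ℕ}
    (hV : PT V) (hP : PT P) (hR : PT R) (hc : PT c) : PT (fun a => nx (V a) (P a) (R a) (c a)) := by
  unfold nx; fun_prop

theorem nx_some {V : List ℕ} {P R : Mt} {c v : ℕ} (h : nx V P R c = some v) :
    v ∈ V ∧ v ≠ c ∧ mt R v = v ∧ mt P v ≠ v := by
  have h1 := List.mem_of_find?_eq_some h
  have h2 := List.find?_some h
  simp only [Bool.and_eq_true, decide_eq_true_eq] at h2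
  exact ⟨h1, h2.1.1, h2.1.2, h2.2⟩

theorem nx_none {V : List ℕ} {P R : Mt} {c : ℕ} (h : nx V P R c = none) {v : ℕ} (hv : v ∈ V)
    (hR : mt R v = v) : mt P v = v ∨ v = c := by
  have h1 := List.find?_eq_none.1 h v hv
  by_contra hn
  rw [not_or] at hn
  exact h1 (by simp [hn.1, hn.2, hR])

/-- one step -/
def st (V : List ℕ) (P R : Mt) (v : ℕ) : Mt := linkT V (unlinkT V R (mt P v)) v (mt P v)

/-- loop invariant -/
def Inv (V : List ℕ) (E : List (ℕ × ℕ)) (Q P : Mt) (c : ℕ) (R : Mt) : Prop :=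
  IsMat V E (mt R) ∧ sz R ≤ sz V * (2 * sz V + 2) + 1 ∧
    (∀ v, mt Q v = v → mt P v = v → mt R v = v) ∧
    ((Fx V (mt R)).card + 2 ≤ (Fx V (mt Q)).card ∨
      ((Fx V (mt R)).card = (Fx V (mt Q)).card ∧ (mt Q c = c → mt R c = c)))

/-- potential -/
def pot (V : List ℕ) (P R : Mt) : ℕ := (V.toFinset.filter fun x => mt R x = mt P x).card

theorem pot_le (V : List ℕ) (P R : Mt) : pot V P R ≤ V.length :=
  (Finset.card_filter_le _ _).trans (List.toFinset_card_le V)

theorem Inv.step {V : List ℕ} {E : List (ℕ × ℕ)} {Q P : Mt} {c : ℕ} {R : Mt}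
    (hP : IsMat V E (mt P)) (h : Inv V E Q P c R) {v : ℕ} (hv : nx V P R c = some v) :
    Inv V E Q P c (st V P R v) ∧ pot V P R < pot V P (st V P R v) := by
  obtain ⟨h1, -, h3, h4⟩ := h
  obtain ⟨k1, k2, k3, k4⟩ := nx_some hv
  set w := mt P v with hw
  have hwV : w ∈ V := hP.mem k1
  have hadj : Adj E v w := (hP.adj v k4).2
  have hPw : mt P w = v := hP.inv v
  have e1 : mt (unlinkT V R w) = unlink (mt R) w := mt_unlinkT h1 w
  have hν : IsMat V E (unlink (mt R) w) := by
    by_cases hf : mt R w = w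
    · rwa [unlink_of_fix hf]
    · exact (h1.unlink hf).1
  have hfix : ∀ x, mt R x = x → unlink (mt R) w x = x := fun x hx => by
    unfold unlink; split_ifs
    · rfl
    · exact hx
  have hνw : unlink (mt R) w w = w := by simp [unlink]
  have e2 : mt (st V P R v) = link (unlink (mt R) w) v w := by
    rw [st, ← hw, mt_linkT (E := E) (by rwa [e1]) k1 hwV, e1]
  obtain ⟨l1, -, l3⟩ := hν.link k1 hwV (hfix v k3) hνw hadj
  have hlink : ∀ x, x ≠ v → x ≠ w → link (unlink (mt R) w) v w x = unlink (mt R) w x :=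
    fun x a b => by simp [link, a, b]
  refine ⟨⟨by rwa [e2], ?_, fun x a b => ?_, ?_⟩, ?_⟩
  · have := l1.sz_tab
    rwa [st, ← hw, linkT, e1]
  · have a1 : x ≠ v := fun e => k4 (by rw [hw, ← e, b])
    have a2 : x ≠ w := fun e => a1 (by rw [← hPw, ← e, b])
    rw [e2, hlink x a1 a2]
    exact hfix x (h3 x a b)
  · rw [e2]
    by_cases hf : mt R w = w
    · left
      rw [l3, unlink_of_fix hf]
      omega
    · have l4 := (h1.unlink hf).2.2
      rcases h4 with h4 | ⟨h4, h5⟩
      · left; omega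
      · refine Or.inr ⟨by omega, fun hc => ?_⟩
        have a2 : c ≠ w := fun e => hf (by rw [← e]; exact h5 hc)
        rw [hlink c k2.symm a2]
        exact hfix c (h5 hc)
  · refine Finset.card_lt_card ⟨fun x hx => ?_, fun hs => ?_⟩
    · rw [Finset.mem_filter] at hx ⊢
      refine ⟨hx.1, ?_⟩
      rw [e2]
      by_cases a1 : x = v
      · rw [a1]; simp [link, hw]
      · by_cases a2 : x = w
        · rw [a2, hPw]; simp [link, k4]
        · rw [hlink x a1 a2, ← hx.2]
          have a3 : x ≠ mt R w := fun e => a1 (by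
            have := hx.2
            rw [e, h1.inv, ← e] at this
            rw [← hPw, this, hP.inv])
          simp [unlink, a2, a3]
    · have : v ∈ V.toFinset.filter fun x => mt (st V P R v) x = mt P x := by
        rw [Finset.mem_filter, e2]
        exact ⟨List.mem_toFinset.2 k1, by simp [link, hw]⟩
      have := (Finset.mem_filter.1 (hs this)).2
      exact k4 (by rw [hw, ← this, k3])

end WalkA

open WalkA in
theorem exists_walk : ∃ f : Gr × Mt × Mt × ℕ → Mt, PT f ∧
    ∀ (V : List ℕ) (E : List (ℕ × ℕ)) (Q P : Mt) (c : ℕ), IsMat V E (mt Q) → IsMat V E (mt P) →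
      IsMat V E (mt (f ((V, E), Q, P, c))) ∧
      (∀ v, mt Q v = v → mt P v = v → mt (f ((V, E), Q, P, c)) v = v) ∧
      (∀ v ∈ V, mt (f ((V, E), Q, P, c)) v = v → mt P v = v ∨ v = c) ∧
      ((Fx V (mt (f ((V, E), Q, P, c)))).card + 2 ≤ (Fx V (mt Q)).card ∨
        ((Fx V (mt (f ((V, E), Q, P, c)))).card = (Fx V (mt Q)).card ∧
          (mt Q c = c → mt (f ((V, E), Q, P, c)) c = c))) := by
  refine (exists_loop (α := Gr × Mt × Mt × ℕ) (σ := Mt)
    (fun a => IsMat a.1.1 a.1.2 (mt a.2.1) ∧ IsMat a.1.1 a.1.2 (mt a.2.2.1))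
    (fun a R => Inv a.1.1 a.1.2 a.2.1 a.2.2.1 a.2.2.2 R)
    (fun a R => (nx a.1.1 a.2.2.1 R a.2.2.2).isNone = true) (fun a => tab a.1.1 (mt a.2.1))
    (fun a R => (nx a.1.1 a.2.2.1 R a.2.2.2).elim R (st a.1.1 a.2.2.1 R))
    (fun a R => pot a.1.1 a.2.2.1 R) (fun a => a.1.1.length)
    (fun a => sz a.1.1 * (2 * sz a.1.1 + 2) + 1) (by fun_prop)
    (PT.option_elim (PT_nx (by fun_prop) (by fun_prop) (by fun_prop) (by fun_prop)) (by fun_prop)
      (by unfold st; fun_prop))
    ((PT_nx (by fun_prop) (by fun_prop) (by fun_prop) (by fun_prop)).isNone.of_decide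
      fun _ => Iff.rfl)
    (by fun_prop) (by fun_prop) ?_ ?_ (fun a s _ _ => pot_le _ _ _) (fun a s _ h => h.2.1)).imp ?_
  · intro a ha
    refine ⟨?_, ha.1.sz_tab, ?_, ?_⟩ <;> rw [ha.1.mt_tab]
    · exact ha.1
    · exact fun v h _ => h
    · exact Or.inr ⟨rfl, id⟩
  · intro a R ha h hd
    obtain ⟨x, hx⟩ : ∃ x, nx a.1.1 a.2.2.1 R a.2.2.2 = some x := by
      cases h' : nx a.1.1 a.2.2.1 R a.2.2.2 with
      | none => simp [h'] at hd
      | some x => exact ⟨x, rfl⟩
    simp only [hx, Option.elim_some]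
    exact ⟨(h.step ha.2 hx).1, Or.inr (h.step ha.2 hx).2⟩
  · rintro f ⟨hf, H⟩
    refine ⟨hf, fun V E Q P c hQ hP => ?_⟩
    obtain ⟨⟨h1, -, h3, h4⟩, h5⟩ := H ((V, E), Q, P, c) ⟨hQ, hP⟩
    exact ⟨h1, h3, fun v hv hR => nx_none (Option.isNone_iff_eq_none.1 h5) hv hR, h4⟩

noncomputable def walk (V : List ℕ) (E : List (ℕ × ℕ)) (Q P : Mt) (c : ℕ) : Mt :=
  Classical.choose exists_walk ((V, E), Q, P, c)

@[fun_prop] theorem PT.walk {α : Type} [Enc α] {V : α → List ℕ} {E : α → List (ℕ × ℕ)} {Q P : α → Mt}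
    {c : α → ℕ} (hV : PT V) (hE : PT E) (hQ : PT Q) (hP : PT P) (hc : PT c) :
    PT (fun a => walk (V a) (E a) (Q a) (P a) (c a)) :=
  (Classical.choose_spec exists_walk).1.comp (g := fun a => ((V a, E a), Q a, P a, c a)) (by fun_prop)

theorem walk_spec {V : List ℕ} {E : List (ℕ × ℕ)} {Q P : Mt} (c : ℕ) (hQ : IsMat V E (mt Q))
    (hP : IsMat V E (mt P)) :
    IsMat V E (mt (walk V E Q P c)) ∧
      (∀ v, mt Q v = v → mt P v = v → mt (walk V E Q P c) v = v) ∧
      (∀ v ∈ V, mt (walk V E Q P c) v = v → mt P v = v ∨ v = c) ∧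
      ((Fx V (mt (walk V E Q P c))).card + 2 ≤ (Fx V (mt Q)).card ∨
        ((Fx V (mt (walk V E Q P c))).card = (Fx V (mt Q)).card ∧
          (mt Q c = c → mt (walk V E Q P c) c = c))) :=
  (Classical.choose_spec exists_walk).2 V E Q P c hQ hP

end Crest.Agent.R287
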