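import Crest.Agent.R287.Walk

/-!
# R287: Lovász–Plummer, an edge of `M` between an outside neighbour `x` of `D` and a vertex outside `D` gives progress

PLAN. `y = M x ∉ D`; `M x ≠ x`, `N x ≠ x` as `x ∉ D` (fixed points lie in `D`; `x ∈ V`).  `P = unlink M x`, `Q = unlink N x`, both with `f+2`
fixed points, `R = walk V E P Q y` (walk `P` towards `Q`, protect `y`); `R` fixes `x`.  If `|Fx R| ≤ f`: `R` wins (it misses `x ∉ D`).  Else
`|Fx R| = f+2`, `R y = y`, `Fx R ⊆ Fx N ∪ {x, N x, y}`.  If `R z = z`, link `z,x` (misses `y`, `y ≠ z` as `z ∈ D`).  Otherwise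
`Fx R ⊆ (Fx N).erase z ∪ {x, N x, y}` forces by counting `N x ≠ y` and `R (N x) = N x`; link `N x, x`.
-/

set_option autoImplicit false
open Crest.Agent.PTime

namespace Crest.Agent.R287

noncomputable def win1 (V : List ℕ) (E : List (ℕ × ℕ)) (M N : Mt) (x z : ℕ) : Mt :=
  if nfx V (walk V E (unlinkT V M x) (unlinkT V N x) (mt M x)) ≤ nfx V M then
    walk V E (unlinkT V M x) (unlinkT V N x) (mt M x)
  else if mt (walk V E (unlinkT V M x) (unlinkT V N x) (mt M x)) z = z then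
    linkT V (walk V E (unlinkT V M x) (unlinkT V N x) (mt M x)) z x
  else linkT V (walk V E (unlinkT V M x) (unlinkT V N x) (mt M x)) (mt N x) x

@[fun_prop] theorem PT.win1 {α : Type} [Enc α] {V : α → List ℕ} {E : α → List (ℕ × ℕ)} {M N : α → Mt}
    {x z : α → ℕ} (hV : PT V) (hE : PT E) (hM : PT M) (hN : PT N) (hx : PT x) (hz : PT z) :
    PT (fun a => win1 (V a) (E a) (M a) (N a) (x a) (z a)) := by
  unfold R287.win1; fun_prop

theorem win1_spec {V : List ℕ} {E : List (ℕ × ℕ)} {f : ℕ} {D : List ℕ} {M N : Mt} {x z : ℕ}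
    (hV : V.Nodup) (hM : InR V E f D (mt M)) (hN : InR V E f D (mt N)) (hz : z ∈ D) (hzV : z ∈ V)
    (hNz : mt N z = z) (hx : x ∈ V) (hxD : x ∉ D) (hxz : Adj E x z) (hy : mt M x ∉ D) :
    Win V E f D (mt (win1 V E M N x z)) := by
  obtain ⟨hM1, hM2, hM3⟩ := hM
  obtain ⟨hN1, hN2, hN3⟩ := hN
  have hxM : mt M x ≠ x := fun e => hxD (hM3 x (mem_Fx.mpr ⟨hx, e⟩))
  have hxN : mt N x ≠ x := fun e => hxD (hN3 x (mem_Fx.mpr ⟨hx, e⟩))
  obtain ⟨q1, q2, q3⟩ := hM1.unlink hxM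
  obtain ⟨p1, p2, p3⟩ := hN1.unlink hxN
  rw [← mt_unlinkT hM1] at q1 q2 q3
  rw [← mt_unlinkT hN1] at p1 p2 p3
  obtain ⟨r1, r2, r3, r4⟩ := walk_spec (mt M x) q1 p1
  unfold win1
  set R := walk V E (unlinkT V M x) (unlinkT V N x) (mt M x) with hR
  have hyV : mt M x ∈ V := hM1.mem hx
  have hRx : mt R x = x := r2 x (mem_Fx.mp (q2 ▸ Finset.mem_insert_self _ _)).2
    (mem_Fx.mp (p2 ▸ Finset.mem_insert_self _ _)).2
  rw [← card_Fx_eq hV, ← card_Fx_eq hV, hM2]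
  split_ifs with h1 h2
  · refine ⟨r1, ?_⟩
    rcases lt_or_eq_of_le h1 with h | h
    · exact Or.inl h
    · exact Or.inr ⟨h, x, mem_Fx.mpr ⟨hx, hRx⟩, hxD⟩
  all_goals
    obtain ⟨r5, r6⟩ := r4.resolve_left (by omega)
    have hRy : mt R (mt M x) = mt M x :=
      r6 (mem_Fx.mp (q2 ▸ Finset.mem_insert_of_mem (Finset.mem_insert_self _ _))).2
  · obtain ⟨l1, l2, l3⟩ := r1.link hzV hx h2 hRx hxz.symm
    rw [mt_linkT r1 hzV hx]
    refine ⟨l1, Or.inr ⟨by omega, mt M x, ?_, hy⟩⟩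
    rw [l2]
    exact Finset.mem_erase.mpr ⟨hxM, Finset.mem_erase.mpr ⟨fun e => hy (e ▸ hz), mem_Fx.mpr ⟨hyV, hRy⟩⟩⟩
  · have hzF : z ∈ Fx V (mt N) := mem_Fx.mpr ⟨hzV, hNz⟩
    have key : mt R (mt N x) = mt N x ∧ mt M x ≠ mt N x := by
      by_contra hc
      have hsub : Fx V (mt R) ⊆ insert (mt M x) (insert x ((Fx V (mt N)).erase z)) := by
        intro v hv
        obtain ⟨hvV, hv'⟩ := mem_Fx.mp hv
        rcases r3 v hvV hv' with h | h
        · have h3 : v ∈ Fx V (mt (unlinkT V N x)) := mem_Fx.mpr ⟨hvV, h⟩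
          rw [p2] at h3
          simp only [Finset.mem_insert, Finset.mem_erase] at h3 ⊢
          rcases h3 with h3 | h3 | h3
          · exact Or.inr (Or.inl h3)
          · subst h3
            left
            by_contra h4
            exact hc ⟨hv', fun e => h4 e.symm⟩
          · exact Or.inr (Or.inr ⟨fun e => h2 (e ▸ hv'), h3⟩)
        · exact h ▸ Finset.mem_insert_self _ _
      have h4 := (Finset.card_le_card hsub).trans ((Finset.card_insert_le _ _).trans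
        (Nat.succ_le_succ (Finset.card_insert_le _ _)))
      have h5 := Finset.card_erase_add_one hzF
      omega
    have hwV : mt N x ∈ V := hN1.mem hx
    obtain ⟨l1, l2, l3⟩ := r1.link hwV hx key.1 hRx (hN1.adj x hxN).2.symm
    rw [mt_linkT r1 hwV hx]
    refine ⟨l1, Or.inr ⟨by omega, mt M x, ?_, hy⟩⟩
    rw [l2]
    exact Finset.mem_erase.mpr ⟨hxM, Finset.mem_erase.mpr ⟨key.2, mem_Fx.mpr ⟨hyV, hRy⟩⟩⟩

end Crest.Agent.R287
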