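import Crest.Agent.R287.Walk

/-!
# R287: Lovász–Plummer, making one of two vertices `a,b` (not matched inside `D`) missed

PLAN. If `M` misses `a` or `b`, return `M`; if `b` is `Out` for `N`, return `N`.  Otherwise `xa = M a`, `xb = M b` are outside `D`, adjacent to `D`,
distinct; by `G1`, `d = N xa`, `e = N xb ∈ D`, and `d,e ∉ {a,b}` (`N a = a`; `N b ∈ D`), `d ≠ e`.  `P = M` minus the edges at `a,b`, `Q = N` minus the
edges at `xa,xb`: both have `f+4` fixed points and fix `a,xa,xb`.  `R = walk V E P Q b`.  If `|Fx R| ≤ f+2`: link `a,xa`: at most `f` fixed points,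
`xb ∉ D` among them: win.  Else `|Fx R| = f+4`, `R b = b`, `Fx R ⊆ Fx N ∪ {xa,xb,d,e,b}` so (counting) `d` or `e` is fixed by `R`;
link `(xa,d),(xb,b)`, resp. `(xb,e),(xa,a)`; the remaining fixed points are in `Fx N ∪ {d,e} ⊆ D`.
-/

set_option autoImplicit false
open Crest.Agent.PTime

namespace Crest.Agent.R287

noncomputable def w2aR (V : List ℕ) (E : List (ℕ × ℕ)) (M N : Mt) (a b : ℕ) : Mt :=
  walk V E (unlinkT V (unlinkT V M a) b) (unlinkT V (unlinkT V N (mt M a)) (mt M b)) b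

noncomputable def win2a (V : List ℕ) (E : List (ℕ × ℕ)) (D : List ℕ) (M N : Mt) (a b : ℕ) : Bool × Mt :=
  if mt M a = a ∨ mt M b = b then (false, M)
  else if mt N b = b ∨ mt N b ∉ D then (false, N)
  else if nfx V (w2aR V E M N a b) ≤ nfx V M + 2 then (true, linkT V (w2aR V E M N a b) a (mt M a))
  else if mt (w2aR V E M N a b) (mt N (mt M a)) = mt N (mt M a) then
    (false, linkT V (linkT V (w2aR V E M N a b) (mt M a) (mt N (mt M a))) (mt M b) b)
  else (false, linkT V (linkT V (w2aR V E M N a b) (mt M b) (mt N (mt M b))) (mt M a) a)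

@[fun_prop] theorem PT.win2a {α : Type} [Enc α] {V D : α → List ℕ} {E : α → List (ℕ × ℕ)} {M N : α → Mt}
    {x z : α → ℕ} (hV : PT V) (hE : PT E) (hD : PT D) (hM : PT M) (hN : PT N) (hx : PT x) (hz : PT z) :
    PT (fun a => win2a (V a) (E a) (D a) (M a) (N a) (x a) (z a)) := by
  unfold R287.win2a R287.w2aR; fun_prop

theorem W2a_fix {V : List ℕ} {μ : ℕ → ℕ} {S : Finset ℕ} {v : ℕ} (h : Fx V μ = S) (hv : v ∈ S) :
    μ v = v := (mem_Fx.mp (h ▸ hv)).2

theorem win2a_spec {V : List ℕ} {E : List (ℕ × ℕ)} {f : ℕ} {D : List ℕ} {M N : Mt} {a b : ℕ}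
    (hV : V.Nodup) (hM : InR V E f D (mt M)) (hN : InR V E f D (mt N)) (hG : G1 V E D (mt N))
    (ha : a ∈ D) (haV : a ∈ V) (hb : b ∈ D) (hbV : b ∈ V) (hab : a ≠ b) (hNa : mt N a = a)
    (hoa : Out D (mt M) a) (hob : Out D (mt M) b) :
    ((win2a V E D M N a b).1 = true → Win V E f D (mt (win2a V E D M N a b).2)) ∧
    ((win2a V E D M N a b).1 = false → InR V E f D (mt (win2a V E D M N a b).2) ∧
      ((mt (win2a V E D M N a b).2 a = a ∧ Out D (mt (win2a V E D M N a b).2) b) ∨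
       (mt (win2a V E D M N a b).2 b = b ∧ Out D (mt (win2a V E D M N a b).2) a))) := by
  unfold win2a
  by_cases c1 : mt M a = a ∨ mt M b = b
  · rw [if_pos c1]
    exact ⟨by simp, fun _ => ⟨hM, c1.imp (fun h => ⟨h, hob⟩) fun h => ⟨h, hoa⟩⟩⟩
  rw [if_neg c1]
  by_cases c2 : mt N b = b ∨ mt N b ∉ D
  · rw [if_pos c2]
    exact ⟨by simp, fun _ => ⟨hN, Or.inl ⟨hNa, c2⟩⟩⟩
  rw [if_neg c2]
  push Not at c1 c2
  obtain ⟨hM1, hM2, hM3⟩ := hM
  obtain ⟨hN1, hN2, hN3⟩ := hN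
  have hxa : mt M a ∉ D := hoa.resolve_left c1.1
  have hxb : mt M b ∉ D := hob.resolve_left c1.2
  have hxaV := hM1.mem haV
  have hxbV := hM1.mem hbV
  have haa := (hM1.adj a c1.1).2
  have hbb := (hM1.adj b c1.2).2
  have hne : mt M a ≠ mt M b := fun e => hab (by rw [← hM1.inv a, e, hM1.inv])
  have hd : mt N (mt M a) ∈ D := hG _ hxaV hxa ⟨a, ha, haa.symm⟩
  have he : mt N (mt M b) ∈ D := hG _ hxbV hxb ⟨b, hb, hbb.symm⟩
  have hD : ∀ {u v : ℕ}, u ∈ D → v ∉ D → u ≠ v := fun hu hv e => hv (e ▸ hu)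
  have hda : mt N (mt M a) ≠ a := fun e => hxa (by rw [← hN1.inv (mt M a), e, hNa]; exact ha)
  have hea : mt N (mt M b) ≠ a := fun e => hxb (by rw [← hN1.inv (mt M b), e, hNa]; exact ha)
  have hdb : mt N (mt M a) ≠ b := fun e => hxa (by rw [← hN1.inv (mt M a), e]; exact c2.2)
  have heb : mt N (mt M b) ≠ b := fun e => hxb (by rw [← hN1.inv (mt M b), e]; exact c2.2)
  have hde : mt N (mt M a) ≠ mt N (mt M b) := fun e => hne (by rw [← hN1.inv (mt M a), e, hN1.inv])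
  obtain ⟨s1, s2, s3⟩ := hM1.unlink c1.1
  have e1 : unlink (mt M) a b = mt M b := if_neg (not_or.mpr ⟨hab.symm, hD hb hxa⟩)
  obtain ⟨q1, q2, q3⟩ := s1.unlink (u := b) (e1 ▸ c1.2)
  rw [e1, s2] at q2
  rw [s3] at q3
  rw [← mt_unlinkT hM1] at s1
  rw [← mt_unlinkT hM1, ← mt_unlinkT s1] at q1 q2 q3
  obtain ⟨t1, t2, t3⟩ := hN1.unlink (hD hd hxa)
  have e2 : unlink (mt N) (mt M a) (mt M b) = mt N (mt M b) :=
    if_neg (not_or.mpr ⟨hne.symm, (hD hd hxb).symm⟩)
  obtain ⟨p1, p2, p3⟩ := t1.unlink (u := mt M b) (e2 ▸ hD he hxb)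
  rw [e2, t2] at p2
  rw [t3] at p3
  rw [← mt_unlinkT hN1] at t1
  rw [← mt_unlinkT hN1, ← mt_unlinkT t1] at p1 p2 p3
  obtain ⟨r1, r2, r3, r4⟩ := walk_spec b q1 p1
  unfold w2aR
  set R := walk V E (unlinkT V (unlinkT V M a) b) (unlinkT V (unlinkT V N (mt M a)) (mt M b)) b with hR
  have haF : a ∈ Fx V (mt N) := mem_Fx.mpr ⟨haV, hNa⟩
  have hRa : mt R a = a := r2 _ (W2a_fix q2 (by simp)) (W2a_fix p2 (by simp [haF]))
  have hRxa : mt R (mt M a) = mt M a := r2 _ (W2a_fix q2 (by simp)) (W2a_fix p2 (by simp))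
  have hRxb : mt R (mt M b) = mt M b := r2 _ (W2a_fix q2 (by simp)) (W2a_fix p2 (by simp))
  have hsub : ∀ v ∈ Fx V (mt R), v = b ∨ v = mt M b ∨ v = mt N (mt M b) ∨ v = mt M a ∨
      v = mt N (mt M a) ∨ v ∈ Fx V (mt N) := by
    intro v hv
    obtain ⟨hvV, hv'⟩ := mem_Fx.mp hv
    rcases r3 v hvV hv' with h | h
    · have h3 := mem_Fx.mpr ⟨hvV, h⟩
      rw [p2] at h3
      simp only [Finset.mem_insert] at h3
      exact Or.inr h3
    · exact Or.inl h
  rw [← card_Fx_eq hV, ← card_Fx_eq hV, hM2]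
  by_cases c3 : (Fx V (mt R)).card ≤ f + 2
  · rw [if_pos c3]
    refine ⟨fun _ => ?_, by simp⟩
    obtain ⟨l1, l2, l3⟩ := r1.link haV hxaV hRa hRxa haa
    rw [mt_linkT r1 haV hxaV]
    refine ⟨l1, ?_⟩
    rcases lt_or_eq_of_le c3 with h | h
    · exact Or.inl (by omega)
    · refine Or.inr ⟨by omega, mt M b, ?_, hxb⟩
      rw [l2]
      exact Finset.mem_erase.mpr ⟨hne.symm, Finset.mem_erase.mpr ⟨(hD ha hxb).symm,
        mem_Fx.mpr ⟨hxbV, hRxb⟩⟩⟩
  rw [if_neg c3]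
  obtain ⟨r5, r6⟩ := r4.resolve_left (by omega)
  have hRb : mt R b = b := r6 (W2a_fix q2 (by simp))
  by_cases c4 : mt R (mt N (mt M a)) = mt N (mt M a)
  · rw [if_pos c4]
    refine ⟨by simp, fun _ => ?_⟩
    have hdV := hN1.mem hxaV
    obtain ⟨l1, l2, l3⟩ := r1.link hxaV hdV hRxa c4 (hN1.adj _ (hD hd hxa)).2
    rw [← mt_linkT r1 hxaV hdV] at l1 l2 l3
    obtain ⟨k1, k2, k3⟩ := l1.link hxbV hbV
      (W2a_fix l2 (by simp [mem_Fx, hxbV, hRxb, hne.symm, (hD hd hxb).symm]))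
      (W2a_fix l2 (by simp [mem_Fx, hbV, hRb, hdb.symm, hD hb hxa])) hbb.symm
    rw [l2] at k2
    rw [mt_linkT l1 hxbV hbV]
    refine ⟨⟨k1, by omega, fun v hv => ?_⟩, Or.inl ⟨W2a_fix k2 ?_, Or.inr ?_⟩⟩
    · rw [k2] at hv
      simp only [Finset.mem_erase] at hv
      obtain ⟨v1, v2, v3, v4, v5⟩ := hv
      rcases hsub v v5 with h | h | h | h | h | h
      · exact absurd h v1
      · exact absurd h v2
      · exact h ▸ he
      · exact absurd h v4
      · exact absurd h v3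
      · exact hN3 v h
    · simp [mem_Fx, haV, hRa, hab, hD ha hxb, hD ha hxa, hda.symm]
    · simpa [link, hD hb hxb] using hxb
  · rw [if_neg c4]
    refine ⟨by simp, fun _ => ?_⟩
    have c5 : mt R (mt N (mt M b)) = mt N (mt M b) := by
      by_contra c5
      have h1 : Fx V (mt R) ⊆ insert b (insert (mt M b) (insert (mt M a) (Fx V (mt N)))) := by
        intro v hv
        simp only [Finset.mem_insert]
        rcases hsub v hv with h | h | h | h | h | h
        · exact Or.inl h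
        · exact Or.inr (Or.inl h)
        · exact absurd (h ▸ (mem_Fx.mp hv).2) c5
        · exact Or.inr (Or.inr (Or.inl h))
        · exact absurd (h ▸ (mem_Fx.mp hv).2) c4
        · exact Or.inr (Or.inr (Or.inr h))
      have h4 := (Finset.card_le_card h1).trans ((Finset.card_insert_le _ _).trans
        (Nat.succ_le_succ ((Finset.card_insert_le _ _).trans (Nat.succ_le_succ (Finset.card_insert_le _ _)))))
      omega
    have heV := hN1.mem hxbV
    obtain ⟨l1, l2, l3⟩ := r1.link hxbV heV hRxb c5 (hN1.adj _ (hD he hxb)).2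
    rw [← mt_linkT r1 hxbV heV] at l1 l2 l3
    obtain ⟨k1, k2, k3⟩ := l1.link hxaV haV
      (W2a_fix l2 (by simp [mem_Fx, hxaV, hRxa, hne, (hD he hxa).symm]))
      (W2a_fix l2 (by simp [mem_Fx, haV, hRa, hea.symm, hD ha hxb])) haa.symm
    rw [l2] at k2
    rw [mt_linkT l1 hxaV haV]
    refine ⟨⟨k1, by omega, fun v hv => ?_⟩, Or.inr ⟨W2a_fix k2 ?_, Or.inr ?_⟩⟩
    · rw [k2] at hv
      simp only [Finset.mem_erase] at hv
      obtain ⟨v1, v2, v3, v4, v5⟩ := hv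
      rcases hsub v v5 with h | h | h | h | h | h
      · exact h ▸ hb
      · exact absurd h v4
      · exact absurd h v3
      · exact absurd h v2
      · exact h ▸ hd
      · exact hN3 v h
    · simp [mem_Fx, hbV, hRb, hab.symm, hD hb hxb, hD hb hxa, heb.symm]
    · simpa [link, hD ha hxa] using hxa

end Crest.Agent.R287
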